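import Vale.Agent.P193.ConcD

/-! The concrete model satisfies the defining formulas. -/

namespace Vale.Agent.P193

open Equiv
open scoped Pointwise

variable {G : Type} [Group G] {M : Mach G}

theorem Leg.of_succ {P : G} {f : ℕ} {σ : M.Λ → List M.Γ} (h : Leg M P (f + 1) σ) :
    Leg M P f σ := by
  induction f generalizing σ with
  | zero => trivial
  | succ f ih =>
    obtain ⟨ρ, h1, h2⟩ := h
    exact ⟨ρ, h1, ih h2⟩

/-! ### streams of frames -/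

theorem fcons_inj {a a' : Fr M} {l l' : List (Fr M)} (h : fcons a l = fcons a' l') :
    a = a' ∧ l = l' := by
  unfold fcons at h
  split_ifs at h with h1 h2
  · exact ⟨h1.2.trans h2.2.symm, h1.1.trans h2.1.symm⟩
  · exact List.cons.inj h

theorem fhd_fcons (a : Fr M) (l : List (Fr M)) : fhd (fcons a l) = a := by
  unfold fcons
  split_ifs with h
  · exact h.2.symm
  · rfl

theorem tail_fcons (a : Fr M) (l : List (Fr M)) : (fcons a l).tail = l := by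
  unfold fcons
  split_ifs with h
  · exact h.1.symm
  · rfl

theorem fcons_ok {a : Fr M} {l : List (Fr M)} (ha : a.ok) (hl : ∀ b ∈ l, b.ok) :
    ∀ b ∈ fcons a l, b.ok := by
  unfold fcons
  split_ifs with h
  · simp
  · intro b hb
    rcases List.mem_cons.1 hb with rfl | hb
    · exact ha
    · exact hl b hb

theorem fcons_last {a : Fr M} {l : List (Fr M)} (hl : l.getLast? ≠ some (Fr.triv M)) :
    (fcons a l).getLast? ≠ some (Fr.triv M) := by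
  unfold fcons
  split_ifs with h
  · simp
  · cases l with
    | nil =>
      intro e
      apply h
      simpa using e
    | cons b l => simpa [List.getLast?_cons_cons] using hl

theorem fcons_fhd {l : List (Fr M)} (hl : l.getLast? ≠ some (Fr.triv M)) :
    fcons (fhd l) l.tail = l := by
  cases l with
  | nil => simp [fcons, fhd]
  | cons b l =>
    unfold fcons
    split_ifs with h
    · obtain ⟨h1, h2⟩ := h
      simp only [List.tail_cons] at h1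
      subst h1
      exact absurd (by simpa [fhd] using h2) hl
    · rfl

theorem tail_last {l : List (Fr M)} (hl : l.getLast? ≠ some (Fr.triv M)) :
    l.tail.getLast? ≠ some (Fr.triv M) := by
  match l, hl with
  | [], _ => simp
  | [_], _ => simp
  | _ :: b :: l, hl => simpa [List.getLast?_cons_cons] using hl

theorem fhd_ok {l : List (Fr M)} (hl : ∀ b ∈ l, b.ok) : (fhd l).ok := by
  cases l with
  | nil => trivial
  | cons b l => exact hl b (by simp)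

/-! ### the moves on raw states -/

theorem Mv.raw_valid (σ : Mv M) {r : Raw M} (hr : r.Valid) (h : σ.dom.inR r) :
    (σ.raw r).Valid := by
  obtain ⟨h1, h2, h3⟩ := hr
  cases σ with
  | push k a =>
    refine ⟨?_, h2, h3⟩
    have : r.f = 0 := h
    simp only [Mv.raw, this]; trivial
  | pm a =>
    refine ⟨?_, h2, h3⟩
    have : r.f = 0 := h
    simp only [Mv.raw, this]; trivial
  | qm a => exact ⟨h1, h2, h3⟩
  | jj => exact ⟨h1, h2, h3⟩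
  | fr x =>
    cases x
    · exact ⟨trivial, fcons_ok trivial h2, fcons_last h3⟩
    · exact ⟨trivial, fcons_ok trivial h2, fcons_last h3⟩
    · exact ⟨trivial, fcons_ok h1 h2, fcons_last h3⟩
    · exact ⟨trivial, fcons_ok trivial h2, fcons_last h3⟩
  | io => exact ⟨h, h2, h3⟩
  | mm =>
    obtain ⟨ρ, e, hρ⟩ := h
    refine ⟨?_, h2, h3⟩
    simp only [Mv.raw, e]; exact hρ
  | dig d => exact ⟨h1, h2, h3⟩

theorem Mv.st_val (σ : Mv M) {r : St M} (h : σ.dom.inR r.1) : (σ.st r).1 = σ.raw r.1 := by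
  have : σ.st r = ⟨σ.raw r.1, σ.raw_valid r.2 h⟩ := dif_pos _
  rw [this]

theorem Mv.raw_ran (σ : Mv M) {r : Raw M} (h : σ.dom.inR r) : σ.ran.inR (σ.raw r) := by
  cases σ with
  | push k a => exact ⟨h, by simp [Mv.raw]⟩
  | pm a => exact h
  | qm a => trivial
  | jj => exact h
  | fr x =>
    cases x
    · exact ⟨rfl, fun _ => rfl, by simp [Mv.raw, fhd_fcons, Fr.kind], by simp⟩
    · exact ⟨rfl, fun _ => rfl, by simp [Mv.raw, fhd_fcons, Fr.kind], by simp⟩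
    · exact ⟨rfl, fun _ => rfl, by simp [Mv.raw, fhd_fcons, Fr.kind], fun _ => rfl⟩
    · exact ⟨rfl, fun _ => rfl, by simp [Mv.raw, fhd_fcons, Fr.kind], fun _ => rfl⟩
  | io => exact Nat.succ_ne_zero _
  | mm =>
    obtain ⟨ρ, e, -⟩ := h
    exact ⟨r.σ, by simp [Mv.raw, e]⟩
  | dig d => trivial

theorem Mv.dom_inD (σ : Mv M) (n : ℕ) : σ.dom.inD n := by
  rcases σ with _ | _ | _ | _ | x | _ | _ | _
  all_goals first | trivial | (cases x <;> trivial)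

theorem Mv.dg_ran (σ : Mv M) (n : ℕ) : σ.ran.inD (σ.dg n) := by
  cases σ
  all_goals first | trivial | exact Nat.bodd_bit _ _

theorem Mv.dg_inj (σ : Mv M) {n n' : ℕ} (h : σ.dg n = σ.dg n') : n = n' := by
  cases σ with
  | dig d => simpa [Mv.dg] using congrArg Nat.div2 h
  | _ => exact h

theorem Mv.dg_surj (σ : Mv M) {n : ℕ} (h : σ.ran.inD n) : ∃ n', σ.dg n' = n := by
  cases σ with
  | dig d =>
    refine ⟨n.div2, ?_⟩
    have : n.bodd = d := h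
    subst this
    exact Nat.bit_bodd_div2 n
  | _ => exact ⟨n, rfl⟩

theorem Mv.raw_inj (hM : M.Good) (σ : Mv M) {r r' : Raw M} (h : σ.dom.inR r)
    (h' : σ.dom.inR r') (e : σ.raw r = σ.raw r') : r = r' := by
  have eP := congrArg Raw.P e
  have eQ := congrArg Raw.Q e
  have eσ := congrArg Raw.σ e
  have ef := congrArg Raw.f e
  have es := congrArg Raw.s e
  cases σ with
  | push k a =>
    refine Raw.ext eP eQ (funext fun k' => ?_) ef es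
    have := congrFun eσ k'
    by_cases hk : k' = k
    · subst hk; simpa [Mv.raw] using this
    · simpa [Mv.raw, hk] using this
  | pm a => exact Raw.ext (mul_left_cancel eP) eQ eσ ef es
  | qm a => exact Raw.ext eP (mul_left_cancel eQ) eσ ef es
  | jj =>
    refine Raw.ext eP ?_ eσ ef es
    have e1 : r.σ = r'.σ := eσ
    have e2 : M.phi (r.σ M.t) * r.Q = M.phi (r'.σ M.t) * r'.Q := eQ
    rw [e1] at e2
    exact mul_left_cancel e2
  | fr x =>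
    cases x
    · obtain ⟨e1, e2⟩ := fcons_inj es
      exact Raw.ext eP eQ (Fr.A.inj e1) (Eq.trans h (Eq.symm h')) e2
    · obtain ⟨e1, e2⟩ := fcons_inj es
      have e3 : r.σ = r'.σ := Fr.B.inj e1
      have e4 : r.P * (M.phi (r.σ M.t))⁻¹ = r'.P * (M.phi (r'.σ M.t))⁻¹ := eP
      rw [e3] at e4
      exact Raw.ext (mul_right_cancel e4) eQ e3 (Eq.trans h (Eq.symm h')) e2
    · obtain ⟨e1, e2⟩ := fcons_inj es
      obtain ⟨e3, e4, e5⟩ := Fr.C.inj e1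
      exact Raw.ext e3 eQ e4 e5 e2
    · obtain ⟨e1, e2⟩ := fcons_inj es
      obtain ⟨e3, e4⟩ := Fr.D.inj e1
      exact Raw.ext eQ e3 e4 (Eq.trans h (Eq.symm h')) e2
  | io => exact Raw.ext eP eQ eσ (Nat.succ.inj ef) es
  | mm =>
    obtain ⟨ρ, e1, -⟩ := h
    obtain ⟨ρ', e2, -⟩ := h'
    have e3 : ρ = ρ' := by simpa [Mv.raw, e1, e2] using eσ
    subst e3
    exact Raw.ext eP eQ (hM.inj _ _ _ _ _ _ _ e1 e2) ef es
  | dig d => exact e

theorem Mv.raw_surj (σ : Mv M) {r : Raw M} (hr : r.Valid) (h : σ.ran.inR r) :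
    ∃ r' : Raw M, r'.Valid ∧ σ.dom.inR r' ∧ σ.raw r' = r := by
  obtain ⟨h1, h2, h3⟩ := hr
  cases σ with
  | push k a =>
    obtain ⟨hf, hk⟩ := h
    refine ⟨{ r with σ := Function.update r.σ k (r.σ k).tail }, ⟨?_, h2, h3⟩, hf, ?_⟩
    · simp only [hf]; trivial
    · refine Raw.ext rfl rfl (funext fun k' => ?_) rfl rfl
      by_cases hk' : k' = k
      · subst hk'
        simp only [Mv.raw, Function.update_self]
        exact List.cons_head?_tail (by simp [hk])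
      · simp [Mv.raw, hk']
  | pm a =>
    have hf : r.f = 0 := h
    refine ⟨{ r with P := (M.val a)⁻¹ * r.P }, ⟨?_, h2, h3⟩, hf, ?_⟩
    · simp only [hf]; trivial
    · simp [Mv.raw]
  | qm a => exact ⟨{ r with Q := (M.val a)⁻¹ * r.Q }, ⟨h1, h2, h3⟩, trivial, by simp [Mv.raw]⟩
  | jj =>
    exact ⟨{ r with Q := (M.phi (r.σ M.t))⁻¹ * r.Q }, ⟨h1, h2, h3⟩, h, by simp [Mv.raw]⟩
  | fr x =>
    obtain ⟨hf, hσ, hk, hP⟩ := h
    have e := fcons_fhd h3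
    have ok := fhd_ok h2
    have t2 : ∀ b ∈ r.s.tail, b.ok := fun b hb => h2 b (List.mem_of_mem_tail hb)
    have t3 := tail_last h3
    have hσ' : (fun _ => []) = r.σ := (funext hσ).symm
    generalize fhd r.s = a at e ok hk
    subst hk
    cases a with
    | A σ =>
      exact ⟨⟨r.P, r.Q, σ, 0, r.s.tail⟩, ⟨trivial, t2, t3⟩, rfl, Raw.ext rfl rfl hσ' hf.symm e⟩
    | B σ =>
      exact ⟨⟨r.P * M.phi (σ M.t), r.Q, σ, 0, r.s.tail⟩, ⟨trivial, t2, t3⟩, rfl,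
        Raw.ext (by simp [Mv.raw, Fr.kind]) rfl hσ' hf.symm e⟩
    | C x σ f =>
      exact ⟨⟨x, r.Q, σ, f, r.s.tail⟩, ⟨ok, t2, t3⟩, trivial,
        Raw.ext (hP (Or.inl rfl)).symm rfl hσ' hf.symm e⟩
    | D x σ =>
      exact ⟨⟨r.Q, x, σ, 0, r.s.tail⟩, ⟨trivial, t2, t3⟩, rfl,
        Raw.ext (hP (Or.inr rfl)).symm rfl hσ' hf.symm e⟩
  | io =>
    obtain ⟨f, hf⟩ := Nat.exists_eq_succ_of_ne_zero (show r.f ≠ 0 from h)
    rw [hf] at h1
    exact ⟨{ r with f := f }, ⟨h1.of_succ, h2, h3⟩, h1, Raw.ext rfl rfl rfl hf.symm rfl⟩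
  | mm =>
    obtain ⟨ρ, e⟩ := h
    have h4 : Leg M r.P (r.f + 1) ρ := ⟨r.σ, e, h1⟩
    exact ⟨{ r with σ := ρ }, ⟨h4.of_succ, h2, h3⟩, h4, by simp [Mv.raw, e]⟩
  | dig d => exact ⟨r, ⟨h1, h2, h3⟩, trivial, rfl⟩

/-! ### the action of the moves -/

theorem mem_ce {j : Pr M} {y : CY M} :
    y ∈ ce M j ↔ y.side = true ∧ j.inR y.r.1 ∧ j.inD y.n := Iff.rfl

theorem cy_ext {y y' : CY M} (h1 : y.r.1 = y'.r.1) (h2 : y.n = y'.n) (h3 : y.side = y'.side) :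
    y = y' := CY.ext (Subtype.ext h1) h2 h3

theorem Mv.mem_dom (σ : Mv M) {y : CY M} :
    y ∈ ce M σ.dom ↔ y.side = true ∧ σ.dom.inR y.r.1 :=
  ⟨fun h => ⟨h.1, h.2.1⟩, fun h => ⟨h.1, h.2, σ.dom_inD _⟩⟩

theorem Mv.isMatch (hM : M.Good) (σ : Mv M) : IsMatch σ.rel := by
  constructor
  · rintro ⟨y, z⟩ ⟨hy, hz⟩ ⟨y', z'⟩ ⟨hy', hz'⟩
    simp only at hy hz hy' hz' ⊢
    subst hz hz'
    refine ⟨fun e => by rw [e], fun e => ?_⟩
    have e1 : σ.st y.r = σ.st y'.r := congrArg CY.r e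
    have e2 : σ.dg y.n = σ.dg y'.n := congrArg CY.n e
    refine cy_ext ?_ (σ.dg_inj e2) (hy.1.trans hy'.1.symm)
    refine σ.raw_inj hM hy.2.1 hy'.2.1 ?_
    rw [← σ.st_val hy.2.1, ← σ.st_val hy'.2.1, e1]
  · rintro ⟨y, z⟩ ⟨hy, -⟩ ⟨y', z'⟩ ⟨-, hz'⟩ e
    simp only at hy hz' e
    have h1 := hy.1
    rw [e, hz'] at h1
    exact Bool.false_ne_true h1

theorem Mv.ta_smul_dom (hM : M.Good) (σ : Mv M) {y : CY M} (h : y ∈ ce M σ.dom) :
    σ.ta • y = ⟨σ.st y.r, σ.dg y.n, false⟩ := by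
  rw [ta_smul]
  exact swapR_left (σ.isMatch hM) ⟨h, rfl⟩

theorem Mv.w_smul (hM : M.Good) (σ : Mv M) {y : CY M} (h : y ∈ ce M σ.dom) :
    σ.w • y = ⟨σ.st y.r, σ.dg y.n, true⟩ := by
  rw [Mv.w, mul_smul, σ.ta_smul_dom hM h, fl_smul]
  rfl

theorem Mv.w_r (hM : M.Good) (σ : Mv M) {y : CY M} (h : y ∈ ce M σ.dom) :
    (σ.w • y).r.1 = σ.raw y.r.1 := by
  rw [σ.w_smul hM h]; exact σ.st_val h.2.1

theorem Mv.w_n (hM : M.Good) (σ : Mv M) {y : CY M} (h : y ∈ ce M σ.dom) :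
    (σ.w • y).n = σ.dg y.n := by
  rw [σ.w_smul hM h]

theorem Mv.w_side (hM : M.Good) (σ : Mv M) {y : CY M} (h : y ∈ ce M σ.dom) :
    (σ.w • y).side = true := by
  rw [σ.w_smul hM h]

theorem Mv.w_mem (hM : M.Good) (σ : Mv M) {y : CY M} (h : y ∈ ce M σ.dom) {j : Pr M} :
    σ.w • y ∈ ce M j ↔ j.inR (σ.raw y.r.1) ∧ j.inD (σ.dg y.n) := by
  rw [mem_ce, σ.w_r hM h, σ.w_n hM h, σ.w_side hM h]
  simp

theorem Mv.w_mem_dom (hM : M.Good) (σ : Mv M) {y : CY M} (h : y ∈ ce M σ.dom) {σ' : Mv M} :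
    σ.w • y ∈ ce M σ'.dom ↔ σ'.dom.inR (σ.raw y.r.1) := by
  rw [σ.w_mem hM h]
  exact ⟨fun h => h.1, fun h => ⟨h, σ'.dom_inD _⟩⟩

theorem Mv.w_mem_ran (hM : M.Good) (σ : Mv M) {y : CY M} (h : y ∈ ce M σ.dom) :
    σ.w • y ∈ ce M σ.ran :=
  (σ.w_mem hM h).2 ⟨σ.raw_ran h.2.1, σ.dg_ran _⟩

theorem Mv.exists_pre (hM : M.Good) (σ : Mv M) {y : CY M} (h : y ∈ ce M σ.ran) :
    ∃ y' ∈ ce M σ.dom, σ.w • y' = y := by
  obtain ⟨r, h1, h2, h3⟩ := σ.raw_surj y.r.2 h.2.1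
  obtain ⟨n, hn⟩ := σ.dg_surj h.2.2
  have hy : (⟨⟨r, h1⟩, n, true⟩ : CY M) ∈ ce M σ.dom := σ.mem_dom.2 ⟨rfl, h2⟩
  refine ⟨_, hy, cy_ext ?_ ?_ ?_⟩
  · rw [σ.w_r hM hy]; exact h3
  · rw [σ.w_n hM hy]; exact hn
  · rw [σ.w_side hM hy]; exact h.1.symm

theorem Mv.w_dom (hM : M.Good) (σ : Mv M) : σ.w • ce M σ.dom = ce M σ.ran := by
  ext y
  constructor
  · rintro ⟨y, hy, rfl⟩
    exact σ.w_mem_ran hM hy
  · exact fun h => σ.exists_pre hM h

theorem Mv.mem_dom_of_ran (hM : M.Good) (σ : Mv M) {y : CY M} (h : σ.w • y ∈ ce M σ.ran) :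
    y ∈ ce M σ.dom := by
  rw [← σ.w_dom hM] at h
  exact Set.smul_mem_smul_set_iff.1 h

theorem Mv.ta_smul_other (hM : M.Good) (σ : Mv M) {y : CY M} (h : y ∉ ce M σ.dom)
    (h' : y ∉ fl M • ce M σ.ran) : σ.ta • y = y := by
  rw [ta_smul]
  refine swapR_other ?_
  rintro ⟨⟨a, b⟩, ⟨h1, h2⟩, rfl | rfl⟩
  · exact h h1
  · refine h' ⟨σ.w • a, σ.w_mem_ran hM h1, ?_⟩
    simp only at h2 ⊢
    rw [σ.w_smul hM h1, fl_smul, h2]
    rfl

theorem fl_fl (y : CY M) : fl M • fl M • y = y := by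
  simp [fl_smul]

theorem Mv.ta_ta (σ : Mv M) (y : CY M) : σ.ta • σ.ta • y = y := by
  rw [ta_smul, ta_smul, ← Perm.mul_apply, swapR_mul_self]; rfl

/-! ### generic lemmas for the formulas -/

theorem smul_eq_of {F Y : Type} [Group F] [MulAction F Y] {g : F} {D R S S' : Set Y}
    (hD : g • D = R) (hS : S ⊆ D) (hS' : S' ⊆ R) (h : ∀ y ∈ D, y ∈ S ↔ g • y ∈ S') :
    g • S = S' := by
  subst hD
  ext y
  constructor
  · rintro ⟨y, hy, rfl⟩
    exact (h y (hS hy)).1 hy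
  · intro hy
    obtain ⟨z, hz, rfl⟩ := hS' hy
    exact ⟨z, (h z hz).2 hy, rfl⟩

theorem pres_of (hM : M.Good) {σ : Mv M} {g g' : Pr M}
    (h : ∀ r : Raw M, σ.dom.inR r → (g.inR r ↔ g'.inR (σ.raw r)))
    (hd : ∀ n, g.inD n ↔ g'.inD (σ.dg n)) : Pres (ce M) σ g g' := by
  refine smul_eq_of (σ.w_dom hM) Set.inter_subset_right Set.inter_subset_right fun y hy => ?_
  show y ∈ ce M g ∧ _ ↔ σ.w • y ∈ ce M g' ∧ _
  rw [σ.w_mem hM hy, ← h _ hy.2.1, ← hd]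
  exact ⟨fun h => ⟨h.1.2, σ.w_mem_ran hM hy⟩, fun h => ⟨⟨hy.1, h.1⟩, hy⟩⟩

theorem eqv_of {F Y : Type} [Group F] [MulAction F Y] {g g' : F} {e : Set Y}
    (h : ∀ y ∈ e, g • y = g' • y) : Eqv g g' e := by
  intro y hy
  rw [mul_smul, ← h y hy, inv_smul_smul]

theorem w2_eq (hM : M.Good) {σ1 σ2 σ3 σ4 : Mv M} {y : CY M} (h2 : y ∈ ce M σ2.dom)
    (h4 : y ∈ ce M σ4.dom) (h1 : σ1.dom.inR (σ2.raw y.r.1)) (h3 : σ3.dom.inR (σ4.raw y.r.1))
    (e : σ1.raw (σ2.raw y.r.1) = σ3.raw (σ4.raw y.r.1))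
    (e' : σ1.dg (σ2.dg y.n) = σ3.dg (σ4.dg y.n)) :
    (σ1.w * σ2.w) • y = (σ3.w * σ4.w) • y := by
  have k1 := (σ2.w_mem_dom hM h2).2 h1
  have k3 := (σ4.w_mem_dom hM h4).2 h3
  rw [mul_smul, mul_smul]
  refine cy_ext ?_ ?_ ?_
  · rw [σ1.w_r hM k1, σ3.w_r hM k3, σ2.w_r hM h2, σ4.w_r hM h4, e]
  · rw [σ1.w_n hM k1, σ3.w_n hM k3, σ2.w_n hM h2, σ4.w_n hM h4, e']
  · rw [σ1.w_side hM k1, σ3.w_side hM k3]

theorem cmt_of (hM : M.Good) {σ σ' : Mv M}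
    (h : ∀ r : Raw M, σ.dom.inR r → σ'.dom.inR r → σ.dom.inR (σ'.raw r) ∧ σ'.dom.inR (σ.raw r) ∧
      σ.raw (σ'.raw r) = σ'.raw (σ.raw r))
    (hd : ∀ n, σ.dg (σ'.dg n) = σ'.dg (σ.dg n)) : Cmt (ce M) σ σ' := by
  refine eqv_of fun y hy => ?_
  obtain ⟨h1, h2, h3⟩ := h _ hy.1.2.1 hy.2.2.1
  exact w2_eq hM hy.2 hy.1 h1 h2 h3 (hd _)

theorem tv_of (hM : M.Good) {σ : Mv M} {e : Set (CY M)}
    (h : ∀ y ∈ e, y ∈ ce M σ.dom ∧ σ.raw y.r.1 = y.r.1 ∧ σ.dg y.n = y.n) : Tv σ.w e := by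
  intro y hy
  obtain ⟨h1, h2, h3⟩ := h y hy
  exact cy_ext ((σ.w_r hM h1).trans h2) ((σ.w_n hM h1).trans h3)
    ((σ.w_side hM h1).trans h1.1.symm)

theorem Mv.mem_inv_smul (hM : M.Good) (σ : Mv M) {S : Set (CY M)} {y : CY M} :
    y ∈ σ.w⁻¹ • (S ⊓ ce M σ.ran) ↔ y ∈ ce M σ.dom ∧ σ.w • y ∈ S := by
  rw [Set.mem_inv_smul_set_iff]
  exact ⟨fun h => ⟨σ.mem_dom_of_ran hM h.2, h.1⟩, fun h => ⟨h.2, σ.w_mem_ran hM h.1⟩⟩

theorem mem_finset_inf {Y I : Type} {s : Finset I} {f : I → Set Y} {y : Y} :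
    y ∈ s.inf f ↔ ∀ i ∈ s, y ∈ f i := by
  simp [Finset.inf_set_eq_iInter]

theorem mem_atT {τ : M.Λ → Option M.Γ} {y : CY M} :
    y ∈ atT (ce M) τ ↔ y.side = true ∧ y.r.1.f = 0 ∧ ∀ k, (y.r.1.σ k).head? = τ k := by
  rw [atT, mem_finset_inf]
  exact ⟨fun h => ⟨(h M.t (by simp)).1, (h M.t (by simp)).2.1.1, fun k => (h k (by simp)).2.1.2⟩,
    fun h k _ => ⟨h.1, ⟨h.2.1, h.2.2 k⟩, trivial⟩⟩

open Classical in
theorem mem_piece {τ : M.Λ → Option M.Γ} {b1 b2 : Bool} {y : CY M} :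
    y ∈ piece (ce M) τ b1 b2 ↔ y.side = true ∧ y.r.1.f = 0 ∧ (∀ k, (y.r.1.σ k).head? = τ k) ∧
      decide (y.r.1.P = 1) = b1 ∧ decide (y.r.1.P = M.phi (y.r.1.σ M.t)) = b2 := by
  show (y ∈ atT (ce M) τ ∧ y ∈ sg b1 (ce M .dl)) ∧ y ∈ sg b2 (ce M .dl') ↔ _
  rw [mem_atT]
  cases b1 <;> cases b2 <;> simp [sg, mem_ce, Pr.inR, Pr.inD] <;> tauto

theorem m0_piece {τ : M.Λ → Option M.Γ} {b1 b2 : Bool} {y : CY M}
    (h : y ∈ piece (ce M) τ b1 b2) : m0 M y.r.1.P y.r.1.σ =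
      (M.step τ b1 b2).map fun W k => W k ++ (y.r.1.σ k).tail := by
  obtain ⟨-, -, h1, h2, h3⟩ := mem_piece.1 h
  rw [m0, h2, h3, Mach.next, funext h1]

theorem leg_of_live {P : G} {Live : Set (M.Λ → List M.Γ)}
    (h : ∀ σ ∈ Live, ∀ b1 b2, ∃ ρ ∈ Live, M.next b1 b2 σ = some ρ) (f : ℕ) :
    ∀ σ ∈ Live, Leg M P f σ := by
  induction f with
  | zero => exact fun _ _ => trivial
  | succ f ih =>
    intro σ hσ
    obtain ⟨ρ, h1, h2⟩ := h σ hσ _ _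
    exact ⟨ρ, h2, ih ρ h1⟩

theorem leg_clean (hM : M.Good) (P : G) (f : ℕ) {σ : M.Λ → List M.Γ}
    (h : ∀ k, k ≠ M.t → σ k = []) : Leg M P f σ := by
  classical
  obtain ⟨Live, h1, h2⟩ := hM.sound
  refine Leg.of_succ ?_
  have e : σ = M.clean (σ M.t) := by
    funext k
    by_cases hk : k = M.t
    · simp [Mach.clean, hk]
    · simp [Mach.clean, hk, h k hk]
  obtain ⟨ρ, h3, h4⟩ := h2 (σ M.t) (decide (P = 1)) (decide (P = M.phi (σ M.t)))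
    ⟨fun e => by rw [e], fun e e' => e (by
      simp only [decide_eq_true_eq] at e'
      rw [← e'.2, e'.1])⟩
  rw [← e] at h4
  exact ⟨ρ, by rw [← h4, m0], leg_of_live h1 f ρ h3⟩

/-! ### pushing configurations -/

/-- pushing a list of symbols on a configuration -/
def pushL (l : List (M.Λ × M.Γ)) (σ : M.Λ → List M.Γ) : M.Λ → List M.Γ :=
  l.foldr (fun p σ => Function.update σ p.1 (p.2 :: σ p.1)) σ

theorem pwL_smul (hM : M.Good) (l : List (M.Λ × M.Γ)) {y : CY M} (h : y ∈ ce M .E) :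
    (pwL l • y).r.1 = { y.r.1 with σ := pushL l y.r.1.σ } ∧ (pwL l • y).n = y.n ∧
      (pwL l • y).side = true := by
  induction l with
  | nil => simp [pwL, pushL, h.1]
  | cons p l ih =>
    have e : pwL (p :: l) • y = (Mv.push p.1 p.2).w • pwL l • y := by
      simp [pwL, mul_smul]
    have k : pwL l • y ∈ ce M (Mv.push p.1 p.2).dom :=
      ⟨ih.2.2, by rw [ih.1]; exact h.2.1, trivial⟩
    rw [e, Mv.w_r hM _ k, Mv.w_n hM _ k, Mv.w_side hM _ k, ih.1, ih.2.1]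
    exact ⟨rfl, rfl, rfl⟩

theorem pushL_append (l l' : List (M.Λ × M.Γ)) (σ : M.Λ → List M.Γ) :
    pushL (l ++ l') σ = pushL l (pushL l' σ) := by
  simp [pushL]

theorem pushL_map (k : M.Λ) (w : List M.Γ) (σ : M.Λ → List M.Γ) :
    pushL (w.map fun a => (k, a)) σ = Function.update σ k (w ++ σ k) := by
  induction w with
  | nil => simp [pushL]
  | cons a w ih =>
    have : pushL ((a :: w).map fun a => (k, a)) σ =
        Function.update (pushL (w.map fun a => (k, a)) σ) k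
          (a :: pushL (w.map fun a => (k, a)) σ k) := rfl
    rw [this, ih]
    simp

theorem pushL_flatMap (s0 σ : M.Λ → List M.Γ) (ks : List M.Λ) (hks : ks.Nodup) (k : M.Λ) :
    pushL (ks.flatMap fun k => (s0 k).map fun a => (k, a)) σ k =
      if k ∈ ks then s0 k ++ σ k else σ k := by
  induction ks generalizing k with
  | nil => simp [pushL]
  | cons k' ks ih =>
    rw [List.nodup_cons] at hks
    rw [List.flatMap_cons, pushL_append, pushL_map]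
    by_cases hk : k = k'
    · subst hk
      simp [ih hks.2, hks.1]
    · simp [ih hks.2, hk]

theorem pushL_flat (s0 σ : M.Λ → List M.Γ) : pushL (flat s0) σ = fun k => s0 k ++ σ k := by
  funext k
  rw [flat, pushL_flatMap _ _ _ (Finset.nodup_toList _)]
  simp

theorem rw_smul (hM : M.Good) (s0 : M.Λ → List M.Γ) {y : CY M} (h : y ∈ ce M .E) :
    (rw s0 • y).r.1 = { y.r.1 with σ := fun k => s0 k ++ y.r.1.σ k } ∧ (rw s0 • y).n = y.n ∧
      (rw s0 • y).side = true := by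
  have := pwL_smul hM (flat s0) h
  rwa [pushL_flat] at this

/-! ### the formulas -/

theorem ax1_conc (hM : M.Good) : Ax1 (ce M) where
  fl2 y _ := by rw [mul_smul, fl_fl]
  ta2 σ y _ := by rw [mul_smul, Mv.ta_ta]
  flT := by
    ext y
    rw [Set.mem_smul_set_iff_inv_smul_mem,
      show (fl M)⁻¹ • y = fl M • y by rw [inv_smul_eq_iff, fl_fl], fl_smul]
    simp [mem_ce, Pr.inR, Pr.inD]
  wdom σ := σ.w_dom hM
  taOff σ y hy := σ.ta_smul_other hM hy.1 hy.2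
  leT j y hy := ⟨hy.1, trivial, trivial⟩
  shE y hy hy' := hy.2.1 hy'.2.1
  shT y hy := ⟨hy.1.1, fun h => hy.2 ⟨hy.1.1, h, trivial⟩, trivial⟩
  tpE k o y hy := ⟨hy.1, hy.2.1.1, trivial⟩
  dlE y hy := ⟨hy.1, hy.2.1.1, trivial⟩
  dlE' y hy := ⟨hy.1, hy.2.1.1, trivial⟩
  tpO k o o' h y hy hy' := h (hy.2.1.2.symm.trans hy'.2.1.2)
  tpC k y hy := mem_finset_inf.1 hy.2 (y.r.1.σ k).head? (by simp)
    ⟨hy.1.1, ⟨hy.1.2.1, rfl⟩, trivial⟩
  dgO y hy hy' := Bool.false_ne_true (Eq.trans (Eq.symm hy.2.2) hy'.2.2)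
  dgC y hy := ⟨hy.1.1, trivial, by
    have : ¬ y.n.bodd = false := fun h => hy.2 ⟨hy.1.1, trivial, h⟩
    simpa [Pr.inD] using this⟩
  rTp x k y hy := ⟨hy.1, ⟨hy.2.1.1, by rw [hy.2.1.2.1 k]; rfl⟩, trivial⟩
  rO x x' h y hy hy' := h (hy.2.1.2.2.1.symm.trans hy'.2.1.2.2.1)
  rC y hy := ⟨hy.1, ⟨hy.2.1.1, hy.2.1.2.2.2 (Or.inl rfl)⟩, trivial⟩
  rD y hy := ⟨hy.1, ⟨hy.2.1.1, hy.2.1.2.2.2 (Or.inr rfl)⟩, trivial⟩
  rCov y hy := by
    obtain ⟨h1, h2, h3⟩ := mem_atT.1 hy.1.1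
    exact mem_finset_inf.1 hy.2 (fhd y.r.1.s).kind (by simp)
      ⟨h1, ⟨h2, fun k => List.head?_eq_none_iff.1 (h3 k), rfl, fun _ => hy.1.2.2.1.2⟩, trivial⟩
  kTp k hk y hy := ⟨hy.1.1, ⟨hy.2.2.1, by rw [hy.1.2.1 k hk]; rfl⟩, trivial⟩
  kCl y hy := ⟨hy.1.1, fun k hk => List.head?_eq_none_iff.1
    (mem_finset_inf.1 hy.2 k (by simp [hk])).2.1.2, trivial⟩
  dlEq := by
    ext y
    constructor
    · rintro ⟨h1, h2⟩
      refine ⟨h1, h2.1, ⟨h2.2.1.1, ?_⟩, trivial⟩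
      rw [List.head?_eq_none_iff.1 h1.2.1.2]; exact h2.2.1.2
    · rintro ⟨h1, h2⟩
      refine ⟨h1, h2.1, ⟨h2.2.1.1, ?_⟩, trivial⟩
      have := h2.2.1.2
      rwa [List.head?_eq_none_iff.1 h1.2.1.2] at this
  kA y hy := ⟨hy.1, leg_clean hM _ _ hy.2.1, trivial⟩
  kB y hy hy' := by
    obtain ⟨ρ, h⟩ := hy'.2.1
    have := hM.len _ _ _ _ h
    rw [hy.2.1 _ hM.hct] at this
    exact Nat.not_lt_zero _ this

theorem ax2_conc (hM : M.Good) : Ax2 (ce M) where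
  pushTp k a k' o h := pres_of hM (fun r _ => by simp [Pr.inR, Mv.raw, h]) fun _ => Iff.rfl
  pushDl k a := pres_of hM (fun r _ => Iff.rfl) fun _ => Iff.rfl
  pushDl' k a h := pres_of hM (fun r _ => by simp [Pr.inR, Mv.raw, h.symm]) fun _ => Iff.rfl
  pushPm a := by
    refine smul_eq_of (D := ce M .E) (R := ce M (.tp M.t (some a))) ?_
      (fun y hy => ⟨hy.1, hy.2.1.1, trivial⟩) Set.inter_subset_right fun y hy => ?_
    · rw [mul_smul]
      exact (congrArg _ ((Mv.pm a).w_dom hM)).trans ((Mv.push M.t a).w_dom hM)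
    · have k : (Mv.pm a).w • y ∈ ce M (Mv.push M.t a).dom := (Mv.pm a).w_mem_ran hM hy
      rw [mul_smul]
      show _ ↔ _ ∈ ce M .dl' ∧ _
      rw [Mv.w_mem hM _ k, Mv.w_r hM _ hy]
      have := Mv.w_mem_ran hM _ k
      simp only [Mv.ran] at this
      simp [this, mem_ce, Pr.inR, Pr.inD, Mv.raw, hy.1]
  pmTp a k o := pres_of hM (fun r _ => Iff.rfl) fun _ => Iff.rfl
  pmA a := pres_of hM (fun r _ => by simp [Pr.inR, Mv.raw]) fun _ => Iff.rfl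
  pmB a := pres_of hM (fun r _ => by simp [Pr.inR, Mv.raw]) fun _ => Iff.rfl
  qmAll a j := pres_of hM (fun r _ => by cases j <;> exact Iff.rfl) fun _ => Iff.rfl
  jTp k o := pres_of hM (fun r _ => Iff.rfl) fun _ => Iff.rfl
  jDl := pres_of hM (fun r _ => Iff.rfl) fun _ => Iff.rfl
  jDl' := pres_of hM (fun r _ => Iff.rfl) fun _ => Iff.rfl
  frA := pres_of hM (fun r h => ⟨fun h => ⟨rfl, h.2⟩, fun h' => ⟨h, h'.2⟩⟩) fun _ => Iff.rfl
  frB := pres_of hM (fun r h => ⟨fun h => ⟨rfl, mul_inv_eq_one.2 h.2⟩,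
    fun h' => ⟨h, mul_inv_eq_one.1 h'.2⟩⟩) fun _ => Iff.rfl
  ioB := pres_of hM (fun r _ => Iff.rfl) fun _ => Iff.rfl
  ioK := pres_of hM (fun r _ => Iff.rfl) fun _ => Iff.rfl
  ioA := by
    ext y
    refine (Mv.io.mem_inv_smul hM).trans (Iff.trans ?_ (Mv.mm.mem_inv_smul hM).symm)
    refine and_congr_right fun hy => ?_
    rw [Mv.io.w_mem hM hy, Mv.mm.w_mem hM hy]
    obtain ⟨ρ, h, -⟩ := hy.2.1
    refine and_congr_left fun _ => ?_
    simp only [Pr.inR, Mv.raw, h]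
    exact ⟨fun ⟨ρ', h1, h2⟩ => by
      rw [h] at h1
      rw [Option.some.inj h1]
      exact h2, fun h2 => ⟨ρ, h, h2⟩⟩
  mmE := pres_of hM (fun r _ => Iff.rfl) fun _ => Iff.rfl
  digAll d j h := pres_of hM (fun r _ => Iff.rfl) fun _ => by
    cases j
    all_goals first | exact Iff.rfl | exact absurd rfl (h _)
  allDg σ d h := pres_of hM (fun r _ => Iff.rfl) fun _ => by
    cases σ
    all_goals first | exact Iff.rfl | exact absurd rfl (h _)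

theorem ax3_conc (hM : M.Good) : Ax3 (ce M) where
  jT := tv_of hM fun y hy => ⟨⟨hy.1, hy.2.1.1, trivial⟩, by
    simp [Mv.raw, List.head?_eq_none_iff.1 hy.2.1.2], rfl⟩
  jD := tv_of hM fun y hy => ⟨⟨hy.1.1, hy.1.2.1.1, trivial⟩, by
    have : M.phi (y.r.1.σ M.t) = 1 := Eq.trans (Eq.symm hy.2.2.1.2) hy.1.2.1.2
    simp [Mv.raw, this], rfl⟩
  cPush k a k' a' h := cmt_of hM (fun r h1 _ => ⟨h1, h1, by
    simp [Mv.raw, h, h.symm, Function.update_comm h]⟩) fun _ => rfl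
  cPmPush a k a' := cmt_of hM (fun r h1 _ => ⟨h1, h1, rfl⟩) fun _ => rfl
  cQmPush a k a' := cmt_of hM (fun r h1 h2 => ⟨h1, h2, rfl⟩) fun _ => rfl
  cQmPm a a' := cmt_of hM (fun r h1 h2 => ⟨h1, h2, rfl⟩) fun _ => rfl
  cJPm a := cmt_of hM (fun r h1 h2 => ⟨h1, h2, rfl⟩) fun _ => rfl
  cJPush k a h := cmt_of hM (fun r h1 h2 => ⟨h1, h2, by simp [Mv.raw, h.symm]⟩) fun _ => rfl
  jPush a := eqv_of fun y hy => by
    have k1 : (Mv.push M.t a).w • y ∈ ce M Mv.jj.dom := (Mv.w_mem_dom hM _ hy).2 hy.2.1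
    have k2 : Mv.jj.w • y ∈ ce M (Mv.qm a).dom := (Mv.w_mem_dom hM _ hy).2 trivial
    have k3 : (Mv.qm a).w • Mv.jj.w • y ∈ ce M (Mv.push M.t a).dom :=
      (Mv.w_mem_dom hM _ k2).2 (by rw [Mv.jj.w_r hM hy]; exact hy.2.1)
    rw [mul_smul, mul_smul, mul_smul]
    refine cy_ext ?_ ?_ ?_
    · rw [Mv.w_r hM _ k1, Mv.w_r hM _ k3, Mv.w_r hM _ k2, (Mv.push M.t a).w_r hM hy,
        Mv.jj.w_r hM hy]
      simp [Mv.raw, mul_assoc]
    · rw [Mv.w_n hM _ k1, Mv.w_n hM _ k3, Mv.w_n hM _ k2, (Mv.push M.t a).w_n hM hy,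
        Mv.jj.w_n hM hy]
      rfl
    · rw [Mv.w_side hM _ k1, Mv.w_side hM _ k3]
  cPmA a := cmt_of hM (fun r h1 _ => ⟨rfl, h1, rfl⟩) fun _ => rfl
  cPmB a := cmt_of hM (fun r h1 _ => ⟨rfl, h1, by simp [Mv.raw, mul_assoc]⟩) fun _ => rfl
  cQmFr a x h := cmt_of hM (fun r h1 h2 => ⟨h1, by cases x <;> exact h2, by
    cases x
    all_goals first | rfl | exact absurd rfl h⟩) fun _ => rfl
  cQmIo a := cmt_of hM (fun r h1 h2 => ⟨h1, h2, rfl⟩) fun _ => rfl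
  cQmMm a := cmt_of hM (fun r h1 h2 => ⟨h1, h2, rfl⟩) fun _ => rfl
  qmD a := eqv_of fun y hy => w2_eq hM hy hy trivial hy.2.1 rfl rfl
  ioMm := eqv_of fun y hy => by
    obtain ⟨h1, h2⟩ := (Mv.io.mem_inv_smul hM).1 hy
    have h3 := ((Mv.io.w_mem hM h1).1 h2).1
    refine w2_eq hM h1 h1 ?_ h3 rfl rfl
    obtain ⟨ρ, h4, h5⟩ := h3
    simp only [Mv.raw] at h4 h5
    simp only [Mv.dom, Pr.inR, Mv.raw, h4]
    exact h5
  cDig d σ h := cmt_of hM (fun r _ h2 => ⟨trivial, h2, rfl⟩) fun _ => by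
    cases σ
    all_goals first | rfl | exact absurd rfl (h _)
  dead τ b1 b2 h y hy hy' := by
    obtain ⟨ρ, h1, -⟩ := hy'.2.1
    rw [m0_piece hy, h] at h1
    exact absurd h1 (by simp)
  live τ b1 b2 h y hy := by
    obtain ⟨W, hW⟩ := Option.ne_none_iff_exists'.1 h
    obtain ⟨h1, h2, -⟩ := mem_piece.1 hy
    refine ⟨h1, ⟨_, by rw [m0_piece hy, hW]; rfl, ?_⟩, trivial⟩
    rw [h2]; trivial
  run τ b1 b2 h := eqv_of fun y hy => by
    obtain ⟨W, hW⟩ := Option.ne_none_iff_exists'.1 h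
    obtain ⟨h1, h2, h3, -⟩ := mem_piece.1 hy
    have hA : y ∈ ce M Mv.mm.dom := by
      refine ⟨h1, ⟨_, by rw [m0_piece hy, hW]; rfl, ?_⟩, trivial⟩
      rw [h2]; trivial
    let y0 : CY M := ⟨⟨{ y.r.1 with σ := fun k => (y.r.1.σ k).tail },
      ⟨by simp only [h2]; trivial, y.r.2.2⟩⟩, y.n, true⟩
    have h0 : y0 ∈ ce M .E := ⟨rfl, h2, trivial⟩
    have e : (rw fun k => (τ k).toList) • y0 = y := by
      obtain ⟨e1, e2, e3⟩ := rw_smul hM (fun k => (τ k).toList) h0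
      refine cy_ext (e1.trans ?_) e2 (e3.trans h1.symm)
      refine Raw.ext rfl rfl (funext fun k => ?_) rfl rfl
      show (τ k).toList ++ (y.r.1.σ k).tail = y.r.1.σ k
      rw [← h3 k]
      cases y.r.1.σ k <;> rfl
    have e' : (rw fun k => (τ k).toList)⁻¹ • y = y0 := by rw [inv_smul_eq_iff, e]
    obtain ⟨e1, e2, e3⟩ := rw_smul hM W h0
    rw [mul_smul, e', hW, Option.getD_some]
    refine cy_ext ?_ ?_ ?_
    · rw [Mv.w_r hM _ hA, e1]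
      simp only [Mv.raw, m0_piece hy, hW]
      rfl
    · rw [Mv.w_n hM _ hA, e2]; rfl
    · rw [Mv.w_side hM _ hA, e3]

theorem ax_conc (hM : M.Good) : Ax (ce M) := ⟨ax1_conc hM, ax2_conc hM, ax3_conc hM⟩

end Vale.Agent.P193
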