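import Mathlib

/-! Involutions exchanging the two sides of a matching. -/

namespace Vale.Agent.P193

open Equiv

variable {X : Type}

/-- `R` is the graph of an injective map whose domain and range are disjoint -/
def IsMatch (R : Set (X × X)) : Prop :=
  (∀ p ∈ R, ∀ q ∈ R, p.1 = q.1 ↔ p.2 = q.2) ∧ ∀ p ∈ R, ∀ q ∈ R, p.1 ≠ q.2

/-- the points moved by the swap of `R` -/
def rsupp (R : Set (X × X)) : Set X := {x | ∃ p ∈ R, x = p.1 ∨ x = p.2}

open Classical in
/-- the underlying function of the swap -/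
noncomputable def swapFun (R : Set (X × X)) (x : X) : X :=
  if h : ∃ y, (x, y) ∈ R then h.choose else if h : ∃ y, (y, x) ∈ R then h.choose else x

theorem swapFun_left {R : Set (X × X)} (h : IsMatch R) {x y : X} (hp : (x, y) ∈ R) :
    swapFun R x = y := by
  have h1 : ∃ y, (x, y) ∈ R := ⟨y, hp⟩
  rw [swapFun, dif_pos h1]
  exact (h.1 _ h1.choose_spec _ hp).1 rfl

theorem swapFun_right {R : Set (X × X)} (h : IsMatch R) {x y : X} (hp : (x, y) ∈ R) :
    swapFun R y = x := by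
  have h0 : ¬ ∃ z, (y, z) ∈ R := fun ⟨z, hz⟩ => h.2 _ hz _ hp rfl
  have h1 : ∃ z, (z, y) ∈ R := ⟨x, hp⟩
  rw [swapFun, dif_neg h0, dif_pos h1]
  exact (h.1 _ h1.choose_spec _ hp).2 rfl

theorem swapFun_other {R : Set (X × X)} {x : X} (hx : x ∉ rsupp R) : swapFun R x = x := by
  have h0 : ¬ ∃ z, (x, z) ∈ R := fun ⟨z, hz⟩ => hx ⟨_, hz, Or.inl rfl⟩
  have h1 : ¬ ∃ z, (z, x) ∈ R := fun ⟨z, hz⟩ => hx ⟨_, hz, Or.inr rfl⟩
  rw [swapFun, dif_neg h0, dif_neg h1]

theorem swapFun_invol {R : Set (X × X)} (h : IsMatch R) : Function.Involutive (swapFun R) := by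
  intro x
  by_cases hx : x ∈ rsupp R
  · obtain ⟨⟨a, b⟩, hp, rfl | rfl⟩ := hx
    · rw [swapFun_left h hp, swapFun_right h hp]
    · rw [swapFun_right h hp, swapFun_left h hp]
  · rw [swapFun_other hx, swapFun_other hx]

open Classical in
/-- the swap of a matching, as a permutation (the identity if `R` is not a matching) -/
noncomputable def swapR (R : Set (X × X)) : Perm X :=
  if h : IsMatch R then (swapFun_invol h).toPerm _ else 1

theorem swapR_left {R : Set (X × X)} (h : IsMatch R) {x y : X} (hp : (x, y) ∈ R) :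
    swapR R x = y := by
  rw [swapR, dif_pos h]; exact swapFun_left h hp

theorem swapR_right {R : Set (X × X)} (h : IsMatch R) {x y : X} (hp : (x, y) ∈ R) :
    swapR R y = x := by
  rw [swapR, dif_pos h]; exact swapFun_right h hp

theorem swapR_other {R : Set (X × X)} {x : X} (hx : x ∉ rsupp R) : swapR R x = x := by
  unfold swapR
  split_ifs with h
  · exact swapFun_other hx
  · rfl

theorem swapR_mul_self (R : Set (X × X)) : swapR R * swapR R = 1 := by
  unfold swapR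
  split_ifs with h
  · ext x; exact swapFun_invol h x
  · simp

theorem swapR_inv (R : Set (X × X)) : (swapR R)⁻¹ = swapR R :=
  inv_eq_of_mul_eq_one_right (swapR_mul_self R)

/-- characterization of the swap -/
theorem eq_swapR {R : Set (X × X)} (h : IsMatch R) {u : Perm X}
    (h1 : ∀ p ∈ R, u p.1 = p.2) (h2 : ∀ p ∈ R, u p.2 = p.1) (h3 : ∀ x, x ∉ rsupp R → u x = x) :
    u = swapR R := by
  ext x
  by_cases hx : x ∈ rsupp R
  · obtain ⟨⟨a, b⟩, hp, rfl | rfl⟩ := hx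
    · rw [swapR_left h hp]; exact h1 _ hp
    · rw [swapR_right h hp]; exact h2 _ hp
  · rw [swapR_other hx, h3 x hx]

theorem isMatch_empty : IsMatch (∅ : Set (X × X)) := ⟨by simp, by simp⟩

theorem swapR_empty : swapR (∅ : Set (X × X)) = 1 :=
  (eq_swapR isMatch_empty (by simp) (by simp) (by simp)).symm

theorem IsMatch.mono {R R' : Set (X × X)} (h : IsMatch R) (hs : R' ⊆ R) : IsMatch R' :=
  ⟨fun p hp q hq => h.1 p (hs hp) q (hs hq), fun p hp q hq => h.2 p (hs hp) q (hs hq)⟩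

theorem rsupp_mono {R R' : Set (X × X)} (hs : R' ⊆ R) : rsupp R' ⊆ rsupp R :=
  fun _ ⟨p, hp, h⟩ => ⟨p, hs hp, h⟩

theorem rsupp_union (R R' : Set (X × X)) : rsupp (R ∪ R') = rsupp R ∪ rsupp R' := by
  ext x
  constructor
  · rintro ⟨p, hp | hp, h⟩
    · exact Or.inl ⟨p, hp, h⟩
    · exact Or.inr ⟨p, hp, h⟩
  · rintro (⟨p, hp, h⟩ | ⟨p, hp, h⟩)
    · exact ⟨p, Or.inl hp, h⟩
    · exact ⟨p, Or.inr hp, h⟩

theorem swapR_mem_rsupp {R : Set (X × X)} {x : X} (hx : x ∈ rsupp R) : swapR R x ∈ rsupp R := by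
  by_cases h : IsMatch R
  · obtain ⟨⟨a, b⟩, hp, rfl | rfl⟩ := hx
    · exact ⟨_, hp, Or.inr (swapR_left h hp)⟩
    · exact ⟨_, hp, Or.inl (swapR_right h hp)⟩
  · rw [swapR, dif_neg h]; exact hx

theorem IsMatch.image {R : Set (X × X)} (h : IsMatch R) (u : Perm X) :
    IsMatch (Prod.map u u '' R) := by
  constructor
  · rintro _ ⟨p, hp, rfl⟩ _ ⟨q, hq, rfl⟩
    simpa using h.1 p hp q hq
  · rintro _ ⟨p, hp, rfl⟩ _ ⟨q, hq, rfl⟩
    simpa using h.2 p hp q hq

theorem rsupp_image (R : Set (X × X)) (u : Perm X) :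
    rsupp (Prod.map u u '' R) = u '' rsupp R := by
  ext x
  constructor
  · rintro ⟨_, ⟨p, hp, rfl⟩, h | h⟩
    · exact ⟨p.1, ⟨p, hp, Or.inl rfl⟩, h.symm⟩
    · exact ⟨p.2, ⟨p, hp, Or.inr rfl⟩, h.symm⟩
  · rintro ⟨_, ⟨p, hp, rfl | rfl⟩, rfl⟩
    · exact ⟨_, ⟨p, hp, rfl⟩, Or.inl rfl⟩
    · exact ⟨_, ⟨p, hp, rfl⟩, Or.inr rfl⟩

/-- conjugating a swap -/
theorem conj_swapR {R : Set (X × X)} (h : IsMatch R) (u : Perm X) :
    u * swapR R * u⁻¹ = swapR (Prod.map u u '' R) := by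
  refine eq_swapR (h.image u) ?_ ?_ ?_
  · rintro _ ⟨⟨a, b⟩, hp, rfl⟩
    simp [swapR_left h hp]
  · rintro _ ⟨⟨a, b⟩, hp, rfl⟩
    simp [swapR_right h hp]
  · intro x hx
    rw [rsupp_image] at hx
    have : u⁻¹ x ∉ rsupp R := fun h' => hx ⟨_, h', by simp⟩
    show u (swapR R (u⁻¹ x)) = x
    rw [swapR_other this]; simp

theorem IsMatch.union {R R' : Set (X × X)} (h : IsMatch R) (h' : IsMatch R')
    (hd : Disjoint (rsupp R) (rsupp R')) : IsMatch (R ∪ R') := by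
  have key : ∀ p ∈ R, ∀ q ∈ R', p.1 ≠ q.1 ∧ p.2 ≠ q.2 ∧ p.1 ≠ q.2 ∧ p.2 ≠ q.1 := by
    intro p hp q hq
    have := Set.disjoint_left.1 hd
    refine ⟨fun e => this ⟨p, hp, Or.inl rfl⟩ ⟨q, hq, Or.inl e⟩,
      fun e => this ⟨p, hp, Or.inr rfl⟩ ⟨q, hq, Or.inr e⟩,
      fun e => this ⟨p, hp, Or.inl rfl⟩ ⟨q, hq, Or.inr e⟩,
      fun e => this ⟨p, hp, Or.inr rfl⟩ ⟨q, hq, Or.inl e⟩⟩
  constructor
  · rintro p (hp | hp) q (hq | hq)
    · exact h.1 p hp q hq
    · have := key p hp q hq; tauto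
    · have := key q hq p hp
      exact ⟨fun e => (this.1 e.symm).elim, fun e => (this.2.1 e.symm).elim⟩
    · exact h'.1 p hp q hq
  · rintro p (hp | hp) q (hq | hq)
    · exact h.2 p hp q hq
    · exact (key p hp q hq).2.2.1
    · exact fun e => (key q hq p hp).2.2.2 e.symm
    · exact h'.2 p hp q hq

/-- two disjoint parts of a matching have disjoint supports -/
theorem IsMatch.disjoint_rsupp {R R1 R2 : Set (X × X)} (h : IsMatch R) (h1 : R1 ⊆ R)
    (h2 : R2 ⊆ R) (hd : Disjoint R1 R2) : Disjoint (rsupp R1) (rsupp R2) := by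
  rw [Set.disjoint_left]
  rintro x ⟨p, hp, hx⟩ ⟨q, hq, hx'⟩
  have hne : p ≠ q := fun e => Set.disjoint_left.1 hd hp (e ▸ hq)
  have a := h.1 p (h1 hp) q (h2 hq)
  rcases hx with rfl | rfl <;> rcases hx' with e | e
  · exact hne (Prod.ext e (a.1 e))
  · exact h.2 p (h1 hp) q (h2 hq) e
  · exact h.2 q (h2 hq) p (h1 hp) e.symm
  · exact hne (Prod.ext (a.2 e) e)

/-- splitting a swap -/
theorem swapR_union {R R' : Set (X × X)} (h : IsMatch R) (h' : IsMatch R')
    (hd : Disjoint (rsupp R) (rsupp R')) : swapR (R ∪ R') = swapR R * swapR R' := by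
  symm
  have hd1 := Set.disjoint_left.1 hd
  have hd2 := Set.disjoint_right.1 hd
  refine eq_swapR (h.union h' hd) ?_ ?_ ?_
  · rintro ⟨a, b⟩ (hp | hp)
    · have : swapR R' a = a := swapR_other (hd1 ⟨_, hp, Or.inl rfl⟩)
      simp [this, swapR_left h hp]
    · have : swapR R b = b := swapR_other (hd2 ⟨_, hp, Or.inr rfl⟩)
      simp [this, swapR_left h' hp]
  · rintro ⟨a, b⟩ (hp | hp)
    · have : swapR R' b = b := swapR_other (hd1 ⟨_, hp, Or.inr rfl⟩)
      simp [this, swapR_right h hp]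
    · have : swapR R a = a := swapR_other (hd2 ⟨_, hp, Or.inl rfl⟩)
      simp [this, swapR_right h' hp]
  · intro x hx
    rw [rsupp_union, Set.mem_union, not_or] at hx
    simp [swapR_other hx.1, swapR_other hx.2]

theorem IsMatch.swap {R : Set (X × X)} (h : IsMatch R) : IsMatch (Prod.swap '' R) := by
  constructor
  · rintro _ ⟨p, hp, rfl⟩ _ ⟨q, hq, rfl⟩
    exact (h.1 p hp q hq).symm
  · rintro _ ⟨p, hp, rfl⟩ _ ⟨q, hq, rfl⟩
    exact fun e => h.2 q hq p hp e.symm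

theorem swapR_swap {R : Set (X × X)} (h : IsMatch R) : swapR (Prod.swap '' R) = swapR R := by
  symm
  refine eq_swapR h.swap ?_ ?_ ?_
  · rintro _ ⟨⟨a, b⟩, hp, rfl⟩; exact swapR_right h hp
  · rintro _ ⟨⟨a, b⟩, hp, rfl⟩; exact swapR_left h hp
  · intro x hx
    refine swapR_other fun ⟨p, hp, hx'⟩ => hx ⟨p.swap, ⟨p, hp, rfl⟩, hx'.symm⟩

/-- a permutation fixing the support of a swap pointwise commutes with it -/
theorem commute_swapR {R : Set (X × X)} {u : Perm X} (hu : ∀ x ∈ rsupp R, u x = x) :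
    Commute u (swapR R) := by
  ext x
  by_cases hx : x ∈ rsupp R
  · simp [hu x hx, hu _ (swapR_mem_rsupp hx)]
  · have : u x ∉ rsupp R := fun h => hx (by
      have := u.injective (hu _ h); rwa [this] at h)
    simp [swapR_other hx, swapR_other this]

end Vale.Agent.P193
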