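import Vale.Agent.P193.Sig
import Vale.Agent.P193.Swap

/-! The concrete model: definitions. -/

namespace Vale.Agent.P193

open Equiv

variable {G : Type} [Group G]

/-- frames -/
inductive Fr (M : Mach G) : Type
  | A (σ : M.Λ → List M.Γ)
  | B (σ : M.Λ → List M.Γ)
  | C (x : G) (σ : M.Λ → List M.Γ) (f : ℕ)
  | D (x : G) (σ : M.Λ → List M.Γ)

/-- raw states -/
@[ext]
structure Raw (M : Mach G) : Type where
  P : G
  Q : G
  σ : M.Λ → List M.Γ
  f : ℕ
  s : List (Fr M)

variable {M : Mach G}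

/-- the trivial frame -/
def Fr.triv (M : Mach G) : Fr M := .D 1 fun _ => []

/-- the kind of a frame -/
def Fr.kind : Fr M → Fr4
  | .A _ => .A
  | .B _ => .B
  | .C _ _ _ => .C
  | .D _ _ => .D

open Classical in
/-- the machine step with the true bits -/
noncomputable def m0 (M : Mach G) (P : G) (σ : M.Λ → List M.Γ) : Option (M.Λ → List M.Γ) :=
  M.next (decide (P = 1)) (decide (P = M.phi (σ M.t))) σ

/-- the machine can make `f` steps -/
def Leg (M : Mach G) (P : G) : ℕ → (M.Λ → List M.Γ) → Prop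
  | 0, _ => True
  | f + 1, σ => ∃ ρ, m0 M P σ = some ρ ∧ Leg M P f ρ

/-- admissible frames -/
def Fr.ok : Fr M → Prop
  | .C x σ f => Leg M x f σ
  | _ => True

/-- admissible states; lists of frames stand for streams that are eventually trivial -/
def Raw.Valid (r : Raw M) : Prop :=
  Leg M r.P r.f r.σ ∧ (∀ a ∈ r.s, a.ok) ∧ r.s.getLast? ≠ some (Fr.triv M)

open Classical in
/-- pushing a frame on a stream -/
noncomputable def fcons (a : Fr M) (l : List (Fr M)) : List (Fr M) :=
  if l = [] ∧ a = Fr.triv M then [] else a :: l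

/-- the top frame of a stream -/
def fhd (l : List (Fr M)) : Fr M := l.headD (Fr.triv M)

/-- the moves on raw states -/
noncomputable def Mv.raw : Mv M → Raw M → Raw M
  | .push k a, r => { r with σ := Function.update r.σ k (a :: r.σ k) }
  | .pm a, r => { r with P := M.val a * r.P }
  | .qm a, r => { r with Q := M.val a * r.Q }
  | .jj, r => { r with Q := M.phi (r.σ M.t) * r.Q }
  | .fr .A, r => ⟨r.P, r.Q, fun _ => [], 0, fcons (.A r.σ) r.s⟩
  | .fr .B, r => ⟨r.P * (M.phi (r.σ M.t))⁻¹, r.Q, fun _ => [], 0, fcons (.B r.σ) r.s⟩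
  | .fr .C, r => ⟨1, r.Q, fun _ => [], 0, fcons (.C r.P r.σ r.f) r.s⟩
  | .fr .D, r => ⟨1, r.P, fun _ => [], 0, fcons (.D r.Q r.σ) r.s⟩
  | .io, r => { r with f := r.f + 1 }
  | .mm, r => { r with σ := (m0 M r.P r.σ).getD r.σ }
  | .dig _, r => r

/-- the moves on digits -/
def Mv.dg : Mv M → ℕ → ℕ
  | .dig d, n => Nat.bit d n
  | _, n => n

/-- the basic predicates on raw states -/
def Pr.inR : Pr M → Raw M → Prop
  | .T, _ => True
  | .E, r => r.f = 0
  | .Sh, r => r.f ≠ 0
  | .tp k o, r => r.f = 0 ∧ (r.σ k).head? = o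
  | .dl, r => r.f = 0 ∧ r.P = 1
  | .dl', r => r.f = 0 ∧ r.P = M.phi (r.σ M.t)
  | .R x, r => r.f = 0 ∧ (∀ k, r.σ k = []) ∧ (fhd r.s).kind = x ∧ ((x = .C ∨ x = .D) → r.P = 1)
  | .A, r => Leg M r.P (r.f + 1) r.σ
  | .B, r => ∃ ρ, m0 M r.P ρ = some r.σ
  | .K, r => ∀ k, k ≠ M.t → r.σ k = []
  | .Dg _, _ => True

/-- the basic predicates on digits -/
def Pr.inD : Pr M → ℕ → Prop
  | .Dg d, n => n.bodd = d
  | _, _ => True

/-- states -/
def St (M : Mach G) : Type := {r : Raw M // r.Valid}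

open Classical in
/-- the moves on states -/
noncomputable def Mv.st (σ : Mv M) (r : St M) : St M :=
  if h : (σ.raw r.1).Valid then ⟨σ.raw r.1, h⟩ else r

/-- points of the concrete model: state, digits, side -/
@[ext]
structure CY (M : Mach G) : Type where
  r : St M
  n : ℕ
  side : Bool

/-- the basic predicates -/
def ce (M : Mach G) (j : Pr M) : Set (CY M) := {y | y.side = true ∧ j.inR y.r.1 ∧ j.inD y.n}

/-- the matching of a move -/
def Mv.rel (σ : Mv M) : Set (CY M × CY M) :=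
  {p | p.1 ∈ ce M σ.dom ∧ p.2 = ⟨σ.st p.1.r, σ.dg p.1.n, false⟩}

/-- the flip -/
def cflip (M : Mach G) : Perm (CY M) where
  toFun y := ⟨y.r, y.n, !y.side⟩
  invFun y := ⟨y.r, y.n, !y.side⟩
  left_inv y := by simp
  right_inv y := by simp

/-- the generators as permutations -/
noncomputable def cgen (M : Mach G) : Option (Mv M) → Perm (CY M)
  | none => cflip M
  | some σ => swapR σ.rel

noncomputable instance (M : Mach G) : MulAction (FF M) (CY M) :=
  MulAction.compHom (CY M) (FreeGroup.lift (cgen M))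

theorem cy_smul (γ : FF M) (y : CY M) : γ • y = FreeGroup.lift (cgen M) γ y := rfl

theorem fl_smul (y : CY M) : fl M • y = ⟨y.r, y.n, !y.side⟩ := by
  rw [cy_smul, fl, FreeGroup.lift_apply_of]; rfl

theorem ta_smul (σ : Mv M) (y : CY M) : σ.ta • y = swapR σ.rel y := by
  rw [cy_smul, Mv.ta, FreeGroup.lift_apply_of]; rfl

end Vale.Agent.P193
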