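import Vale.Agent.P193.QM

/-! Cuts: abstract conditional three-cycles inside a centerless group with a support structure. -/

namespace Vale.Agent.P193

open Equiv

/-- positions -/
abbrev Pos := Fin 30

/-- three-cycles of positions -/
abbrev T3 := {τ : Perm Pos // τ.IsThreeCycle}

/-- conjugation of three-cycles -/
def T3.conj (π : Perm Pos) (τ : T3) : T3 :=
  ⟨π * τ.1 * π⁻¹, by
    have := τ.2
    unfold Perm.IsThreeCycle at this ⊢
    rw [Perm.cycleType_conj, this]⟩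

/-- inverse of a three-cycle -/
def T3.inv (τ : T3) : T3 := ⟨τ.1⁻¹, τ.2.inv⟩

theorem T3.conj_val (π : Perm Pos) (τ : T3) : (τ.conj π).1 = π * τ.1 * π⁻¹ := rfl

theorem T3.conj_self (τ : T3) : τ.conj τ.1 = τ := Subtype.ext (by simp [T3.conj_val])

theorem T3.conj_inv_conj (π : Perm Pos) (τ : T3) : (τ.conj π⁻¹).conj π = τ :=
  Subtype.ext (by simp [T3.conj_val, mul_assoc])

theorem T3.mul_self (τ : T3) : τ.1 * τ.1 = τ.inv.1 := by
  have h := pow_orderOf_eq_one τ.1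
  rw [τ.2.orderOf, pow_succ, pow_two] at h
  exact eq_inv_of_mul_eq_one_left h

theorem T3.inv_inv (τ : T3) : τ.inv.inv = τ := Subtype.ext (_root_.inv_inv _)

theorem T3.exists_five (τ : T3) {P : Finset Pos} (h : τ.1.support ⊆ P) (hP : 5 ≤ P.card) :
    ∃ Q, τ.1.support ⊆ Q ∧ Q ⊆ P ∧ Q.card = 5 :=
  Finset.exists_subsuperset_card_eq h (by rw [τ.2.card_support]; omega) hP

theorem T3.exists_five' (τ : T3) : ∃ Q, τ.1.support ⊆ Q ∧ Q.card = 5 := by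
  obtain ⟨Q, h1, -, h2⟩ := τ.exists_five (Finset.subset_univ _) (by simp)
  exact ⟨Q, h1, h2⟩

theorem T3.support_conj {π : Perm Pos} {τ : T3} {P : Finset Pos} (h : τ.1.support ⊆ P) :
    (τ.conj π).1.support ⊆ P.image π := by
  rw [T3.conj_val, Perm.support_conj, Finset.map_eq_image]
  exact Finset.image_subset_image h

theorem T3.exists_comm (τ : T3) {P : Finset Pos} (h : τ.1.support ⊆ P) (hP : 5 ≤ P.card) :
    ∃ ρ ρ' : T3, ρ.1.support ⊆ P ∧ ρ'.1.support ⊆ P ∧ ρ.1 * (ρ.inv.conj ρ'.1).1 = τ.1 := by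
  obtain ⟨a, ha⟩ := τ.2.isCycle.nonempty_support
  have h1 := τ.2.support_eq_iff_mem_support.2 ha
  have h2 := τ.2.nodup_iff_mem_support.2 ha
  have h3 := τ.2.eq_swap_mul_swap_iff_mem_support.2 ha
  have h4 : 1 < (P \ τ.1.support).card := by
    rw [Finset.card_sdiff_of_subset h, τ.2.card_support]; omega
  obtain ⟨d, hd, e, he, hde⟩ := Finset.one_lt_card.1 h4
  generalize τ.1 a = b at h1 h2 h3
  generalize τ.1 b = c at h1 h2 h3
  rw [h1] at h hd he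
  simp only [Finset.mem_sdiff, Finset.mem_insert, Finset.mem_singleton, not_or] at hd he
  simp only [List.nodup_cons, List.mem_cons, List.not_mem_nil, or_false, not_or,
    not_false_eq_true, List.nodup_nil, and_true] at h2
  obtain ⟨hd0, hda, hdb, hdc⟩ := hd
  obtain ⟨he0, hea, heb, hec⟩ := he
  obtain ⟨⟨hab, hac⟩, hbc⟩ := h2
  have hs : ∀ x y z : Pos, x ∈ P → y ∈ P → z ∈ P → (swap x y * swap x z).support ⊆ P := by
    intro x y z hx hy hz
    refine (Perm.support_mul_le _ _).trans (sup_le ?_ ?_)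
    · by_cases hxy : x = y
      · subst hxy; simp
      · rw [Perm.support_swap hxy]; simp [Finset.insert_subset_iff, hx, hy]
    · by_cases hxz : x = z
      · subst hxz; simp
      · rw [Perm.support_swap hxz]; simp [Finset.insert_subset_iff, hx, hz]
  have haP : a ∈ P := h (by simp)
  have hbP : b ∈ P := h (by simp)
  have hcP : c ∈ P := h (by simp)
  refine ⟨⟨swap b a * swap b d, Perm.isThreeCycle_swap_mul_swap_same (Ne.symm hab) (Ne.symm hdb)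
    (Ne.symm hda)⟩, ⟨swap c a * swap c e, Perm.isThreeCycle_swap_mul_swap_same (Ne.symm hac)
    (Ne.symm hec) (Ne.symm hea)⟩, hs _ _ _ hbP haP hd0, hs _ _ _ hcP haP he0, ?_⟩
  rw [h3]
  show swap b a * swap b d * ((swap c a * swap c e) * (swap b a * swap b d)⁻¹ *
    (swap c a * swap c e)⁻¹) = _
  set r := swap c a * swap c e with hr
  have ra : r a = c := by
    rw [hr, Perm.mul_apply, swap_apply_of_ne_of_ne hac (Ne.symm hea), swap_apply_right]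
  have rb : r b = b := by
    rw [hr, Perm.mul_apply, swap_apply_of_ne_of_ne hbc (Ne.symm heb),
      swap_apply_of_ne_of_ne hbc (Ne.symm hab)]
  have rd : r d = d := by
    rw [hr, Perm.mul_apply, swap_apply_of_ne_of_ne hdc hde, swap_apply_of_ne_of_ne hdc hda]
  have e1 : r * (swap b a * swap b d)⁻¹ * r⁻¹ =
      (r * swap b d * r⁻¹) * (r * swap b a * r⁻¹) := by
    rw [mul_inv_rev, swap_inv, swap_inv]; group
  rw [e1, ← swap_apply_apply, ← swap_apply_apply, ra, rb, rd, mul_assoc,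
    ← mul_assoc (swap b d), swap_mul_self, one_mul, swap_comm b a]

theorem exists_even_move {P Q : Finset Pos} (hP : P.card ≤ 10) (hQ : Q.card ≤ 5) :
    ∃ π ∈ alternatingGroup Pos, Disjoint (P.image π) Q := by
  obtain ⟨R, hR, hc⟩ := Finset.exists_subset_card_eq (s := Qᶜ) (n := P.card)
    (by rw [Finset.card_compl]; simp; omega)
  obtain ⟨σ, hσ⟩ := Perm.exists_map_finset_eq P R hc.symm
  have h1 : P.image σ = R := by rw [← hσ, Finset.map_eq_image]; rfl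
  have hd : Disjoint R Q := Finset.disjoint_left.2 fun x hx => Finset.mem_compl.1 (hR hx)
  rcases Int.units_eq_one_or (Perm.sign σ) with hs | hs
  · exact ⟨σ, Perm.mem_alternatingGroup.2 hs, h1 ▸ hd⟩
  · have h2 : 1 < Pᶜ.card := by rw [Finset.card_compl]; simp; omega
    obtain ⟨a, ha, b, hb, hab⟩ := Finset.one_lt_card.1 h2
    refine ⟨σ * swap a b, Perm.mem_alternatingGroup.2 (by simp [hs, hab]), ?_⟩
    have : P.image (σ * swap a b) = P.image σ := Finset.image_congr fun x hx => by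
      have hxa : x ≠ a := fun h => Finset.mem_compl.1 ha (h ▸ hx)
      have hxb : x ≠ b := fun h => Finset.mem_compl.1 hb (h ▸ hx)
      simp [swap_apply_of_ne_of_ne hxa hxb]
    rw [this, h1]
    exact hd

theorem commute_of_mem_closure {H : Type} [Group H] {A : Set H} {w x : H}
    (h : ∀ a ∈ A, Commute a w) (hx : x ∈ Subgroup.closure A) : Commute x w := by
  induction hx using Subgroup.closure_induction with
  | mem a ha => exact h a ha
  | one => exact Commute.one_left _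
  | mul a b _ _ ha hb => exact ha.mul_left hb
  | inv a _ ha => exact ha.inv_left

theorem commute_of_conj_eq {H : Type} [Group H] {u v x : H} (h : u * x * u⁻¹ = v * x * v⁻¹) :
    Commute x (u⁻¹ * v) := by
  show x * (u⁻¹ * v) = u⁻¹ * v * x
  calc x * (u⁻¹ * v) = u⁻¹ * (u * x * u⁻¹) * v := by group
    _ = u⁻¹ * v * x := by rw [h]; group

theorem commutator_mul {H : Type} [Group H] {a1 a2 b1 b2 : H} (h1 : Commute a1 a2)
    (h2 : Commute a1 b2) (h3 : Commute b1 a2) (h4 : Commute b1 b2) :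
    a1 * a2 * (b1 * b2) * (a1 * a2)⁻¹ * (b1 * b2)⁻¹ =
      a1 * b1 * a1⁻¹ * b1⁻¹ * (a2 * b2 * a2⁻¹ * b2⁻¹) := by
  have k2 : Commute (a2 * b2 * a2⁻¹) a1⁻¹ :=
    ((h1.mul_right h2).mul_right h1.inv_right).symm.inv_right
  have k3 : Commute (a2 * b2 * a2⁻¹ * b2⁻¹) b1⁻¹ :=
    (((h3.mul_right h4).mul_right h3.inv_right).mul_right h4.inv_right).symm.inv_right
  calc a1 * a2 * (b1 * b2) * (a1 * a2)⁻¹ * (b1 * b2)⁻¹
      = a1 * (a2 * b1) * b2 * a2⁻¹ * a1⁻¹ * b2⁻¹ * b1⁻¹ := by group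
    _ = a1 * b1 * (a2 * b2 * a2⁻¹ * a1⁻¹) * b2⁻¹ * b1⁻¹ := by rw [← h3.eq]; group
    _ = a1 * b1 * a1⁻¹ * (a2 * b2 * a2⁻¹ * b2⁻¹ * b1⁻¹) := by rw [k2.eq]; group
    _ = _ := by rw [k3.eq]; group

/-- a centerless group with labels, position permutations and support subgroups -/
structure Sys (F H : Type) [Group F] [Group H] where
  lab : (Pos → F) →* H
  io : Perm Pos →* H
  L : Finset Pos → Subgroup H
  L_mono : ∀ {P Q}, P ⊆ Q → L P ≤ L Q
  L_comm : ∀ {P Q}, Disjoint P Q → ∀ x ∈ L P, ∀ y ∈ L Q, Commute x y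
  L_conj : ∀ (π : Perm Pos) (P), ∀ x ∈ L P, io π * x * (io π)⁻¹ ∈ L (P.image π)
  lab_mem : ∀ {i P}, i ∈ P → ∀ γ, lab (Pi.mulSingle i γ) ∈ L P
  io_mem : ∀ {π : Perm Pos} {P}, π.support ⊆ P → io π ∈ L P
  io_lab : ∀ (π : Perm Pos) (v), io π * lab v * (io π)⁻¹ = lab (fun i => v (π⁻¹ i))
  gen : Subgroup.closure {x | ∃ P : Finset Pos, P.card ≤ 5 ∧ x ∈ L P} = ⊤
  center : Subgroup.center H = ⊥

namespace Sys

variable {F H : Type} [Group F] [Group H] (S : Sys F H)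

/-- a small element commuting with all even position permutations is trivial -/
theorem eq_one_of_comm {P : Finset Pos} (hP : P.card ≤ 10) {h : H} (hh : h ∈ S.L P)
    (hc : ∀ π ∈ alternatingGroup Pos, Commute h (S.io π)) : h = 1 := by
  rw [← Subgroup.mem_bot, ← S.center, Subgroup.mem_center_iff]
  intro g
  have hg : g ∈ Subgroup.closure {x | ∃ P : Finset Pos, P.card ≤ 5 ∧ x ∈ S.L P} := by
    rw [S.gen]; trivial
  refine commute_of_mem_closure ?_ hg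
  rintro a ⟨Q, hQ, ha⟩
  obtain ⟨π, hπ, hd⟩ := exists_even_move hP hQ
  have h1 := S.L_conj π P h hh
  rw [← (hc π hπ).eq, mul_inv_cancel_right] at h1
  exact (S.L_comm hd h h1 a ha).symm

theorem eq_one_of_comm3 {P : Finset Pos} (hP : P.card ≤ 10) {h : H} (hh : h ∈ S.L P)
    (hc : ∀ τ : T3, Commute h (S.io τ.1)) : h = 1 := by
  refine S.eq_one_of_comm hP hh fun π hπ => ?_
  rw [← Perm.closure_three_cycles_eq_alternating] at hπ
  induction hπ using Subgroup.closure_induction with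
  | mem a ha => exact hc ⟨a, ha⟩
  | one => simp
  | mul a b _ _ ha hb => rw [map_mul]; exact ha.mul_right hb
  | inv a _ ha => rw [map_inv]; exact ha.inv_right

theorem lab_mem_of_single {K : Subgroup H} (v : Pos → F)
    (h : ∀ i, S.lab (Pi.mulSingle i (v i)) ∈ K) : S.lab v ∈ K :=
  Submonoid.pi_mem_of_mulSingle_mem (H := K.comap S.lab) v h

theorem lab_mem_of_eq_one {P : Finset Pos} (v : Pos → F) (h : ∀ i, i ∉ P → v i = 1) :
    S.lab v ∈ S.L P :=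
  S.lab_mem_of_single v fun i => by
    by_cases hi : i ∈ P
    · exact S.lab_mem hi _
    · rw [h i hi, Pi.mulSingle_one, map_one]; exact one_mem _

theorem commute_io_lab (π : Perm Pos) (γ : F) : Commute (S.io π) (S.lab fun _ => γ) :=
  mul_inv_eq_iff_eq_mul.1 (S.io_lab π fun _ => γ)

theorem lab_conj_mem (γ : F) {P : Finset Pos} {x : H} (hx : x ∈ S.L P) :
    S.lab (fun _ => γ) * x * (S.lab fun _ => γ)⁻¹ ∈ S.L P := by
  have e : (fun _ => γ : Pos → F) =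
      (fun i => if i ∈ P then γ else 1) * fun i => if i ∈ P then 1 else γ := by
    ext i
    by_cases hi : i ∈ P <;> simp [hi]
  have h1 : S.lab (fun i => if i ∈ P then γ else 1) ∈ S.L P :=
    S.lab_mem_of_eq_one _ fun i hi => if_neg hi
  have h2 : S.lab (fun i => if i ∈ P then 1 else γ) ∈ S.L Pᶜ :=
    S.lab_mem_of_eq_one _ fun i hi => if_pos (by simpa using hi)
  have h3 := S.L_comm disjoint_compl_right x hx _ h2
  rw [e, map_mul, mul_inv_rev, mul_assoc _ _ x, ← h3.eq]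
  have : ∀ a b y : H, a * (y * b) * (b⁻¹ * a⁻¹) = a * y * a⁻¹ := fun a b y => by group
  rw [this]
  exact mul_mem (mul_mem h1 hx) (inv_mem h1)

/-- cuts -/
@[ext]
structure Cut where
  f : T3 → H
  mem : ∀ (τ : T3) (P : Finset Pos), τ.1.support ⊆ P → 5 ≤ P.card → f τ ∈ S.L P
  mul : ∀ τ1 τ2 τ3 : T3, τ1.1 * τ2.1 = τ3.1 → f τ1 * f τ2 = f τ3
  eqv : ∀ (π : Perm Pos) (τ : T3), S.io π * f τ * (S.io π)⁻¹ = f (τ.conj π)
  self : ∀ ρ τ : T3, f ρ * f τ * (f ρ)⁻¹ = f (τ.conj ρ.1)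

namespace Cut

variable {S}

theorem f_inv (e : S.Cut) (τ : T3) : e.f τ.inv = (e.f τ)⁻¹ := by
  have h1 := e.mul τ τ τ.inv τ.mul_self
  have h2 := e.mul τ.inv τ.inv τ (by rw [T3.mul_self, T3.inv_inv])
  rw [← h1] at h2 ⊢
  have h3 : e.f τ * e.f τ * e.f τ = 1 := by
    apply mul_right_cancel (b := e.f τ)
    rw [one_mul, mul_assoc]; exact h2
  exact eq_inv_of_mul_eq_one_left h3

theorem commute_io (e : S.Cut) (τ : T3) : Commute (S.io τ.1) (e.f τ) := by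
  have h := e.eqv τ.1 τ
  rw [T3.conj_self] at h
  exact mul_inv_eq_iff_eq_mul.1 h

theorem le_of_conj' {a f : S.Cut}
    (h : ∀ ρ τ : T3, f.f ρ * a.f τ * (f.f ρ)⁻¹ = a.f (τ.conj ρ.1)) (τ ρ : T3) :
    Commute (a.f τ) ((f.f ρ)⁻¹ * S.io ρ.1) :=
  commute_of_conj_eq ((h ρ τ).trans (a.eqv ρ.1 τ).symm)

theorem conj_of_le' {a f : S.Cut} (h : ∀ τ ρ : T3, Commute (a.f τ) ((f.f ρ)⁻¹ * S.io ρ.1))
    (ρ τ : T3) : f.f ρ * a.f τ * (f.f ρ)⁻¹ = a.f (τ.conj ρ.1) := by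
  rw [← a.eqv]
  have h1 := (h τ ρ).eq
  calc f.f ρ * a.f τ * (f.f ρ)⁻¹
      = f.f ρ * (a.f τ * ((f.f ρ)⁻¹ * S.io ρ.1)) * (S.io ρ.1)⁻¹ := by group
    _ = _ := by rw [h1]; group

theorem diff_comm {a f : S.Cut} (h : ∀ τ ρ : T3, Commute (a.f τ) ((f.f ρ)⁻¹ * S.io ρ.1))
    (τ ρ : T3) : Commute (a.f τ) ((a.f ρ)⁻¹ * f.f ρ) :=
  commute_of_conj_eq ((a.self ρ τ).trans (conj_of_le' h ρ τ).symm)

/-- the full cut -/
def top (S : Sys F H) : S.Cut where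
  f τ := S.io τ.1
  mem _ _ h _ := S.io_mem h
  mul _ _ _ h := by rw [← map_mul, h]
  eqv π τ := by rw [T3.conj_val, map_mul, map_mul, map_inv]
  self ρ τ := by rw [T3.conj_val, map_mul, map_mul, map_inv]

/-- relative complement -/
def diff (f a : S.Cut) (h : ∀ τ ρ : T3, Commute (a.f τ) ((f.f ρ)⁻¹ * S.io ρ.1)) : S.Cut where
  f τ := (a.f τ)⁻¹ * f.f τ
  mem τ P h1 h2 := mul_mem (inv_mem (a.mem τ P h1 h2)) (f.mem τ P h1 h2)
  mul τ1 τ2 τ3 h3 := by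
    rw [← a.mul τ1 τ2 τ3 h3, ← f.mul τ1 τ2 τ3 h3, ← mul_assoc,
      ← (diff_comm h τ2 τ1).inv_left.eq]
    group
  eqv π τ := by
    rw [← a.eqv, ← f.eqv]
    group
  self ρ τ := by
    rw [← conj_of_le' h, ← f.self]
    have h1 : Commute (a.f ρ) ((a.f ρ)⁻¹ * f.f ρ * ((a.f τ)⁻¹ * f.f τ) * ((a.f ρ)⁻¹ * f.f ρ)⁻¹) :=
      ((diff_comm h ρ ρ).mul_right (diff_comm h ρ τ)).mul_right (diff_comm h ρ ρ).inv_right
    calc _ = a.f ρ * ((a.f ρ)⁻¹ * f.f ρ * ((a.f τ)⁻¹ * f.f τ) * ((a.f ρ)⁻¹ * f.f ρ)⁻¹) *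
          (a.f ρ)⁻¹ := by rw [h1.eq, mul_inv_cancel_right]
      _ = _ := by group

theorem le_top' (e : S.Cut) (τ ρ : T3) : Commute (e.f τ) (((top S).f ρ)⁻¹ * S.io ρ.1) := by
  show Commute _ ((S.io ρ.1)⁻¹ * S.io ρ.1)
  rw [inv_mul_cancel]
  exact Commute.one_right _

instance : Compl S.Cut where
  compl e :=
    { f := fun τ => (e.f τ)⁻¹ * S.io τ.1
      mem := (diff (top S) e e.le_top').mem
      mul := (diff (top S) e e.le_top').mul
      eqv := (diff (top S) e e.le_top').eqv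
      self := (diff (top S) e e.le_top').self }

theorem compl_f (e : S.Cut) (τ : T3) : eᶜ.f τ = (e.f τ)⁻¹ * S.io τ.1 := rfl

theorem compl_compl' (e : S.Cut) : eᶜᶜ = e := by
  ext τ
  rw [compl_f, compl_f, mul_inv_rev, inv_inv, mul_assoc, ← (e.commute_io τ).eq,
    inv_mul_cancel_left]

theorem refl' (e : S.Cut) (τ ρ : T3) : Commute (e.f τ) (eᶜ.f ρ) := le_of_conj' e.self τ ρ

theorem commute_io_of {e : S.Cut} {w : H} (h1 : ∀ ρ, Commute w (e.f ρ))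
    (h2 : ∀ ρ, Commute w (eᶜ.f ρ)) (ρ : T3) : Commute w (S.io ρ.1) := by
  have := (h1 ρ).mul_right (h2 ρ)
  rwa [compl_f, mul_inv_cancel_left] at this

theorem key_move (f : S.Cut) {π : Perm Pos} (hπ : π ∈ alternatingGroup Pos) :
    ∃ u ∈ Subgroup.closure (Set.range f.f), ∃ v ∈ Subgroup.closure (Set.range fᶜ.f),
      S.io π = u * v := by
  have hc : ∀ u ∈ Subgroup.closure (Set.range f.f), ∀ v ∈ Subgroup.closure (Set.range fᶜ.f),
      Commute u v := fun u hu v hv => commute_of_mem_closure (by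
    rintro _ ⟨τ, rfl⟩
    refine (commute_of_mem_closure ?_ hv).symm
    rintro _ ⟨ρ, rfl⟩
    exact (f.refl' τ ρ).symm) hu
  rw [← Perm.closure_three_cycles_eq_alternating] at hπ
  induction hπ using Subgroup.closure_induction with
  | mem a ha =>
    exact ⟨_, Subgroup.subset_closure ⟨⟨a, ha⟩, rfl⟩, _, Subgroup.subset_closure ⟨⟨a, ha⟩, rfl⟩,
      by rw [compl_f, mul_inv_cancel_left]⟩
  | one => exact ⟨1, one_mem _, 1, one_mem _, by simp⟩
  | mul a b _ _ ha hb =>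
    obtain ⟨u, hu, v, hv, h1⟩ := ha
    obtain ⟨u', hu', v', hv', h2⟩ := hb
    exact ⟨u * u', mul_mem hu hu', v * v', mul_mem hv hv', by
      rw [map_mul, h1, h2, (hc u' hu' v hv).symm.mul_mul_mul_comm]⟩
  | inv a _ ha =>
    obtain ⟨u, hu, v, hv, h1⟩ := ha
    exact ⟨u⁻¹, inv_mem hu, v⁻¹, inv_mem hv, by rw [map_inv, h1, (hc u hu v hv).mul_inv]⟩

theorem transfer {z f : S.Cut} (h : ∀ τ ρ : T3, Commute (z.f τ) (fᶜ.f ρ)) {w : H}
    {Q : Finset Pos} (hQ : Q.card ≤ 5) (hw : w ∈ S.L Q) (hf : ∀ ρ, Commute (f.f ρ) w) (τ : T3) :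
    Commute (z.f τ) w := by
  obtain ⟨P, hP, hP5⟩ := τ.exists_five'
  obtain ⟨π, hπ, hd⟩ := exists_even_move (P := P) (by omega) hQ
  obtain ⟨u, hu, v, hv, huv⟩ := f.key_move hπ
  have h1 := S.L_comm hd _ (S.L_conj π P _ (z.mem τ P hP hP5.ge)) w hw
  have h2 : Commute u w := commute_of_mem_closure (by rintro _ ⟨ρ, rfl⟩; exact hf ρ) hu
  have h3 : Commute v (z.f τ) :=
    commute_of_mem_closure (by rintro _ ⟨ρ, rfl⟩; exact (h τ ρ).symm) hv
  have h4 := (h2.inv_left.mul_left h1).mul_left h2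
  have e : u⁻¹ * (S.io π * z.f τ * (S.io π)⁻¹) * u = z.f τ := by
    rw [huv]
    calc u⁻¹ * (u * v * z.f τ * (u * v)⁻¹) * u = v * z.f τ * v⁻¹ := by group
      _ = z.f τ := by rw [h3.eq, mul_inv_cancel_right]
  rwa [e] at h4

instance : PartialOrder S.Cut where
  le e f := ∀ τ ρ : T3, Commute (e.f τ) ((f.f ρ)⁻¹ * S.io ρ.1)
  le_refl e := e.refl'
  le_trans e f g h1 h2 τ ρ := by
    obtain ⟨Q, hQ, hQ5⟩ := ρ.exists_five'
    exact transfer h1 hQ5.le (gᶜ.mem ρ Q hQ hQ5.ge) (fun σ => h2 σ ρ) τ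
  le_antisymm e f h1 h2 := by
    ext τ
    obtain ⟨Q, hQ, hQ5⟩ := τ.exists_five'
    have := S.eq_one_of_comm3 (P := Q) (by omega)
      (mul_mem (inv_mem (e.mem τ Q hQ hQ5.ge)) (f.mem τ Q hQ hQ5.ge))
      (commute_io_of (fun ρ => (diff_comm h1 ρ τ).symm)
        fun ρ => (e.refl' τ ρ).inv_left.mul_left (h2 τ ρ))
    exact inv_mul_eq_one.1 this

theorem le_iff {e f : S.Cut} :
    e ≤ f ↔ ∀ τ ρ : T3, Commute (e.f τ) ((f.f ρ)⁻¹ * S.io ρ.1) := Iff.rfl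

theorem le_iff' {e f : S.Cut} : e ≤ f ↔ ∀ τ ρ : T3, Commute (e.f τ) (fᶜ.f ρ) := Iff.rfl

theorem le_compl_iff {e f : S.Cut} : e ≤ fᶜ ↔ ∀ τ ρ : T3, Commute (e.f τ) (f.f ρ) := by
  rw [le_iff', compl_compl']

theorem conj_of_le {a f : S.Cut} (h : a ≤ f) (ρ τ : T3) :
    f.f ρ * a.f τ * (f.f ρ)⁻¹ = a.f (τ.conj ρ.1) := conj_of_le' h ρ τ

instance : OrderBot S.Cut where
  bot :=
    { f := fun _ => 1
      mem := fun _ _ _ _ => one_mem _
      mul := fun _ _ _ _ => mul_one _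
      eqv := fun _ _ => by simp
      self := fun _ _ => by simp }
  bot_le := fun _ _ _ => Commute.one_left _

theorem bot_f (τ : T3) : (⊥ : S.Cut).f τ = 1 := rfl

instance : MulAction F S.Cut where
  smul γ e :=
    { f := fun τ => S.lab (fun _ => γ) * e.f τ * (S.lab fun _ => γ)⁻¹
      mem := fun τ P h1 h2 => S.lab_conj_mem γ (e.mem τ P h1 h2)
      mul := fun τ1 τ2 τ3 h => by rw [← e.mul τ1 τ2 τ3 h]; group
      eqv := fun π τ => by
        rw [← e.eqv]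
        have h := (S.commute_io_lab π γ).eq
        calc _ = (S.io π * S.lab fun _ => γ) * e.f τ * (S.io π * S.lab fun _ => γ)⁻¹ := by group
          _ = _ := by rw [h]; group
      self := fun ρ τ => by rw [← e.self]; group }
  one_smul e := by
    ext τ
    show S.lab 1 * e.f τ * (S.lab 1)⁻¹ = _
    simp
  mul_smul γ δ e := by
    ext τ
    show S.lab ((fun _ => γ) * fun _ => δ) * e.f τ * (S.lab ((fun _ => γ) * fun _ => δ))⁻¹ =
      S.lab (fun _ => γ) * (S.lab (fun _ => δ) * e.f τ * (S.lab fun _ => δ)⁻¹) *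
        (S.lab fun _ => γ)⁻¹
    rw [map_mul]
    group

theorem smul_f (γ : F) (e : S.Cut) (τ : T3) :
    (γ • e).f τ = S.lab (fun _ => γ) * e.f τ * (S.lab fun _ => γ)⁻¹ := rfl

theorem anti' {x y : S.Cut} (h : x ≤ y) : yᶜ ≤ xᶜ :=
  le_compl_iff.2 fun τ ρ => (h ρ τ).symm

theorem orth_of {a b f : S.Cut} (ha : a ≤ f) (hb : b ≤ fᶜ) (τ ρ : T3) :
    Commute (a.f τ) (b.f ρ) :=
  (le_compl_iff.1 (hb.trans (anti' ha)) ρ τ).symm

theorem le_of_dec {e a b : S.Cut} (hab : ∀ τ ρ, Commute (a.f τ) (b.f ρ))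
    (h : ∀ τ, e.f τ = a.f τ * b.f τ) : a ≤ e := by
  refine le_of_conj' fun ρ τ => ?_
  rw [h, ← a.self]
  calc _ = a.f ρ * (b.f ρ * a.f τ) * (b.f ρ)⁻¹ * (a.f ρ)⁻¹ := by group
    _ = _ := by rw [← (hab τ ρ).eq]; group

/-- the first part of a decomposition is the meet -/
theorem glb_of_dec {e f a b : S.Cut} (ha : a ≤ f) (hb : b ≤ fᶜ)
    (h : ∀ τ, e.f τ = a.f τ * b.f τ) (z : S.Cut) : z ≤ a ↔ z ≤ e ∧ z ≤ f := by
  refine ⟨fun hz => ⟨hz.trans (le_of_dec (orth_of ha hb) h), hz.trans ha⟩, fun hz τ ρ => ?_⟩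
  have h1 := (orth_of hz.2 hb τ ρ).mul_right (hz.1 τ ρ)
  rwa [h, mul_inv_rev, mul_assoc, mul_inv_cancel_left] at h1

theorem glb_of_dec' {e f a b : S.Cut} (ha : a ≤ f) (hb : b ≤ fᶜ)
    (h : ∀ τ, e.f τ = a.f τ * b.f τ) (z : S.Cut) : z ≤ b ↔ z ≤ e ∧ z ≤ fᶜ :=
  glb_of_dec hb (by rwa [compl_compl']) (fun τ => (h τ).trans (orth_of ha hb τ τ).eq) z

theorem cm_symm' {e f : S.Cut} (h : ∃ a b : S.Cut, a ≤ f ∧ b ≤ fᶜ ∧ ∀ τ, e.f τ = a.f τ * b.f τ) :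
    ∃ a b : S.Cut, a ≤ e ∧ b ≤ eᶜ ∧ ∀ τ, f.f τ = a.f τ * b.f τ := by
  obtain ⟨a, b, ha, hb, h⟩ := h
  refine ⟨a, diff f a ha, le_of_dec (orth_of ha hb) h, le_compl_iff.2 fun τ ρ => ?_,
    fun τ => (mul_inv_cancel_left _ _).symm⟩
  rw [h]
  exact (diff_comm ha ρ τ).symm.mul_right
    ((orth_of ha hb τ ρ).inv_left.mul_left (le_compl_iff.1 hb ρ τ).symm)

theorem comp_unique (x : S.Cut) {u1 u2 v1 v2 : H} {P : Finset Pos} (hP : P.card ≤ 10)
    (hu : u1 ∈ S.L P) (hv : v1 ∈ S.L P) (h : u1 * u2 = v1 * v2)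
    (h1 : ∀ ρ, Commute u1 (xᶜ.f ρ)) (h2 : ∀ ρ, Commute u2 (x.f ρ))
    (h3 : ∀ ρ, Commute v1 (xᶜ.f ρ)) (h4 : ∀ ρ, Commute v2 (x.f ρ)) : u1 = v1 := by
  have e : v1⁻¹ * u1 = v2 * u2⁻¹ := by
    rw [eq_mul_inv_iff_mul_eq, mul_assoc, h, inv_mul_cancel_left]
  have := S.eq_one_of_comm3 hP (mul_mem (inv_mem hv) hu)
    (commute_io_of (fun ρ => e ▸ (h4 ρ).mul_left (h2 ρ).inv_left)
      fun ρ => (h3 ρ).inv_left.mul_left (h1 ρ))
  exact (inv_mul_eq_one.1 this).symm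

theorem commute_conj_io (x : S.Cut) {u : H} (h : ∀ ρ, Commute u (x.f ρ)) (π : Perm Pos)
    (ρ : T3) : Commute (S.io π * u * (S.io π)⁻¹) (x.f ρ) := by
  have := (h (ρ.conj π⁻¹)).conj (S.io π)
  rwa [x.eqv, T3.conj_inv_conj] at this

theorem cm_of_components {x y : S.Cut} {U1 U2 : Subgroup H}
    (hU : ∀ u ∈ U1, ∀ v ∈ U2, Commute u v) (h1 : ∀ u ∈ U1, ∀ ρ, Commute u (xᶜ.f ρ))
    (h2 : ∀ u ∈ U2, ∀ ρ, Commute u (x.f ρ))
    (h : ∀ (τ : T3) (P : Finset Pos), τ.1.support ⊆ P → P.card = 5 →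
      ∃ u ∈ U1, ∃ v ∈ U2, u ∈ S.L P ∧ y.f τ = u * v) :
    ∃ a b : S.Cut, a ≤ x ∧ b ≤ xᶜ ∧ ∀ τ, y.f τ = a.f τ * b.f τ := by
  choose Q hQ hQ5 using T3.exists_five'
  choose a ha b hb haL hab using fun τ => h τ (Q τ) (hQ τ) (hQ5 τ)
  have hun : ∀ τ ρ, (Q τ ∪ Q ρ).card ≤ 10 := fun τ ρ =>
    (Finset.card_union_le _ _).trans (by rw [hQ5, hQ5])
  have hun5 : ∀ τ ρ, 5 ≤ (Q τ ∪ Q ρ).card := fun τ ρ =>
    (hQ5 τ).ge.trans (Finset.card_le_card Finset.subset_union_left)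
  have hl : ∀ τ ρ, a τ ∈ S.L (Q τ ∪ Q ρ) := fun τ ρ =>
    S.L_mono Finset.subset_union_left (haL τ)
  have hr : ∀ τ ρ, a ρ ∈ S.L (Q τ ∪ Q ρ) := fun τ ρ =>
    S.L_mono Finset.subset_union_right (haL ρ)
  have mem : ∀ (τ : T3) (P : Finset Pos), τ.1.support ⊆ P → 5 ≤ P.card → a τ ∈ S.L P := by
    intro τ P hP hP5
    obtain ⟨R, hR, hRP, hR5⟩ := τ.exists_five hP hP5
    obtain ⟨u, hu, v, hv, huL, huv⟩ := h τ R hR hR5
    rw [comp_unique x (P := Q τ ∪ R) ((Finset.card_union_le _ _).trans (by rw [hQ5, hR5]))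
      (S.L_mono Finset.subset_union_left (haL τ)) (S.L_mono Finset.subset_union_right huL)
      ((hab τ).symm.trans huv) (h1 _ (ha τ)) (h2 _ (hb τ)) (h1 _ hu) (h2 _ hv)]
    exact S.L_mono hRP huL
  let A : S.Cut :=
    { f := a
      mem := mem
      mul := fun τ1 τ2 τ3 h3 => by
        refine comp_unique x (hun τ1 τ2) (mul_mem (hl _ _) (hr _ _)) (mem τ3 _ ?_ (hun5 _ _))
          (u2 := b τ1 * b τ2) (v2 := b τ3) ?_ (h1 _ (mul_mem (ha _) (ha _)))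
          (h2 _ (mul_mem (hb _) (hb _))) (h1 _ (ha _)) (h2 _ (hb _))
        · rw [← h3]
          exact (Perm.support_mul_le _ _).trans (Finset.union_subset_union (hQ _) (hQ _))
        · rw [← hab, ← y.mul τ1 τ2 τ3 h3, hab, hab,
            (hU _ (ha τ2) _ (hb τ1)).mul_mul_mul_comm]
      eqv := fun π τ => by
        have hc : ((Q τ).image π).card = 5 := by
          rw [Finset.card_image_of_injective _ π.injective, hQ5]
        refine comp_unique x (P := (Q τ).image π) (by omega) (S.L_conj π _ _ (haL τ))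
          (mem _ _ (T3.support_conj (hQ τ)) hc.ge) (u2 := S.io π * b τ * (S.io π)⁻¹)
          (v2 := b (τ.conj π)) ?_ (commute_conj_io _ (h1 _ (ha _)) π)
          (commute_conj_io _ (h2 _ (hb _)) π) (h1 _ (ha _)) (h2 _ (hb _))
        rw [← hab, ← y.eqv, hab]
        group
      self := fun ρ τ => by
        refine comp_unique x (hun ρ τ) (mul_mem (mul_mem (hl _ _) (hr _ _)) (inv_mem (hl _ _)))
          (mem _ _ ?_ (hun5 _ _)) (u2 := b ρ * b τ * (b ρ)⁻¹) (v2 := b (τ.conj ρ.1)) ?_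
          (h1 _ (mul_mem (mul_mem (ha _) (ha _)) (inv_mem (ha _))))
          (h2 _ (mul_mem (mul_mem (hb _) (hb _)) (inv_mem (hb _)))) (h1 _ (ha _)) (h2 _ (hb _))
        · rw [T3.conj_val]
          refine (Perm.support_mul_le _ _).trans (sup_le ((Perm.support_mul_le _ _).trans
            (Finset.union_subset_union (hQ _) (hQ _))) ?_)
          rw [Perm.support_inv]
          exact (hQ ρ).trans Finset.subset_union_left
        · rw [← hab, ← y.self, hab, hab]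
          have k1 := (hU _ (ha τ) _ (hb ρ)).eq
          have k2 := (hU _ (inv_mem (ha ρ)) _
            (mul_mem (mul_mem (hb ρ) (hb τ)) (inv_mem (hb ρ)))).eq
          calc _ = a ρ * a τ * ((a ρ)⁻¹ * (b ρ * b τ * (b ρ)⁻¹)) := by group
            _ = a ρ * (a τ * b ρ) * b τ * (b ρ)⁻¹ * (a ρ)⁻¹ := by rw [k2]; group
            _ = _ := by rw [k1]; group }
  have hAy : A ≤ y := by
    refine le_of_conj' fun ρ τ => ?_
    rw [hab, ← A.self]
    show a ρ * b ρ * a τ * (a ρ * b ρ)⁻¹ = a ρ * a τ * (a ρ)⁻¹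
    calc _ = a ρ * (b ρ * a τ) * (b ρ)⁻¹ * (a ρ)⁻¹ := by group
      _ = _ := by rw [← (hU _ (ha τ) _ (hb ρ)).eq]; group
  refine ⟨A, diff y A hAy, fun τ ρ => h1 _ (ha τ) ρ, le_compl_iff.2 fun τ ρ => ?_,
    fun τ => (mul_inv_cancel_left _ _).symm⟩
  show Commute ((a τ)⁻¹ * y.f τ) _
  rw [hab, inv_mul_cancel_left]
  exact h2 _ (hb τ) ρ

theorem cm_inf' {x e f g : S.Cut}
    (he : ∃ a b : S.Cut, a ≤ x ∧ b ≤ xᶜ ∧ ∀ τ, e.f τ = a.f τ * b.f τ)
    (hf : ∃ a b : S.Cut, a ≤ x ∧ b ≤ xᶜ ∧ ∀ τ, f.f τ = a.f τ * b.f τ)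
    (hef : ∃ a b : S.Cut, a ≤ f ∧ b ≤ fᶜ ∧ ∀ τ, e.f τ = a.f τ * b.f τ)
    (hg : ∀ a, a ≤ g ↔ a ≤ e ∧ a ≤ f) :
    ∃ a b : S.Cut, a ≤ x ∧ b ≤ xᶜ ∧ ∀ τ, g.f τ = a.f τ * b.f τ := by
  obtain ⟨e1, e2, he1, he2, he⟩ := he
  obtain ⟨f1, f2, hf1, hf2, hf⟩ := hf
  obtain ⟨g', e', hg1, hg2, hge⟩ := hef
  obtain rfl : g = g' := eq_of_forall_le_iff fun z => (hg z).trans (glb_of_dec hg1 hg2 hge z).symm
  refine cm_of_components (U1 := Subgroup.closure (Set.range e1.f ∪ Set.range f1.f))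
    (U2 := Subgroup.closure (Set.range e2.f ∪ Set.range f2.f)) (fun u hu v hv => ?_)
    (fun u hu ρ => commute_of_mem_closure ?_ hu) (fun u hu ρ => commute_of_mem_closure ?_ hu)
    fun τ P hP hP5 => ?_
  · refine commute_of_mem_closure (fun a ha => (commute_of_mem_closure (fun b hb => ?_) hv).symm) hu
    rcases ha with ⟨τ, rfl⟩ | ⟨τ, rfl⟩ <;> rcases hb with ⟨ρ, rfl⟩ | ⟨ρ, rfl⟩
    · exact (orth_of he1 he2 τ ρ).symm
    · exact (orth_of he1 hf2 τ ρ).symm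
    · exact (orth_of hf1 he2 τ ρ).symm
    · exact (orth_of hf1 hf2 τ ρ).symm
  · rintro _ (⟨τ, rfl⟩ | ⟨τ, rfl⟩)
    · exact he1 τ ρ
    · exact hf1 τ ρ
  · rintro _ (⟨τ, rfl⟩ | ⟨τ, rfl⟩)
    · exact le_compl_iff.1 he2 τ ρ
    · exact le_compl_iff.1 hf2 τ ρ
  · obtain ⟨ρ, ρ', hρ, hρ', hτ⟩ := τ.exists_comm hP hP5.ge
    have m : ∀ (K : Subgroup H) (p q : H), p ∈ K → q ∈ K → p * q * p⁻¹ * q⁻¹ ∈ K :=
      fun K p q hp hq => mul_mem (mul_mem (mul_mem hp hq) (inv_mem hp)) (inv_mem hq)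
    refine ⟨_, m _ (e1.f ρ) (f1.f ρ') (Subgroup.subset_closure (Or.inl ⟨ρ, rfl⟩))
      (Subgroup.subset_closure (Or.inr ⟨ρ', rfl⟩)), _, m _ (e2.f ρ) (f2.f ρ')
      (Subgroup.subset_closure (Or.inl ⟨ρ, rfl⟩)) (Subgroup.subset_closure (Or.inr ⟨ρ', rfl⟩)),
      m _ _ _ (e1.mem ρ P hρ hP5.ge) (f1.mem ρ' P hρ' hP5.ge), ?_⟩
    rw [← commutator_mul (orth_of he1 he2 _ _) (orth_of he1 hf2 _ _) (orth_of hf1 he2 _ _)
      (orth_of hf1 hf2 _ _), ← he, ← hf, ← g.mul _ _ _ hτ, ← conj_of_le hg1, f_inv, hge]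
    have k := (le_compl_iff.1 hg2 ρ ρ').eq
    calc _ = g.f ρ * (f.f ρ' * e'.f ρ) * (g.f ρ * e'.f ρ)⁻¹ * (f.f ρ')⁻¹ := by group
      _ = _ := by rw [← k]; group

instance : PL S.Cut where
  Cm e f := ∃ a b : S.Cut, a ≤ f ∧ b ≤ fᶜ ∧ ∀ τ, e.f τ = a.f τ * b.f τ
  cc := compl_compl'
  anti := anti'
  eq_bot := fun {z e} h1 h2 => by
    ext τ
    obtain ⟨Q, hQ, hQ5⟩ := τ.exists_five'
    exact S.eq_one_of_comm3 (P := Q) (by omega) (z.mem τ Q hQ hQ5.ge)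
      (commute_io_of (le_compl_iff.1 h2 τ) (h1 τ))
  cm_symm := cm_symm'
  cm_compl := fun ⟨a, b, ha, hb, h⟩ =>
    ⟨b, a, hb, by rwa [compl_compl'], fun τ => (h τ).trans (orth_of ha hb τ τ).eq⟩
  cm_of_le := fun {e _} h => ⟨e, ⊥, h, bot_le, fun _ => (mul_one _).symm⟩
  cm_glb := fun ⟨a, _, ha, hb, h⟩ => ⟨a, glb_of_dec ha hb h⟩
  dec := fun ⟨a, b, ha, hb, h⟩ h1 h2 τ ρ => by
    rw [h]
    exact (h1 a ((glb_of_dec ha hb h a).1 le_rfl).1 ha τ ρ).mul_left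
      (h2 b ((glb_of_dec' ha hb h b).1 le_rfl).1 hb τ ρ)
  cm_inf := fun h1 h2 h3 h4 => cm_symm' (cm_inf' (cm_symm' h1) (cm_symm' h2) h3 h4)

theorem smul_compl' (γ : F) (x : S.Cut) : γ • xᶜ = (γ • x)ᶜ := by
  ext τ
  rw [smul_f, compl_f, compl_f, smul_f]
  have h := (S.commute_io_lab τ.1 γ).inv_right.eq
  calc _ = S.lab (fun _ => γ) * (x.f τ)⁻¹ * (S.io τ.1 * (S.lab fun _ => γ)⁻¹) := by group
    _ = _ := by rw [h]; group

theorem smul_le' (γ : F) {x y : S.Cut} (h : x ≤ y) : γ • x ≤ γ • y := by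
  rw [le_iff', ← smul_compl']
  exact fun τ ρ => (h τ ρ).conj _

instance : PM F S.Cut where
  Tv γ e := ∀ (i : Pos) (τ : T3), Commute (S.lab (Pi.mulSingle i γ)) (e.f τ)
  smul_le := smul_le'
  smul_compl := smul_compl'
  smul_cm := fun γ _ y ⟨a, b, ha, hb, h⟩ =>
    ⟨γ • a, γ • b, smul_le' γ ha, smul_compl' γ y ▸ smul_le' γ hb, fun τ => by
      rw [smul_f, smul_f, smul_f, h]; group⟩
  tv_one e i τ := by simp
  tv_mul h1 h2 i τ := by
    rw [Pi.mulSingle_mul, map_mul]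
    exact (h1 i τ).mul_left (h2 i τ)
  tv_inv h i τ := by
    rw [Pi.mulSingle_inv, map_inv]
    exact (h i τ).inv_left
  tv_conj := fun δ {γ e} h i τ => by
    have e1 : (Pi.mulSingle i (δ * γ * δ⁻¹) : Pos → F) =
        (fun _ => δ) * Pi.mulSingle i γ * (fun _ => δ)⁻¹ := by
      ext j
      by_cases hj : j = i
      · subst hj; simp
      · simp [Pi.mulSingle_eq_of_ne hj]
    rw [e1, map_mul, map_mul, map_inv, smul_f]
    exact (h i τ).conj _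
  tv_mono := fun {γ _ _} h1 h2 i τ =>
    (transfer h1 (Q := {i}) (by simp) (S.lab_mem (Finset.mem_singleton_self i) γ)
      (fun ρ => (h2 i ρ).symm) τ).symm
  tv_smul := fun {γ e} h => by
    ext τ
    have : S.lab (fun _ => γ) ∈ Subgroup.centralizer {e.f τ} :=
      S.lab_mem_of_single _ fun i => Subgroup.mem_centralizer_singleton_iff.2 (h i τ).eq
    rw [smul_f, Subgroup.mem_centralizer_singleton_iff.1 this, mul_inv_cancel_right]
  tv_bot _ _ _ := Commute.one_right _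
  tv_dec := fun ⟨a, b, ha, hb, h⟩ h1 h2 i τ => by
    rw [h]
    exact (h1 a ((glb_of_dec ha hb h a).1 le_rfl).1 ha i τ).mul_right
      (h2 b ((glb_of_dec' ha hb h b).1 le_rfl).1 hb i τ)

theorem cm_iff {e f : S.Cut} :
    PL.Cm e f ↔ ∃ a b : S.Cut, a ≤ f ∧ b ≤ fᶜ ∧ ∀ τ, e.f τ = a.f τ * b.f τ := Iff.rfl

theorem tv_iff {γ : F} {e : S.Cut} :
    PM.Tv γ e ↔ ∀ (i : Pos) (τ : T3), Commute (S.lab (Pi.mulSingle i γ)) (e.f τ) := Iff.rfl

/-- commuting cuts decompose into the two meets -/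
theorem f_eq_of_glb {e f a b : S.Cut} (h : PL.Cm e f) (ha : ∀ z, z ≤ a ↔ z ≤ e ∧ z ≤ f)
    (hb : ∀ z, z ≤ b ↔ z ≤ e ∧ z ≤ fᶜ) (τ : T3) : e.f τ = a.f τ * b.f τ := by
  obtain ⟨a', b', ha', hb', h⟩ := h
  rw [eq_of_forall_le_iff fun z => (ha z).trans (glb_of_dec ha' hb' h z).symm,
    eq_of_forall_le_iff fun z => (hb z).trans (glb_of_dec' ha' hb' h z).symm, h]

end Cut

end Sys

end Vale.Agent.P193
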