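import Vale.Agent.P193.PermD

/-! Comparison of the two generating families of the permutation groups. -/

namespace Vale.Agent.P193

open Equiv
open scoped Pointwise

namespace PA

/-- a subgroup containing the transpositions inside `P` contains everything supported in `P` -/
theorem mem_of_swap (K : Subgroup (Perm Pos)) (P : Finset Pos)
    (h : ∀ i ∈ P, ∀ j ∈ P, i ≠ j → swap i j ∈ K) (π : Perm Pos) (hπ : π.support ⊆ P) :
    π ∈ K := by
  induction hn : π.support.card using Nat.strong_induction_on generalizing π with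
  | _ n ih =>
    by_cases h1 : π = 1
    · rw [h1]; exact K.one_mem
    obtain ⟨x, hx⟩ : ∃ x, π x ≠ x := by
      by_contra hc
      push Not at hc
      exact h1 (Equiv.ext hc)
    have hx1 : x ∈ π.support := Perm.mem_support.2 hx
    have hx2 : π x ∈ π.support := Perm.apply_mem_support.2 hx1
    have h2 := ih _ (hn ▸ Perm.card_support_swap_mul hx) (swap x (π x) * π)
      (fun z hz => hπ (Perm.mem_support_swap_mul_imp_mem_support_ne hz).1) rfl
    have h3 := K.mul_mem (h x (hπ hx1) _ (hπ hx2) hx.symm) h2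
    rwa [← mul_assoc, swap_mul_self, one_mul] at h3

/-- the three-cycle `a → b → c → a` -/
def cyc {a b c : Pos} (ab : a ≠ b) (ac : a ≠ c) (bc : b ≠ c) : T3 :=
  ⟨swap a b * swap b c, by
    rw [swap_comm a b]; exact Perm.isThreeCycle_swap_mul_swap_same ab.symm bc ac⟩

theorem cyc_val {a b c : Pos} (ab : a ≠ b) (ac : a ≠ c) (bc : b ≠ c) :
    (cyc ab ac bc).1 = swap a b * swap b c := rfl

theorem support_swap_swap {a b c : Pos} (ab : a ≠ b) (bc : b ≠ c) :
    (swap a b * swap b c).support ⊆ {a, b, c} := by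
  refine (Perm.support_mul_le _ _).trans ?_
  rw [Perm.support_swap ab, Perm.support_swap bc]
  intro x hx
  simp only [Finset.sup_eq_union, Finset.mem_union, Finset.mem_insert, Finset.mem_singleton] at hx ⊢
  tauto

theorem conj_swap (ρ : Perm Pos) (a b : Pos) : ρ * swap a b * ρ⁻¹ = swap (ρ a) (ρ b) :=
  (swap_apply_apply ρ a b).symm

theorem conj_swap_swap (ρ : Perm Pos) (a b c : Pos) :
    ρ * (swap a b * swap b c) * ρ⁻¹ = swap (ρ a) (ρ b) * swap (ρ b) (ρ c) := by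
  rw [← conj_swap, ← conj_swap]; group

/-- two further points of a set with five elements -/
theorem exists_two {P Q : Finset Pos} (h : Q.card + 2 ≤ P.card) :
    ∃ x ∈ P, ∃ y ∈ P, x ∉ Q ∧ y ∉ Q ∧ x ≠ y := by
  have h1 : 1 < (P \ Q).card := by
    have := Finset.le_card_sdiff Q P
    omega
  obtain ⟨x, hx, y, hy, hxy⟩ := Finset.one_lt_card.1 h1
  rw [Finset.mem_sdiff] at hx hy
  exact ⟨x, hx.1, y, hy.1, hx.2, hy.2, hxy⟩

/-- a three-cycle is a commutator of three-cycles inside any five-set containing it -/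
theorem exists_comm (τ : T3) {P : Finset Pos} (hτ : τ.1.support ⊆ P) (hP : 5 ≤ P.card) :
    ∃ ρ σ : T3, ρ.1.support ⊆ P ∧ σ.1.support ⊆ P ∧ τ.1 = ρ.1 * σ.1 * ρ.1⁻¹ * σ.1⁻¹ := by
  obtain ⟨g, hg⟩ := τ
  obtain ⟨a, ha⟩ : g.support.Nonempty := by
    rw [← Finset.card_pos, hg.card_support]; norm_num
  obtain ⟨x, hx, y, hy, hx', hy', hxy⟩ := exists_two (P := P) (Q := g.support)
    (by rw [hg.card_support]; exact hP)
  have h1 := hg.eq_swap_mul_swap_iff_mem_support.2 ha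
  have h2 := hg.support_eq_iff_mem_support.2 ha
  have h3 := hg.nodup_iff_mem_support.2 ha
  obtain ⟨b, hb⟩ : ∃ b, b = g a := ⟨_, rfl⟩
  rw [← hb] at h1 h2 h3
  obtain ⟨c, hc⟩ : ∃ c, c = g b := ⟨_, rfl⟩
  rw [← hc] at h1 h2 h3
  simp only [h2, Finset.mem_insert, Finset.mem_singleton, not_or] at hx' hy'
  simp only [List.nodup_cons, List.mem_cons, List.not_mem_nil, or_false, not_or] at h3
  have hs : ({a, b, c} : Finset Pos) ⊆ P := h2 ▸ hτ
  simp only [Finset.insert_subset_iff, Finset.singleton_subset_iff] at hs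
  have ab : a ≠ b := h3.1.1
  have ac : a ≠ c := h3.1.2
  have bc : b ≠ c := h3.2.1
  refine ⟨cyc ab (Ne.symm hx'.1) (Ne.symm hx'.2.1), cyc ac (Ne.symm hy'.1) (Ne.symm hy'.2.2),
    (support_swap_swap ab (Ne.symm hx'.2.1)).trans ?_,
    (support_swap_swap ac (Ne.symm hy'.2.2)).trans ?_, ?_⟩
  · simp [Finset.insert_subset_iff, hs, hx]
  · simp [Finset.insert_subset_iff, hs, hy]
  · rw [cyc_val, cyc_val, conj_swap_swap]
    have e1 : (swap a b * swap b x) a = b := by
      rw [Perm.mul_apply, swap_apply_of_ne_of_ne ab (Ne.symm hx'.1), swap_apply_left]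
    have e2 : (swap a b * swap b x) c = c := by
      rw [Perm.mul_apply, swap_apply_of_ne_of_ne bc.symm (Ne.symm hx'.2.2),
        swap_apply_of_ne_of_ne ac.symm bc.symm]
    have e3 : (swap a b * swap b x) y = y := by
      rw [Perm.mul_apply, swap_apply_of_ne_of_ne hy'.2.1 hxy.symm,
        swap_apply_of_ne_of_ne hy'.1 hy'.2.1]
    rw [e1, e2, e3]
    refine h1.trans ?_
    have e4 : swap b c * swap a c * (swap b c)⁻¹ = swap a b := by
      rw [conj_swap, swap_apply_of_ne_of_ne ab ac, swap_apply_right]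
    rw [← e4]
    simp [mul_assoc]

section

variable {F Y : Type} [Group F] [MulAction F Y]

theorem mem_rsupp_elRel {d : Set Y} {γ : F} {i j : Pos} {x : Y × Pos} :
    x ∈ rsupp (elRel d γ i j) ↔ (x.1 ∈ d ∧ x.2 = i) ∨ (x.1 ∈ γ • d ∧ x.2 = j) := by
  constructor
  · rintro ⟨_, ⟨y, hy, rfl⟩, rfl | rfl⟩
    · exact Or.inl ⟨hy, rfl⟩
    · exact Or.inr ⟨⟨y, hy, rfl⟩, rfl⟩
  · obtain ⟨x, k⟩ := x
    rintro (⟨hy, rfl⟩ | ⟨⟨y, hy, rfl⟩, rfl⟩)
    · exact ⟨_, ⟨x, hy, rfl⟩, Or.inl rfl⟩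
    · exact ⟨_, ⟨y, hy, rfl⟩, Or.inr rfl⟩

theorem isMatch_elRel {d : Set Y} {γ : F} {i j : Pos} (h : i ≠ j ∨ Disjoint d (γ • d)) :
    IsMatch (elRel d γ i j) := by
  constructor
  · rintro _ ⟨y, -, rfl⟩ _ ⟨z, -, rfl⟩
    simp
  · rintro _ ⟨y, hy, rfl⟩ _ ⟨z, hz, rfl⟩ he
    simp only [Prod.mk.injEq] at he
    rcases h with h | h
    · exact h he.2
    · exact Set.disjoint_left.1 h hy ⟨z, hz, he.1.symm⟩

theorem disjoint_of_isMatch {d : Set Y} {γ : F} {i : Pos} (h : IsMatch (elRel d γ i i)) :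
    Disjoint d (γ • d) := by
  rw [Set.disjoint_left]
  rintro y hy ⟨z, hz, rfl⟩
  exact h.2 _ ⟨_, hy, rfl⟩ _ ⟨z, hz, rfl⟩ rfl

theorem image_elRel {d : Set Y} {γ α β : F} {i j i' j' : Pos} {u : Perm (Y × Pos)}
    (h1 : ∀ y ∈ d, u (y, i) = (α • y, i')) (h2 : ∀ y ∈ d, u (γ • y, j) = (β • γ • y, j')) :
    Prod.map u u '' elRel d γ i j = elRel (α • d) (β * γ * α⁻¹) i' j' := by
  ext p
  constructor
  · rintro ⟨_, ⟨y, hy, rfl⟩, rfl⟩
    refine ⟨α • y, ⟨y, hy, rfl⟩, ?_⟩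
    simp [h1 y hy, h2 y hy, mul_smul]
  · rintro ⟨_, ⟨y, hy, rfl⟩, rfl⟩
    refine ⟨_, ⟨y, hy, rfl⟩, ?_⟩
    simp [h1 y hy, h2 y hy, mul_smul]

theorem cnd_swap (F : Type) [Group F] [MulAction F Y] (d : Set Y) {i j : Pos} (h : i ≠ j) :
    cnd d (swap i j) = swapR (elRel d (1 : F) i j) := by
  refine eq_swapR (isMatch_elRel (Or.inl h)) ?_ ?_ ?_
  · rintro _ ⟨y, hy, rfl⟩
    simp [cnd_apply_mem _ hy]
  · rintro _ ⟨y, hy, rfl⟩
    simp [cnd_apply_mem _ hy]
  · rintro ⟨y, k⟩ hx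
    rw [mem_rsupp_elRel, one_smul] at hx
    by_cases hy : y ∈ d
    · rw [cnd_apply_mem _ hy, swap_apply_of_ne_of_ne]
      · exact fun e => hx (Or.inl ⟨hy, e⟩)
      · exact fun e => hx (Or.inr ⟨hy, e⟩)
    · exact cnd_apply_not_mem _ hy _

theorem Lab_conj_cnd (d : Set Y) (γ : F) (v : Pos → F) (π : Perm Pos)
    (h : ∀ i ∈ π.support, v i = γ) :
    Lab F Y v * cnd d π * (Lab F Y v)⁻¹ = cnd (γ • d) π := by
  rw [mul_inv_eq_iff_eq_mul]
  refine Equiv.ext fun ⟨y, k⟩ => ?_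
  simp only [Perm.mul_apply, Lab_apply]
  by_cases hk : k ∈ π.support
  · have hk' := Perm.apply_mem_support.2 hk
    by_cases hy : y ∈ d
    · rw [cnd_apply_mem _ hy, cnd_apply_mem, h _ hk, h _ hk']
      rw [h _ hk]; exact ⟨y, hy, rfl⟩
    · rw [cnd_apply_not_mem _ hy, cnd_apply_not_mem]
      rw [h _ hk]; simpa using hy
  · rw [Perm.notMem_support] at hk
    have e : ∀ (d : Set Y) (y : Y), cnd d π (y, k) = (y, k) := fun d y => by
      by_cases hy : y ∈ d
      · rw [cnd_apply_mem _ hy, hk]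
      · exact cnd_apply_not_mem _ hy _
    rw [e, e]

theorem cnd_compl (d : Set Y) (π : Perm Pos) :
    cnd dᶜ π = (cnd d π)⁻¹ * cnd Set.univ π := by
  rw [eq_inv_mul_iff_mul_eq]
  refine Equiv.ext fun ⟨y, k⟩ => ?_
  by_cases hy : y ∈ d
  · simp [cnd, hy]
  · simp [cnd, hy]

theorem cnd_union {d d' : Set Y} (h : Disjoint d d') (π : Perm Pos) :
    cnd (d ∪ d') π = cnd d π * cnd d' π := by
  refine Equiv.ext fun ⟨y, k⟩ => ?_
  by_cases hy : y ∈ d
  · have := Set.disjoint_left.1 h hy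
    simp [cnd, hy, this]
  · by_cases hy' : y ∈ d' <;> simp [cnd, hy, hy']

theorem cnd_inter (d d' : Set Y) (ρ σ : Perm Pos) :
    cnd (d ∩ d') (ρ * σ * ρ⁻¹ * σ⁻¹) = cnd d ρ * cnd d' σ * (cnd d ρ)⁻¹ * (cnd d' σ)⁻¹ := by
  rw [← map_inv, ← map_inv]
  refine Equiv.ext fun ⟨y, k⟩ => ?_
  by_cases hy : y ∈ d <;> by_cases hy' : y ∈ d' <;> simp [cnd, hy, hy']

theorem cnd_empty (π : Perm Pos) : cnd (∅ : Set Y) π = 1 := by
  refine Equiv.ext fun ⟨y, k⟩ => ?_
  simp [cnd]

end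

variable {Sg J Y : Type} [MulAction (FreeGroup Sg) Y] {e : J → Set Y}

theorem swapR_mem_EP {d : Set Y} (hd : Defn (FreeGroup Sg) e d) {γ : FreeGroup Sg} {i j : Pos}
    {P : Finset Pos} (hi : i ∈ P) (hj : j ∈ P) (hm : IsMatch (elRel d γ i j)) :
    swapR (elRel d γ i j) ∈ EP Sg e P :=
  Subgroup.subset_closure ⟨d, γ, i, hi, j, hj, hd, hm, rfl⟩

theorem Lab_single_mem_AP {P : Finset Pos} {i : Pos} (hi : i ∈ P) (γ : FreeGroup Sg) :
    Lab (FreeGroup Sg) Y (Pi.mulSingle i γ) ∈ AP Sg e P := by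
  induction γ using FreeGroup.induction_on with
  | C1 => rw [Pi.mulSingle_one, map_one]; exact one_mem _
  | of s => exact Subgroup.subset_closure (Or.inl (Or.inl ⟨i, hi, s, rfl⟩))
  | inv_of s h => rw [Pi.mulSingle_inv, map_inv]; exact inv_mem h
  | mul x y hx hy => rw [Pi.mulSingle_mul, map_mul]; exact mul_mem hx hy

theorem Lab_mem_AP {P : Finset Pos} (v : Pos → FreeGroup Sg) (hv : ∀ i, i ∉ P → v i = 1) :
    Lab (FreeGroup Sg) Y v ∈ AP Sg e P :=
  Submonoid.pi_mem_of_mulSingle_mem_aux P (H := (AP Sg e P).comap (Lab (FreeGroup Sg) Y)) v hv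
    fun _ hi => Lab_single_mem_AP hi _

theorem cnd_univ_mem_AP {P : Finset Pos} {π : Perm Pos} (h : π.support ⊆ P) :
    cnd Set.univ π ∈ AP Sg e P :=
  Subgroup.subset_closure (Or.inl (Or.inr ⟨π, h, rfl⟩))

theorem cnd_three_mem_AP {P : Finset Pos} (hP : 5 ≤ P.card) {d : Set Y}
    (hd : Defn (FreeGroup Sg) e d) (τ : T3) (hτ : τ.1.support ⊆ P) : cnd d τ.1 ∈ AP Sg e P := by
  obtain ⟨t, rfl⟩ := hd
  induction t generalizing τ with
  | top => exact cnd_univ_mem_AP hτ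
  | basic j => exact Subgroup.subset_closure (Or.inr ⟨j, τ, hτ, rfl⟩)
  | act γ t ih =>
    have hv : Lab (FreeGroup Sg) Y (fun i => if i ∈ P then γ else 1) ∈ AP Sg e P :=
      Lab_mem_AP _ fun i hi => if_neg hi
    have := Lab_conj_cnd (t.eval e) γ (fun i => if i ∈ P then γ else 1) τ.1
      fun i hi => if_pos (hτ hi)
    rw [Tm.eval, ← this]
    exact mul_mem (mul_mem hv (ih τ hτ)) (inv_mem hv)
  | inf s t ihs iht =>
    obtain ⟨ρ, σ, hρ, hσ, h⟩ := exists_comm τ hτ hP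
    show cnd (s.eval e ∩ t.eval e) τ.1 ∈ _
    rw [h, cnd_inter]
    exact mul_mem (mul_mem (mul_mem (ihs ρ hρ) (iht σ hσ)) (inv_mem (ihs ρ hρ)))
      (inv_mem (iht σ hσ))
  | compl t ih =>
    rw [Tm.eval, cnd_compl]
    exact mul_mem (inv_mem (ih τ hτ)) (cnd_univ_mem_AP hτ)

theorem halvable_swap {P : Finset Pos} (hP : 5 ≤ P.card) {k l : Pos} (hk : k ∈ P) (hl : l ∈ P)
    (hkl : k ≠ l) {d : Set Y} (hd : Halvable Sg e d) : cnd d (swap k l) ∈ AP Sg e P := by
  induction hd with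
  | empty => rw [cnd_empty]; exact one_mem _
  | union d d' _ _ h ih ih' => rw [cnd_union h]; exact mul_mem ih ih'
  | pair d γ hd h =>
    obtain ⟨i, hi, j, hj, hi', hj', hij⟩ := exists_two (P := P) (Q := {k, l})
      (by rw [Finset.card_pair hkl]; omega)
    simp only [Finset.mem_insert, Finset.mem_singleton, not_or] at hi' hj'
    have h1 : cnd d (swap i j) * cnd d (swap k l) ∈ AP Sg e P := by
      have a1 := cnd_three_mem_AP hP hd (cyc hij.symm hj'.1 hi'.1)
        ((support_swap_swap hij.symm hi'.1).trans (by simp [Finset.insert_subset_iff, *]))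
      have a2 := cnd_three_mem_AP hP hd (cyc hi'.1 hi'.2 hkl)
        ((support_swap_swap hi'.1 hkl).trans (by simp [Finset.insert_subset_iff, *]))
      have a3 := mul_mem a1 a2
      rw [cyc_val, cyc_val, ← map_mul, mul_assoc, ← mul_assoc (swap i k), swap_mul_self, one_mul,
        map_mul, swap_comm j i] at a3
      exact a3
    obtain ⟨v, hv⟩ : ∃ v : Pos → FreeGroup Sg, v = fun x => if x ∈ ({k, l} : Finset Pos) then γ
      else 1 := ⟨_, rfl⟩
    have hv1 : Lab (FreeGroup Sg) Y v ∈ AP Sg e P := Lab_mem_AP _ fun x hx => by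
      rw [hv]
      refine if_neg fun hx' => hx ?_
      simp only [Finset.mem_insert, Finset.mem_singleton] at hx'
      rcases hx' with rfl | rfl <;> assumption
    have e1 := Lab_conj_cnd d γ v (swap k l) fun x hx => by
      rw [Perm.support_swap hkl] at hx
      rw [hv]; exact if_pos hx
    have e2 := Lab_conj_cnd d 1 v (swap i j) fun x hx => by
      rw [Perm.support_swap hij] at hx
      rw [hv]
      refine if_neg ?_
      simp only [Finset.mem_insert, Finset.mem_singleton, not_or] at hx ⊢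
      rcases hx with rfl | rfl <;> assumption
    rw [one_smul] at e2
    have h2 := mul_mem (mul_mem hv1 h1) (inv_mem hv1)
    have e3 : Lab (FreeGroup Sg) Y v * (cnd d (swap i j) * cnd d (swap k l)) *
        (Lab (FreeGroup Sg) Y v)⁻¹ = cnd d (swap i j) * cnd (γ • d) (swap k l) := by
      rw [← e1]
      conv_rhs => rw [← e2]
      group
    rw [e3] at h2
    have h3 := mul_mem (inv_mem h1) h2
    rw [cnd_union h]
    have e4 : (cnd d (swap k l))⁻¹ = cnd d (swap k l) := by rw [← map_inv, swap_inv]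
    rwa [mul_inv_rev, mul_assoc, inv_mul_cancel_left, e4] at h3

end PA

open PA

variable {Sg J Y : Type} [MulAction (FreeGroup Sg) Y] {e : J → Set Y}

theorem cnd_mem_EP {d : Set Y} (hd : Defn (FreeGroup Sg) e d) {π : Perm Pos} {P : Finset Pos}
    (hπ : π.support ⊆ P) : cnd d π ∈ EP Sg e P := by
  refine mem_of_swap ((EP Sg e P).comap (cnd d)) P (fun i hi j hj hij => ?_) π hπ
  rw [Subgroup.mem_comap, cnd_swap (FreeGroup Sg) d hij]
  exact swapR_mem_EP hd hi hj (isMatch_elRel (Or.inl hij))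

theorem AP_le_EP (h : InvH Sg e) (P : Finset Pos) : AP Sg e P ≤ EP Sg e P := by
  rw [AP, Subgroup.closure_le]
  rintro _ ((⟨i, hi, s, rfl⟩ | ⟨π, hπ, rfl⟩) | ⟨j, τ, hτ, rfl⟩)
  · obtain ⟨d, hd, h1, h2, h3⟩ := h s
    have hm : IsMatch (elRel d (FreeGroup.of s) i i) := isMatch_elRel (Or.inr h1)
    have : Lab (FreeGroup Sg) Y (Pi.mulSingle i (FreeGroup.of s)) =
        swapR (elRel d (FreeGroup.of s) i i) := by
      refine eq_swapR hm ?_ ?_ ?_
      · rintro _ ⟨y, hy, rfl⟩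
        simp
      · rintro _ ⟨y, hy, rfl⟩
        simp [h2 y hy]
      · rintro ⟨y, k⟩ hx
        rw [mem_rsupp_elRel] at hx
        by_cases hk : k = i
        · subst hk
          simp only [and_true, not_or] at hx
          simp [h3 y hx.1 hx.2]
        · simp [Pi.mulSingle_eq_of_ne hk]
    rw [SetLike.mem_coe, this]
    exact swapR_mem_EP hd hi hi hm
  · exact cnd_mem_EP Defn.univ hπ
  · exact cnd_mem_EP (Defn.basic j) hτ

theorem EP_le_AP (h : Half Sg e) {P : Finset Pos} (hP : 5 ≤ P.card) : EP Sg e P ≤ AP Sg e P := by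
  have key : ∀ (d : Set Y) (γ : FreeGroup Sg) (i j : Pos), i ∈ P → j ∈ P → i ≠ j →
      Defn (FreeGroup Sg) e d → swapR (elRel d γ i j) ∈ AP Sg e P := by
    intro d γ i j hi hj hij hd
    have h1 := halvable_swap hP hi hj hij (h d hd)
    have h2 : Lab (FreeGroup Sg) Y (Pi.mulSingle j γ) ∈ AP Sg e P := Lab_single_mem_AP hj γ
    have h3 := mul_mem (mul_mem h2 h1) (inv_mem h2)
    rw [cnd_swap (FreeGroup Sg) d hij, conj_swapR (isMatch_elRel (Or.inl hij)),
      image_elRel (α := 1) (β := γ) (i' := i) (j' := j)] at h3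
    · simpa using h3
    · intro y _
      simp [Pi.mulSingle_eq_of_ne hij]
    · intro y _
      simp
  rw [EP, Subgroup.closure_le]
  rintro _ ⟨d, γ, i, hi, j, hj, hd, hm, rfl⟩
  by_cases hij : i = j
  · subst hij
    obtain ⟨k, hk, -, -, hk', -⟩ := exists_two (P := P) (Q := {i})
      (by rw [Finset.card_singleton]; omega)
    rw [Finset.mem_singleton] at hk'
    have h1 := key d γ k i hk hi hk' hd
    have h2 := halvable_swap hP hk hi hk' (h d hd)
    have h3 := mul_mem (mul_mem h2 h1) (inv_mem h2)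
    rw [conj_swapR (isMatch_elRel (Or.inl hk')),
      image_elRel (α := 1) (β := 1) (i' := i) (j' := i)] at h3
    · simpa using h3
    · intro y hy
      simp [cnd_apply_mem _ hy]
    · intro y hy
      rw [cnd_apply_not_mem, one_smul]
      exact Set.disjoint_right.1 (disjoint_of_isMatch hm) ⟨y, hy, rfl⟩
  · exact key d γ i j hi hj hij hd

end Vale.Agent.P193
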