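import Vale.Agent.P193.TensorB

/-! The group of rectangular swaps is perfect and simple. -/

namespace Vale.Agent.P193

open Equiv Set
open scoped commutatorElement

namespace TS

variable {X0 X : Type} (T : TS X0 X)

theorem RA_perfect : Group.IsPerfect T.RA := by
  rw [Subgroup.isPerfect_iff]
  refine le_antisymm (Subgroup.commutator_le.2 fun g hg h hh => T.RA.mul_mem
    (T.RA.mul_mem (T.RA.mul_mem hg hh) (T.RA.inv_mem hg)) (T.RA.inv_mem hh))
    (RA_le fun e g a b h => ?_)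
  rw [h.sw_comm]
  exact Subgroup.commutator_mem_commutator (h.app _ _).mem h.kap_mem

/-- `S` contains a rectangle around `p` -/
def Nb (p : X) (S : Set X) : Prop := ∃ e ∈ T.B, ∃ a, p ∈ T.rect e a ∧ T.rect e a ⊆ S

variable {T} {e e' f : Set X0} {g g' : Perm X0} {a b a' b' : List Bool}

theorem Nb.mono {p : X} {S S' : Set X} (h : T.Nb p S) (hs : S ⊆ S') : T.Nb p S' := by
  obtain ⟨e, he, a, h1, h2⟩ := h
  exact ⟨e, he, a, h1, h2.trans hs⟩

theorem Nb.inter {p : X} {S S' : Set X} (h : T.Nb p S) (h' : T.Nb p S') : T.Nb p (S ∩ S') := by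
  obtain ⟨e, he, a, h1, h2⟩ := h
  obtain ⟨e', he', a', h1', h2'⟩ := h'
  wlog hl : a.length ≤ a'.length generalizing e e' a a' S S'
  · rw [inter_comm]
    exact this e' he' a' h1' h2' e he a h1 h2 (by omega)
  obtain ⟨x, hx, n, rfl⟩ := h1
  obtain ⟨hx', m, hm⟩ := mem_rect.1 h1'
  obtain ⟨c, rfl, -⟩ := pw_cmp hm hl
  exact ⟨e ∩ e', T.B.inf_mem he he', a ++ c, mem_rect.2 ⟨⟨hx, hx'⟩, m, hm⟩,
    subset_inter ((rect_mono inter_subset_left _ _).trans h2)
      ((rect_mono_left inter_subset_right _).trans h2')⟩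

theorem nb_compl {p : X} (he : e ∈ T.B) (hp : p ∉ T.rect e a) : T.Nb p (T.rect e a)ᶜ := by
  obtain ⟨x, n, rfl⟩ := T.exists_co p
  by_cases hx : x ∈ e
  · obtain ⟨c, m, hc, rfl⟩ := exists_pw a.length n
    have hne : c ≠ a := fun h => hp (h ▸ mem_rect_self hx m)
    exact ⟨univ, T.B.top_mem, c, mem_rect_self (mem_univ x) m,
      (disj_of_dis (dis_of_ne hc hne) _ _).subset_compl_right⟩
  · exact ⟨eᶜ, T.B.compl_mem he, [], mem_rect.2 ⟨hx, n, rfl⟩,
      (disj_of_set disjoint_compl_left _ _).subset_compl_right⟩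

theorem Ok.nb_left (h : T.Ok e g a b) {p : X} (hp : p ∈ T.rect e a) {S : Set X}
    (hS : T.Nb (T.sw e g a b p) S) : T.Nb p (T.sw e g a b ⁻¹' S) := by
  obtain ⟨x, hx, n, rfl⟩ := hp
  obtain ⟨e', he', c, h1, h2⟩ := hS
  rw [h.left hx] at h1
  obtain ⟨hx', k, hk⟩ := mem_rect.1 h1
  obtain ⟨d, m, hd, rfl⟩ := exists_pw c.length n
  rw [← pw_append] at hk
  obtain ⟨r, hr, -⟩ := pw_cmp hk.symm (by simp [hd])
  refine ⟨e ∩ (g⁻¹ : Perm X0) '' e', T.B.inf_mem h.he (T.inv _ (T.Γ.inv_mem h.hg) _ he'), a ++ d,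
    ⟨x, ⟨hx, g x, hx', by simp⟩, m, by rw [pw_append]⟩, ?_⟩
  rintro _ ⟨y, ⟨hy, z, hz, rfl⟩, l, rfl⟩
  refine h2 ?_
  rw [pw_append, h.left hy, ← pw_append, hr, pw_append]
  exact mem_rect_self (by simpa using hz) _

theorem nb_preimage {u : Perm X} (hu : u ∈ T.RA) : ∀ p S, T.Nb (u p) S → T.Nb p (u ⁻¹' S) := by
  refine RA_ind (P := fun u => ∀ p S, T.Nb (u p) S → T.Nb p (u ⁻¹' S)) (fun p S h => h)
    (fun e g a b u h _ ih p S hS => ?_) u hu
  refine ih p (T.sw e g a b ⁻¹' S) ?_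
  rw [Perm.mul_apply] at hS
  generalize u p = q at hS
  by_cases h1 : q ∈ T.rect e a
  · exact h.nb_left h1 hS
  by_cases h2 : q ∈ T.rect (g '' e) b
  · rw [← h.sw_symm] at hS ⊢
    exact h.symm.nb_left h2 hS
  rw [sw_other h1 h2] at hS
  refine (hS.inter ((nb_compl h.he h1).inter (nb_compl h.img h2))).mono fun y hy => ?_
  rw [mem_preimage, sw_other hy.2.1 hy.2.2]
  exact hy.1

theorem exists_rect_sep (hs : T.Sep) {p q : X} (h : p ≠ q) :
    ∃ e ∈ T.B, ∃ a, q ∈ T.rect e a ∧ p ∉ T.rect e a := by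
  obtain ⟨x, n, rfl⟩ := T.exists_co p
  obtain ⟨y, m, rfl⟩ := T.exists_co q
  by_cases hxy : y = x
  · subst hxy
    obtain ⟨a, k, h1, h2⟩ := exists_sep_word (show n ≠ m from fun e => h (by rw [e]))
    exact ⟨univ, T.B.top_mem, a, mem_rect.2 ⟨mem_univ _, k, h1⟩,
      fun hp => (mem_rect.1 hp).2.elim h2⟩
  · obtain ⟨e, he, h1, h2⟩ := hs y x hxy
    exact ⟨e, he, [], mem_rect.2 ⟨h1, m, rfl⟩, fun hp => h2 (mem_rect.1 hp).1⟩

theorem commute_of_supp {u v : Perm X} {S : Set X} (hu : ∀ p ∉ S, u p = p)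
    (hv : ∀ p ∈ S, v p = p) : Commute u v :=
  Perm.Disjoint.commute fun p => (em (p ∈ S)).symm.imp (hu p) (hv p)

theorem comm_mem {N : Subgroup (Perm X)} (hN : ∀ g ∈ T.RA, ∀ n ∈ N, g * n * g⁻¹ ∈ N)
    {u : Perm X} (hu : u ∈ N) {R : Set X} (hR : ∀ p ∈ R, u p ∉ R) {v w : Perm X} (hv : v ∈ T.RA)
    (hw : w ∈ T.RA) (hv' : ∀ p ∉ R, v p = p) (hw' : ∀ p ∉ R, w p = p) : ⁅v, w⁆ ∈ N := by
  have h1 : v * u * v⁻¹ * u⁻¹ ∈ N := N.mul_mem (hN v hv u hu) (N.inv_mem hu)
  have h2 := N.mul_mem h1 (hN w hw _ (N.inv_mem h1))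
  have h3 : Commute w (u * v * u⁻¹) := commute_of_supp hw' fun p hp => by
    have : u⁻¹ p ∉ R := fun h => hR _ h (by simpa using hp)
    simp only [Perm.mul_apply, hv' _ this]
    simp
  have h4 : v * u * v⁻¹ * u⁻¹ * (w * (v * u * v⁻¹ * u⁻¹)⁻¹ * w⁻¹) =
      v * ((u * v * u⁻¹)⁻¹ * (w * (u * v * u⁻¹))) * v⁻¹ * w⁻¹ := by group
  rw [h4, h3.eq, inv_mul_cancel_left] at h2
  exact h2

theorem exists_avoid (r a : List Bool) (h : r.length + 2 ≤ a.length) :
    ∃ A : Bool × Bool, ∀ C : Bool × Bool, C ≠ A → Dis a (r ++ [C.1, C.2]) := by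
  by_cases h1 : ∀ C : Bool × Bool, Dis a (r ++ [C.1, C.2])
  · exact ⟨(true, true), fun C _ => h1 C⟩
  obtain ⟨A, hA⟩ := not_forall.1 h1
  simp only [Dis, not_forall, not_not] at hA
  obtain ⟨n, m, hA⟩ := hA
  obtain ⟨c, rfl, -⟩ := pw_cmp hA.symm (by simpa using h)
  refine ⟨A, fun C hC => ?_⟩
  have := ((dis_of_ne (a := [A.1, A.2]) (b := [C.1, C.2]) rfl fun e => hC (by
    simp only [List.cons.injEq, and_true] at e
    exact Prod.ext e.1.symm e.2.symm)).left r).append c []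
  rwa [List.append_nil] at this

theorem exists_two (A B : Bool × Bool) :
    ∃ C C' : Bool × Bool, C ≠ C' ∧ C ≠ A ∧ C ≠ B ∧ C' ≠ A ∧ C' ≠ B := by
  revert A B
  decide

theorem sw_mem_of_digit {N : Subgroup (Perm X)} (k : ℕ) (h : T.Ok e g a b)
    (hk : ∀ c : List Bool, c.length = k → T.sw e g (a ++ c) (b ++ c) ∈ N) : T.sw e g a b ∈ N := by
  induction k generalizing a b with
  | zero => simpa using hk [] rfl
  | succ k ih =>
    rw [h.sw_digit]
    refine N.mul_mem (ih (h.app _ _) fun c hc => ?_) (ih (h.app _ _) fun c hc => ?_)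
    · simpa using hk (false :: c) (by simp [hc])
    · simpa using hk (true :: c) (by simp [hc])

theorem sw_mem_of_cover {N : Subgroup (Perm X)} (l : List (Set X0)) (hl : ∀ f ∈ l, f ∈ T.B)
    (h : T.Ok e g a b) (hc : ∀ x ∈ e, ∃ f ∈ l, x ∈ f)
    (hk : ∀ e' ∈ T.B, e' ⊆ e → ∀ f ∈ l, e' ⊆ f → T.sw e' g a b ∈ N) : T.sw e g a b ∈ N := by
  induction l generalizing e with
  | nil =>
    have : e = ∅ := eq_empty_of_forall_notMem fun x hx => by simpa using hc x hx
    rw [this, sw_empty]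
    exact N.one_mem
  | cons f l ih =>
    have hf := hl f List.mem_cons_self
    rw [h.sw_split f]
    refine N.mul_mem (hk _ (h.inter hf).he inter_subset_left f List.mem_cons_self
      inter_subset_right) (ih (fun f' hf' => hl f' (List.mem_cons_of_mem _ hf')) (h.diff hf)
        (fun x hx => ?_) fun e' he' hs f' hf' =>
          hk e' he' (hs.trans sdiff_subset) f' (List.mem_cons_of_mem _ hf'))
    obtain ⟨f', hf', hx'⟩ := hc x hx.1
    rcases List.mem_cons.1 hf' with rfl | hf'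
    · exact (hx.2 hx').elim
    · exact ⟨f', hf', hx'⟩

theorem le_of_normal (hm : T.Min) (hs : T.Sep) {N : Subgroup (Perm X)}
    (hN : ∀ g ∈ T.RA, ∀ n ∈ N, g * n * g⁻¹ ∈ N) {u : Perm X} (hu : u ∈ N) (hu' : u ∈ T.RA)
    (h1 : u ≠ 1) : T.RA ≤ N := by
  obtain ⟨p, hp⟩ : ∃ p, p ≠ u p := by
    by_contra h
    push Not at h
    exact h1 (Equiv.ext fun p => (h p).symm)
  obtain ⟨e1, he1, a1, h2, h3⟩ := exists_rect_sep hs hp
  obtain ⟨e0, he0, r, hp0, hR⟩ := (nb_compl he1 h3).inter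
    (nb_preimage hu' p _ ⟨e1, he1, a1, h2, subset_rfl⟩)
  have hR' : ∀ q ∈ T.rect e0 r, u q ∉ T.rect e0 r := fun q hq hq' => (hR hq').1 (hR hq).2
  have small : ∀ e g a b, T.Ok e g a b → T.rect e a ⊆ T.rect e0 r →
      T.rect (g '' e) b ⊆ T.rect e0 r → T.sw e g a b ∈ N := by
    intro e g a b h ha hb
    rw [h.sw_comm]
    exact comm_mem hN hu hR' (h.app _ _).mem h.kap_mem
      (fun q hq => sw_other (fun h => hq (ha (rect_app _ _ _ h)))
        fun h => hq (hb (rect_app _ _ _ h)))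
      fun q hq => kap_other (fun h => hq (ha h)) fun h => hq (hb h)
  obtain ⟨l, hl, hcov⟩ := hm e0 he0 (by
    obtain ⟨x, hx, -⟩ := hp0
    exact ⟨x, hx⟩)
  refine RA_le fun e g a b h => sw_mem_of_digit (r.length + 2) h fun c hc => ?_
  obtain ⟨A, hA⟩ := exists_avoid r (a ++ c) (by simp [hc])
  obtain ⟨B, hB⟩ := exists_avoid r (b ++ c) (by simp [hc])
  obtain ⟨C, C', h4, h5, h6, h7, h8⟩ := exists_two A B
  have h' := h.app c c
  generalize a ++ c = a at hA h'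
  generalize b ++ c = b at hB h'
  refine sw_mem_of_cover (l.map Prod.fst) (by simpa using fun f γ hf => (hl _ hf).1) h'
    (fun x _ => by simpa using hcov x) fun e2 he2 hs2 f hf hf2 => ?_
  obtain ⟨q, hq, rfl⟩ := List.mem_map.1 hf
  refine sw_mem_of_cover (l.map fun q => (g⁻¹ : Perm X0) '' q.1) (fun f hf => ?_) (h'.sub he2 hs2)
    (fun x _ => ?_) fun e3 he3 hs3 f hf hf3 => ?_
  · obtain ⟨q, hq, rfl⟩ := List.mem_map.1 hf
    exact T.inv _ (T.Γ.inv_mem h.hg) _ (hl q hq).1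
  · obtain ⟨q, hq, hx⟩ := hcov (g x)
    exact ⟨_, List.mem_map.2 ⟨q, hq, rfl⟩, g x, hx, by simp⟩
  obtain ⟨q', hq', rfl⟩ := List.mem_map.1 hf
  have h3 := h'.sub he3 (hs3.trans hs2)
  have k1 : T.Ok e3 q.2 a (r ++ [C.1, C.2]) := ok_of_dis he3 (hl q hq).2.1 (hA C h5)
  have k2 : T.Ok (g '' e3) q'.2 b (r ++ [C'.1, C'.2]) := ok_of_dis h3.img (hl q' hq').2.1 (hB C' h8)
  have dCC : Dis (r ++ [C.1, C.2]) (r ++ [C'.1, C'.2]) :=
    (dis_of_ne (a := [C.1, C.2]) (b := [C'.1, C'.2]) rfl fun e => h4 (by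
      simp only [List.cons.injEq, and_true] at e
      exact Prod.ext e.1 e.2)).left r
  have hc := h3.conj (u := T.sw e3 q.2 a (r ++ [C.1, C.2]) *
      T.sw (g '' e3) q'.2 b (r ++ [C'.1, C'.2])) (s := q.2) (g' := q'.2 * g * q.2⁻¹)
    (a' := r ++ [C.1, C.2]) (b' := r ++ [C'.1, C'.2])
    (fun x hx n => by
      rw [Perm.mul_apply, sw_other (Set.disjoint_left.1 h3.dj (mem_rect_self hx n))
        (Set.disjoint_left.1 (disj_of_dis (hA C' h7) _ _) (mem_rect_self hx n)), k1.left hx])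
    (fun x hx n => by
      have hx' : q'.2 (g x) ∈ q'.2 '' (g '' e3) := ⟨_, ⟨x, hx, rfl⟩, rfl⟩
      rw [Perm.mul_apply, k2.left ⟨x, hx, rfl⟩,
        sw_other (Set.disjoint_right.1 (disj_of_dis (hA C' h7) _ _) (mem_rect_self hx' n))
          (Set.disjoint_right.1 (disj_of_dis dCC _ _) (mem_rect_self hx' n))]
      simp)
  have hmem := T.RA.mul_mem k1.mem k2.mem
  have h9 := small _ _ _ _ (ok_of_dis k1.img (T.Γ.mul_mem (T.Γ.mul_mem k2.hg h.hg)
    (T.Γ.inv_mem k1.hg)) dCC)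
    (rect_mono ((image_mono (hs3.trans hf2)).trans (hl q hq).2.2) _ _)
    (rect_mono (by
      rintro _ ⟨_, ⟨x, hx, rfl⟩, rfl⟩
      obtain ⟨y, hy, hxy⟩ := hf3 hx
      exact (hl q' hq').2.2 ⟨y, hy, by simp [← hxy]⟩) _ _)
  rw [← hc] at h9
  have := hN _ (T.RA.inv_mem hmem) _ h9
  simpa [mul_assoc] using this

variable (T)

theorem RA_nontrivial [Nonempty X0] : Nontrivial T.RA := by
  obtain ⟨x⟩ := ‹Nonempty X0›
  have h := ok_kap (T := T) T.B.top_mem []
  refine ⟨⟨_, h.mem⟩, 1, fun e => ?_⟩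
  have h1 := h.left (x := x) (mem_univ x) 0
  rw [show T.sw ⊤ 1 ([] ++ [false]) ([] ++ [true]) = 1 from Subtype.ext_iff.1 e] at h1
  exact dis_digit [] _ _ (Prod.mk.inj (T.co.injective h1)).2

theorem RA_simple [Nonempty X0] (hm : T.Min) (hs : T.Sep) : IsSimpleGroup T.RA := by
  have := T.RA_nontrivial
  refine ⟨fun N hN => ?_⟩
  rcases N.bot_or_exists_ne_one with h | ⟨u, hu, h1⟩
  · exact Or.inl h
  refine Or.inr (top_le_iff.1 fun g _ => ?_)
  have h2 := le_of_normal hm hs (N := N.map T.RA.subtype) (u := u) (by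
    rintro g hg _ ⟨n, hn, rfl⟩
    exact ⟨_, hN.conj_mem n hn ⟨g, hg⟩, rfl⟩) ⟨u, hu, rfl⟩ u.2 (fun e => h1 (Subtype.ext e)) g.2
  obtain ⟨n, hn, e⟩ := h2
  rwa [← Subtype.ext e]

theorem RA_center [Nonempty X0] (hm : T.Min) (hs : T.Sep) : Subgroup.center T.RA = ⊥ := by
  have := T.RA_simple hm hs
  have := T.RA_perfect
  refine (IsSimpleGroup.eq_bot_or_eq_top_of_normal (Subgroup.center T.RA)
    inferInstance).resolve_right fun h => Group.IsPerfect.not_isMulCommutative (G := T.RA) ?_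
  exact ⟨⟨fun a b => Subgroup.mem_center_iff.1 (h ▸ Subgroup.mem_top b) a⟩⟩

open Classical in
/-- the action of `G` on the rectangle `e × cone a` -/
noncomputable def qf {G : Type} [Group G] (ψ : G →* Perm X0) (e : Set X0) (a : List Bool) (g : G)
    (p : X) : X :=
  if p ∈ T.rect e a then T.co (ψ g (T.co.symm p).1, (T.co.symm p).2) else p

theorem qf_in {G : Type} [Group G] (ψ : G →* Perm X0) (g : G) {x : X0} (hx : x ∈ e) (n : ℕ) :
    T.qf ψ e a g (T.co (x, pw a n)) = T.co (ψ g x, pw a n) := by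
  rw [qf, if_pos (mem_rect_self hx n), Equiv.symm_apply_apply]

theorem qf_out {G : Type} [Group G] (ψ : G →* Perm X0) (g : G) {p : X} (hp : p ∉ T.rect e a) :
    T.qf ψ e a g p = p := if_neg hp

/-- the action on a rectangle as a homomorphism -/
noncomputable def qh {G : Type} [Group G] (ψ : G →* Perm X0) {e : Set X0}
    (hinv : ∀ g, ∀ x ∈ e, ψ g x ∈ e) (a : List Bool) : G →* Perm X :=
  MonoidHom.toHomPerm
    { toFun := fun g => (T.qf ψ e a g : Function.End X)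
      map_one' := funext fun p => by
        by_cases hp : p ∈ T.rect e a
        · obtain ⟨x, hx, n, rfl⟩ := hp
          rw [qf_in T ψ 1 hx, map_one]
          rfl
        · exact qf_out T ψ 1 hp
      map_mul' := fun g h => funext fun p => by
        show T.qf ψ e a (g * h) p = T.qf ψ e a g (T.qf ψ e a h p)
        by_cases hp : p ∈ T.rect e a
        · obtain ⟨x, hx, n, rfl⟩ := hp
          rw [qf_in T ψ _ hx, qf_in T ψ _ hx, qf_in T ψ _ (hinv h x hx), map_mul, Perm.mul_apply]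
        · rw [qf_out T ψ _ hp, qf_out T ψ _ hp, qf_out T ψ _ hp] }

theorem RA_embed {G : Type} [Group G] (ψ : G →* Perm X0) {e : Set X0} (he : e ∈ T.B)
    (hψ : ∀ g, ∃ γ ∈ T.Γ, ∀ x ∈ e, γ x = ψ g x) (hinv : ∀ g, ∀ x ∈ e, ψ g x ∈ e)
    (hf : ∀ g, (∀ x ∈ e, ψ g x = x) → g = 1) : ∃ f : G →* T.RA, Function.Injective f := by
  have hin : ∀ a g x, x ∈ e → ∀ n, T.qh ψ hinv a g (T.co (x, pw a n)) = T.co (ψ g x, pw a n) :=
    fun a g x hx n => qf_in T ψ g hx n
  have hout : ∀ a g p, p ∉ T.rect e a → T.qh ψ hinv a g p = p := fun a g p hp => qf_out T ψ g hp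
  have h1 : ∀ g a b, Dis a b → T.qh ψ hinv a g * (T.qh ψ hinv b g)⁻¹ ∈ T.RA := by
    intro g a b hab
    obtain ⟨γ, hγ, hγ'⟩ := hψ g
    have k1 : T.Ok e 1 b a := ok_of_dis he T.Γ.one_mem hab.symm
    have k2 : T.Ok e γ b a := ok_of_dis he hγ hab.symm
    have dj := Set.disjoint_left.1 (disj_of_dis (T := T) hab e e)
    have dj' := Set.disjoint_right.1 (disj_of_dis (T := T) hab e e)
    have e1 := k1.conj (u := T.qh ψ hinv a g) (s := id) (g' := γ) (a' := b) (b' := a)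
      (fun x hx n => hout _ _ _ (dj' (mem_rect_self hx n)))
      (fun x hx n => by rw [Perm.one_apply, hin _ _ _ hx, id, hγ' x hx])
    rw [image_id] at e1
    have e2 : T.sw e 1 b a * T.qh ψ hinv a g = T.qh ψ hinv b g * T.sw e 1 b a := by
      ext p
      simp only [Perm.mul_apply]
      by_cases hp : p ∈ T.rect e a
      · obtain ⟨x, hx, n, rfl⟩ := hp
        have r1 := k1.right hx n
        have r2 := k1.right (hinv g x hx) n
        rw [Perm.one_apply] at r1 r2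
        rw [hin _ _ _ hx, r1, r2, hin _ _ _ hx]
      by_cases hp' : p ∈ T.rect e b
      · obtain ⟨x, hx, n, rfl⟩ := hp'
        rw [hout _ _ _ hp, k1.left hx, Perm.one_apply, hout _ _ _ (dj (mem_rect_self hx n))]
      · rw [hout _ _ _ hp, sw_other hp' (by rwa [img_one]), hout _ _ _ hp']
    have e3 : T.qh ψ hinv a g * (T.qh ψ hinv b g)⁻¹ = T.sw e γ b a * (T.sw e 1 b a)⁻¹ := by
      rw [← e1, eq_mul_inv_of_mul_eq e2.symm, sw_inv]
      simp only [mul_inv_rev, sw_inv, mul_assoc]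
    rw [e3]
    exact T.RA.mul_mem k2.mem (T.RA.inv_mem k1.mem)
  have h2 : ∀ g a, T.qh ψ hinv a g =
      T.qh ψ hinv (a ++ [true]) g * T.qh ψ hinv (a ++ [false]) g := by
    intro g a
    have dj := Set.disjoint_left.1 (disj_of_dis (T := T) (dis_digit a) e e)
    have dj' := Set.disjoint_right.1 (disj_of_dis (T := T) (dis_digit a) e e)
    ext p
    rw [Perm.mul_apply]
    by_cases hp : p ∈ T.rect e a
    · obtain ⟨x, hx, n, rfl⟩ := hp
      rw [hin _ _ _ hx]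
      obtain ⟨d, m, rfl⟩ := exists_digit n
      rw [← pw_append]
      cases d
      · rw [hin _ _ _ hx, hout _ _ _ (dj (mem_rect_self (hinv g x hx) m))]
      · rw [hout _ _ _ (dj' (mem_rect_self hx m)), hin _ _ _ hx]
    · rw [hout _ _ _ hp, hout _ _ _ fun h => hp (rect_app _ _ _ h),
        hout _ _ _ fun h => hp (rect_app _ _ _ h)]
  have h3 : ∀ g, T.qh ψ hinv ([false] ++ [true]) g ∈ T.RA := by
    intro g
    have d1 : Dis [false] [true] := dis_digit []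
    have := T.RA.mul_mem (h1 g [false] [true] d1)
      (h1 g [true] ([false] ++ [false]) (d1.symm.append [] [false]))
    rw [h2 g [false]] at this
    simpa [mul_assoc] using this
  refine ⟨(T.qh ψ hinv ([false] ++ [true])).codRestrict T.RA h3,
    (injective_iff_map_eq_one _).2 fun g hg => hf g fun x hx => ?_⟩
  have h4 := hin ([false] ++ [true]) g x hx 0
  rw [show T.qh ψ hinv ([false] ++ [true]) g = 1 from Subtype.ext_iff.1 hg] at h4
  exact (Prod.mk.inj (T.co.injective h4)).1.symm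

end TS

end Vale.Agent.P193
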