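import Vale.Agent.P193.LinkB
import Vale.Agent.P193.PermL
import Vale.Agent.P193.TensorS

/-! The concrete permutation group as a group of rectangular swaps. -/

namespace Vale.Agent.P193

open Equiv
open scoped Pointwise

variable {G : Type} [Group G] {M : Mach G}

theorem conc_invH (hM : M.Good) : InvH (Option (Mv M)) (ce M) := by
  intro s
  cases s with
  | none =>
    have e : (FreeGroup.of none : FF M) • ce M .T = (ce M .T)ᶜ := (ax1_conc hM).flT
    refine ⟨ce M .T, Defn.basic _, ?_, fun y _ => of_of _ y, fun y h1 h2 => ?_⟩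
    · rw [e]; exact disjoint_compl_right
    · rw [e] at h2; exact absurd h1 h2
  | some σ =>
    refine ⟨ce M σ.dom, Defn.basic _, ?_, fun y _ => of_of _ y, fun y h1 h2 => ?_⟩
    · rw [Set.disjoint_left]
      rintro _ h1 ⟨y, hy, rfl⟩
      have h2 : (σ.ta • y).side = true := h1.1
      rw [σ.ta_smul_dom hM hy] at h2
      exact Bool.false_ne_true h2
    · refine σ.ta_smul_other hM h1 fun h3 => h2 ?_
      rw [← σ.w_dom hM, ← mul_smul] at h3
      obtain ⟨x, hx, rfl⟩ := h3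
      exact ⟨x, hx, by beta_reduce; rw [mul_smul, ← σ.ta_eq]; rfl⟩

theorem conc_half (hM : M.Good) : Half (Option (Mv M)) (ce M) := by
  intro d hd
  obtain ⟨k, hk⟩ := Rk.of_defn hM hd
  exact hk.halvable hM

/-! ### the tensor setting -/

/-- digit-free group elements together with position permutations -/
noncomputable def gam (M : Mach G) : F0 M × Perm Pos →* Perm (CZ M × Pos) where
  toFun p := Equiv.prodCongr (MulAction.toPerm p.1) p.2
  map_one' := by ext x : 1; simp [Prod.map]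
  map_mul' p q := by ext x : 1; simp [mul_smul, Prod.map]

@[simp] theorem gam_apply (g : F0 M) (π : Perm Pos) (z : CZ M) (i : Pos) :
    gam M (g, π) (z, i) = (g • z, π i) := rfl

/-- the section of a set at a position -/
def sec (e : Set (CZ M × Pos)) (i : Pos) : Set (CZ M) := {z | (z, i) ∈ e}

/-- sets with definable sections -/
def defB (M : Mach G) : BooleanSubalgebra (Set (CZ M × Pos)) where
  carrier := {e | ∀ i, DI (sec e i)}
  supClosed' _ h _ h' i := (h i).union (h' i)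
  infClosed' _ h _ h' i := (h i).inter (h' i)
  compl_mem' h i := (h i).compl
  bot_mem' _ := DI.empty

theorem sec_image (g : F0 M) (π : Perm Pos) (e : Set (CZ M × Pos)) (j : Pos) :
    sec (gam M (g, π) '' e) j = g • sec e (π⁻¹ j) := by
  ext z
  constructor
  · rintro ⟨⟨z', i⟩, h, k⟩
    obtain ⟨rfl, rfl⟩ := Prod.mk.inj k
    exact ⟨z', by simpa [sec] using h, rfl⟩
  · rintro ⟨z', h, rfl⟩
    exact ⟨(z', π⁻¹ j), h, by simp⟩

/-- the tensor setting of the concrete model -/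
noncomputable def cTS (M : Mach G) : TS (CZ M × Pos) (CY M × Pos) where
  co :=
    { toFun := fun p => (zmk p.1.1 p.2, p.1.2)
      invFun := fun p => ((zpr p.1, p.2), p.1.n)
      left_inv := fun _ => rfl
      right_inv := fun _ => rfl }
  B := defB M
  Γ := (gam M).range
  inv := by
    rintro _ ⟨⟨g, π⟩, rfl⟩ e he j
    rw [sec_image]
    exact (he _).smul g

theorem cTS_co (z : CZ M) (i : Pos) (n : ℕ) : (cTS M).co ((z, i), n) = (zmk z n, i) := rfl

theorem gam_mem (g : F0 M) (π : Perm Pos) : gam M (g, π) ∈ (cTS M).Γ := ⟨_, rfl⟩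

theorem prod_mem {D : Set (CZ M)} (h : DI D) (S : Set Pos) : D ×ˢ S ∈ (cTS M).B := by
  intro i
  by_cases hi : i ∈ S
  · have : sec (D ×ˢ S) i = D := by ext z; simp [sec, hi]
    rw [this]; exact h
  · have : sec (D ×ˢ S) i = ∅ := by ext z; simp [sec, hi]
    rw [this]; exact DI.empty

theorem RA_le_EP (hM : M.Good) : (cTS M).RA ≤ EP (Option (Mv M)) (ce M) Finset.univ := by
  refine TS.RA_le fun e γ a b h => ?_
  obtain ⟨⟨g, π⟩, rfl⟩ := h.hg
  refine TS.sw_mem_of_cover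
    ((Finset.univ : Finset (Bool × Bool × Pos)).toList.map fun p =>
      (zside M p.1 ∩ g⁻¹ • zside M p.2.1) ×ˢ {p.2.2}) ?_ h ?_ ?_
  · intro f hf
    obtain ⟨p, -, rfl⟩ := List.mem_map.1 hf
    exact prod_mem ((DI.side _).inter ((DI.side _).smul _)) _
  · rintro ⟨z, i⟩ -
    exact ⟨_, List.mem_map.2 ⟨(z.2, (g • z).2, i), by simp, rfl⟩,
      ⟨rfl, Set.mem_inv_smul_set_iff.2 rfl⟩, rfl⟩
  · intro e' he' hs f hf hs'
    obtain ⟨⟨sd, sd', i⟩, -, rfl⟩ := List.mem_map.1 hf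
    obtain ⟨u, hu⟩ := exists_dw hM sd a
    obtain ⟨v, hv⟩ := exists_dw hM sd' b
    have key : ∀ z ∈ sec e' i, ∀ n,
        (v * g.1 * u⁻¹) • u • zmk z n = zmk (g • z) (pw b n) := fun z hz n => by
      rw [mul_smul, inv_smul_smul, mul_smul, F0_smul,
        hv _ (Set.mem_inv_smul_set_iff.1 (hs' hz).1.2)]
    have e : (cTS M).rel e' (gam M (g, π)) a b =
        elRel (u • cyl (sec e' i)) (v * g.1 * u⁻¹) i (π i) := by
      ext p
      constructor
      · rintro ⟨⟨z, j⟩, hx, n, rfl⟩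
        obtain rfl : j = i := (hs' hx).2
        refine ⟨u • zmk z n, Set.smul_mem_smul_set hx, ?_⟩
        rw [key z hx, hu z (hs' hx).1.1]
        rfl
      · rintro ⟨_, ⟨y, hy, rfl⟩, rfl⟩
        obtain ⟨z, n, rfl⟩ := exists_zmk y
        refine ⟨(z, i), hy, n, ?_⟩
        beta_reduce
        rw [key z hy, hu z (hs' hy).1.1]
        rfl
    refine Subgroup.subset_closure ⟨u • cyl (sec e' i), v * g.1 * u⁻¹, i, Finset.mem_univ _, π i,
      Finset.mem_univ _, Defn.smul (he' i) u, ?_, ?_⟩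
    · rw [← e]; exact (h.sub he' hs).isMatch
    · rw [← e]; rfl

theorem sw_mem_RA0 {e : Set (CZ M × Pos)} {γ : Perm (CZ M × Pos)} {β : List Bool}
    (h : (cTS M).Ok e γ [] β) (hβ : β = [] ∨ ∃ d, β = [d]) :
    (cTS M).sw e γ [] β ∈ (cTS M).RA0 :=
  Subgroup.subset_closure ⟨e, h.he, γ, h.hg, β, hβ, h.isMatch, rfl⟩

theorem lab_mem_aux {s : FF M} {D : Set (CZ M)} (hD : DI D) (g : F0 M) {β : List Bool}
    (hβ : β = [] ∨ ∃ d, β = [d]) (h0 : ∀ z ∈ D, g • z ∉ D)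
    (h1 : ∀ z ∈ D, ∀ n, s • zmk z n = zmk (g • z) (pw β n)) (h2 : ∀ y : CY M, s • s • y = y)
    (h3 : ∀ y, y ∉ cyl D → y ∉ s • cyl D → s • y = y) (i : Pos) :
    Lab (FF M) (CY M) (Pi.mulSingle i s) ∈ (cTS M).RA0 := by
  have ok : (cTS M).Ok (D ×ˢ {i}) (gam M (g, 1)) [] β := by
    refine ⟨prod_mem hD _, gam_mem _ _, TS.disj_of_set ?_ _ _⟩
    rw [Set.disjoint_left]
    rintro _ hx ⟨⟨z, j⟩, hz, rfl⟩
    exact h0 z hz.1 hx.1
  have : Lab (FF M) (CY M) (Pi.mulSingle i s) = (cTS M).sw (D ×ˢ {i}) (gam M (g, 1)) [] β := by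
    refine eq_swapR ok.isMatch ?_ ?_ ?_
    · rintro _ ⟨⟨z, j⟩, ⟨hz, hj⟩, n, rfl⟩
      obtain rfl : j = i := hj
      simp [cTS_co, h1 z hz]
    · rintro _ ⟨⟨z, j⟩, ⟨hz, hj⟩, n, rfl⟩
      obtain rfl : j = i := hj
      simp [cTS_co, ← h1 z hz, h2]
    · rintro ⟨y, j⟩ hx
      by_cases hj : j = i
      · subst hj
        rw [TS.rsupp_rel] at hx
        have : s • y = y := by
          refine h3 y (fun k => hx (Or.inl ⟨(zpr y, j), ⟨k, rfl⟩, y.n, rfl⟩)) ?_
          rintro ⟨y', k, rfl⟩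
          obtain ⟨z, n, rfl⟩ := exists_zmk y'
          refine hx (Or.inr ⟨_, ⟨(z, j), ⟨k, rfl⟩, rfl⟩, n, ?_⟩)
          beta_reduce
          rw [h1 z k]
          rfl
        simp [this]
      · simp [hj]
  rw [this]
  exact sw_mem_RA0 ok hβ

theorem lab_of_mem (hM : M.Good) (s : Option (Mv M)) (i : Pos) :
    Lab (FF M) (CY M) (Pi.mulSingle i (FreeGroup.of s)) ∈ (cTS M).RA0 := by
  have hT : cyl (zside M true) = ce M .T := by
    ext y; exact ⟨fun h => ⟨h, trivial, trivial⟩, fun h => h.1⟩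
  have h0 : ∀ z ∈ zside M true, fl0 M • z ∉ zside M true := by
    rintro ⟨r, _⟩ rfl
    simp [fl0_smul, zside]
  have h4 : ∀ σ : Mv M, ∀ y, y ∉ ce M σ.dom → y ∉ σ.ta • ce M σ.dom → σ.ta • y = y := by
    intro σ y h1 h2
    refine σ.ta_smul_other hM h1 fun h3 => h2 ?_
    rw [← σ.w_dom hM, ← mul_smul] at h3
    obtain ⟨x, hx, rfl⟩ := h3
    exact ⟨x, hx, by beta_reduce; rw [mul_smul, ← σ.ta_eq]⟩
  cases s with
  | none =>
    refine lab_mem_aux (DI.side true) (fl0 M) (Or.inl rfl) h0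
      (fun z _ n => F0_smul (fl0 M) z n) fl_fl (fun y h1 h2 => ?_) i
    rw [hT] at h1 h2
    have e : (fl0 M).1 • ce M .T = (ce M .T)ᶜ := (ax1_conc hM).flT
    rw [e] at h2
    exact absurd h1 h2
  | some σ =>
    rcases σ.nd_or with hσ | ⟨d, rfl⟩
    · refine lab_mem_aux (DI.zb σ.dom_inD) ⟨σ.ta, hσ.ta_mem hM⟩ (Or.inl rfl) (fun z hz k => ?_)
        (fun z _ n => F0_smul ⟨σ.ta, hσ.ta_mem hM⟩ z n) σ.ta_ta (fun y h1 h2 => ?_) i
      · have e : (σ.ta • zmk z 0).side = true := k.1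
        rw [σ.ta_smul_dom hM (y := zmk z 0) (σ.mem_dom.2 hz)] at e
        exact Bool.false_ne_true e
      · rw [cyl_zb σ.dom_inD] at h1 h2
        exact h4 σ y h1 h2
    · refine lab_mem_aux (DI.side true) (fl0 M) (Or.inr ⟨d, rfl⟩) h0 ?_ (Mv.ta_ta _)
        (fun y h1 h2 => ?_) i
      · rintro ⟨r, _⟩ rfl n
        rw [fl0_smul]
        exact dig_ta_true hM d r n
      · rw [hT] at h1 h2
        exact h4 (.dig d) y h1 h2

theorem lab_mem (hM : M.Good) (v : Pos → FF M) : Lab (FF M) (CY M) v ∈ (cTS M).RA0 := by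
  refine Subgroup.pi_mem_of_mulSingle_mem (H := (cTS M).RA0.comap (Lab (FF M) (CY M))) v
    fun i => ?_
  generalize v i = g
  induction g using FreeGroup.induction_on with
  | C1 => simp
  | of s => exact lab_of_mem hM s i
  | inv_of s ih => rw [Pi.mulSingle_inv]; exact Subgroup.inv_mem _ ih
  | mul g g' ih ih' => rw [Pi.mulSingle_mul]; exact Subgroup.mul_mem _ ih ih'

theorem cnd_cyl_mem {D : Set (CZ M)} (hD : DI D) (π : Perm Pos) :
    cnd (cyl D) π ∈ (cTS M).RA0 := by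
  induction π using Equiv.Perm.swap_induction_on with
  | one => simp
  | swap_mul π i j hij ih =>
    rw [map_mul]
    refine Subgroup.mul_mem _ ?_ ih
    have ok : (cTS M).Ok (D ×ˢ {i}) (gam M (1, swap i j)) [] [] := by
      refine ⟨prod_mem hD _, gam_mem _ _, TS.disj_of_set ?_ _ _⟩
      rw [Set.disjoint_left]
      rintro _ hx ⟨⟨z, k⟩, hz, rfl⟩
      obtain rfl : k = i := hz.2
      have := hx.2
      simp at this
      exact hij this.symm
    have : cnd (cyl D) (swap i j) = (cTS M).sw (D ×ˢ {i}) (gam M (1, swap i j)) [] [] := by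
      refine eq_swapR ok.isMatch ?_ ?_ ?_
      · rintro _ ⟨⟨z, k⟩, ⟨hz, hk⟩, n, rfl⟩
        obtain rfl : k = i := hk
        simp only [cTS_co, gam_apply, one_smul]
        exact cnd_apply_mem _ (show zmk z (pw [] n) ∈ cyl D from hz) _
      · rintro _ ⟨⟨z, k⟩, ⟨hz, hk⟩, n, rfl⟩
        obtain rfl : k = i := hk
        simp only [cTS_co, gam_apply, one_smul]
        rw [cnd_apply_mem _ (show zmk z (pw [] n) ∈ cyl D from hz)]
        simp
      · rintro ⟨y, k⟩ hx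
        by_cases hy : y ∈ cyl D
        · rw [TS.rsupp_rel] at hx
          rw [cnd_apply_mem _ hy, swap_apply_of_ne_of_ne]
          · rintro rfl
            exact hx (Or.inl ⟨(zpr y, k), ⟨hy, rfl⟩, y.n, rfl⟩)
          · rintro rfl
            exact hx (Or.inr ⟨_, ⟨(zpr y, i), ⟨hy, rfl⟩, rfl⟩, y.n, by simp [cTS_co, zmk_zpr]⟩)
        · exact cnd_apply_not_mem _ hy _
    rw [this]
    exact sw_mem_RA0 ok (Or.inl rfl)

theorem cnd_smul_eq (g : FF M) (d : Set (CY M)) (π : Perm Pos) :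
    cnd (g • d) π =
      Lab (FF M) (CY M) (fun _ => g) * cnd d π * (Lab (FF M) (CY M) fun _ => g)⁻¹ := by
  rw [eq_mul_inv_iff_mul_eq]
  ext1 ⟨y, i⟩
  by_cases hy : y ∈ d
  · simp [cnd_apply_mem _ hy, cnd_apply_mem _ (Set.smul_mem_smul_set (a := g) hy)]
  · have : g • y ∉ g • d := fun k => hy (Set.smul_mem_smul_set_iff.1 k)
    simp [cnd_apply_not_mem _ hy, cnd_apply_not_mem _ this]

theorem AP_le_RA0 (hM : M.Good) : AP (Option (Mv M)) (ce M) Finset.univ ≤ (cTS M).RA0 := by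
  refine (Subgroup.closure_le _).2 ?_
  rintro _ ((⟨i, -, s, rfl⟩ | ⟨π, -, rfl⟩) | ⟨j, τ, -, rfl⟩)
  · exact lab_of_mem hM s i
  · exact cnd_cyl_mem DI.univ π
  · rcases j.nd_or with h | ⟨d, rfl⟩
    · rw [← cyl_zb h]
      exact cnd_cyl_mem (DI.zb h) _
    · have e : ce M (.Dg d) = (Mv.dig (M := M) d).w • cyl (zb .T) := by
        rw [cyl_zb (j := .T) fun _ => trivial]
        exact ((Mv.dig d).w_dom hM).symm
      rw [e, cnd_smul_eq]
      exact Subgroup.mul_mem _ (Subgroup.mul_mem _ (lab_mem hM _)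
        (cnd_cyl_mem (DI.zb (j := .T) fun _ => trivial) _)) (Subgroup.inv_mem _ (lab_mem hM _))

theorem RA0_le_RA : (cTS M).RA0 ≤ (cTS M).RA :=
  Subgroup.closure_mono fun _ ⟨e, he, γ, hγ, β, _, h1, h2⟩ => ⟨e, he, γ, hγ, [], β, h1, h2⟩

theorem cTS_min (hM : M.Good) : (cTS M).Min := by
  rintro e he ⟨⟨z0, i⟩, h0⟩
  choose g hg using exists_into hM (he i) ⟨z0, h0⟩
  refine ⟨(Finset.univ : Finset (Bool × Pos)).toList.map fun p =>
    (zside M p.1 ×ˢ {p.2}, gam M (g p.1, swap p.2 i)), ?_, ?_⟩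
  · intro p hp
    obtain ⟨⟨sd, j⟩, -, rfl⟩ := List.mem_map.1 hp
    refine ⟨prod_mem (DI.side _) _, gam_mem _ _, ?_⟩
    rintro _ ⟨⟨z, k⟩, ⟨hz, hk⟩, rfl⟩
    obtain rfl : k = j := hk
    simpa [sec] using hg sd z hz
  · rintro ⟨z, j⟩
    exact ⟨_, List.mem_map.2 ⟨(z.2, j), by simp, rfl⟩, rfl, rfl⟩

theorem cTS_sep (hM : M.Good) : (cTS M).Sep := by
  rintro ⟨z, i⟩ ⟨z', i'⟩ h
  by_cases hz : z = z'
  · subst hz
    exact ⟨Set.univ ×ˢ {i}, prod_mem DI.univ _, ⟨trivial, rfl⟩,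
      fun k => h (Prod.ext rfl (Eq.symm k.2))⟩
  · obtain ⟨D, h1, h2, h3⟩ := exists_sep hM hz
    exact ⟨D ×ˢ Set.univ, prod_mem h1 _, ⟨h2, trivial⟩, fun k => h3 k.1⟩

/-- multiplication of the second register -/
def qmul (g : G) (r : St M) : St M := ⟨{ r.1 with Q := g * r.1.Q }, r.2⟩

theorem qmul_one (r : St M) : qmul 1 r = r := Subtype.ext (by simp [qmul])

theorem qmul_mul (g h : G) (r : St M) : qmul (g * h) r = qmul g (qmul h r) :=
  Subtype.ext (by simp [qmul, mul_assoc])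

/-- the action of `G` on the second register -/
def psi (M : Mach G) : G →* Perm (CZ M × Pos) where
  toFun g :=
    { toFun := fun x => ((qmul g x.1.1, x.1.2), x.2)
      invFun := fun x => ((qmul g⁻¹ x.1.1, x.1.2), x.2)
      left_inv := fun x => by simp [← qmul_mul, qmul_one]
      right_inv := fun x => by simp [← qmul_mul, qmul_one] }
  map_one' := by ext1 x; simp [qmul_one]
  map_mul' g h := by ext1 x; simp [qmul_mul]

theorem exists_qw (hM : M.Good) (g : G) :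
    ∃ u : F0 M, ∀ r : St M, u • ((r, true) : CZ M) = (qmul g r, true) := by
  obtain ⟨w, rfl⟩ := hM.surj g
  induction w with
  | nil => exact ⟨1, fun r => by simp [qmul_one]⟩
  | cons a w ih =>
    obtain ⟨u, hu⟩ := ih
    have hq : (Mv.qm (M := M) a).ND := fun _ e => by cases e
    refine ⟨hq.w0 hM * u, fun r => ?_⟩
    rw [mul_smul, hu, hq.w0_smul hM trivial, Mach.phi_cons, qmul_mul]
    exact Prod.ext (Subtype.ext ((Mv.qm a).st_val trivial)) rfl

theorem conc_tensor (hM : M.Good) :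
    ∃ (X0 : Type) (_ : Nonempty X0) (T : TS X0 (CY M × Pos)),
      T.RA = AP (Option (Mv M)) (ce M) Finset.univ ∧ T.RA ≤ T.RA0 ∧ T.Min ∧ T.Sep ∧
      ∃ (ψ : G →* Perm X0) (e : Set X0), e ∈ T.B ∧ (∀ g, ∃ γ ∈ T.Γ, ∀ x ∈ e, γ x = ψ g x) ∧
        (∀ g, ∀ x ∈ e, ψ g x ∈ e) ∧ ∀ g, (∀ x ∈ e, ψ g x = x) → g = 1 := by
  have h1 : (cTS M).RA ≤ AP (Option (Mv M)) (ce M) Finset.univ :=
    (RA_le_EP hM).trans (EP_le_AP (conc_half hM) (by simp))
  refine ⟨CZ M × Pos, ⟨(rootZ M, 0)⟩, cTS M,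
    le_antisymm h1 ((AP_le_RA0 hM).trans RA0_le_RA), h1.trans (AP_le_RA0 hM), cTS_min hM,
    cTS_sep hM, psi M, zside M true ×ˢ Set.univ, prod_mem (DI.side _) _, fun g => ?_,
    fun g x hx => ⟨hx.1, trivial⟩, fun g h => ?_⟩
  · obtain ⟨u, hu⟩ := exists_qw hM g
    refine ⟨_, gam_mem u 1, ?_⟩
    rintro ⟨⟨r, _⟩, i⟩ ⟨rfl, -⟩
    rw [gam_apply, hu]
    rfl
  · have := congrArg (fun x : CZ M × Pos => x.1.1.1.Q) (h (rootZ M, 0) ⟨rfl, trivial⟩)
    exact (mul_one g).symm.trans this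

end Vale.Agent.P193
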