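import Vale.Agent.P193.MachineHist

namespace Vale.Agent.P193

open Turing Turing.PartrecToTM2 Function

namespace MM

/-- statements of the simulated machine -/
abbrev Sm : Type := TM2.Stmt (fun _ : K' => Γ') Λ' (Option Γ')

/-- the alphabet -/
abbrev Sy (m : ℕ) (A : Finset (Option Sm)) : Type :=
  Fin m ⊕ Γ' ⊕ Option (Bool × Bool × Option (A × Option Γ'))

instance : Fintype K' := ⟨{K'.main, K'.rev, K'.aux, K'.stack}, fun x => by cases x <;> simp⟩

variable {m : ℕ} {A : Finset (Option Sm)}

/-- configurations: tape, control, and the four simulated stacks -/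
def cf (t q : List (Sy m A)) (S : K' → List (Sy m A)) : Option (Option K') → List (Sy m A)
  | none => t
  | some none => q
  | some (some k) => S k

def sy (a : Γ') : Sy m A := .inr (.inl a)

def ld (a1 a2 : Bool) : Sy m A := .inr (.inr (some (a1, a2, none)))

open Classical in
noncomputable def mk (a1 a2 : Bool) (o : Option Sm) (x : Option Γ') : Sy m A :=
  if h : o ∈ A then .inr (.inr (some (a1, a2, some (⟨o, h⟩, x)))) else .inr (.inr none)

def top (o : Option (Sy m A)) : Option Γ' := o.bind fun z => z.getRight?.bind Sum.getLeft?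

/-- the blocking condition -/
def Blk (a1 a2 : Bool) (P : Prop) : Prop := (P ∧ a1 ≠ a2) ∨ (¬ P ∧ a1 = true ∧ a2 = true)

open Classical in
/-- small steps of the simulated machine -/
noncomputable def sim (a1 a2 : Bool) (x : Option Γ') (T : K' → Option (Sy m A)) :
    Option Sm → Option (Sy m A × (K' → List (Sy m A)))
  | none => if Blk a1 a2 (top (T .main) = some .bit1) then none
      else some (mk a1 a2 none x, fun k => (T k).toList)
  | some (.push k f s) => some (mk a1 a2 (some s) x,
      update (fun k => (T k).toList) k (sy (f x) :: (T k).toList))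
  | some (.peek k f s) => some (mk a1 a2 (some s) (f x (top (T k))), fun k => (T k).toList)
  | some (.pop k f s) => some (mk a1 a2 (some s) (f x (top (T k))),
      update (fun k => (T k).toList) k [])
  | some (.load f s) => some (mk a1 a2 (some s) (f x), fun k => (T k).toList)
  | some (.branch f s s') => some (mk a1 a2 (some (cond (f x) s s')) x, fun k => (T k).toList)
  | some (.goto f) => some (mk a1 a2 (some (tr (f x))) x, fun k => (T k).toList)
  | some .halt => some (mk a1 a2 none x, fun k => (T k).toList)

def blk (i : Fin m) : List Γ' := List.replicate i Γ'.bit0 ++ [Γ'.bit1]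

/-- the step table -/
noncomputable def step (s0 : Sm) (T : Option (Option K') → Option (Sy m A)) (b1 b2 : Bool) :
    Option (Option (Option K') → List (Sy m A)) :=
  match T (some none) with
  | none => some (cf (T none).toList [ld b1 b2]
      (update (fun k => (T (some (some k))).toList) .main [sy .cons]))
  | some (.inr (.inr none)) => none
  | some (.inr (.inr (some (a1, a2, none)))) =>
    match T none with
    | none => some (cf [] [mk a1 a2 (some s0) none] fun k => (T (some (some k))).toList)
    | some (.inl i) => some (cf [] [ld a1 a2] (update (fun k => (T (some (some k))).toList) .main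
        ((blk i).map sy ++ (T (some (some .main))).toList)))
    | some (.inr _) => some (cf [] [ld a1 a2] fun k => (T (some (some k))).toList)
  | some (.inr (.inr (some (a1, a2, some (o, x))))) =>
    (sim a1 a2 x (fun k => T (some (some k))) o.1).map fun p => cf (T none).toList [p.1] p.2
  | some _ => some (cf (T none).toList [] fun k => (T (some (some k))).toList)

variable {G : Type} [Group G] (v : Fin m → G) (A) (s0 : Sm)

/-- the machine without history -/
noncomputable def mach : Mach G where
  Λ := Option (Option K')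
  Γ := Sy m A
  dΓ := Classical.decEq _
  t := none
  c := none
  val := Sum.elim v fun _ => 1
  step := step s0

variable {v A s0}

theorem toList_tail {α : Type} (l : List α) : l.head?.toList ++ l.tail = l := by cases l <;> rfl

theorem keep_app (S : K' → List (Sy m A)) :
    (fun k => (S k).head?.toList ++ (S k).tail) = S := funext fun _ => toList_tail _

theorem upd_app (S : K' → List (Sy m A)) (k0 : K') (w : List (Sy m A)) :
    (fun k => update (fun k => (S k).head?.toList) k0 w k ++ (S k).tail) =
      update S k0 (w ++ (S k0).tail) := by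
  funext k
  by_cases h : k = k0
  · subst h; simp
  · simp [h, toList_tail]

theorem next_cf {t q t' q' : List (Sy m A)} {S S' : K' → List (Sy m A)} {b1 b2 : Bool}
    (h : step s0 (fun k => (cf t q S k).head?) b1 b2 = some (cf t' q' S')) :
    (mach A v s0).next b1 b2 (cf t q S) =
      some (cf (t' ++ t.tail) (q' ++ q.tail) fun k => S' k ++ (S k).tail) := by
  refine (congrArg (Option.map _) h).trans (congrArg some (funext ?_))
  rintro (_ | _ | k) <;> rfl

theorem top_map (l : List Γ') : top (l.map (sy : Γ' → Sy m A)).head? = l.head? := by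
  cases l <;> rfl

theorem st_sim {a1 a2 : Bool} {o : Option Sm} (ho : o ∈ A) (x : Option Γ')
    (S : K' → List (Sy m A)) {p : Sy m A × (K' → List (Sy m A))}
    (h : sim a1 a2 x (fun k => (S k).head?) o = some p) :
    (mach A v s0).St (cf [] [mk a1 a2 o x] S) (cf [] [p.1] fun k => p.2 k ++ (S k).tail) := by
  intro b1 b2
  rw [mk, dif_pos ho]
  exact next_cf (t' := []) (q' := [p.1]) (congrArg (Option.map _) h)

/-- the configuration attached to a configuration of the simulated machine -/
noncomputable def cfg (a1 a2 : Bool) (o : Option Sm) (x : Option Γ') (S : K' → List Γ') :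
    Option (Option K') → List (Sy m A) := cf [] [mk a1 a2 o x] fun k => (S k).map sy

theorem map_upd (S : K' → List Γ') (k0 : K') (w : List Γ') :
    (fun k => (update S k0 w k).map (sy : Γ' → Sy m A)) =
      update (fun k => (S k).map sy) k0 (w.map sy) := by
  funext k
  by_cases h : k = k0
  · subst h; simp
  · simp [h]

theorem reach_stmt {c : ToPartrec.Code} {a1 a2 : Bool} (s : Sm)
    (hs : some s ∈ TM2.stmts tr (codeSupp c .halt)) (x : Option Γ') (S : K' → List Γ') :
    (mach (TM2.stmts tr (codeSupp c .halt)) v s0).Reach (cfg a1 a2 (some s) x S)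
      (cfg a1 a2 ((TM2.stepAux s x S).l.map tr) (TM2.stepAux s x S).var (TM2.stepAux s x S).stk) ∧
    ∀ l ∈ (TM2.stepAux s x S).l, l ∈ codeSupp c .halt := by
  induction s generalizing x S with
  | push k f s ih =>
    have := st_sim (v := v) (s0 := s0) (a1 := a1) (a2 := a2) hs x (fun k => (S k).map sy) rfl
    simp only [upd_app, List.cons_append, toList_tail] at this
    exact (ih (TM2.stmts_trans (by simp [TM2.stmts₁, TM2.stmts₁_self]) hs) x _).imp_left fun h =>
      .head (by rwa [cfg, cfg, map_upd]) h
  | peek k f s ih =>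
    have := st_sim (v := v) (s0 := s0) (a1 := a1) (a2 := a2) hs x (fun k => (S k).map sy) rfl
    simp only [keep_app, top_map] at this
    exact (ih (TM2.stmts_trans (by simp [TM2.stmts₁, TM2.stmts₁_self]) hs) _ _).imp_left
      fun h => .head this h
  | pop k f s ih =>
    have := st_sim (v := v) (s0 := s0) (a1 := a1) (a2 := a2) hs x (fun k => (S k).map sy) rfl
    simp only [upd_app, top_map, List.nil_append] at this
    rw [← List.map_tail] at this
    exact (ih (TM2.stmts_trans (by simp [TM2.stmts₁, TM2.stmts₁_self]) hs) _ _).imp_left fun h =>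
      .head (by rwa [cfg, cfg, map_upd]) h
  | load f s ih =>
    have := st_sim (v := v) (s0 := s0) (a1 := a1) (a2 := a2) hs x (fun k => (S k).map sy) rfl
    simp only [keep_app] at this
    exact (ih (TM2.stmts_trans (by simp [TM2.stmts₁, TM2.stmts₁_self]) hs) _ _).imp_left
      fun h => .head this h
  | branch f s s' ih ih' =>
    have := st_sim (v := v) (s0 := s0) (a1 := a1) (a2 := a2) hs x (fun k => (S k).map sy) rfl
    simp only [keep_app] at this
    rw [TM2.stepAux]
    cases e : f x
    · rw [e] at this
      exact (ih' (TM2.stmts_trans (by simp [TM2.stmts₁, TM2.stmts₁_self]) hs) _ _).imp_left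
        fun h => .head this h
    · rw [e] at this
      exact (ih (TM2.stmts_trans (by simp [TM2.stmts₁, TM2.stmts₁_self]) hs) _ _).imp_left
        fun h => .head this h
  | goto f =>
    have := st_sim (v := v) (s0 := s0) (a1 := a1) (a2 := a2) hs x (fun k => (S k).map sy) rfl
    simp only [keep_app] at this
    refine ⟨.single this, ?_⟩
    rintro _ ⟨⟩
    exact @TM2.stmts_supportsStmt _ _ _ _ ⟨_⟩ _ _ _ (tr_supports c .halt) hs x
  | halt =>
    have := st_sim (v := v) (s0 := s0) (a1 := a1) (a2 := a2) hs x (fun k => (S k).map sy) rfl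
    simp only [keep_app] at this
    exact ⟨.single this, fun _ h => by cases h⟩

theorem mem_stmts {S : Finset Λ'} {l : Λ'} (h : l ∈ S) : some (tr l : Sm) ∈ TM2.stmts tr S := by
  classical
  exact Finset.some_mem_insertNone.mpr (Finset.mem_biUnion.mpr ⟨l, h, TM2.stmts₁_self⟩)

theorem reach_run {c : ToPartrec.Code} {a1 a2 : Bool} {C C' : TM2.Cfg (fun _ : K' => Γ') Λ' (Option Γ')}
    (h : StateTransition.Reaches (TM2.step tr) C C') (hC : ∀ l ∈ C.l, l ∈ codeSupp c .halt) :
    (mach (TM2.stmts tr (codeSupp c .halt)) v s0).Reach (cfg a1 a2 (C.l.map tr) C.var C.stk)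
      (cfg a1 a2 (C'.l.map tr) C'.var C'.stk) := by
  induction h using Relation.ReflTransGen.head_induction_on with
  | refl => exact .refl
  | @head C D h1 _ ih =>
    obtain ⟨_ | l, x, S⟩ := C
    · cases h1
    · cases h1
      obtain ⟨e1, e2⟩ := reach_stmt (v := v) (s0 := s0) (a1 := a1) (a2 := a2) _
        (mem_stmts (hC l rfl)) x S
      exact e1.trans (ih e2)

/-- the code of a word -/
def enc (u : List (Fin m)) : ℕ := u.foldl (fun N i => 2 ^ i.val * (2 * N + 1)) 0

theorem trNat_odd (N : ℕ) : trNat (2 * N + 1) = Γ'.bit1 :: trNat N := by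
  have := Num.ofNat'_bit true N
  rw [Num.ofNat'_eq, Num.ofNat'_eq] at this
  rw [trNat, trNat, show 2 * N + 1 = Nat.bit true N from rfl, this]
  cases (N : Num) <;> rfl

theorem trNat_even (N : ℕ) (h : N ≠ 0) : trNat (2 * N) = Γ'.bit0 :: trNat N := by
  have := Num.ofNat'_bit false N
  rw [Num.ofNat'_eq, Num.ofNat'_eq] at this
  rw [trNat, trNat, show 2 * N = Nat.bit false N from rfl, this]
  rcases e : (N : Num) with _ | p
  · exact absurd ((Num.to_of_nat N).symm.trans (congrArg _ e)) h
  · rfl

theorem trNat_blk (i N : ℕ) :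
    trNat (2 ^ i * (2 * N + 1)) = List.replicate i Γ'.bit0 ++ Γ'.bit1 :: trNat N := by
  induction i with
  | zero => simp [trNat_odd]
  | succ i ih => rw [pow_succ', mul_assoc, trNat_even _ (by positivity), ih]; rfl

theorem st_gen (a1 a2 : Bool) (i : Fin m) (w : List (Sy m A)) (S : K' → List (Sy m A)) :
    (mach A v s0).St (cf (.inl i :: w) [ld a1 a2] S)
      (cf w [ld a1 a2] (update S .main ((blk i).map sy ++ S .main))) := by
  intro b1 b2
  refine (next_cf (t' := []) (q' := [ld a1 a2]) rfl).trans ?_
  refine congrArg (fun S => some (cf w [ld a1 a2] S)) ((upd_app _ _ _).trans ?_)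
  exact congrArg _ ((List.append_assoc _ _ _).trans (congrArg _ (toList_tail _)))

theorem next_init (b1 b2 : Bool) (w : List (Sy m A)) :
    (mach A v s0).next b1 b2 ((mach A v s0).clean w) =
      some (cf w [ld b1 b2] fun k => (K'.elim (trList [0]) [] [] [] k).map sy) := by
  have h4 : (mach A v s0).clean w = cf w [] fun _ => [] := by
    funext k
    rcases k with _ | _ | k <;> rfl
  rw [h4]
  refine (next_cf rfl).trans (congrArg some (congrArg₂ (fun t S => cf t [ld b1 b2] S)
    (toList_tail w) (funext fun k => ?_)))
  cases k <;> simp [trList, cf]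

theorem st_halt (h : none ∈ A) {a1 a2 : Bool} (S : K' → List Γ')
    (hb : ¬ Blk a1 a2 ((S .main).head? = some .bit1)) :
    (mach A v s0).St (cfg a1 a2 none none S) (cfg a1 a2 none none S) := by
  have := st_sim (v := v) (s0 := s0) h none (fun k => (S k).map sy)
    (if_neg (by rw [top_map]; exact hb))
  rwa [keep_app] at this

theorem dies_halt (h : none ∈ A) {a1 a2 : Bool} (S : K' → List Γ')
    (hb : Blk a1 a2 ((S .main).head? = some .bit1)) :
    (mach A v s0).DiesIn 0 (cfg a1 a2 none none S) := by
  intro c1 c2
  refine Option.map_eq_none_iff.mpr ?_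
  rw [cfg, mk, dif_pos h]
  rw [← top_map (m := m) (A := A)] at hb
  exact Option.map_eq_none_iff.mpr (if_pos hb)

theorem reach_load (a1 a2 : Bool) (w : List (Sy m A)) (N : ℕ) :
    (mach A v s0).Reach (cf w [ld a1 a2] fun k => (K'.elim (trList [N]) [] [] [] k).map sy)
      (cfg a1 a2 (some s0) none (K'.elim (trList [(w.filterMap Sum.getLeft?).foldl
        (fun N i => 2 ^ i.val * (2 * N + 1)) N]) [] [] [])) := by
  induction w generalizing N with
  | nil =>
    exact .single fun b1 b2 => (next_cf rfl).trans
      (congrArg (fun S => some (cf _ _ S)) (keep_app _))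
  | cons z w ih =>
    rcases z with i | z
    · refine .head ?_ (ih (2 ^ i.val * (2 * N + 1)))
      have := st_gen (v := v) (s0 := s0) a1 a2 i w fun k => (K'.elim (trList [N]) [] [] [] k).map sy
      rw [← List.map_append, ← map_upd] at this
      simpa [blk, trList, trNat_blk] using this
    · refine .head (fun b1 b2 => ?_) (ih N)
      refine (next_cf (t' := []) (q' := [ld a1 a2]) rfl).trans ?_
      exact congrArg (fun S => some (cf w [ld a1 a2] S)) (keep_app _)

theorem phi_eq (w : List (Sy m A)) :
    (mach A v s0).phi w = ((w.filterMap Sum.getLeft?).map v).prod := by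
  induction w with
  | nil => rfl
  | cons z w ih =>
    refine ((mach A v s0).phi_cons z w).trans ?_
    rw [ih]
    rcases z with i | z
    · rfl
    · exact one_mul _

theorem phi_inl (w : List (Fin m)) :
    (mach A v s0).phi (w.map (Sum.inl : Fin m → Sy m A)) = (w.map v).prod :=
  (phi_eq (A := A) (s0 := s0) (w.map Sum.inl)).trans
    (congrArg (fun l : List (Fin m) => (l.map v).prod) (List.filterMap_map.trans List.filterMap_some))

theorem cons_iff {D : List (Fin m) → Bool} (hD : ∀ u, (u.map v).prod = 1 ↔ D u = true)
    (b1 b2 : Bool) (w : List (Sy m A)) : (mach A v s0).Cons b1 b2 w ↔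
      ¬ Blk b1 b2 ((trList [cond (D (w.filterMap Sum.getLeft?)) 1 0]).head? = some .bit1) := by
  have : trNat 1 = [Γ'.bit1] := (trNat_odd 0).trans (by simp)
  have h := (phi_eq (v := v) (s0 := s0) w ▸ hD (w.filterMap Sum.getLeft?) :
    (mach A v s0).phi w = 1 ↔ _)
  unfold Mach.Cons
  rw [Blk, ne_eq, h]
  cases D _ <;> simp [trList, this]

theorem enc_inj : Injective (enc (m := m)) := by
  have h1 : ∀ i j a b : ℕ, 2 ^ i * (2 * a + 1) = 2 ^ j * (2 * b + 1) → i = j ∧ a = b := by
    intro i
    induction i with
    | zero =>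
      rintro (_ | j) a b h
      · omega
      · rw [pow_succ', mul_assoc] at h
        omega
    | succ i ih =>
      rintro (_ | j) a b h
      · rw [pow_succ', mul_assoc] at h
        omega
      · rw [pow_succ', pow_succ', mul_assoc, mul_assoc] at h
        have := ih j a b (by omega)
        omega
  have h2 : Injective fun u : List (Fin m) => u.foldr (fun i N => 2 ^ i.val * (2 * N + 1)) 0 := by
    intro u
    induction u with
    | nil =>
      rintro (_ | ⟨j, u'⟩) h
      · rfl
      · exact absurd h.symm (mul_ne_zero (by positivity) (Nat.succ_ne_zero _))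
    | cons i u ih =>
      rintro (_ | ⟨j, u'⟩) h
      · exact absurd h (mul_ne_zero (by positivity) (Nat.succ_ne_zero _))
      · obtain ⟨a, b⟩ := h1 _ _ _ _ h
        rw [Fin.ext a, ih b]
  intro u u' h
  exact List.reverse_injective (h2 (by simpa only [List.foldr_reverse, enc] using h))

theorem enc_prim : Primrec (enc (m := m)) :=
  Primrec.list_foldl Primrec.id (Primrec.const 0)
    (h := fun _ (p : ℕ × Fin m) => 2 ^ p.2.val * (2 * p.1 + 1))
    (Primrec.nat_mul.comp
      ((Primrec.dom_finite fun i : Fin m => 2 ^ i.val).comp (Primrec.snd.comp Primrec.snd))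
      (Primrec.succ.comp (Primrec.nat_double.comp (Primrec.fst.comp Primrec.snd)))).to₂

theorem exists_code' {D : List (Fin m) → Bool} (hD : Computable D) :
    ∃ c : ToPartrec.Code, ∀ u, [cond (D u) 1 0] ∈ c.eval [enc u] := by
  let dec : ℕ → List (Fin m) := fun n => (Encodable.decode n).getD []
  have hdec : Primrec dec := Primrec.option_getD.comp Primrec.decode (Primrec.const [])
  have h1 : Partrec fun N : ℕ => (Nat.rfind fun n => (Part.some (decide (enc (dec n) = N)))).map
      fun n => cond (D (dec n)) 1 0 :=
    (Partrec.rfind (Primrec.eq.decide.comp ((enc_prim.comp hdec).comp Primrec.snd)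
      Primrec.fst).to_comp.partrec.to₂).map
      (Computable.cond (hD.comp (hdec.to_comp.comp Computable.snd)) (Computable.const 1)
        (Computable.const 0)).to₂
  obtain ⟨c, hc⟩ := ToPartrec.Code.exists_code (Nat.Partrec'.part_iff₁.mpr h1)
  refine ⟨c, fun u => ?_⟩
  rw [show c.eval [enc u] = _ from hc ⟨[enc u], rfl⟩]
  obtain ⟨n, hn, -⟩ := Nat.rfind_min' (p := fun n => decide (enc (dec n) = enc u))
    (m := Encodable.encode u) (by simp [dec])
  have h2 : dec n = u := enc_inj (by simpa using Nat.rfind_spec hn)
  have h3 := Part.mem_map (fun n => cond (D (dec n)) 1 0) hn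
  rw [h2] at h3
  exact Part.mem_map _ h3

end MM

open MM in
theorem exists_mach {G : Type} [Group G] {m : ℕ} (v : Fin m → G)
    (hs : ∀ g : G, ∃ w : List (Fin m), (w.map v).prod = g)
    (hd : ComputablePred fun w : List (Fin m) => (w.map v).prod = 1) :
    ∃ M : Mach G, M.Good := by
  obtain ⟨D, hD, hD'⟩ := ComputablePred.computable_iff.mp hd
  obtain ⟨c, hc⟩ := exists_code' hD
  refine Mach.Raw.good (M := mach (TM2.stmts tr (codeSupp c .halt)) v (tr (trNormal c .halt)))
    ⟨⟨sy .cons, sy .bit0, fun h => by cases h⟩, fun g => ?_, fun w b1 b2 => ?_, fun n => ?_⟩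
  · obtain ⟨w, rfl⟩ := hs g
    exact ⟨_, phi_inl w⟩
  · have h1 := hc (w.filterMap Sum.getLeft?)
    have h2 := (StateTransition.mem_eval.mp
      ((tr_eval c _).ge _ (Part.mem_map PartrecToTM2.halt h1))).1
    have h3 := reach_run (v := v) (s0 := tr (trNormal c .halt)) (c := c) (a1 := b1) (a2 := b2) h2
      (by rintro _ ⟨⟩; exact (tr_supports c .halt).1)
    have h5 := cons_iff (s0 := tr (trNormal c .halt)) (fun u => (congrFun hD' u).to_iff) b1 b2 w
    exact ⟨_, _, next_init b1 b2 w, (reach_load b1 b2 w 0).trans h3,
      fun h => st_halt Finset.none_mem_insertNone _ (h5.mp h),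
      fun h => dies_halt Finset.none_mem_insertNone _ (not_not.mp (mt h5.mpr h))⟩
  · refine ⟨cf [] (List.replicate n (sy .cons) ++ [.inr (.inr none)]) fun _ => [],
      ⟨some none, fun h => (by cases h), List.append_ne_nil_of_right_ne_nil _ (List.cons_ne_nil _ _)⟩, ?_⟩
    induction n with
    | zero => exact fun _ _ => rfl
    | succ n ih => exact ⟨_, fun _ _ => next_cf rfl, ih⟩

end Vale.Agent.P193
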