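import Vale.Agent.P193.MifCore

/-! The word problem of the free product with a free group. -/

namespace Vale.Agent.P193

open Monoid Monoid.Coprod

namespace MifCore

theorem comp_foldr {α σ : Type} [Primcodable α] [Primcodable σ] {f : α → σ → σ}
    (hf : Computable₂ f) (s0 : σ) : Computable fun l : List α => l.foldr f s0 := by
  have h1 : ∀ (l : List α) (k : ℕ), (Nat.rec s0 (fun n s => Option.casesOn l[n]? s fun a => f a s)
      k : σ) = (l.take k).foldl (fun s a => f a s) s0 := by
    intro l k
    induction k with
    | zero => rfl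
    | succ k ih =>
      rw [List.take_add_one, List.foldl_append, ← ih]
      dsimp only
      cases l[k]? <;> rfl
  have h2 : Computable fun l : List α => (Nat.rec s0
      (fun n s => Option.casesOn l[n]? s fun a => f a s) l.length : σ) :=
    Computable.nat_rec Computable.list_length (Computable.const s0)
      (h := fun (l : List α) (p : ℕ × σ) => Option.casesOn l[p.1]? p.2 fun a => f a p.2)
      (Computable.option_casesOn
        (Computable.list_getElem?.comp Computable.fst (Computable.fst.comp Computable.snd))
        (Computable.snd.comp Computable.snd)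
        (hf.comp Computable.snd (Computable.snd.comp (Computable.snd.comp Computable.fst))).to₂).to₂
  refine (h2.comp Computable.list_reverse).of_eq fun l => ?_
  rw [h1, List.take_length, List.foldl_reverse]

abbrev Le : Type := Bool × Bool

def li (s : Le) : Le := (s.1, !s.2)

theorem li_li (s : Le) : li (li s) = s := by simp [li]

/-- one free letter acting on a state, with a test `D` for being trivial -/
def push {α : Type} (e : α) (D : α → Bool) (s : Le) (p : α × List (Le × α)) : α × List (Le × α) :=
  Option.casesOn p.2.head? (e, (s, p.1) :: p.2) fun q =>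
    cond (D p.1 && decide (q.1 = li s)) (q.2, p.2.tail) (e, (s, p.1) :: p.2)

variable {G : Type} [Group G]

def Canc (s : Le) (p : G × List (Le × G)) : Prop := p.1 = 1 ∧ ∃ q ∈ p.2.head?, q.1 = li s

def Red : List (Le × G) → Prop
  | [] => True
  | q :: L => ¬ Canc q.1 (q.2, L) ∧ Red L

open Classical in
noncomputable def act : Le → G × List (Le × G) → G × List (Le × G) :=
  push 1 fun g => decide (g = 1)

theorem act_pos (s : Le) (g : G) (L : List (Le × G)) : act s (1, (li s, g) :: L) = (g, L) := by
  simp [act, push]

theorem act_neg {s : Le} {p : G × List (Le × G)} (h : ¬ Canc s p) :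
    act s p = (1, (s, p.1) :: p.2) := by
  obtain ⟨g, _ | ⟨q, L⟩⟩ := p
  · rfl
  · simp only [Canc, List.head?_cons, Option.mem_def, Option.some.injEq, exists_eq_left'] at h
    simp only [act, push, List.head?_cons]
    rw [Bool.cond_eq_ite, if_neg (by simpa using h)]

theorem canc_cases {s : Le} {p : G × List (Le × G)} (h : Canc s p) :
    ∃ g L, p = (1, (li s, g) :: L) := by
  obtain ⟨g, _ | ⟨⟨t, g'⟩, L⟩⟩ := p
  · obtain ⟨-, q, h, -⟩ := h
    cases h
  · obtain ⟨rfl, q, h, h'⟩ := h
    cases h
    cases h'
    exact ⟨_, _, rfl⟩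

theorem red_act (s : Le) (p : G × List (Le × G)) (h : Red p.2) : Red (act s p).2 := by
  by_cases c : Canc s p
  · obtain ⟨g, L, rfl⟩ := canc_cases c
    rw [act_pos]
    exact h.2
  · rw [act_neg c]
    exact ⟨c, h⟩

theorem act_act (s : Le) (p : G × List (Le × G)) (h : Red p.2) : act (li s) (act s p) = p := by
  by_cases c : Canc s p
  · obtain ⟨g, L, rfl⟩ := canc_cases c
    rw [act_pos, act_neg h.1]
  · rw [act_neg c]
    have := act_pos (li s) p.1 p.2
    rwa [li_li] at this

abbrev St (G : Type) [Group G] : Type := {p : G × List (Le × G) // Red p.2}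

noncomputable def permF (s : Le) : Equiv.Perm (St G) where
  toFun p := ⟨act s p.1, red_act s p.1 p.2⟩
  invFun p := ⟨act (li s) p.1, red_act _ p.1 p.2⟩
  left_inv p := Subtype.ext (act_act s p.1 p.2)
  right_inv p := Subtype.ext (by have := act_act (li s) p.1 p.2; rwa [li_li] at this)

def permG : G →* Equiv.Perm (St G) :=
  MonoidHom.toHomPerm
    { toFun g := fun p => ⟨(g * p.1.1, p.1.2), p.2⟩
      map_one' := funext fun p => Subtype.ext (Prod.ext (one_mul _) rfl)
      map_mul' a b := funext fun p => Subtype.ext (Prod.ext (mul_assoc _ _ _) rfl) }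

noncomputable def rr : GG G →* Equiv.Perm (St G) :=
  lift permG (FreeGroup.lift fun c => permF (c, true))

def fv (s : Le) : GG G := inr (FreeGroup.mk [s])

theorem fv_li (s : Le) : (fv (li s) : GG G) = (fv s)⁻¹ := by
  rw [fv, fv, ← map_inv, FreeGroup.inv_mk]
  rfl

theorem rr_fv (s : Le) (p : St G) : (rr (fv s) p).1 = act s p.1 := by
  have h : ∀ c, rr (fv (c, true) : GG G) = permF (c, true) := fun c => by
    simp [rr, fv]
  obtain ⟨c, _ | _⟩ := s
  · rw [show (c, false) = li (c, true) from rfl, fv_li, map_inv, h]
    rfl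
  · rw [h]
    rfl

def ev (p : G × List (Le × G)) : GG G := inl p.1 * (p.2.map fun q => fv q.1 * inl q.2).prod

theorem ev_act (s : Le) (p : G × List (Le × G)) : ev (act s p) = fv s * ev p := by
  by_cases c : Canc s p
  · obtain ⟨g, L, rfl⟩ := canc_cases c
    simp [act_pos, ev, fv_li, mul_assoc]
  · simp [act_neg c, ev, mul_assoc]

variable {n : ℕ} (gen : Fin n → G)

abbrev Ix (n : ℕ) : Type := (Fin n × Bool) ⊕ Le

def ph (u : List (Fin n × Bool)) : G := FreeGroup.lift gen (FreeGroup.mk u)

theorem ph_cons (t : Fin n × Bool) (u : List (Fin n × Bool)) :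
    ph gen (t :: u) = ph gen [t] * ph gen u := by
  rw [ph, ph, ph, ← map_mul, FreeGroup.mul_mk]
  rfl

def val (i : Ix n) : GG G := Sum.casesOn i (fun t => inl (ph gen [t])) fv

noncomputable def sem (w : List (Ix n)) : G × List (Le × G) :=
  w.foldr (fun i p => Sum.casesOn i (fun t => (ph gen [t] * p.1, p.2)) fun s => act s p) (1, [])

theorem sem_iff (w : List (Ix n)) : (w.map (val gen)).prod = 1 ↔ sem gen w = (1, []) := by
  have h1 : (rr (w.map (val gen)).prod ⟨(1, []), trivial⟩).1 = sem gen w := by
    induction w with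
    | nil => simp [sem]
    | cons i w ih =>
      rw [List.map_cons, List.prod_cons, map_mul, Equiv.Perm.mul_apply, sem, List.foldr_cons, ← sem,
        ← ih]
      rcases i with t | s
      · rfl
      · exact rr_fv _ _
  have h2 : ev (sem gen w) = (w.map (val gen)).prod := by
    clear h1
    induction w with
    | nil => simp [sem, ev]
    | cons i w ih =>
      rw [List.map_cons, List.prod_cons, sem, List.foldr_cons, ← sem, ← ih]
      rcases i with t | s
      · simp [ev, val, mul_assoc]
      · exact ev_act _ _
  refine ⟨fun h => ?_, fun h => ?_⟩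
  · rw [← h1, h, map_one]
    rfl
  · rw [← h2, h]
    simp [ev]

abbrev Sn (n : ℕ) : Type := List (Fin n × Bool) × List (Le × List (Fin n × Bool))

def sstep (D : List (Fin n × Bool) → Bool) (i : Ix n) (p : Sn n) : Sn n :=
  Sum.casesOn i (fun t => (t :: p.1, p.2)) fun s => push [] D s p

theorem sem_eq {D : List (Fin n × Bool) → Bool} (hD : ∀ u, ph gen u = 1 ↔ D u = true)
    (w : List (Ix n)) :
    sem gen w = Prod.map (ph gen) (List.map (Prod.map id (ph gen))) (w.foldr (sstep D) ([], [])) := by
  have h0 : ph gen [] = 1 := map_one (FreeGroup.lift gen)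
  induction w with
  | nil => simp [sem, h0]
  | cons i w ih =>
    rw [sem, List.foldr_cons, ← sem, ih, List.foldr_cons]
    generalize w.foldr (sstep D) ([], []) = p
    obtain ⟨u, L⟩ := p
    rcases i with t | s
    · simp [sstep, ← ph_cons]
    · rcases L with _ | ⟨q, L⟩
      · simp [sstep, act, push, h0]
      · simp only [sstep, act, push, Prod.map, List.map_cons, List.head?_cons, hD, id,
          Bool.decide_eq_true, List.tail_cons]
        cases (D u && decide (q.1 = li s)) <;> simp [h0, Prod.map]

theorem push_comp {α : Type} [Primcodable α] (e : α) {D : α → Bool} (hD : Computable D) :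
    Computable₂ (push e D) := by
  have hn : Computable fun x : Le × α × List (Le × α) =>
      ((e, (x.1, x.2.1) :: x.2.2) : α × List (Le × α)) :=
    ((Primrec.const _).pair (Primrec.list_cons.comp
      (Primrec.fst.pair (Primrec.fst.comp Primrec.snd)) (Primrec.snd.comp Primrec.snd))).to_comp
  have h1 : Computable fun y : (Le × α × List (Le × α)) × Le × α => D y.1.2.1 :=
    hD.comp (Computable.fst.comp (Computable.snd.comp Computable.fst))
  have h2 : Primrec fun y : (Le × α × List (Le × α)) × Le × α => decide (y.2.1 = li y.1.1) :=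
    Primrec.eq.decide.comp (Primrec.fst.comp Primrec.snd)
      ((Primrec.dom_finite li).comp (Primrec.fst.comp Primrec.fst))
  have h3 : Primrec fun y : (Le × α × List (Le × α)) × Le × α => (y.2.2, y.1.2.2.tail) :=
    (Primrec.snd.comp Primrec.snd).pair (Primrec.list_tail.comp (Primrec.snd.comp
      (Primrec.snd.comp Primrec.fst)))
  have h4 : Primrec fun x : Le × α × List (Le × α) => x.2.2.head? :=
    Primrec.list_head?.comp (Primrec.snd.comp Primrec.snd)
  exact Computable.option_casesOn h4.to_comp hn (Computable.cond
    (Primrec.and.to_comp.comp h1 h2.to_comp) h3.to_comp (hn.comp Computable.fst)).to₂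

theorem sstep_comp {D : List (Fin n × Bool) → Bool} (hD : Computable D) :
    Computable₂ (sstep D) := by
  have h1 : Primrec fun y : (Ix n × Sn n) × Fin n × Bool => ((y.2 :: y.1.2.1, y.1.2.2) : Sn n) :=
    (Primrec.list_cons.comp Primrec.snd (Primrec.fst.comp (Primrec.snd.comp Primrec.fst))).pair
      (Primrec.snd.comp (Primrec.snd.comp Primrec.fst))
  have h2 : Computable fun y : (Ix n × Sn n) × Le => push [] D y.2 y.1.2 :=
    (push_comp [] hD).comp Computable.snd (Computable.snd.comp Computable.fst)
  exact Computable.sumCasesOn Computable.fst h1.to_comp.to₂ h2.to₂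

theorem val_surj (hgen : Subgroup.closure (Set.range gen) = ⊤) (g : GG G) :
    ∃ w : List (Ix n), (w.map (val gen)).prod = g := by
  induction g using Coprod.induction_on with
  | mul a b ha hb =>
    obtain ⟨u, rfl⟩ := ha
    obtain ⟨w, rfl⟩ := hb
    exact ⟨u ++ w, by simp⟩
  | inl g =>
    obtain ⟨⟨u⟩, rfl⟩ : g ∈ (FreeGroup.lift gen).range := by
      rw [FreeGroup.range_lift_eq_closure, hgen]; trivial
    refine ⟨u.map .inl, ?_⟩
    change _ = inl (ph gen u)
    induction u with
    | nil => exact (map_one _).symm.trans (congrArg _ (map_one (FreeGroup.lift gen)).symm)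
    | cons t u ih => rw [ph_cons, map_mul, ← ih]; rfl
  | inr f =>
    obtain ⟨u⟩ := f
    refine ⟨u.map .inr, ?_⟩
    change _ = inr (FreeGroup.mk u)
    induction u with
    | nil => exact (map_one _).symm
    | cons t u ih =>
      rw [show FreeGroup.mk (t :: u) = .mk [t] * .mk u from rfl, map_mul, ← ih]; rfl

end MifCore

open MifCore in
theorem exists_mif {G : Type} [Group G] {n : ℕ} (gen : Fin n → G)
    (hgen : Subgroup.closure (Set.range gen) = ⊤)
    (hd : ComputablePred fun w : List (Fin n × Bool) =>
      FreeGroup.lift gen (FreeGroup.mk w) = 1) :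
    ∃ (G' : Type) (_ : Group G') (m : ℕ) (v : Fin m → G'),
      (∀ g : G', ∃ w : List (Fin m), (w.map v).prod = g) ∧
      (ComputablePred fun w : List (Fin m) => (w.map v).prod = 1) ∧
      MIF G' ∧ ∃ f : G →* G', Function.Injective f := by
  let e := Fintype.equivFin (Ix n)
  obtain ⟨D, hD, hD'⟩ := ComputablePred.computable_iff.mp hd
  refine ⟨GG G, inferInstance, _, val gen ∘ e.symm, fun g => ?_, ?_, mif, inl, inl_injective⟩
  · obtain ⟨w, rfl⟩ := val_surj gen hgen g
    exact ⟨w.map e, by simp [List.map_map, Function.comp_def]⟩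
  · have h1 := (comp_foldr (sstep_comp hD) ([], [])).comp
      (Primrec.list_map Primrec.id ((Primrec.dom_finite e.symm).comp Primrec.snd).to₂).to_comp
    refine ComputablePred.computable_iff.mpr ⟨_, Primrec.and.to_comp.comp
      (hD.comp (Computable.fst.comp h1)) ((Primrec.eq.decide.comp Primrec.snd
        (Primrec.const [])).to_comp.comp h1), funext fun w => propext ?_⟩
    have h2 : ∀ u, ph gen u = 1 ↔ D u = true := fun u => (congrFun hD' u).to_iff
    rw [← List.map_map, sem_iff, sem_eq gen h2, Prod.ext_iff]
    simp [h2]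

end Vale.Agent.P193
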