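import Vale.Agent.P193.PresB2

/-! Finite presentability of the permutation group of a complete finitely axiomatized model. -/

namespace Vale.Agent.P193

open Equiv
open scoped Pointwise

namespace PA

/-- finitely many true relations of length four can be imposed -/
theorem exists_loc {Gen G : Type} [Finite Gen] [Group G] (p0 : FreeGroup Gen →* G)
    {A : Set (FreeGroup Gen)} (hA : A.Finite) :
    ∃ (R : Set (FreeGroup Gen)) (π : PresentedGroup R →* G), R.Finite ∧
      (∀ x, π (PresentedGroup.mk R x) = p0 x) ∧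
      ∀ a ∈ A, ∀ b ∈ A, ∀ c ∈ A, ∀ d ∈ A, p0 a * p0 b = p0 c * p0 d →
        PresentedGroup.mk R (a * b) = PresentedGroup.mk R (c * d) := by
  obtain ⟨R, hR⟩ : ∃ R : Set (FreeGroup Gen), R = {x | x ∈ A * A * (A * A)⁻¹ ∧ p0 x = 1} :=
    ⟨_, rfl⟩
  refine ⟨R, QuotientGroup.lift (Subgroup.normalClosure R) p0
    (Subgroup.normalClosure_le_normal fun x hx => ?_), ?_, fun _ => rfl, ?_⟩
  · rw [hR] at hx; exact hx.2
  · rw [hR]
    exact ((hA.mul hA).mul (hA.mul hA).inv).subset fun _ h => h.1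
  · intro a ha b hb c hc d hd h
    refine PresentedGroup.mk_eq_mk_of_mul_inv_mem ?_
    rw [hR]
    refine ⟨Set.mul_mem_mul (Set.mul_mem_mul ha hb) (Set.inv_mem_inv.2 (Set.mul_mem_mul hc hd)), ?_⟩
    rw [map_mul, map_inv, map_mul, map_mul, h, mul_inv_cancel]

variable (Sg : Type) {Y : Type} [MulAction (FreeGroup Sg) Y] (D : Set (Set Y))

/-- the generators -/
abbrev Gen : Type := (Pos × Sg) ⊕ Perm Pos ⊕ (D × T3)

/-- label words -/
def wl (i : Pos) : FreeGroup Sg →* FreeGroup (Gen Sg D) := FreeGroup.map fun s => Sum.inl (i, s)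

/-- permutation letters -/
def wo (ρ : Perm Pos) : FreeGroup (Gen Sg D) := FreeGroup.of (Sum.inr (Sum.inl ρ))

/-- cut letters -/
def wk (d : D) (τ : T3) : FreeGroup (Gen Sg D) := FreeGroup.of (Sum.inr (Sum.inr (d, τ)))

/-- the evaluation of words -/
noncomputable def ev : FreeGroup (Gen Sg D) →* Perm (Y × Pos) :=
  FreeGroup.lift (Sum.elim (fun x => Lab (FreeGroup Sg) Y (Pi.mulSingle x.1 (FreeGroup.of x.2)))
    (Sum.elim (fun ρ => cnd Set.univ ρ) fun x => cnd x.1.1 x.2.1))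

theorem ev_wl (i : Pos) (γ : FreeGroup Sg) :
    ev Sg D (wl Sg D i γ) = Lab (FreeGroup Sg) Y (Pi.mulSingle i γ) := by
  have : (ev Sg D).comp (wl Sg D i) =
      (Lab (FreeGroup Sg) Y).comp (MonoidHom.mulSingle (fun _ => FreeGroup Sg) i) := by
    refine FreeGroup.ext_hom _ _ fun s => ?_
    simp [ev, wl]
  exact DFunLike.congr_fun this γ

theorem ev_wo (ρ : Perm Pos) : ev Sg D (wo Sg D ρ) = cnd Set.univ ρ := by simp [ev, wo]

theorem ev_wk (d : D) (τ : T3) : ev Sg D (wk Sg D d τ) = cnd d.1 τ.1 := by simp [ev, wk]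

/-- the atoms -/
def atoms (W : Set (FreeGroup Sg)) : Set (FreeGroup (Gen Sg D)) :=
  {1} ∪ Set.range FreeGroup.of ∪ (⋃ i, wl Sg D i '' W) ∪
    (fun γ => ((List.finRange 30).map fun i => wl Sg D i γ).prod) '' W

theorem atoms_finite [Finite Sg] [Finite D] {W : Set (FreeGroup Sg)} (hW : W.Finite) :
    (atoms Sg D W).Finite :=
  (((Set.finite_singleton _).union (Set.finite_range _)).union
    (Set.finite_iUnion fun _ => hW.image _)).union (hW.image _)

variable {Sg D}

/-- the generating data attached to a quotient of the free group -/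
def mkPre {W : Set (FreeGroup Sg)} {H : Type} [Group H] (q : FreeGroup (Gen Sg D) →* H)
    (hq : Function.Surjective q) (π : H →* Perm (Y × Pos)) (hπ : ∀ x, π (q x) = ev Sg D x)
    (hl : ∀ a ∈ atoms Sg D W, ∀ b ∈ atoms Sg D W, ∀ c ∈ atoms Sg D W, ∀ d ∈ atoms Sg D W,
      ev Sg D a * ev Sg D b = ev Sg D c * ev Sg D d → q (a * b) = q (c * d))
    (hz : Subgroup.center H = ⊥) : Pre Sg D W H where
  π := π
  l i := q.comp (wl Sg D i)
  o ρ := q (wo Sg D ρ)
  k d τ := q (wk Sg D d τ)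
  A := q '' atoms Sg D W
  loc := by
    rintro _ ⟨a, ha, rfl⟩ _ ⟨b, hb, rfl⟩ _ ⟨c, hc, rfl⟩ _ ⟨d, hd, rfl⟩ h
    rw [hπ, hπ, hπ, hπ] at h
    rw [← map_mul, ← map_mul]
    exact hl a ha b hb c hc d hd h
  one_mem := ⟨1, Or.inl (Or.inl (Or.inl rfl)), map_one q⟩
  l_mem i s := ⟨_, Or.inl (Or.inl (Or.inr ⟨Sum.inl (i, s), rfl⟩)), rfl⟩
  lW_mem i γ h := ⟨_, Or.inl (Or.inr (Set.mem_iUnion.2 ⟨i, γ, h, rfl⟩)), rfl⟩
  o_mem ρ := ⟨_, Or.inl (Or.inl (Or.inr ⟨_, rfl⟩)), rfl⟩
  k_mem d τ := ⟨_, Or.inl (Or.inl (Or.inr ⟨_, rfl⟩)), rfl⟩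
  cW_mem γ h := ⟨_, Or.inr ⟨γ, h, rfl⟩, by rw [map_list_prod, List.map_map]; rfl⟩
  π_l i γ := (hπ _).trans (ev_wl Sg D i γ)
  π_o ρ := (hπ _).trans (ev_wo Sg D ρ)
  π_k d τ := (hπ _).trans (ev_wk Sg D d τ)
  gen K h1 h2 h3 := by
    rw [eq_top_iff]
    rintro x -
    obtain ⟨x, rfl⟩ := hq x
    induction x using FreeGroup.induction_on with
    | C1 => rw [map_one]; exact one_mem _
    | of s =>
      rcases s with ⟨i, s⟩ | ρ | ⟨d, τ⟩
      · exact h1 i s
      · exact h2 ρ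
      · exact h3 d τ
    | inv_of s h => rw [map_inv]; exact inv_mem h
    | mul x y hx hy => rw [map_mul]; exact mul_mem hx hy
  center := hz

theorem range_ev {J : Type} {e : J → Set Y} (hh : Half Sg e)
    (hD : ∀ d ∈ D, Defn (FreeGroup Sg) e d) (hb : ∀ j, e j ∈ D) :
    (ev Sg D).range = AP Sg e Finset.univ := by
  apply le_antisymm
  · rintro _ ⟨x, rfl⟩
    induction x using FreeGroup.induction_on with
    | C1 => rw [map_one]; exact one_mem _
    | of s =>
      rcases s with ⟨i, s⟩ | ρ | ⟨d, τ⟩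
      · exact ev_wl Sg D i (FreeGroup.of s) ▸ Lab_single_mem_AP (Finset.mem_univ i) _
      · exact ev_wo Sg D ρ ▸ cnd_univ_mem_AP (Finset.subset_univ _)
      · exact ev_wk Sg D d τ ▸ EP_le_AP hh (by simp) (cnd_mem_EP (hD _ d.2) (Finset.subset_univ _))
    | inv_of s h => rw [map_inv]; exact inv_mem h
    | mul x y hx hy => rw [map_mul]; exact mul_mem hx hy
  · rw [AP, Subgroup.closure_le]
    rintro _ ((⟨i, -, s, rfl⟩ | ⟨ρ, -, rfl⟩) | ⟨j, τ, -, rfl⟩)
    · exact ⟨_, ev_wl Sg D i _⟩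
    · exact ⟨_, ev_wo Sg D ρ⟩
    · exact ⟨_, ev_wk Sg D ⟨_, hb j⟩ τ⟩

theorem exists_comm_word {Γ G : Type} [Group Γ] [Group G] (p0 : Γ →* G)
    (h : Group.IsPerfect p0.range) (x : Γ) : ∃ w ∈ commutator Γ, p0 w = p0 x := by
  have h1 : ⁅p0.range, p0.range⁆ = p0.range := Subgroup.isPerfect_iff.1 h
  have h2 : (commutator Γ).map p0 = p0.range := by
    rw [commutator_def, Subgroup.map_commutator, ← MonoidHom.range_eq_map, h1]
  have h3 : p0 x ∈ (commutator Γ).map p0 := h2 ▸ ⟨x, rfl⟩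
  exact h3

end PA

open PA

variable {Sg J Y : Type} [MulAction (FreeGroup Sg) Y] {e : J → Set Y}

theorem fp_AP [Finite Sg] [Finite J] {P : Mdl (FreeGroup Sg) J → Prop} (hP : FinAx P)
    (hc : Complete P e) (hi : InvH Sg e) (hh : Half Sg e)
    (hperf : Group.IsPerfect (AP Sg e Finset.univ))
    (hz : Subgroup.center (AP Sg e Finset.univ) = ⊥)
    (hcent : ∀ (H : Type) [Group H] [Group.IsPerfect H] (π : H →* Perm (Y × Pos)),
      π.range = AP Sg e Finset.univ → π.ker ≤ Subgroup.center H → Function.Injective π) :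
    Group.IsFinitelyPresented (AP Sg e Finset.univ) := by
  obtain ⟨Φ, hΦ, hP⟩ := hP
  obtain ⟨TT, W, hTT, hW, hT⟩ := exists_closed hΦ
  haveI : Finite (DD e TT) := DD_finite e hTT
  have hr : (ev Sg (DD e TT)).range = AP Sg e Finset.univ :=
    range_ev hh (fun d hd => DD_defn e hd) fun j => (d0 e (hT.basic j)).2
  choose w hw1 hw2 using exists_comm_word (ev Sg (DD e TT)) (hr ▸ hperf)
  obtain ⟨R, π, hR, hπ, hl⟩ := exists_loc (ev Sg (DD e TT))
    ((atoms_finite Sg (DD e TT) hW).union (Set.finite_range fun x => w (FreeGroup.of x)))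
  haveI : Finite R := hR
  have hsurj := PresentedGroup.mk_surjective R
  haveI : Group.IsPerfect (PresentedGroup R) := by
    rw [Group.isPerfect_def, eq_top_iff]
    rintro x -
    refine PresentedGroup.generated_by R _ (fun j => ?_) x
    have o1 : (1 : FreeGroup (Gen Sg (DD e TT))) ∈ atoms Sg (DD e TT) W :=
      Or.inl (Or.inl (Or.inl rfl))
    have h1 := hl _ (Or.inr ⟨j, rfl⟩) _ (Or.inl o1) _ (Or.inl (Or.inl (Or.inl (Or.inr ⟨j, rfl⟩))))
      _ (Or.inl o1) (by rw [hw2])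
    rw [mul_one, mul_one] at h1
    rw [PresentedGroup.of, ← h1]
    have h2 : (commutator _).map (PresentedGroup.mk R) ≤ commutator (PresentedGroup R) := by
      rw [commutator_def, commutator_def, Subgroup.map_commutator]
      exact Subgroup.commutator_mono le_top le_top
    exact h2 ⟨_, hw1 _, rfl⟩
  have hrπ : π.range = AP Sg e Finset.univ := by
    rw [← hr]
    ext x
    constructor
    · rintro ⟨y, rfl⟩
      obtain ⟨y, rfl⟩ := hsurj y
      exact ⟨y, (hπ y).symm⟩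
    · rintro ⟨y, rfl⟩
      exact ⟨_, hπ y⟩
  have hker : Subgroup.center (PresentedGroup R) ≤ π.ker := by
    intro z hz'
    have h1 : π z ∈ AP Sg e Finset.univ := hrπ ▸ ⟨z, rfl⟩
    have h2 : (⟨π z, h1⟩ : AP Sg e Finset.univ) ∈ Subgroup.center (AP Sg e Finset.univ) := by
      rw [Subgroup.mem_center_iff]
      rintro ⟨g, hg⟩
      rw [← hrπ] at hg
      obtain ⟨y, rfl⟩ := hg
      apply Subtype.ext
      show π y * π z = π z * π y
      rw [← map_mul, ← map_mul, Subgroup.mem_center_iff.1 hz' y]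
    rw [hz, Subgroup.mem_bot] at h2
    exact congrArg Subtype.val h2
  have hinj := pre_injective (mkPre (W := W)
    ((QuotientGroup.mk' (Subgroup.center (PresentedGroup R))).comp (PresentedGroup.mk R))
    ((QuotientGroup.mk'_surjective _).comp hsurj) (QuotientGroup.lift _ π hker) hπ
    (fun a ha b hb c hc d hd h => congrArg (QuotientGroup.mk' _)
      (hl a (Or.inl ha) b (Or.inl hb) c (Or.inl hc) d (Or.inl hd) h))
    (Group.IsPerfect.center_quotient_center_eq_bot _)) hΦ hP hT hc hi hh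
  have hinj' : Function.Injective π := by
    refine hcent _ π hrπ fun z hz' => ?_
    rw [← QuotientGroup.eq_one_iff]
    exact (injective_iff_map_eq_one _).1 hinj _ hz'
  exact Group.IsFinitelyPresented.equiv
    ((MonoidHom.ofInjective hinj').trans (MulEquiv.subgroupCongr hrπ))

end Vale.Agent.P193
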