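import Vale.Agent.P193.TensorC2

/-! Perfect central extensions of the group of rectangular swaps are trivial. -/

namespace Vale.Agent.P193

open Equiv Set
open scoped commutatorElement

namespace TS

variable {X0 X : Type} {T : TS X0 X}

/-- data of a generator of `RA0` -/
structure Gen (T : TS X0 X) where
  e : Set X0
  g : Perm X0
  β : List Bool
  he : e ∈ T.B
  hg : g ∈ T.Γ
  dj : Disjoint e (g '' e)
  hβ : β = [] ∨ ∃ d, β = [d]

theorem Gen.ok (D : Gen T) (a b : List Bool) : T.Ok D.e D.g a b :=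
  ⟨D.he, D.hg, disj_of_set D.dj _ _⟩

/-- the swap of a generator -/
noncomputable def Gen.sw (D : Gen T) : Perm X := T.sw D.e D.g [] D.β

/-- the embedding of `X` onto the cone of `s` -/
def emb (T : TS X0 X) (s : List Bool) : X ↪ X :=
  ⟨fun p => T.co ((T.co.symm p).1, pw s (T.co.symm p).2), fun p q h => by
    have h1 := Prod.mk.inj (T.co.injective h)
    exact T.co.symm.injective (Prod.ext h1.1 (pw_inj.1 h1.2))⟩

theorem emb_co (s : List Bool) (x : X0) (n : ℕ) : T.emb s (T.co (x, n)) = T.co (x, pw s n) := by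
  show T.co ((T.co.symm (T.co (x, n))).1, pw s (T.co.symm (T.co (x, n))).2) = _
  rw [Equiv.symm_apply_apply]

theorem Ok.transport {e : Set X0} {g : Perm X0} {a b : List Bool} (h : T.Ok e g a b)
    {s : List Bool} (h' : T.Ok e g (s ++ a) (s ++ b)) :
    Perm.viaEmbeddingHom (T.emb s) (T.sw e g a b) = T.sw e g (s ++ a) (s ++ b) := by
  rw [Perm.viaEmbeddingHom_apply]
  refine eq_swapR h'.isMatch ?_ ?_ fun p hp => ?_
  · rintro _ ⟨x, hx, n, rfl⟩
    simp only [pw_append, ← emb_co, Perm.viaEmbedding_apply]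
    rw [emb_co, emb_co, h.left hx, emb_co]
  · rintro _ ⟨x, hx, n, rfl⟩
    simp only [pw_append, ← emb_co, Perm.viaEmbedding_apply]
    rw [emb_co, emb_co, h.right hx, emb_co]
  · by_cases h1 : p ∈ range (T.emb s)
    · obtain ⟨q, rfl⟩ := h1
      rw [rsupp_rel, mem_union, not_or] at hp
      rw [Perm.viaEmbedding_apply, sw_other]
      · rintro ⟨x, hx, n, rfl⟩
        exact hp.1 ⟨x, hx, n, by rw [emb_co, pw_append]⟩
      · rintro ⟨x, hx, n, rfl⟩
        exact hp.2 ⟨x, hx, n, by rw [emb_co, pw_append]⟩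
    · exact Perm.viaEmbedding_apply_of_notMem _ _ _ h1

theorem exists_tau {e : Set X0} {g : Perm X0} (he : e ∈ T.B) (hg : g ∈ T.Γ)
    (dj : Disjoint e (g '' e)) : ∃ τ : X0 → X0, Function.Involutive τ ∧
      (∀ S ∈ T.B, τ '' S ∈ T.B) ∧
      ∀ s x n, T.sw e g s s (T.co (x, pw s n)) = T.co (τ x, pw s n) := by
  classical
  have ok : ∀ s, T.Ok e g s s := fun s => ⟨he, hg, disj_of_set dj _ _⟩
  have hf := T.inv g hg e he
  set τ : X0 → X0 := fun x => if x ∈ e then g x else if x ∈ g '' e then g⁻¹ x else x with hτ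
  have t1 : ∀ x ∈ e, τ x = g x := fun x hx => if_pos hx
  have t2 : ∀ x ∈ g '' e, τ x = g⁻¹ x := fun x hx =>
    (if_neg (Set.disjoint_right.1 dj hx)).trans (if_pos hx)
  have t3 : ∀ x, x ∉ e → x ∉ g '' e → τ x = x := fun x h1 h2 => (if_neg h1).trans (if_neg h2)
  have key : ∀ s x n, T.sw e g s s (T.co (x, pw s n)) = T.co (τ x, pw s n) := by
    intro s x n
    by_cases h1 : x ∈ e
    · rw [t1 x h1, (ok s).left h1]
    by_cases h2 : x ∈ g '' e
    · rw [t2 x h2]
      obtain ⟨y, hy, rfl⟩ := h2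
      rw [(ok s).right hy]
      simp
    · rw [t3 x h1 h2, sw_other (fun h => h1 (mem_rect.1 h).1) fun h => h2 (mem_rect.1 h).1]
  refine ⟨τ, fun x => ?_, fun S hS => ?_, key⟩
  · have := sw_sw (T := T) (e := e) (g := g) (a := []) (b := []) (T.co (x, pw [] 0))
    rw [key, key] at this
    exact (Prod.mk.inj (T.co.injective this)).1
  · have e1 : S = S ∩ e ∪ S ∩ g '' e ∪ (S \ e) \ g '' e := by
      ext x
      simp only [mem_union, mem_inter_iff, mem_sdiff]
      tauto
    rw [e1, image_union, image_union, image_congr fun x hx => t1 x hx.2,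
      image_congr fun x hx => t2 x hx.2, image_congr fun x hx => t3 x hx.1.2 hx.2, image_id']
    exact T.B.sup_mem (T.B.sup_mem (T.inv g hg _ (T.B.inf_mem hS he))
      (T.inv _ (T.Γ.inv_mem hg) _ (T.B.inf_mem hS hf))) (T.B.sdiff_mem (T.B.sdiff_mem hS he) hf)

namespace CE

variable {H : Type} [Group H] (C : CE T H)

/-- the lift of a generator moved to the cone of `s` -/
noncomputable def tg (s : List Bool) (D : Gen T) : H := C.tt D.e D.g s (s ++ D.β)

/-- evaluation of a word in the cone of `s` -/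
noncomputable def ev (s : List Bool) (w : List (Gen T)) : H := (w.map (C.tg s)).prod

theorem ev_cons (s : List Bool) (D : Gen T) (w : List (Gen T)) :
    C.ev s (D :: w) = C.tg s D * C.ev s w := by
  simp [ev]

theorem tg_mem (s : List Bool) (D : Gen T) : C.tg s D ∈ C.Loc (T.rect univ s) :=
  C.tt_mem (D.ok _ _) (rect_mono_left (subset_univ _) _) (rect_mono (subset_univ _) _ _)

theorem ev_mem (s : List Bool) (w : List (Gen T)) : C.ev s w ∈ C.Loc (T.rect univ s) := by
  induction w with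
  | nil => exact Subgroup.one_mem _
  | cons D w ih => rw [ev_cons]; exact Subgroup.mul_mem _ (C.tg_mem s D) ih

theorem pi_ev (s : List Bool) (w : List (Gen T)) :
    C.π (C.ev s w) = Perm.viaEmbeddingHom (T.emb s) (w.map Gen.sw).prod := by
  induction w with
  | nil => simp [ev]
  | cons D w ih =>
    rw [ev_cons, map_mul, ih, List.map_cons, List.prod_cons, map_mul, Gen.sw,
      (D.ok _ _).transport (D.ok _ _), tg, C.pi_tt (D.ok _ _), List.append_nil]

theorem step (D : Gen T) {E : List Bool → Set X0} (hB : ∀ r, E r ∈ T.B) {K j : ℕ} (hK : Dp E K)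
    (hj : Full E (j + 1)) : ∃ E' : List Bool → Set X0, (∀ r, E' r ∈ T.B) ∧ Dp E' (K + 1) ∧
      Full E' j ∧ T.Corr D.sw E E' ∧ T.Corr D.sw E' E ∧ ∀ N, K + 1 ≤ N → ∀ s,
        C.tg (s ++ [false]) D * C.tg (s ++ [true]) D * C.MM (N + 1) s E =
          C.MM (N + 1) s E' * C.tg s D := by
  rcases D.hβ with h | ⟨d, h⟩
  · obtain ⟨τ, h1, h2, h3⟩ := exists_tau D.he D.hg D.dj
    have h4 : ∀ x r n, D.sw (T.co (x, pw r n)) = T.co (τ x, pw r n) := fun x r n => by
      rw [Gen.sw, h]
      exact h3 [] x _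
    refine ⟨fun r => τ '' E r, fun r => h2 _ (hB r), ?_, fun r hr x => ⟨τ x, hj r (by omega) _, h1 x⟩,
      fun x r hx => ⟨τ x, r, fun h => hx (h1.injective.mem_set_image.1 h), h4 x r⟩,
      fun x r hx => ⟨τ x, r, fun h => hx ⟨τ x, h, h1 x⟩, h4 x r⟩, fun N _ s => ?_⟩
    · rintro r hr _ ⟨x, hx, rfl⟩
      exact hK r (by omega) x hx
    · simp only [tg, h, List.append_nil]
      rw [← C.tt_digit (D.ok s s), ← mul_inv_eq_iff_eq_mul]
      exact C.MM_conj _ hB (fun _ => subset_univ _) fun x _ n => by rw [C.pi_tt (D.ok _ _), h3]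
  · obtain ⟨E', hB', hS⟩ := exists_st D.he D.hg D.dj d hB fun x _ => hj [] (by simp) x
    refine ⟨E', hB', hS.dp hK, hS.full hj, ?_, ?_, fun N hN s => ?_⟩
    · rw [Gen.sw, h]
      exact hS.corr (D.ok _ _) D.dj
    · rw [Gen.sw, h]
      exact hS.symm.corr (D.ok _ _) D.dj
    · simp only [tg, h]
      exact C.step_two D.he D.hg D.dj hS hB hB' (hK.mono (by omega)) ((hS.dp hK).mono hN) s

theorem walk (w : List (Gen T)) {E : List Bool → Set X0} (hB : ∀ r, E r ∈ T.B) {K j : ℕ}
    (hK : Dp E K) (hj : Full E (j + w.length)) : ∃ E' : List Bool → Set X0,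
      (∀ r, E' r ∈ T.B) ∧ Dp E' (K + w.length) ∧ Full E' j ∧ T.Corr (w.map Gen.sw).prod E E' ∧
      T.Corr (w.map Gen.sw).prod⁻¹ E' E ∧ ∀ N, K + w.length ≤ N → ∀ s,
        C.ev (s ++ [false]) w * C.ev (s ++ [true]) w * C.MM (N + 1) s E =
          C.MM (N + 1) s E' * C.ev s w := by
  induction w generalizing j with
  | nil =>
    exact ⟨E, hB, hK, hj, corr_one E, by simpa using corr_one E, fun N _ s => by simp [ev]⟩
  | cons D w ih =>
    obtain ⟨E1, a1, a2, a3, a4, a5, a6⟩ := ih (j := j + 1) (by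
      rwa [List.length_cons, add_comm w.length, ← add_assoc] at hj)
    obtain ⟨E2, b1, b2, b3, b4, b5, b6⟩ := C.step D a1 a2 a3
    refine ⟨E2, b1, b2, b3, ?_, ?_, fun N hN s => ?_⟩
    · rw [List.map_cons, List.prod_cons]
      exact a4.mul b4
    · rw [List.map_cons, List.prod_cons, mul_inv_rev, Gen.sw, sw_inv]
      exact b5.mul a5
    · have c := loc_commute (C.ev_mem (s ++ [false]) w) (C.tg_mem (s ++ [true]) D)
        (disj_of_dis (dis_digit s) _ _)
      rw [List.length_cons] at hN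
      simp only [ev_cons]
      rw [← mul_assoc (C.MM _ _ E2), ← b6 N (by omega) s, mul_assoc _ (C.MM _ _ E1), ← a6 N (by omega) s]
      simp only [mul_assoc]
      rw [c.left_comm]

theorem ev_central {w : List (Gen T)} (hw : (w.map Gen.sw).prod = 1) (s : List Bool) (h : H) :
    Commute h (C.ev s w) :=
  C.central (by rw [pi_ev, hw, map_one]) h

theorem ev_double {w : List (Gen T)} (hw : (w.map Gen.sw).prod = 1) (s : List Bool) :
    C.ev s w = C.ev (s ++ [false]) w * C.ev (s ++ [true]) w := by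
  obtain ⟨E', -, -, -, h1, h2, h3⟩ := C.walk w (E := fun r => {_x | r.length < w.length})
    (K := w.length) (j := 0) (fun r => by
      by_cases h : r.length < w.length
      · simpa [h] using T.B.top_mem
      · simpa [h] using T.B.bot_mem) (fun r hr x hx => by simp at hx; omega)
    (fun r hr x => by simpa using hr)
  rw [hw] at h1 h2
  rw [inv_one] at h2
  have h4 := h3 _ le_rfl s
  rw [show E' = _ from funext fun r => (h1.sub r).antisymm (h2.sub r),
    (C.ev_central hw s _).eq] at h4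
  exact (mul_right_cancel h4).symm

theorem ev_eq {w : List (Gen T)} (hw : (w.map Gen.sw).prod = 1) {s s' : List Bool}
    (h : Dis s s') : C.ev s w = C.ev s' w := by
  have ok : T.Ok univ 1 s s' := ok_of_dis T.B.top_mem T.Γ.one_mem h
  have h1 : ∀ w, C.tt univ 1 s s' * C.ev s w * (C.tt univ 1 s s')⁻¹ = C.ev s' w := by
    intro w
    induction w with
    | nil => simp [ev]
    | cons D w ih =>
      have := C.tt_conj (D.ok s (s ++ D.β)) (k := C.tt univ 1 s s') (s := id) (g' := D.g) (a' := s')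
        (b' := s' ++ D.β) (fun x _ n => by rw [C.pi_tt ok, ok.left (mem_univ _)]; rfl)
        (fun x _ n => by rw [C.pi_tt ok, pw_append, pw_append, ok.left (mem_univ _)]; rfl)
      rw [image_id] at this
      rw [ev_cons, ev_cons, ← ih, tg, tg, ← this]
      group
  rw [← h1 w, (C.ev_central hw s _).eq, mul_inv_cancel_right]

theorem ev_eq_one {w : List (Gen T)} (hw : (w.map Gen.sw).prod = 1) : C.ev [] w = 1 := by
  have d : Dis [false] [true] := dis_digit []
  have h1 := C.ev_double hw [false]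
  rw [C.ev_eq hw d, C.ev_eq hw (s' := [true]) (d.append [false] []),
    C.ev_eq hw (s := [false] ++ [true]) (s' := [true]) (d.append [true] [])] at h1
  have h2 : C.ev [true] w = 1 := by simpa using h1
  rw [C.ev_double hw, List.nil_append, List.nil_append, C.ev_eq hw d, h2, mul_one]

theorem exists_word (hgen : T.RA ≤ T.RA0) [Group.IsPerfect H] (k : H) : ∃ w, k = C.ev [] w := by
  have h1 : ∀ h : H, ∃ h' ∈ Subgroup.closure (range (C.tg [])), C.π h = C.π h' := by
    intro h
    have : T.RA0 ≤ (Subgroup.closure (range (C.tg []))).map C.π := by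
      rw [RA0, Subgroup.closure_le]
      rintro _ ⟨e, he, g, hg, β, hβ, hm, rfl⟩
      have dj : Disjoint e (g '' e) := Set.disjoint_left.2 fun x hx hx' =>
        Set.disjoint_left.1 (isMatch_iff.1 hm) (mem_rect.2 ⟨hx, pw β 0, rfl⟩) (mem_rect_self hx' 0)
      exact ⟨_, Subgroup.subset_closure ⟨⟨e, g, β, he, hg, dj, hβ⟩, rfl⟩,
        C.pi_tt ⟨he, hg, isMatch_iff.1 hm⟩⟩
    obtain ⟨h', h1, h2⟩ := this (hgen (C.mem h))
    exact ⟨h', h1, h2.symm⟩
  have h2 : commutator H ≤ Subgroup.closure (range (C.tg [])) :=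
    Subgroup.commutator_le.2 fun a _ b _ => by
      obtain ⟨a', ha, ea⟩ := h1 a
      obtain ⟨b', hb, eb⟩ := h1 b
      rw [C.comm_congr ea eb]
      exact Subgroup.mul_mem _ (Subgroup.mul_mem _ (Subgroup.mul_mem _ ha hb)
        (Subgroup.inv_mem _ ha)) (Subgroup.inv_mem _ hb)
  have h3 := h2 (Group.IsPerfect.mem_commutator (g := k))
  induction h3 using Subgroup.closure_induction_left with
  | one => exact ⟨[], rfl⟩
  | mul_left x hx y _ ih =>
    obtain ⟨D, rfl⟩ := hx
    obtain ⟨w, rfl⟩ := ih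
    exact ⟨D :: w, (C.ev_cons _ _ _).symm⟩
  | inv_mul_cancel x hx y _ ih =>
    obtain ⟨D, rfl⟩ := hx
    obtain ⟨w, rfl⟩ := ih
    exact ⟨D :: w, by rw [C.ev_cons, tg, C.tt_inv (D.ok _ _)]⟩

end CE

variable (T)

theorem RA_central (hgen : T.RA ≤ T.RA0) {H : Type} [Group H] [Group.IsPerfect H]
    (π : H →* Perm X) (hr : π.range = T.RA) (hc : π.ker ≤ Subgroup.center H) :
    Function.Injective π := by
  refine (injective_iff_map_eq_one π).2 fun k hk => ?_
  let C : CE T H := ⟨π, hr, hc⟩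
  obtain ⟨w, rfl⟩ := C.exists_word hgen k
  refine C.ev_eq_one (Perm.viaEmbeddingHom_injective (T.emb []) ?_)
  rw [← C.pi_ev, map_one]
  exact hk

end TS

end Vale.Agent.P193
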