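import Vale.Agent.P193.P2C
import Vale.Agent.P193.Link
import Vale.Agent.P193.PresB
import Vale.Agent.P193.TensorC
import Vale.Agent.P193.TensorS
import Vale.Agent.P193.Machine
import Vale.Agent.P193.Mif

/-! Assembly. -/

namespace Vale.Agent.P193

open scoped Pointwise

variable {G : Type} [Group G] {M : Mach G}

theorem sum_hyp (hM : M.Good) {N : Type} [MulAction (FF M) N] {b : Pr M → Set N} (h : Ax b) :
    Hyp (fun j => Sum.inl '' b j ∪ Sum.inr '' ce M j) :=
  { toAx := finAx_ax.sum (b := b) (c := ce M) h (ax_conc hM), good := hM, cm := fun _ _ => trivial }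

theorem sum_emb {N : Type} [MulAction (FF M) N] (b : Pr M → Set N) :
    Emb (fun j => Sum.inl '' b j ∪ Sum.inr '' ce M j) Sum.inr :=
  ⟨Sum.inr_injective, fun _ _ => rfl, fun j z => by simp⟩

theorem complete_conc (hM : M.Good) (hG : MIF G) :
    Complete (fun m : Mdl (FF M) (Pr M) => Ax m.b) (ce M) where
  holds := ax_conc hM
  comm m hm hb := Hyp.phase1 { toAx := hm, good := hM, cm := hb }
  dense N _ b hb t ht := by
    have := hG.infinite
    have h := sum_hyp hM (b := b) hb
    rw [Set.eq_empty_iff_forall_notMem]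
    intro y hy
    obtain ⟨z, -, hz⟩ := h.dense_alg (sum_emb b) _ (h.eval_mem t) (Sum.inl y)
      (by rw [eval_sum]; exact Or.inl ⟨y, hy, rfl⟩)
    rw [eval_sum, ht] at hz
    simp at hz
  eff N _ b hb γ t ht y hy := by
    have h := sum_hyp hM (b := b) hb
    have := h.eff_alg hG (sum_emb b) γ (h.eval_mem t) (y := Sum.inl y)
      (by rw [eval_sum]; exact Or.inl ⟨y, hy, rfl⟩) (fun z hz => ht z (by
        rw [eval_sum] at hz
        simpa using hz))
    exact Sum.inl_injective this

theorem embeds_of_mach (hM : M.Good) (hG : MIF G) :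
    ∃ (S : Type) (_ : Group S), IsSimpleGroup S ∧ Group.IsFinitelyPresented S ∧
      ∃ f : G →* S, Function.Injective f := by
  obtain ⟨X0, _, T, hRA, hgen, hmin, hsep, ψ, e, he, h1, h2, h3⟩ := conc_tensor hM
  refine ⟨T.RA, inferInstance, T.RA_simple hmin hsep, ?_, T.RA_embed ψ he h1 h2 h3⟩
  rw [hRA]
  refine fp_AP finAx_ax (complete_conc hM hG) (conc_invH hM) (conc_half hM) ?_ ?_ ?_
  · rw [← hRA]; exact T.RA_perfect
  · rw [← hRA]; exact T.RA_center hmin hsep
  · intro H _ _ π hr hc
    exact T.RA_central hgen π (hr.trans hRA.symm) hc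

theorem boone_higman0 {G : Type} [Group G] {n : ℕ} (gen : Fin n → G)
    (hgen : Subgroup.closure (Set.range gen) = ⊤)
    (hdec : ComputablePred fun w : List (Fin n × Bool) =>
      FreeGroup.lift gen (FreeGroup.mk w) = 1) :
    ∃ (S : Type) (_ : Group S), IsSimpleGroup S ∧ Group.IsFinitelyPresented S ∧
      ∃ f : G →* S, Function.Injective f := by
  obtain ⟨G', _, m, v, hs, hd, hG, f, hf⟩ := exists_mif gen hgen hdec
  obtain ⟨M, hM⟩ := exists_mach v hs hd
  obtain ⟨S, _, h1, h2, g, hg⟩ := embeds_of_mach hM hG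
  exact ⟨S, inferInstance, h1, h2, g.comp f, hg.comp hf⟩

theorem boone_higman {G : Type*} [Group G] {n : ℕ} (gen : Fin n → G)
    (hgen : Subgroup.closure (Set.range gen) = ⊤)
    (hdec : ComputablePred fun w : List (Fin n × Bool) =>
      FreeGroup.lift gen (FreeGroup.mk w) = 1) :
    ∃ (S : Type) (_ : Group S), IsSimpleGroup S ∧ Group.IsFinitelyPresented S ∧
      ∃ f : G →* S, Function.Injective f := by
  have hsurj : Function.Surjective (FreeGroup.lift gen) := by
    rw [← MonoidHom.range_eq_top, FreeGroup.range_lift_eq_closure, hgen]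
  let e := QuotientGroup.quotientKerEquivOfSurjective (FreeGroup.lift gen) hsurj
  let gen' : Fin n → FreeGroup (Fin n) ⧸ (FreeGroup.lift gen).ker := fun i => e.symm (gen i)
  have hl : ∀ w, FreeGroup.lift gen' w = e.symm (FreeGroup.lift gen w) := fun w =>
    DFunLike.congr_fun (FreeGroup.ext_hom (FreeGroup.lift gen')
      (e.symm.toMonoidHom.comp (FreeGroup.lift gen)) fun a => by simp [gen']) w
  obtain ⟨S, _, h1, h2, g, hg⟩ := boone_higman0 gen' (by
    rw [← FreeGroup.range_lift_eq_closure, MonoidHom.range_eq_top]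
    intro x
    obtain ⟨w, hw⟩ := hsurj (e x)
    exact ⟨w, by rw [hl, hw]; simp⟩) (by simpa [hl] using hdec)
  exact ⟨S, inferInstance, h1, h2, g.comp e.symm.toMonoidHom, hg.comp e.symm.injective⟩

end Vale.Agent.P193
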