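import Vale.Agent.P193.Swap
import Vale.Agent.P193.Cut

/-! The permutation groups generated by labels and conditional permutations of positions. -/

namespace Vale.Agent.P193

open Equiv
open scoped Pointwise

/-- position-wise action of a tuple of group elements -/
def Lab (F Y : Type) [Group F] [MulAction F Y] : (Pos → F) →* Perm (Y × Pos) where
  toFun v :=
    { toFun := fun x => (v x.2 • x.1, x.2)
      invFun := fun x => ((v x.2)⁻¹ • x.1, x.2)
      left_inv := fun x => by simp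
      right_inv := fun x => by simp }
  map_one' := by ext x <;> simp
  map_mul' u v := by ext x <;> simp [mul_smul]

@[simp] theorem Lab_apply {F Y : Type} [Group F] [MulAction F Y] (v : Pos → F) (x : Y × Pos) :
    Lab F Y v x = (v x.2 • x.1, x.2) := rfl

open Classical in
/-- permutation of positions performed only over the set `d` -/
noncomputable def cnd {Y : Type} (d : Set Y) : Perm Pos →* Perm (Y × Pos) where
  toFun π :=
    { toFun := fun x => (x.1, if x.1 ∈ d then π x.2 else x.2)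
      invFun := fun x => (x.1, if x.1 ∈ d then π⁻¹ x.2 else x.2)
      left_inv := fun x => by by_cases h : x.1 ∈ d <;> simp [h]
      right_inv := fun x => by by_cases h : x.1 ∈ d <;> simp [h] }
  map_one' := by ext x <;> simp
  map_mul' u v := by
    ext x
    · simp
    · by_cases h : x.1 ∈ d <;> simp [h]

theorem cnd_apply_mem {Y : Type} {d : Set Y} (π : Perm Pos) {y : Y} (h : y ∈ d) (i : Pos) :
    cnd d π (y, i) = (y, π i) := by
  simp [cnd, h]

theorem cnd_apply_not_mem {Y : Type} {d : Set Y} (π : Perm Pos) {y : Y} (h : y ∉ d) (i : Pos) :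
    cnd d π (y, i) = (y, i) := by
  simp [cnd, h]

/-- elementary matchings -/
def elRel {F Y : Type} [Group F] [MulAction F Y] (d : Set Y) (γ : F) (i j : Pos) :
    Set ((Y × Pos) × (Y × Pos)) :=
  {p | ∃ y ∈ d, p = ((y, i), (γ • y, j))}

variable {Sg J Y : Type} [MulAction (FreeGroup Sg) Y]

/-- the group generated by labels and conditional permutations with positions in `P` -/
def AP (Sg : Type) [MulAction (FreeGroup Sg) Y] (e : J → Set Y) (P : Finset Pos) :
    Subgroup (Perm (Y × Pos)) :=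
  Subgroup.closure
    ({u | ∃ i ∈ P, ∃ s : Sg, u = Lab (FreeGroup Sg) Y (Pi.mulSingle i (FreeGroup.of s))} ∪
      {u | ∃ π : Perm Pos, π.support ⊆ P ∧ u = cnd Set.univ π} ∪
      {u | ∃ j, ∃ τ : T3, τ.1.support ⊆ P ∧ u = cnd (e j) τ.1})

/-- the group generated by elementary swaps with positions in `P` -/
def EP (Sg : Type) [MulAction (FreeGroup Sg) Y] (e : J → Set Y) (P : Finset Pos) :
    Subgroup (Perm (Y × Pos)) :=
  Subgroup.closure {u | ∃ (d : Set Y) (γ : FreeGroup Sg), ∃ i ∈ P, ∃ j ∈ P,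
    Defn (FreeGroup Sg) e d ∧ IsMatch (elRel d γ i j) ∧ u = swapR (elRel d γ i j)}

/-- every generator acts as an involution with a definable fundamental domain -/
def InvH (Sg : Type) [MulAction (FreeGroup Sg) Y] (e : J → Set Y) : Prop :=
  ∀ s : Sg, ∃ d : Set Y, Defn (FreeGroup Sg) e d ∧ Disjoint d (FreeGroup.of s • d) ∧
    (∀ y ∈ d, FreeGroup.of s • FreeGroup.of s • y = y) ∧
    ∀ y, y ∉ d → y ∉ FreeGroup.of s • d → FreeGroup.of s • y = y

/-- finite disjoint unions of pairs of translates of a definable set -/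
inductive Halvable (Sg : Type) [MulAction (FreeGroup Sg) Y] (e : J → Set Y) : Set Y → Prop
  | empty : Halvable Sg e ∅
  | pair (d : Set Y) (γ : FreeGroup Sg) : Defn (FreeGroup Sg) e d → Disjoint d (γ • d) →
      Halvable Sg e (d ∪ γ • d)
  | union (d d' : Set Y) : Halvable Sg e d → Halvable Sg e d' → Disjoint d d' →
      Halvable Sg e (d ∪ d')

/-- every definable set can be halved -/
def Half (Sg : Type) [MulAction (FreeGroup Sg) Y] (e : J → Set Y) : Prop :=
  ∀ d, Defn (FreeGroup Sg) e d → Halvable Sg e d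

/-- a centerless group with cuts lying over the permutation group -/
structure Real (Sg : Type) [MulAction (FreeGroup Sg) Y] (e : J → Set Y) (H : Type) [Group H] where
  S : Sys (FreeGroup Sg) H
  π : H →* Perm (Y × Pos)
  D : Set (Set Y)
  c : Set Y → S.Cut
  D_defn : ∀ d ∈ D, Defn (FreeGroup Sg) e d
  D_basic : ∀ j, e j ∈ D
  hL : ∀ P, S.L P = Subgroup.closure
    ({x | ∃ i ∈ P, ∃ s : Sg, x = S.lab (Pi.mulSingle i (FreeGroup.of s))} ∪
      {x | ∃ ρ : Perm Pos, ρ.support ⊆ P ∧ x = S.io ρ} ∪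
      {x | ∃ d ∈ D, ∃ τ : T3, τ.1.support ⊆ P ∧ x = (c d).f τ})
  π_lab : ∀ v, π (S.lab v) = Lab (FreeGroup Sg) Y v
  π_io : ∀ ρ, π (S.io ρ) = cnd Set.univ ρ
  π_c : ∀ d ∈ D, ∀ τ : T3, π ((c d).f τ) = cnd d τ.1
  c_empty : c ∅ = ⊥
  c_univ : ∀ τ : T3, (c Set.univ).f τ = S.io τ.1
  c_le : ∀ d d', Defn (FreeGroup Sg) e d → Defn (FreeGroup Sg) e d' → d ⊆ d' → c d ≤ c d'
  c_compl : ∀ d, Defn (FreeGroup Sg) e d → c dᶜ = (c d)ᶜ
  c_split : ∀ d d', Defn (FreeGroup Sg) e d → Defn (FreeGroup Sg) e d' →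
    ∀ τ, (c d).f τ = (c (d ∩ d')).f τ * (c (d \ d')).f τ
  c_smul : ∀ d (γ : FreeGroup Sg), Defn (FreeGroup Sg) e d → c (γ • d) = γ • c d
  c_tv : ∀ d (γ : FreeGroup Sg), Defn (FreeGroup Sg) e d → (∀ y ∈ d, γ • y = y) → PM.Tv γ (c d)

end Vale.Agent.P193
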