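import Vale.Agent.P193.Tensor

/-! Basic facts on digit words, rectangles and rectangular swaps. -/

namespace Vale.Agent.P193

open Equiv Set
open scoped commutatorElement

@[simp] theorem pw_nil (n : ℕ) : pw [] n = n := rfl

theorem pw_cons (d : Bool) (a : List Bool) (n : ℕ) : pw (d :: a) n = Nat.bit d (pw a n) := rfl

theorem pw_append (a b : List Bool) (n : ℕ) : pw (a ++ b) n = pw a (pw b n) := by
  simp [pw]

theorem bit_inj' {d d' : Bool} {n m : ℕ} (h : Nat.bit d n = Nat.bit d' m) : d = d' ∧ n = m :=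
  ⟨by simpa using congrArg Nat.bodd h, by simpa using congrArg Nat.div2 h⟩

@[simp] theorem pw_inj {a : List Bool} {n m : ℕ} : pw a n = pw a m ↔ n = m := by
  refine ⟨fun h => ?_, fun h => h ▸ rfl⟩
  induction a with
  | nil => exact h
  | cons d a ih => exact ih (bit_inj' h).2

theorem pw_cmp {a b : List Bool} {n m : ℕ} (h : pw a n = pw b m) (hl : a.length ≤ b.length) :
    ∃ c, b = a ++ c ∧ n = pw c m := by
  induction a generalizing b with
  | nil => exact ⟨b, rfl, h⟩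
  | cons d a ih =>
    cases b with
    | nil => simp at hl
    | cons d' b =>
      obtain ⟨rfl, h2⟩ := bit_inj' h
      obtain ⟨c, rfl, hc⟩ := ih h2 (by simpa using hl)
      exact ⟨c, rfl, hc⟩

theorem pw_eq_of_length {a b : List Bool} {n m : ℕ} (h : pw a n = pw b m)
    (hl : a.length = b.length) : a = b := by
  obtain ⟨c, rfl, -⟩ := pw_cmp h hl.le
  have : c = [] := by simpa using hl
  simp [this]

theorem exists_pw (k n : ℕ) : ∃ a m, List.length a = k ∧ n = pw a m := by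
  induction k generalizing n with
  | zero => exact ⟨[], n, rfl, rfl⟩
  | succ k ih =>
    obtain ⟨a, m, h1, h2⟩ := ih n.div2
    exact ⟨n.bodd :: a, m, by simp [h1], by rw [pw_cons, ← h2, Nat.bit_bodd_div2]⟩

theorem exists_digit (n : ℕ) : ∃ d m, n = pw [d] m :=
  ⟨n.bodd, n.div2, (Nat.bit_bodd_div2 n).symm⟩

/-- the cones of `a` and `b` are disjoint -/
def Dis (a b : List Bool) : Prop := ∀ n m, pw a n ≠ pw b m

theorem Dis.symm {a b : List Bool} (h : Dis a b) : Dis b a := fun n m e => h m n e.symm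

theorem Dis.append {a b : List Bool} (h : Dis a b) (c c' : List Bool) : Dis (a ++ c) (b ++ c') :=
  fun n m e => h _ _ (by simpa only [pw_append] using e)

theorem Dis.left {a b : List Bool} (h : Dis a b) (s : List Bool) : Dis (s ++ a) (s ++ b) :=
  fun n m e => h n m (by simpa only [pw_append, pw_inj] using e)

theorem dis_of_ne {a b : List Bool} (hl : a.length = b.length) (h : a ≠ b) : Dis a b :=
  fun _ _ e => h (pw_eq_of_length e hl)

theorem dis_digit (a : List Bool) : Dis (a ++ [false]) (a ++ [true]) :=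
  (dis_of_ne (a := [false]) (b := [true]) rfl (by simp)).left a

theorem eq_of_pw_eq {a b : List Bool} (h : ∀ n, pw a n = pw b n) : a = b := by
  wlog hl : a.length ≤ b.length generalizing a b
  · exact (this (fun n => (h n).symm) (by omega)).symm
  obtain ⟨c, rfl, -⟩ := pw_cmp (h 0) hl
  cases c with
  | nil => simp
  | cons d c =>
    have h1 := h (Nat.bit (!d) 0)
    rw [pw_append, pw_inj, pw_cons] at h1
    have := (bit_inj' h1).1
    simp at this

theorem exists_sep_word {n m : ℕ} (h : n ≠ m) : ∃ a k, m = pw a k ∧ ∀ l, n ≠ pw a l := by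
  induction hs : n + m using Nat.strong_induction_on generalizing n m with
  | _ s ih =>
    by_cases hb : n.bodd = m.bodd
    · have h1 : n.div2 ≠ m.div2 := fun e => h (by
        rw [← Nat.bit_bodd_div2 n, hb, e, Nat.bit_bodd_div2])
      obtain ⟨a, k, e1, e2⟩ := ih (n.div2 + m.div2) (by
        simp only [Nat.div2_val] at h1 ⊢; omega) h1 rfl
      refine ⟨m.bodd :: a, k, by rw [pw_cons, ← e1, Nat.bit_bodd_div2], fun l e => e2 l ?_⟩
      rw [← Nat.bit_bodd_div2 n, pw_cons] at e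
      exact (bit_inj' e).2
    · refine ⟨[m.bodd], m.div2, (Nat.bit_bodd_div2 m).symm, fun l e => hb ?_⟩
      rw [← Nat.bit_bodd_div2 n, pw_cons] at e
      exact (bit_inj' e).1

namespace TS

variable {X0 X : Type} (T : TS X0 X)

/-- the rectangle `e × cone a` -/
def rect (e : Set X0) (a : List Bool) : Set X := {p | ∃ x ∈ e, ∃ n, p = T.co (x, pw a n)}

/-- the rectangular swap -/
noncomputable def sw (e : Set X0) (g : Perm X0) (a b : List Bool) : Perm X :=
  swapR (T.rel e g a b)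

/-- valid data of a rectangular swap -/
structure Ok (e : Set X0) (g : Perm X0) (a b : List Bool) : Prop where
  he : e ∈ T.B
  hg : g ∈ T.Γ
  dj : Disjoint (T.rect e a) (T.rect (g '' e) b)

/-- the swap of the last digits on both sides -/
noncomputable def kap (e : Set X0) (g : Perm X0) (a b : List Bool) : Perm X :=
  T.sw e 1 (a ++ [false]) (a ++ [true]) * T.sw (g '' e) 1 (b ++ [false]) (b ++ [true])

variable {T} {e e' f : Set X0} {g g' : Perm X0} {a b a' b' : List Bool}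

theorem exists_co (T : TS X0 X) (p : X) : ∃ x n, p = T.co (x, n) := by
  obtain ⟨⟨x, n⟩, rfl⟩ := T.co.surjective p
  exact ⟨x, n, rfl⟩

theorem mem_rect {x : X0} {n : ℕ} : T.co (x, n) ∈ T.rect e a ↔ x ∈ e ∧ ∃ m, n = pw a m := by
  constructor
  · rintro ⟨y, hy, m, h⟩
    obtain ⟨rfl, rfl⟩ := Prod.mk.inj (T.co.injective h)
    exact ⟨hy, m, rfl⟩
  · rintro ⟨hx, m, rfl⟩
    exact ⟨x, hx, m, rfl⟩

theorem mem_rect_self {x : X0} (hx : x ∈ e) (n : ℕ) : T.co (x, pw a n) ∈ T.rect e a :=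
  ⟨x, hx, n, rfl⟩

theorem rect_mono (h : e ⊆ e') (a c : List Bool) : T.rect e (a ++ c) ⊆ T.rect e' a := by
  rintro _ ⟨x, hx, n, rfl⟩
  exact ⟨x, h hx, _, by rw [pw_append]⟩

theorem rect_mono_left (h : e ⊆ e') (a : List Bool) : T.rect e a ⊆ T.rect e' a := by
  simpa using rect_mono (T := T) h a []

theorem rect_app (e : Set X0) (a c : List Bool) : T.rect e (a ++ c) ⊆ T.rect e a :=
  rect_mono subset_rfl a c

theorem disj_of_set (h : Disjoint e e') (a b : List Bool) :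
    Disjoint (T.rect e a) (T.rect e' b) := by
  rw [Set.disjoint_left]
  rintro _ ⟨x, hx, n, rfl⟩ hp
  exact Set.disjoint_left.1 h hx (mem_rect.1 hp).1

theorem disj_of_dis (h : Dis a b) (e e' : Set X0) : Disjoint (T.rect e a) (T.rect e' b) := by
  rw [Set.disjoint_left]
  rintro _ ⟨x, hx, n, rfl⟩ hp
  obtain ⟨m, hm⟩ := (mem_rect.1 hp).2
  exact h _ _ hm

theorem rsupp_rel : rsupp (T.rel e g a b) = T.rect e a ∪ T.rect (g '' e) b := by
  ext p
  constructor
  · rintro ⟨_, ⟨x, hx, n, rfl⟩, rfl | rfl⟩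
    · exact Or.inl ⟨x, hx, n, rfl⟩
    · exact Or.inr ⟨g x, ⟨x, hx, rfl⟩, n, rfl⟩
  · rintro (⟨x, hx, n, rfl⟩ | ⟨_, ⟨x, hx, rfl⟩, n, rfl⟩)
    · exact ⟨_, ⟨x, hx, n, rfl⟩, Or.inl rfl⟩
    · exact ⟨_, ⟨x, hx, n, rfl⟩, Or.inr rfl⟩

theorem isMatch_iff : IsMatch (T.rel e g a b) ↔ Disjoint (T.rect e a) (T.rect (g '' e) b) := by
  rw [Set.disjoint_left]
  constructor
  · rintro h _ ⟨x, hx, n, rfl⟩ ⟨_, ⟨y, hy, rfl⟩, m, hm⟩
    exact h.2 _ ⟨x, hx, n, rfl⟩ _ ⟨y, hy, m, rfl⟩ hm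
  · intro h
    constructor
    · rintro _ ⟨x, hx, n, rfl⟩ _ ⟨y, hy, m, rfl⟩
      simp
    · rintro _ ⟨x, hx, n, rfl⟩ _ ⟨y, hy, m, rfl⟩ hm
      exact h ⟨x, hx, n, rfl⟩ ⟨g y, ⟨y, hy, rfl⟩, m, hm⟩

theorem Ok.isMatch (h : T.Ok e g a b) : IsMatch (T.rel e g a b) := isMatch_iff.2 h.dj

theorem Ok.img (h : T.Ok e g a b) : g '' e ∈ T.B := T.inv g h.hg e h.he

theorem Ok.mem (h : T.Ok e g a b) : T.sw e g a b ∈ T.RA :=
  Subgroup.subset_closure ⟨e, h.he, g, h.hg, a, b, h.isMatch, rfl⟩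

theorem Ok.left (h : T.Ok e g a b) {x : X0} (hx : x ∈ e) (n : ℕ) :
    T.sw e g a b (T.co (x, pw a n)) = T.co (g x, pw b n) :=
  swapR_left h.isMatch ⟨x, hx, n, rfl⟩

theorem Ok.right (h : T.Ok e g a b) {x : X0} (hx : x ∈ e) (n : ℕ) :
    T.sw e g a b (T.co (g x, pw b n)) = T.co (x, pw a n) :=
  swapR_right h.isMatch ⟨x, hx, n, rfl⟩

theorem sw_other {p : X} (h1 : p ∉ T.rect e a) (h2 : p ∉ T.rect (g '' e) b) :
    T.sw e g a b p = p :=
  swapR_other (by rw [rsupp_rel]; exact fun h => h.elim h1 h2)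

theorem sw_mul_self : T.sw e g a b * T.sw e g a b = 1 := swapR_mul_self _

theorem sw_inv : (T.sw e g a b)⁻¹ = T.sw e g a b := swapR_inv _

theorem sw_sw (p : X) : T.sw e g a b (T.sw e g a b p) = p := by
  rw [← Perm.mul_apply, sw_mul_self, Perm.one_apply]

theorem ok_of_dis (he : e ∈ T.B) (hg : g ∈ T.Γ) (h : Dis a b) : T.Ok e g a b :=
  ⟨he, hg, disj_of_dis h _ _⟩

theorem Ok.sub (h : T.Ok e g a b) (he : e' ∈ T.B) (hs : e' ⊆ e) : T.Ok e' g a b :=
  ⟨he, h.hg, h.dj.mono (rect_mono_left hs a) (rect_mono_left (image_mono hs) b)⟩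

theorem Ok.app (h : T.Ok e g a b) (c c' : List Bool) : T.Ok e g (a ++ c) (b ++ c') :=
  ⟨h.he, h.hg, h.dj.mono (rect_app _ _ _) (rect_app _ _ _)⟩

theorem Ok.inter (h : T.Ok e g a b) (hf : f ∈ T.B) : T.Ok (e ∩ f) g a b :=
  h.sub (T.B.inf_mem h.he hf) inter_subset_left

theorem Ok.diff (h : T.Ok e g a b) (hf : f ∈ T.B) : T.Ok (e \ f) g a b :=
  h.sub (T.B.sdiff_mem h.he hf) sdiff_subset

theorem ok_kap (he : e ∈ T.B) (a : List Bool) : T.Ok e 1 (a ++ [false]) (a ++ [true]) :=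
  ok_of_dis he T.Γ.one_mem (dis_digit a)

theorem img_one (e : Set X0) : (1 : Perm X0) '' e = e := image_id e

theorem img_inv (g : Perm X0) (e : Set X0) : (g⁻¹ : Perm X0) '' (g '' e) = e := by
  simp [image_image]

theorem Ok.symm (h : T.Ok e g a b) : T.Ok (g '' e) g⁻¹ b a :=
  ⟨h.img, T.Γ.inv_mem h.hg, by rw [img_inv]; exact h.dj.symm⟩

theorem Ok.sw_symm (h : T.Ok e g a b) : T.sw (g '' e) g⁻¹ b a = T.sw e g a b := by
  rw [sw, sw, ← swapR_swap h.isMatch]
  congr 1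
  ext p
  constructor
  · rintro ⟨_, ⟨x, hx, rfl⟩, n, rfl⟩
    exact ⟨_, ⟨x, hx, n, rfl⟩, by simp⟩
  · rintro ⟨_, ⟨x, hx, n, rfl⟩, rfl⟩
    exact ⟨g x, ⟨x, hx, rfl⟩, n, by simp⟩

/-- conjugating a rectangular swap -/
theorem Ok.conj (h : T.Ok e g a b) {u : Perm X} {s : X0 → X0}
    (h1 : ∀ x ∈ e, ∀ n, u (T.co (x, pw a n)) = T.co (s x, pw a' n))
    (h2 : ∀ x ∈ e, ∀ n, u (T.co (g x, pw b n)) = T.co (g' (s x), pw b' n)) :
    u * T.sw e g a b * u⁻¹ = T.sw (s '' e) g' a' b' := by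
  rw [sw, conj_swapR h.isMatch, sw]
  congr 1
  ext p
  constructor
  · rintro ⟨_, ⟨x, hx, n, rfl⟩, rfl⟩
    exact ⟨s x, ⟨x, hx, rfl⟩, n, by simp [h1 x hx, h2 x hx]⟩
  · rintro ⟨_, ⟨x, hx, rfl⟩, n, rfl⟩
    exact ⟨_, ⟨x, hx, n, rfl⟩, by simp [h1 x hx, h2 x hx]⟩

theorem Ok.sw_union {R R' : Set (X × X)} (h : T.Ok e g a b) (hu : T.rel e g a b = R ∪ R')
    (hd : Disjoint R R') : T.sw e g a b = swapR R * swapR R' := by
  have h1 : R ⊆ T.rel e g a b := hu ▸ subset_union_left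
  have h2 : R' ⊆ T.rel e g a b := hu ▸ subset_union_right
  rw [sw, hu]
  exact swapR_union (h.isMatch.mono h1) (h.isMatch.mono h2)
    (h.isMatch.disjoint_rsupp h1 h2 hd)

theorem Ok.sw_digit (h : T.Ok e g a b) : T.sw e g a b =
    T.sw e g (a ++ [false]) (b ++ [false]) * T.sw e g (a ++ [true]) (b ++ [true]) := by
  refine h.sw_union ?_ ?_
  · ext p
    constructor
    · rintro ⟨x, hx, n, rfl⟩
      obtain ⟨d, m, rfl⟩ := exists_digit n
      cases d
      · exact Or.inl ⟨x, hx, m, by simp only [pw_append]⟩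
      · exact Or.inr ⟨x, hx, m, by simp only [pw_append]⟩
    · rintro (⟨x, hx, n, rfl⟩ | ⟨x, hx, n, rfl⟩) <;>
        exact ⟨x, hx, _, by simp only [pw_append]; rfl⟩
  · rw [Set.disjoint_left]
    rintro _ ⟨x, hx, n, rfl⟩ ⟨y, hy, m, hm⟩
    exact dis_digit a _ _ (Prod.mk.inj (T.co.injective (Prod.mk.inj hm).1)).2

theorem Ok.sw_split (h : T.Ok e g a b) (f : Set X0) :
    T.sw e g a b = T.sw (e ∩ f) g a b * T.sw (e \ f) g a b := by
  refine h.sw_union ?_ ?_
  · ext p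
    constructor
    · rintro ⟨x, hx, n, rfl⟩
      by_cases hf : x ∈ f
      · exact Or.inl ⟨x, ⟨hx, hf⟩, n, rfl⟩
      · exact Or.inr ⟨x, ⟨hx, hf⟩, n, rfl⟩
    · rintro (⟨x, hx, n, rfl⟩ | ⟨x, hx, n, rfl⟩) <;> exact ⟨x, hx.1, n, rfl⟩
  · rw [Set.disjoint_left]
    rintro _ ⟨x, hx, n, rfl⟩ ⟨y, hy, m, hm⟩
    exact hy.2 ((Prod.mk.inj (T.co.injective (Prod.mk.inj hm).1)).1 ▸ hx.2)

theorem sw_empty : T.sw ∅ g a b = 1 := by
  rw [sw, ← swapR_empty]
  congr 1
  ext p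
  simp [rel]

theorem Ok.kap_mem (h : T.Ok e g a b) : T.kap e g a b ∈ T.RA :=
  T.RA.mul_mem (ok_kap h.he a).mem (ok_kap h.img b).mem

/-- the digit swap over `e` fixes the points outside the rectangle -/
theorem sw_kap_other {p : X} (hp : p ∉ T.rect e a) :
    T.sw e 1 (a ++ [false]) (a ++ [true]) p = p :=
  sw_other (fun h => hp (rect_app _ _ _ h)) fun h => hp (rect_app _ _ _ (img_one e ▸ h))

theorem kap_other {p : X} (h1 : p ∉ T.rect e a) (h2 : p ∉ T.rect (g '' e) b) :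
    T.kap e g a b p = p := by
  rw [kap, Perm.mul_apply, sw_kap_other h2, sw_kap_other h1]

theorem Ok.kap_left (h : T.Ok e g a b) {x : X0} (hx : x ∈ e) (n : ℕ) :
    T.kap e g a b (T.co (x, pw (a ++ [false]) n)) = T.co (x, pw (a ++ [true]) n) := by
  rw [kap, Perm.mul_apply, sw_kap_other (Set.disjoint_left.1 h.dj
    (rect_app _ _ _ (mem_rect_self hx n))), (ok_kap h.he a).left hx, Perm.one_apply]

theorem Ok.kap_right (h : T.Ok e g a b) {x : X0} (hx : x ∈ e) (n : ℕ) :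
    T.kap e g a b (T.co (g x, pw (b ++ [false]) n)) = T.co (g x, pw (b ++ [true]) n) := by
  have hx' : g x ∈ g '' e := ⟨x, hx, rfl⟩
  rw [kap, Perm.mul_apply, (ok_kap h.img b).left hx', Perm.one_apply,
    sw_kap_other (Set.disjoint_right.1 h.dj (rect_app _ _ _ (mem_rect_self hx' n)))]

theorem Ok.kap_conj (h : T.Ok e g a b) :
    T.kap e g a b * T.sw e g (a ++ [false]) (b ++ [false]) * (T.kap e g a b)⁻¹ =
      T.sw e g (a ++ [true]) (b ++ [true]) := by
  have := (h.app [false] [false]).conj (s := id) (g' := g) (fun _ hx n => h.kap_left hx n)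
    (fun _ hx n => h.kap_right hx n)
  rwa [image_id] at this

theorem Ok.sw_comm (h : T.Ok e g a b) :
    T.sw e g a b = ⁅T.sw e g (a ++ [false]) (b ++ [false]), T.kap e g a b⁆ := by
  rw [h.sw_digit, ← h.kap_conj, commutatorElement_def, sw_inv]
  simp only [mul_assoc]

theorem RA_ind {P : Perm X → Prop} (h1 : P 1)
    (h2 : ∀ e g a b u, T.Ok e g a b → u ∈ T.RA → P u → P (T.sw e g a b * u)) :
    ∀ u ∈ T.RA, P u := by
  intro u hu
  induction hu using Subgroup.closure_induction_left with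
  | one => exact h1
  | mul_left x hx y hy ih =>
    obtain ⟨e, he, g, hg, a, b, hm, rfl⟩ := hx
    exact h2 e g a b y ⟨he, hg, isMatch_iff.1 hm⟩ hy ih
  | inv_mul_cancel x hx y hy ih =>
    obtain ⟨e, he, g, hg, a, b, hm, rfl⟩ := hx
    rw [swapR_inv]
    exact h2 e g a b y ⟨he, hg, isMatch_iff.1 hm⟩ hy ih

theorem RA_le {K : Subgroup (Perm X)} (h : ∀ e g a b, T.Ok e g a b → T.sw e g a b ∈ K) :
    T.RA ≤ K :=
  RA_ind K.one_mem fun e g a b _ hD _ hu => K.mul_mem (h e g a b hD) hu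

end TS

end Vale.Agent.P193
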