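import Vale.Agent.P193.Conc
import Vale.Agent.P193.PermD
import Vale.Agent.P193.TensorB

/-! The digit-free part of the concrete model; halving of definable sets. -/

namespace Vale.Agent.P193

open Equiv
open scoped Pointwise

variable {G : Type} [Group G] {M : Mach G}

/-- points without digits -/
abbrev CZ (M : Mach G) : Type := St M × Bool

/-- adding digits -/
def zmk (z : CZ M) (n : ℕ) : CY M := ⟨z.1, n, z.2⟩

/-- forgetting digits -/
def zpr (y : CY M) : CZ M := (y.r, y.side)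

@[simp] theorem zpr_zmk (z : CZ M) (n : ℕ) : zpr (zmk z n) = z := rfl

@[simp] theorem zmk_n (z : CZ M) (n : ℕ) : (zmk z n).n = n := rfl

theorem zmk_zpr (y : CY M) : zmk (zpr y) y.n = y := rfl

theorem exists_zmk (y : CY M) : ∃ z n, y = zmk z n := ⟨_, _, (zmk_zpr y).symm⟩

theorem zmk_inj {z z' : CZ M} {n n' : ℕ} (h : zmk z n = zmk z' n') : z = z' ∧ n = n' :=
  ⟨congrArg zpr h, congrArg CY.n h⟩

/-- group elements that ignore the digits -/
def F0 (M : Mach G) : Subgroup (FF M) where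
  carrier := {g | ∀ z : CZ M, ∃ z', ∀ n, g • zmk z n = zmk z' n}
  one_mem' z := ⟨z, fun _ => one_smul _ _⟩
  mul_mem' := fun {g h} hg hh z => by
    obtain ⟨z1, h1⟩ := hh z
    obtain ⟨z2, h2⟩ := hg z1
    exact ⟨z2, fun n => by rw [mul_smul, h1, h2]⟩
  inv_mem' := fun {g} hg z => by
    obtain ⟨z1, m, h1⟩ := exists_zmk (g⁻¹ • zmk z 0)
    obtain ⟨z2, h2⟩ := hg z1
    rw [inv_smul_eq_iff, h2] at h1
    obtain ⟨rfl, -⟩ := zmk_inj h1
    exact ⟨z1, fun n => by rw [inv_smul_eq_iff, h2]⟩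

noncomputable instance (M : Mach G) : SMul (F0 M) (CZ M) := ⟨fun g z => zpr (g.1 • zmk z 0)⟩

theorem F0_smul (g : F0 M) (z : CZ M) (n : ℕ) : g.1 • zmk z n = zmk (g • z) n := by
  obtain ⟨z', h⟩ := g.2 z
  have : g • z = z' := congrArg zpr (h 0)
  rw [this, h]

noncomputable instance (M : Mach G) : MulAction (F0 M) (CZ M) where
  one_smul z := congrArg zpr (one_smul (FF M) (zmk z 0))
  mul_smul g h z := by
    refine (zmk_inj (n := 0) (n' := 0) ?_).1
    rw [← F0_smul, ← F0_smul, ← F0_smul, ← mul_smul]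
    rfl

theorem F0_smul_eq {g : F0 M} {z z' : CZ M} (h : g.1 • zmk z 0 = zmk z' 0) : g • z = z' :=
  congrArg zpr h

/-- the flip as a digit-free element -/
def fl0 (M : Mach G) : F0 M := ⟨fl M, fun z => ⟨(z.1, !z.2), fun _ => fl_smul _⟩⟩

theorem fl0_smul (z : CZ M) : fl0 M • z = (z.1, !z.2) := F0_smul_eq (fl_smul _)

/-- moves that do not touch the digits -/
def Mv.ND (σ : Mv M) : Prop := ∀ d, σ ≠ .dig d

theorem Mv.ND.dg {σ : Mv M} (h : σ.ND) (n : ℕ) : σ.dg n = n := by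
  cases σ
  all_goals first | rfl | exact absurd rfl (h _)

theorem Mv.ND.ran_inD {σ : Mv M} (h : σ.ND) (n : ℕ) : σ.ran.inD n := by
  have := σ.dg_ran n
  rwa [h.dg] at this

theorem mem_fl_smul {d : Set (CY M)} {y : CY M} : y ∈ fl M • d ↔ fl M • y ∈ d := by
  rw [Set.mem_smul_set_iff_inv_smul_mem,
    show (fl M)⁻¹ • y = fl M • y by rw [inv_smul_eq_iff, fl_fl]]

theorem mem_ta_smul (σ : Mv M) {d : Set (CY M)} {y : CY M} : y ∈ σ.ta • d ↔ σ.ta • y ∈ d := by
  rw [Set.mem_smul_set_iff_inv_smul_mem,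
    show σ.ta⁻¹ • y = σ.ta • y by rw [inv_smul_eq_iff, Mv.ta_ta]]

theorem Mv.ND.ta_mem (hM : M.Good) {σ : Mv M} (h : σ.ND) : σ.ta ∈ F0 M := by
  intro z
  by_cases h1 : z.2 = true ∧ σ.dom.inR z.1.1
  · refine ⟨(σ.st z.1, false), fun n => ?_⟩
    rw [σ.ta_smul_dom hM (σ.mem_dom.2 h1), h.dg]
    rfl
  by_cases h2 : z.2 = false ∧ σ.ran.inR z.1.1
  · obtain ⟨r, k1, k2, k3⟩ := σ.raw_surj z.1.2 h2.2
    refine ⟨(⟨r, k1⟩, true), fun n => ?_⟩
    have k4 : zmk (⟨r, k1⟩, true) n ∈ ce M σ.dom := σ.mem_dom.2 ⟨rfl, k2⟩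
    rw [← σ.ta_ta (zmk (⟨r, k1⟩, true) n), σ.ta_smul_dom hM k4, h.dg]
    congr 1
    exact cy_ext (k3.symm.trans (σ.st_val (r := ⟨r, k1⟩) k2).symm) rfl h2.1
  · refine ⟨z, fun n => σ.ta_smul_other hM (fun k => h1 (σ.mem_dom.1 k)) fun k => h2 ?_⟩
    rw [mem_fl_smul, fl_smul] at k
    exact ⟨by simpa [zmk] using k.1, k.2.1⟩

/-- a digit-free move as a digit-free element -/
def Mv.ND.w0 (hM : M.Good) {σ : Mv M} (h : σ.ND) : F0 M :=
  ⟨σ.w, (F0 M).mul_mem (fl0 M).2 (h.ta_mem hM)⟩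

theorem Mv.ND.w0_smul (hM : M.Good) {σ : Mv M} (h : σ.ND) {r : St M} (hr : σ.dom.inR r.1) :
    h.w0 hM • ((r, true) : CZ M) = (σ.st r, true) := by
  refine F0_smul_eq ?_
  have : zmk (r, true) 0 ∈ ce M σ.dom := σ.mem_dom.2 ⟨rfl, hr⟩
  refine (σ.w_smul hM this).trans ?_
  rw [h.dg]
  rfl

/-! ### cylinders -/

/-- the cylinder over a set of digit-free points -/
def cyl (D : Set (CZ M)) : Set (CY M) := {y | zpr y ∈ D}

/-- digit-free definable sets -/
def DI (D : Set (CZ M)) : Prop := Defn (FF M) (ce M) (cyl D)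

theorem DI.inter {D D' : Set (CZ M)} (h : DI D) (h' : DI D') : DI (D ∩ D') := Defn.inter h h'

theorem DI.union {D D' : Set (CZ M)} (h : DI D) (h' : DI D') : DI (D ∪ D') := Defn.union h h'

theorem DI.compl {D : Set (CZ M)} (h : DI D) : DI Dᶜ := Defn.compl h

theorem DI.univ : DI (Set.univ : Set (CZ M)) := Defn.univ

theorem DI.empty : DI (∅ : Set (CZ M)) := Defn.empty

theorem cyl_smul (g : F0 M) (D : Set (CZ M)) : cyl (g • D) = g.1 • cyl D := by
  ext y
  obtain ⟨z, n, rfl⟩ := exists_zmk y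
  rw [Set.mem_smul_set_iff_inv_smul_mem, ← Subgroup.coe_inv, F0_smul]
  exact Set.mem_smul_set_iff_inv_smul_mem

theorem DI.smul {D : Set (CZ M)} (h : DI D) (g : F0 M) : DI (g • D) := by
  rw [DI, cyl_smul]; exact Defn.smul h _

/-- the digit-free part of a basic predicate -/
def zb (j : Pr M) : Set (CZ M) := {z | z.2 = true ∧ j.inR z.1.1}

theorem cyl_zb {j : Pr M} (h : ∀ n, j.inD n) : cyl (zb j) = ce M j := by
  ext y
  exact ⟨fun k => ⟨k.1, k.2, h _⟩, fun k => ⟨k.1, k.2.1⟩⟩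

theorem DI.zb {j : Pr M} (h : ∀ n, j.inD n) : DI (zb j) := by
  rw [DI, cyl_zb h]; exact Defn.basic j

/-- one side -/
def zside (M : Mach G) (sd : Bool) : Set (CZ M) := {z | z.2 = sd}

theorem DI.side (sd : Bool) : DI (zside M sd) := by
  have h : DI (zside M true) := by
    have : zside M true = Vale.Agent.P193.zb .T := by
      ext z; exact ⟨fun h => ⟨h, trivial⟩, fun h => h.1⟩
    rw [this]
    exact DI.zb fun _ => trivial
  cases sd
  · have : zside M false = (zside M true)ᶜ := by ext z; simp [zside]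
    rw [this]; exact h.compl
  · exact h

/-! ### digit words -/

theorem dig_w_smul (hM : M.Good) (d : Bool) (r : St M) (n : ℕ) :
    (Mv.dig (M := M) d).w • zmk (r, true) n = zmk (r, true) (Nat.bit d n) := by
  have : zmk (r, true) n ∈ ce M (Mv.dig d).dom := ⟨rfl, trivial, trivial⟩
  exact cy_ext (Mv.w_r hM _ this) (Mv.w_n hM _ this) (Mv.w_side hM _ this)

theorem exists_dw (hM : M.Good) (sd : Bool) (a : List Bool) :
    ∃ g : FF M, ∀ z ∈ zside M sd, ∀ n, g • zmk z n = zmk z (pw a n) := by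
  have h : ∃ g : FF M, ∀ (r : St M) n, g • zmk (r, true) n = zmk (r, true) (pw a n) := by
    induction a with
    | nil => exact ⟨1, fun _ _ => one_smul _ _⟩
    | cons d a ih =>
      obtain ⟨g, hg⟩ := ih
      exact ⟨(Mv.dig d).w * g, fun r n => by rw [mul_smul, hg, dig_w_smul hM, pw_cons]⟩
  obtain ⟨g, hg⟩ := h
  cases sd
  · refine ⟨fl M * g * fl M, ?_⟩
    rintro ⟨r, _⟩ rfl n
    have e : fl M • zmk (r, false) n = zmk (r, true) n := fl_smul _
    rw [mul_smul, mul_smul, e, hg]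
    exact fl_smul _
  · refine ⟨g, ?_⟩
    rintro ⟨r, _⟩ rfl n
    exact hg r n

/-- rectangles -/
def zrc (D : Set (CZ M)) (a : List Bool) : Set (CY M) := {y | zpr y ∈ D ∧ ∃ n, y.n = pw a n}

theorem smul_cyl {sd : Bool} {a : List Bool} {g : FF M}
    (hg : ∀ z ∈ zside M sd, ∀ n, g • zmk z n = zmk z (pw a n)) {D : Set (CZ M)}
    (hD : D ⊆ zside M sd) : g • cyl D = zrc D a := by
  ext y
  constructor
  · rintro ⟨y, hy, rfl⟩
    obtain ⟨z, n, rfl⟩ := exists_zmk y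
    beta_reduce
    rw [hg z (hD hy)]
    exact ⟨hy, n, rfl⟩
  · obtain ⟨z, m, rfl⟩ := exists_zmk y
    rintro ⟨h1, n, h2⟩
    obtain rfl : m = pw a n := h2
    exact ⟨zmk z n, h1, hg z (hD h1) n⟩

theorem halvable_zrc_side (hM : M.Good) {sd : Bool} {D : Set (CZ M)} (h : DI D)
    (hD : D ⊆ zside M sd) (a : List Bool) : Halvable (Option (Mv M)) (ce M) (zrc D a) := by
  obtain ⟨g0, h0⟩ := exists_dw hM sd (a ++ [false])
  obtain ⟨g1, h1⟩ := exists_dw hM sd (a ++ [true])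
  have e : (g1 * g0⁻¹) • zrc D (a ++ [false]) = zrc D (a ++ [true]) := by
    rw [← smul_cyl h0 hD, ← smul_cyl h1 hD, mul_smul, inv_smul_smul]
  have e2 : zrc D a = zrc D (a ++ [false]) ∪ (g1 * g0⁻¹) • zrc D (a ++ [false]) := by
    rw [e]
    ext y
    constructor
    · rintro ⟨k1, n, k2⟩
      obtain ⟨d, m, rfl⟩ := exists_digit n
      rw [← pw_append] at k2
      cases d
      · exact Or.inl ⟨k1, m, k2⟩
      · exact Or.inr ⟨k1, m, k2⟩
    · rintro (⟨k1, n, k2⟩ | ⟨k1, n, k2⟩) <;> exact ⟨k1, _, by rw [k2, pw_append]⟩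
  rw [e2]
  refine Halvable.pair _ _ ?_ ?_
  · rw [← smul_cyl h0 hD]; exact Defn.smul h _
  · rw [e, Set.disjoint_left]
    rintro y ⟨-, n, k1⟩ ⟨-, m, k2⟩
    exact dis_digit a _ _ (k1.symm.trans k2)

theorem halvable_zrc (hM : M.Good) {D : Set (CZ M)} (h : DI D) (a : List Bool) :
    Halvable (Option (Mv M)) (ce M) (zrc D a) := by
  have e : zrc D a = zrc (D ∩ zside M true) a ∪ zrc (D ∩ zside M false) a := by
    ext y
    constructor
    · rintro ⟨k1, k2⟩
      cases hs : y.side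
      · exact Or.inr ⟨⟨k1, hs⟩, k2⟩
      · exact Or.inl ⟨⟨k1, hs⟩, k2⟩
    · rintro (⟨k1, k2⟩ | ⟨k1, k2⟩) <;> exact ⟨k1.1, k2⟩
  rw [e]
  refine Halvable.union _ _
    (halvable_zrc_side hM (h.inter (DI.side _)) Set.inter_subset_right a)
    (halvable_zrc_side hM (h.inter (DI.side _)) Set.inter_subset_right a) ?_
  rw [Set.disjoint_left]
  rintro y ⟨⟨-, k1⟩, -⟩ ⟨⟨-, k2⟩, -⟩
  exact Bool.false_ne_true (Eq.trans (Eq.symm k2) k1)

/-- the set depends only on boundedly many digits, with definable sections -/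
def Rk (k : ℕ) (d : Set (CY M)) : Prop :=
  ∀ a : List Bool, k ≤ a.length → ∃ D, DI D ∧ ∀ z n, zmk z (pw a n) ∈ d ↔ z ∈ D

theorem Rk.mono {k l : ℕ} {d : Set (CY M)} (h : Rk k d) (hl : k ≤ l) : Rk l d :=
  fun a ha => h a (hl.trans ha)

theorem halvable_aux (hM : M.Good) (k : ℕ) : ∀ (c : List Bool) (d : Set (CY M)),
    (∀ y ∈ d, ∃ n, y.n = pw c n) →
    (∀ a : List Bool, a.length = k → ∃ D, DI D ∧ ∀ z n, zmk z (pw (c ++ a) n) ∈ d ↔ z ∈ D) →
    Halvable (Option (Mv M)) (ce M) d := by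
  induction k with
  | zero =>
    intro c d h1 h2
    obtain ⟨D, h3, h4⟩ := h2 [] rfl
    rw [List.append_nil] at h4
    have : d = zrc D c := by
      ext y
      obtain ⟨z, m, rfl⟩ := exists_zmk y
      constructor
      · intro hy
        obtain ⟨n, hn⟩ := h1 _ hy
        obtain rfl : m = pw c n := hn
        exact ⟨(h4 z n).1 hy, n, rfl⟩
      · rintro ⟨hy, n, hn⟩
        obtain rfl : m = pw c n := hn
        exact (h4 z n).2 hy
    rw [this]
    exact halvable_zrc hM h3 c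
  | succ k ih =>
    intro c d h1 h2
    have key : ∀ b, Halvable (Option (Mv M)) (ce M) (d ∩ {y | ∃ n, y.n = pw (c ++ [b]) n}) := by
      intro b
      refine ih (c ++ [b]) _ (fun y hy => hy.2) fun a ha => ?_
      obtain ⟨D, h3, h4⟩ := h2 (b :: a) (by simp [ha])
      refine ⟨D, h3, fun z n => ?_⟩
      rw [← h4 z n, List.append_assoc, List.singleton_append]
      exact ⟨fun h => h.1, fun h => ⟨h, pw a n, by simp [pw_append, pw_cons]⟩⟩
    have e : d = (d ∩ {y | ∃ n, y.n = pw (c ++ [false]) n}) ∪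
        (d ∩ {y | ∃ n, y.n = pw (c ++ [true]) n}) := by
      ext y
      constructor
      · intro hy
        obtain ⟨n, hn⟩ := h1 y hy
        obtain ⟨b, m, rfl⟩ := exists_digit n
        rw [← pw_append] at hn
        cases b
        · exact Or.inl ⟨hy, m, hn⟩
        · exact Or.inr ⟨hy, m, hn⟩
      · rintro (hy | hy) <;> exact hy.1
    rw [e]
    refine Halvable.union _ _ (key _) (key _) ?_
    rw [Set.disjoint_left]
    rintro y ⟨-, n, k1⟩ ⟨-, m, k2⟩
    exact dis_digit c _ _ (k1.symm.trans k2)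

theorem Rk.halvable (hM : M.Good) {k : ℕ} {d : Set (CY M)} (h : Rk k d) :
    Halvable (Option (Mv M)) (ce M) d :=
  halvable_aux hM k [] d (fun y _ => ⟨y.n, rfl⟩) fun a ha => h a ha.ge

theorem Rk.smul0 {k : ℕ} {d : Set (CY M)} (h : Rk k d) (g : F0 M) : Rk k (g.1 • d) := by
  intro a ha
  obtain ⟨D, h1, h2⟩ := h a ha
  refine ⟨g • D, h1.smul g, fun z n => ?_⟩
  rw [Set.mem_smul_set_iff_inv_smul_mem, ← Subgroup.coe_inv, F0_smul, h2,
    Set.mem_smul_set_iff_inv_smul_mem]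

theorem dig_ta_true (hM : M.Good) (d : Bool) (r : St M) (n : ℕ) :
    (Mv.dig (M := M) d).ta • zmk (r, true) n = zmk (r, false) (Nat.bit d n) := by
  have := congrArg (fl M • ·) (dig_w_smul hM d r n)
  simp only [Mv.w, mul_smul, fl_fl] at this
  rw [this]
  exact fl_smul _

theorem dig_ta_false (hM : M.Good) (d : Bool) (r : St M) (n : ℕ) :
    (Mv.dig (M := M) d).ta • zmk (r, false) (Nat.bit d n) = zmk (r, true) n := by
  rw [← dig_ta_true hM, Mv.ta_ta]

theorem dig_ta_other (hM : M.Good) {d d' : Bool} (h : d' ≠ d) (r : St M) (n : ℕ) :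
    (Mv.dig (M := M) d).ta • zmk (r, false) (Nat.bit d' n) = zmk (r, false) (Nat.bit d' n) := by
  refine Mv.ta_smul_other hM _ (fun k => Bool.false_ne_true k.1) fun k => h ?_
  rw [mem_fl_smul, fl_smul] at k
  have : (Nat.bit d' n).bodd = d := k.2.2
  simpa using this

theorem mem_fl0_smul {D : Set (CZ M)} {r : St M} {sd : Bool} :
    (r, sd) ∈ fl0 M • D ↔ (r, !sd) ∈ D := by
  rw [Set.mem_smul_set_iff_inv_smul_mem]
  have : (fl0 M)⁻¹ • ((r, sd) : CZ M) = (r, !sd) := by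
    rw [inv_smul_eq_iff, fl0_smul]; simp
  rw [this]

theorem Rk.smul_dig (hM : M.Good) {k : ℕ} {d : Set (CY M)} (h : Rk k d) (c : Bool) :
    Rk (k + 1) ((Mv.dig (M := M) c).ta • d) := by
  intro a ha
  obtain ⟨b, a, rfl⟩ := List.exists_cons_of_length_pos (l := a) (by omega)
  simp only [List.length_cons] at ha
  obtain ⟨D1, h1, k1⟩ := h (c :: b :: a) (by simp; omega)
  obtain ⟨D2, h2, k2⟩ := h a (by omega)
  obtain ⟨D3, h3, k3⟩ := h (b :: a) (by simp; omega)
  by_cases hb : b = c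
  · subst hb
    refine ⟨(zside M true ∩ fl0 M • D1) ∪ (zside M false ∩ fl0 M • D2),
      ((DI.side _).inter (h1.smul _)).union ((DI.side _).inter (h2.smul _)), ?_⟩
    rintro ⟨r, sd⟩ n
    rw [mem_ta_smul]
    cases sd
    · rw [pw_cons, dig_ta_false hM, k2]
      simp [zside, mem_fl0_smul]
    · rw [dig_ta_true hM, ← pw_cons, k1]
      simp [zside, mem_fl0_smul]
  · refine ⟨(zside M true ∩ fl0 M • D1) ∪ (zside M false ∩ D3),
      ((DI.side _).inter (h1.smul _)).union ((DI.side _).inter h3), ?_⟩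
    rintro ⟨r, sd⟩ n
    rw [mem_ta_smul]
    cases sd
    · rw [pw_cons, dig_ta_other hM hb, ← pw_cons, k3]
      simp [zside]
    · rw [dig_ta_true hM, ← pw_cons, k1]
      simp [zside, mem_fl0_smul]

theorem of_of (s : Option (Mv M)) (y : CY M) :
    (FreeGroup.of s : FF M) • (FreeGroup.of s : FF M) • y = y := by
  cases s with
  | none => exact fl_fl y
  | some σ => exact σ.ta_ta y

theorem of_inv_smul (s : Option (Mv M)) (y : CY M) :
    (FreeGroup.of s : FF M)⁻¹ • y = (FreeGroup.of s : FF M) • y := by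
  rw [inv_smul_eq_iff, of_of]

theorem Mv.nd_or (σ : Mv M) : σ.ND ∨ ∃ d, σ = .dig d := by
  by_cases h : ∃ d, σ = .dig d
  · exact Or.inr h
  · exact Or.inl fun d e => h ⟨d, e⟩

theorem Rk.smul (hM : M.Good) (g : FF M) :
    ∀ (k : ℕ) (d : Set (CY M)), Rk k d → ∃ l, Rk l (g • d) := by
  have h1 : ∀ (s : Option (Mv M)) (k : ℕ) (d : Set (CY M)), Rk k d →
      ∃ l, Rk l ((FreeGroup.of s : FF M) • d) := by
    intro s k d h
    cases s with
    | none => exact ⟨k, h.smul0 (fl0 M)⟩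
    | some σ =>
      rcases σ.nd_or with hσ | ⟨c, rfl⟩
      · exact ⟨k, h.smul0 ⟨_, hσ.ta_mem hM⟩⟩
      · exact ⟨k + 1, h.smul_dig hM c⟩
  induction g using FreeGroup.induction_on with
  | C1 => exact fun k d h => ⟨k, by simpa using h⟩
  | of s => exact h1 s
  | inv_of s _ =>
    intro k d h
    have : (FreeGroup.of s : FF M)⁻¹ • d = (FreeGroup.of s : FF M) • d :=
      congrArg (· '' d) (funext (of_inv_smul s))
    rw [this]
    exact h1 s k d h
  | mul g g' ih ih' =>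
    intro k d h
    obtain ⟨l, hl⟩ := ih' k d h
    rw [mul_smul]
    exact ih l _ hl

theorem Pr.nd_or (j : Pr M) : (∀ n, j.inD n) ∨ ∃ d, j = .Dg d := by
  cases j
  all_goals first | exact Or.inl fun _ => trivial | exact Or.inr ⟨_, rfl⟩

theorem Rk.of_defn (hM : M.Good) {d : Set (CY M)} (h : Defn (FF M) (ce M) d) : ∃ k, Rk k d := by
  obtain ⟨t, rfl⟩ := h
  induction t with
  | top => exact ⟨0, fun a _ => ⟨_, DI.univ, fun _ _ => Iff.rfl⟩⟩
  | basic j =>
    rcases j.nd_or with h | ⟨c, rfl⟩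
    · exact ⟨0, fun a _ => ⟨_, DI.zb h, fun z n => by
        rw [Tm.eval, ← cyl_zb h]; exact Iff.rfl⟩⟩
    · refine ⟨1, fun a ha => ?_⟩
      obtain ⟨b, a, rfl⟩ := List.exists_cons_of_length_pos (l := a) ha
      by_cases hb : b = c
      · exact ⟨_, DI.side true, fun z n => by
          simp [Tm.eval, mem_ce, Pr.inR, Pr.inD, pw_cons, hb, zside, zmk]⟩
      · exact ⟨_, DI.empty, fun z n => by
          simp [Tm.eval, mem_ce, Pr.inR, Pr.inD, pw_cons, hb, zmk]⟩
  | act γ t ih =>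
    obtain ⟨k, hk⟩ := ih
    exact Rk.smul hM γ k _ hk
  | inf s t ihs iht =>
    obtain ⟨k, hk⟩ := ihs
    obtain ⟨l, hl⟩ := iht
    refine ⟨max k l, fun a ha => ?_⟩
    obtain ⟨D, h1, h2⟩ := hk a ((le_max_left _ _).trans ha)
    obtain ⟨D', h3, h4⟩ := hl a ((le_max_right _ _).trans ha)
    exact ⟨D ∩ D', h1.inter h3, fun z n => and_congr (h2 z n) (h4 z n)⟩
  | compl t ih =>
    obtain ⟨k, hk⟩ := ih
    refine ⟨k, fun a ha => ?_⟩
    obtain ⟨D, h1, h2⟩ := hk a ha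
    exact ⟨Dᶜ, h1.compl, fun z n => not_congr (h2 z n)⟩

end Vale.Agent.P193
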