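import Vale.Agent.P193.LinkA

/-! The digit-free action is transitive; definable sets are locally determined. -/

namespace Vale.Agent.P193

open Equiv
open scoped Pointwise

variable {G : Type} [Group G] {M : Mach G}

/-- the root state -/
def rootR (M : Mach G) : Raw M := ⟨1, 1, fun _ => [], 0, []⟩

theorem rootR_valid : (rootR M).Valid := ⟨trivial, by simp [rootR], by simp [rootR]⟩

/-- the root point -/
def rootZ (M : Mach G) : CZ M := (⟨rootR M, rootR_valid⟩, true)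

/-- states in the orbit of the root -/
def Orb (r : Raw M) : Prop := ∃ h : r.Valid, ∃ g : F0 M, g • rootZ M = (⟨r, h⟩, true)

theorem orb_raw (hM : M.Good) {σ : Mv M} (h : σ.ND) {r : Raw M} (hd : σ.dom.inR r)
    (ho : Orb r) : Orb (σ.raw r) := by
  obtain ⟨hr, g, hg⟩ := ho
  refine ⟨σ.raw_valid hr hd, h.w0 hM * g, ?_⟩
  rw [mul_smul, hg, h.w0_smul hM (r := ⟨r, hr⟩) hd]
  exact Prod.ext (Subtype.ext (σ.st_val (r := ⟨r, hr⟩) hd)) rfl

theorem orb_io (hM : M.Good) (r : Raw M) (f : ℕ) (h : Leg M r.P f r.σ)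
    (ho : Orb { r with f := 0 }) : Orb { r with f := f } := by
  induction f with
  | zero => exact ho
  | succ f ih =>
    exact orb_raw hM (σ := .io) (fun _ e => by cases e) (r := { r with f := f }) h (ih h.of_succ)

theorem orb_pushL (hM : M.Good) (r : Raw M) (hf : r.f = 0) (l : List (M.Λ × M.Γ))
    (ho : Orb r) : Orb { r with σ := pushL l r.σ } := by
  induction l with
  | nil => exact ho
  | cons p l ih =>
    exact orb_raw hM (σ := .push p.1 p.2) (fun _ e => by cases e)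
      (r := { r with σ := pushL l r.σ }) hf ih

theorem orb_pm (hM : M.Good) (r : Raw M) (hf : r.f = 0) (w : List M.Γ)
    (ho : Orb r) : Orb { r with P := M.phi w * r.P } := by
  induction w with
  | nil => simpa using ho
  | cons a w ih =>
    have := orb_raw hM (σ := .pm a) (fun _ e => by cases e)
      (r := { r with P := M.phi w * r.P }) hf ih
    simpa [Mv.raw, mul_assoc] using this

theorem orb_qm (hM : M.Good) (r : Raw M) (w : List M.Γ)
    (ho : Orb r) : Orb { r with Q := M.phi w * r.Q } := by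
  induction w with
  | nil => simpa using ho
  | cons a w ih =>
    have := orb_raw hM (σ := .qm a) (fun _ e => by cases e)
      (r := { r with Q := M.phi w * r.Q }) trivial ih
    simpa [Mv.raw, mul_assoc] using this

theorem orb_reduce (hM : M.Good) {r : Raw M} (hr : r.Valid)
    (ho : Orb (⟨1, r.Q, fun _ => [], 0, r.s⟩ : Raw M)) : Orb r := by
  obtain ⟨w, hw⟩ := hM.surj r.P
  have h1 := orb_pm hM _ rfl w ho
  have h2 := orb_pushL hM _ rfl (flat r.σ) h1
  simp only [pushL_flat, List.append_nil, hw, mul_one] at h2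
  exact orb_io hM r r.f hr.1 h2

theorem fr_s (x : Fr4) (r : Raw M) : ((Mv.fr x).raw r).s.tail = r.s := by
  cases x <;> exact tail_fcons _ _

theorem orb_all (hM : M.Good) (r : Raw M) (hr : r.Valid) : Orb r := by
  induction hn : r.s.length using Nat.strong_induction_on generalizing r with
  | _ n ih =>
    refine orb_reduce hM hr ?_
    by_cases hs : r.s = []
    · obtain ⟨w, hw⟩ := hM.surj r.Q
      have := orb_qm hM (rootR M) w ⟨rootR_valid, 1, one_smul _ _⟩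
      simpa [rootR, hw, hs] using this
    · obtain ⟨r', h1, h2, h3⟩ := (Mv.fr (fhd r.s).kind).raw_surj
        (r := ⟨1, r.Q, fun _ => [], 0, r.s⟩) ⟨trivial, hr.2⟩ ⟨rfl, fun _ => rfl, rfl, fun _ => rfl⟩
      have h4 := fr_s (fhd r.s).kind r'
      rw [h3] at h4
      rw [← h3]
      refine orb_raw hM (fun _ e => by cases e) h2 (ih _ ?_ r' h1 rfl)
      rw [← h4, ← hn]
      have := List.length_pos_iff.2 hs
      simp only [List.length_tail]
      omega

theorem exists_root (hM : M.Good) (z : CZ M) : ∃ g : F0 M, g • rootZ M = z := by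
  obtain ⟨⟨r, hr⟩, sd⟩ := z
  obtain ⟨_, g, hg⟩ := orb_all hM r hr
  cases sd
  · exact ⟨fl0 M * g, by rw [mul_smul, hg, fl0_smul]; rfl⟩
  · exact ⟨g, hg⟩

/-! ### agreement up to finite depth -/

/-- the frames of a stream -/
def fget (l : List (Fr M)) (i : ℕ) : Fr M := l.getD i (Fr.triv M)

theorem fget_zero (l : List (Fr M)) : fget l 0 = fhd l := by
  cases l <;> rfl

theorem fget_tail (l : List (Fr M)) (i : ℕ) : fget l.tail i = fget l (i + 1) := by
  cases l <;> simp [fget]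

theorem fget_fcons_zero (a : Fr M) (l : List (Fr M)) : fget (fcons a l) 0 = a := by
  rw [fget_zero, fhd_fcons]

theorem fget_fcons_succ (a : Fr M) (l : List (Fr M)) (i : ℕ) :
    fget (fcons a l) (i + 1) = fget l i := by
  rw [← fget_tail, tail_fcons]

/-- agreement of states up to depth `k` -/
def Sim (k : ℕ) (r r' : Raw M) : Prop :=
  r.P = r'.P ∧ r.Q = r'.Q ∧ r.σ = r'.σ ∧ r.f = r'.f ∧ ∀ i < k, fget r.s i = fget r'.s i

theorem Sim.symm {k : ℕ} {r r' : Raw M} (h : Sim k r r') : Sim k r' r :=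
  ⟨h.1.symm, h.2.1.symm, h.2.2.1.symm, h.2.2.2.1.symm, fun i hi => (h.2.2.2.2 i hi).symm⟩

theorem Sim.mono {k l : ℕ} {r r' : Raw M} (h : Sim k r r') (hl : l ≤ k) : Sim l r r' :=
  ⟨h.1, h.2.1, h.2.2.1, h.2.2.2.1, fun i hi => h.2.2.2.2 i (hi.trans_le hl)⟩

theorem Sim.inR {k : ℕ} {r r' : Raw M} (h : Sim (k + 1) r r') (j : Pr M) :
    j.inR r ↔ j.inR r' := by
  obtain ⟨P, Q, σ, f, s⟩ := r
  obtain ⟨P', Q', σ', f', s'⟩ := r'
  obtain ⟨rfl, rfl, rfl, rfl, h⟩ := h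
  have h0 : fhd s = fhd s' := by simpa [fget_zero] using h 0 (by omega)
  cases j
  all_goals first | exact Iff.rfl | simp only [Pr.inR, h0]

theorem fget_fcons_congr {k : ℕ} {l l' : List (Fr M)} (a : Fr M)
    (h : ∀ i < k, fget l i = fget l' i) : ∀ i < k + 1, fget (fcons a l) i = fget (fcons a l') i := by
  intro i hi
  cases i with
  | zero => rw [fget_fcons_zero, fget_fcons_zero]
  | succ i => rw [fget_fcons_succ, fget_fcons_succ, h i (by omega)]

theorem Sim.raw {k : ℕ} {r r' : Raw M} (h : Sim k r r') (σ : Mv M) :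
    Sim k (σ.raw r) (σ.raw r') := by
  obtain ⟨P, Q, τ, f, s⟩ := r
  obtain ⟨P', Q', τ', f', s'⟩ := r'
  obtain ⟨rfl, rfl, rfl, rfl, h⟩ := h
  cases σ with
  | fr x =>
    cases x
    all_goals exact ⟨rfl, rfl, rfl, rfl, fun i hi => fget_fcons_congr _ h i (by omega)⟩
  | _ => exact ⟨rfl, rfl, rfl, rfl, h⟩

theorem Mv.dom_s (σ : Mv M) (r : Raw M) (s : List (Fr M)) :
    σ.dom.inR { r with s := s } ↔ σ.dom.inR r := by
  rcases σ with _ | _ | _ | _ | x | _ | _ | _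
  all_goals first | exact Iff.rfl | (cases x <;> exact Iff.rfl)

theorem Sim.of_raw (hM : M.Good) {k : ℕ} {r r' : Raw M} (σ : Mv M) (hd : σ.dom.inR r)
    (hd' : σ.dom.inR r') (h : Sim (k + 1) (σ.raw r) (σ.raw r')) : Sim k r r' := by
  obtain ⟨h1, h2, h3, h4, h5⟩ := h
  have key : (σ.raw r).s = (σ.raw { r' with s := r.s }).s ∧ ∀ i < k, fget r.s i = fget r'.s i := by
    cases σ with
    | fr x =>
      have h0 := h5 0 (by omega)
      have h6 : ∀ i < k, fget r.s i = fget r'.s i := fun i hi => by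
        rw [← fr_s x r, ← fr_s x r', fget_tail, fget_tail, h5 _ (by omega)]
      refine ⟨?_, h6⟩
      cases x
      all_goals
        simp only [Mv.raw, fget_fcons_zero] at h0 ⊢
        rw [h0]
    | _ => exact ⟨rfl, fun i hi => h5 i (by omega)⟩
  have e : σ.raw r = σ.raw { r' with s := r.s } := by
    refine Raw.ext (h1.trans ?_) (h2.trans ?_) (h3.trans ?_) (h4.trans ?_) key.1
    all_goals
      rcases σ with _ | _ | _ | _ | x | _ | _ | _
      all_goals first | rfl | (cases x <;> rfl)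
  have e' := σ.raw_inj hM hd ((σ.dom_s r' r.s).2 hd') e
  exact ⟨(congrArg Raw.P e' :), (congrArg Raw.Q e' :), (congrArg Raw.σ e' :), (congrArg Raw.f e' :),
    key.2⟩

/-- agreement of points up to depth `k` -/
def SimY (k : ℕ) (y y' : CY M) : Prop := y.side = y'.side ∧ y.n = y'.n ∧ Sim k y.r.1 y'.r.1

theorem SimY.symm {k : ℕ} {y y' : CY M} (h : SimY k y y') : SimY k y' y :=
  ⟨h.1.symm, h.2.1.symm, h.2.2.symm⟩

theorem SimY.mono {k l : ℕ} {y y' : CY M} (h : SimY k y y') (hl : l ≤ k) : SimY l y y' :=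
  ⟨h.1, h.2.1, h.2.2.mono hl⟩

theorem SimY.mem {k : ℕ} {y y' : CY M} (h : SimY (k + 1) y y') (j : Pr M) :
    y ∈ ce M j ↔ y' ∈ ce M j := by
  rw [mem_ce, mem_ce, h.1, h.2.1, h.2.2.inR]

theorem SimY.flip {k : ℕ} {y y' : CY M} (h : SimY k y y') : SimY k (fl M • y) (fl M • y') := by
  rw [fl_smul, fl_smul]
  exact ⟨congrArg (!·) h.1, h.2.1, h.2.2⟩

theorem SimY.w (hM : M.Good) {k : ℕ} {y y' : CY M} (h : SimY k y y') (σ : Mv M)
    (hy : y ∈ ce M σ.dom) (hy' : y' ∈ ce M σ.dom) : SimY k (σ.w • y) (σ.w • y') := by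
  refine ⟨by rw [σ.w_side hM hy, σ.w_side hM hy'], by rw [σ.w_n hM hy, σ.w_n hM hy', h.2.1], ?_⟩
  rw [σ.w_r hM hy, σ.w_r hM hy']
  exact h.2.2.raw σ

theorem SimY.of_w (hM : M.Good) {k : ℕ} {y y' : CY M} (σ : Mv M) (hy : y ∈ ce M σ.dom)
    (hy' : y' ∈ ce M σ.dom) (h : SimY (k + 1) (σ.w • y) (σ.w • y')) : SimY k y y' := by
  obtain ⟨-, h2, h3⟩ := h
  rw [σ.w_n hM hy, σ.w_n hM hy'] at h2
  rw [σ.w_r hM hy, σ.w_r hM hy'] at h3
  exact ⟨hy.1.trans hy'.1.symm, σ.dg_inj h2, h3.of_raw hM σ hy.2.1 hy'.2.1⟩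

theorem Mv.ta_eq (σ : Mv M) (y : CY M) : σ.ta • y = fl M • σ.w • y := by
  rw [Mv.w, mul_smul, fl_fl]

theorem SimY.ta (hM : M.Good) {k : ℕ} {y y' : CY M} (h : SimY (k + 1) y y') (σ : Mv M) :
    SimY k (σ.ta • y) (σ.ta • y') := by
  by_cases h1 : y ∈ ce M σ.dom
  · rw [σ.ta_eq, σ.ta_eq]
    exact ((h.mono (Nat.le_succ k)).w hM σ h1 ((h.mem _).1 h1)).flip
  have h1' : y' ∉ ce M σ.dom := fun k => h1 ((h.mem _).2 k)
  by_cases h2 : fl M • y ∈ ce M σ.ran
  · obtain ⟨x, hx, e⟩ := σ.exists_pre hM h2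
    obtain ⟨x', hx', e'⟩ := σ.exists_pre hM ((h.flip.mem _).1 h2)
    have k1 : σ.ta • y = x := by rw [← fl_fl y, ← e, ← σ.ta_eq, σ.ta_ta]
    have k2 : σ.ta • y' = x' := by rw [← fl_fl y', ← e', ← σ.ta_eq, σ.ta_ta]
    rw [k1, k2]
    refine SimY.of_w hM σ hx hx' ?_
    rw [e, e']
    exact h.flip
  · have h2' : fl M • y' ∉ ce M σ.ran := fun k => h2 ((h.flip.mem _).2 k)
    rw [σ.ta_smul_other hM h1 (fun k => h2 (mem_fl_smul.1 k)),
      σ.ta_smul_other hM h1' (fun k => h2' (mem_fl_smul.1 k))]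
    exact h.mono (Nat.le_succ k)

theorem SimY.smul (hM : M.Good) (g : FF M) :
    ∃ m, ∀ k, ∀ y y' : CY M, SimY (k + m) y y' → SimY k (g • y) (g • y') := by
  have h1 : ∀ (s : Option (Mv M)) (k : ℕ) (y y' : CY M), SimY (k + 1) y y' →
      SimY k ((FreeGroup.of s : FF M) • y) ((FreeGroup.of s : FF M) • y') := by
    intro s k y y' h
    cases s with
    | none => exact h.flip.mono (Nat.le_succ k)
    | some σ => exact h.ta hM σ
  induction g using FreeGroup.induction_on with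
  | C1 => exact ⟨0, fun k y y' h => by simpa using h⟩
  | of s => exact ⟨1, h1 s⟩
  | inv_of s _ => exact ⟨1, fun k y y' h => by rw [of_inv_smul, of_inv_smul]; exact h1 s k y y' h⟩
  | mul g g' ih ih' =>
    obtain ⟨m, hm⟩ := ih
    obtain ⟨m', hm'⟩ := ih'
    refine ⟨m + m', fun k y y' h => ?_⟩
    rw [mul_smul, mul_smul]
    exact hm k _ _ (hm' _ _ _ (by rwa [add_assoc]))

theorem Defn.locally (hM : M.Good) {d : Set (CY M)} (h : Defn (FF M) (ce M) d) :
    ∃ k, ∀ y y', SimY k y y' → (y ∈ d ↔ y' ∈ d) := by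
  obtain ⟨t, rfl⟩ := h
  induction t with
  | top => exact ⟨0, fun _ _ _ => Iff.rfl⟩
  | basic j => exact ⟨1, fun _ _ h => h.mem j⟩
  | act γ t ih =>
    obtain ⟨k, hk⟩ := ih
    obtain ⟨m, hm⟩ := SimY.smul hM γ⁻¹
    refine ⟨k + m, fun y y' h => ?_⟩
    simp only [Tm.eval, Set.mem_smul_set_iff_inv_smul_mem]
    exact hk _ _ (hm k y y' h)
  | inf s t ihs iht =>
    obtain ⟨k, hk⟩ := ihs
    obtain ⟨l, hl⟩ := iht
    exact ⟨max k l, fun y y' h => and_congr (hk y y' (h.mono (le_max_left _ _)))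
      (hl y y' (h.mono (le_max_right _ _)))⟩
  | compl t ih =>
    obtain ⟨k, hk⟩ := ih
    exact ⟨k, fun y y' h => not_congr (hk y y' h)⟩

/-! ### contraction to the root -/

/-- neighbourhoods of the root -/
def Nroot (k : ℕ) (z : CZ M) : Prop := z.2 = true ∧ Sim k z.1.1 (rootR M)

theorem DI.locally (hM : M.Good) {D : Set (CZ M)} (h : DI D) (h0 : rootZ M ∈ D) :
    ∃ k, ∀ z, Nroot k z → z ∈ D := by
  obtain ⟨k, hk⟩ := Defn.locally hM h
  exact ⟨k, fun z hz => (hk (zmk z 0) (zmk (rootZ M) 0) ⟨hz.1, rfl, hz.2⟩).2 h0⟩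

theorem Nroot.eq {z : CZ M} (h : Nroot z.1.1.s.length z) : z = rootZ M := by
  obtain ⟨⟨r, hr⟩, sd⟩ := z
  obtain ⟨rfl, h1, h2, h3, h4, h5⟩ := h
  refine Prod.ext (Subtype.ext (Raw.ext h1 h2 h3 h4 ?_)) rfl
  by_contra hs
  have hs' : r.s ≠ [] := hs
  have hl := List.length_pos_iff.2 hs'
  have := h5 (r.s.length - 1) (by simp only; omega)
  apply hr.2.2
  rw [List.getLast?_eq_getElem?]
  simp only [fget, rootR, List.getD_eq_getElem?_getD, List.getElem?_nil, Option.getD_none] at this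
  rw [List.getElem?_eq_getElem (by omega)] at this ⊢
  exact congrArg some this

theorem nd_fr (x : Fr4) : (Mv.fr (M := M) x).ND := fun _ e => by cases e

/-- the contraction -/
def cD (hM : M.Good) : F0 M := (nd_fr .D).w0 hM

theorem cD_smul (hM : M.Good) {z : CZ M} (h1 : z.2 = true) (h2 : z.1.1.f = 0) :
    (cD hM • z).2 = true ∧ (cD hM • z).1.1 = (Mv.fr .D).raw z.1.1 := by
  obtain ⟨r, sd⟩ := z
  obtain rfl : sd = true := h1
  rw [cD, (nd_fr .D).w0_smul hM h2]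
  exact ⟨rfl, Mv.st_val _ h2⟩

theorem Nroot.cD (hM : M.Good) {k : ℕ} {z : CZ M} (h : Nroot k z) :
    Nroot (k + 1) (cD hM • z) := by
  obtain ⟨h1, h2⟩ := cD_smul hM h.1 h.2.2.2.2.1
  refine ⟨h1, ?_⟩
  rw [h2]
  obtain ⟨-, k1, k2, k3, -, k4⟩ := h
  refine ⟨rfl, k1, rfl, rfl, fun i hi => ?_⟩
  simp only [Mv.raw, k2, k3]
  rw [fget_fcons_congr _ k4 i hi]
  simp [rootR, fcons, Fr.triv]

theorem Nroot.cD_pow (hM : M.Good) {z : CZ M} (h : Nroot 0 z) (k : ℕ) :
    Nroot k (Vale.Agent.P193.cD hM ^ k • z) := by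
  induction k with
  | zero => simpa using h
  | succ k ih => rw [pow_succ', mul_smul]; exact ih.cD hM

theorem cD_root (hM : M.Good) : cD hM • rootZ M = rootZ M := by
  obtain ⟨h1, h2⟩ := cD_smul hM (z := rootZ M) rfl rfl
  refine Prod.ext (Subtype.ext (h2.trans ?_)) h1
  simp [rootZ, rootR, Mv.raw, fcons, Fr.triv]

theorem nroot_cD (hM : M.Good) {z : CZ M} (h1 : z.2 = true) (h2 : z.1.1.f = 0)
    (h3 : z.1.1.P = 1) : Nroot 0 (cD hM • z) := by
  obtain ⟨k1, k2⟩ := cD_smul hM h1 h2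
  refine ⟨k1, ?_⟩
  rw [k2]
  exact ⟨rfl, h3, rfl, rfl, fun i hi => absurd hi (Nat.not_lt_zero i)⟩

/-- each side can be contracted into any neighbourhood of the root -/
theorem exists_contract (hM : M.Good) (k : ℕ) (sd : Bool) :
    ∃ g : F0 M, ∀ z ∈ zside M sd, Nroot k (g • z) := by
  have h : ∀ r : St M, Nroot k ((cD hM ^ k * cD hM * (nd_fr .C).w0 hM) • ((r, true) : CZ M)) := by
    intro r
    rw [mul_smul, mul_smul, (nd_fr .C).w0_smul hM trivial]
    have e := (Mv.fr .C).st_val (r := r) trivial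
    refine Nroot.cD_pow hM (nroot_cD hM rfl ?_ ?_) k
    all_goals simp only [e]; rfl
  cases sd
  · refine ⟨(cD hM ^ k * cD hM * (nd_fr .C).w0 hM) * fl0 M, ?_⟩
    rintro ⟨r, _⟩ rfl
    rw [mul_smul, fl0_smul]
    exact h r
  · refine ⟨cD hM ^ k * cD hM * (nd_fr .C).w0 hM, ?_⟩
    rintro ⟨r, _⟩ rfl
    exact h r

/-- arbitrarily small definable neighbourhoods of the root -/
theorem exists_small (hM : M.Good) (k : ℕ) :
    ∃ D : Set (CZ M), DI D ∧ rootZ M ∈ D ∧ ∀ z ∈ D, Nroot k z := by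
  refine ⟨(cD hM ^ k * cD hM * cD hM) • zb .E, (DI.zb (j := .E) fun _ => trivial).smul _, ?_, ?_⟩
  · refine ⟨rootZ M, ⟨rfl, rfl⟩, ?_⟩
    beta_reduce
    rw [mul_smul, mul_smul, cD_root, cD_root]
    induction k with
    | zero => simp
    | succ k ih => rw [pow_succ', mul_smul, ih, cD_root]
  · rintro _ ⟨z, ⟨h1, h2⟩, rfl⟩
    beta_reduce
    rw [mul_smul, mul_smul]
    obtain ⟨k1, k2⟩ := cD_smul hM h1 h2
    refine Nroot.cD_pow hM (nroot_cD hM k1 ?_ ?_) k
    all_goals rw [k2]; rfl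

theorem exists_sep (hM : M.Good) {z z' : CZ M} (h : z ≠ z') :
    ∃ D : Set (CZ M), DI D ∧ z ∈ D ∧ z' ∉ D := by
  obtain ⟨g, rfl⟩ := exists_root hM z
  obtain ⟨D, h1, h2, h3⟩ := exists_small hM (g⁻¹ • z').1.1.s.length
  refine ⟨g • D, h1.smul g, Set.smul_mem_smul_set h2, fun k => h ?_⟩
  rw [Set.mem_smul_set_iff_inv_smul_mem] at k
  rw [← (h3 _ k).eq, smul_inv_smul]

theorem exists_into (hM : M.Good) {D : Set (CZ M)} (h : DI D) (hne : D.Nonempty) (sd : Bool) :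
    ∃ g : F0 M, ∀ z ∈ zside M sd, g • z ∈ D := by
  obtain ⟨z0, h0⟩ := hne
  obtain ⟨g, rfl⟩ := exists_root hM z0
  obtain ⟨k, hk⟩ := (h.smul g⁻¹).locally hM (Set.mem_inv_smul_set_iff.2 h0)
  obtain ⟨c, hc⟩ := exists_contract hM k sd
  refine ⟨g * c, fun z hz => ?_⟩
  rw [mul_smul]
  exact Set.mem_inv_smul_set_iff.1 (hk _ (hc z hz))

end Vale.Agent.P193
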