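import Mathlib

/-! Stack machines with a step table depending only on the top symbols, and the
mixed-identity-free property. -/

namespace Vale.Agent.P193

/-- A machine on finitely many stacks over a finite alphabet.  `t` is the input tape, `c` the
history stack.  A step reads the top symbols and two bits, pops every top symbol and pushes a
word on each stack (or is blocked). -/
structure Mach (G : Type) [Group G] where
  Λ : Type
  Γ : Type
  [fΛ : Fintype Λ]
  [dΛ : DecidableEq Λ]
  [fΓ : Fintype Γ]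
  [dΓ : DecidableEq Γ]
  t : Λ
  c : Λ
  val : Γ → G
  step : (Λ → Option Γ) → Bool → Bool → Option (Λ → List Γ)

attribute [instance] Mach.fΛ Mach.dΛ Mach.fΓ Mach.dΓ

namespace Mach

variable {G : Type} [Group G] (M : Mach G)

/-- value of a tape word (the head of the list is the top of the stack) -/
def phi (w : List M.Γ) : G := (w.map M.val).prod

@[simp] theorem phi_nil : M.phi [] = 1 := rfl

@[simp] theorem phi_cons (a : M.Γ) (w : List M.Γ) : M.phi (a :: w) = M.val a * M.phi w := by
  simp [phi]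

/-- one step on configurations -/
def next (b1 b2 : Bool) (σ : M.Λ → List M.Γ) : Option (M.Λ → List M.Γ) :=
  (M.step (fun k => (σ k).head?) b1 b2).map fun W k => W k ++ (σ k).tail

/-- the clean configuration with tape `w` -/
def clean (w : List M.Γ) : M.Λ → List M.Γ := fun k => if k = M.t then w else []

/-- the two bits are consistent with the tape word -/
def Cons (b1 b2 : Bool) (w : List M.Γ) : Prop :=
  (M.phi w = 1 → b1 = b2) ∧ (M.phi w ≠ 1 → ¬ (b1 = true ∧ b2 = true))

/-- the run from `σ` does not depend on the bits and is blocked after exactly `n` steps -/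
def DiesIn : ℕ → (M.Λ → List M.Γ) → Prop
  | 0, σ => ∀ b1 b2, M.next b1 b2 σ = none
  | n + 1, σ => ∃ ρ, (∀ b1 b2, M.next b1 b2 σ = some ρ) ∧ DiesIn n ρ

/-- the properties of the verifying machine -/
structure Good : Prop where
  hct : M.c ≠ M.t
  surj : ∀ g : G, ∃ w, M.phi w = g
  inj : ∀ b1 b2 b1' b2' σ σ' ρ, M.next b1 b2 σ = some ρ → M.next b1' b2' σ' = some ρ → σ = σ'
  len : ∀ b1 b2 σ ρ, M.next b1 b2 σ = some ρ → (σ M.c).length < (ρ M.c).length
  sound : ∃ Live : Set (M.Λ → List M.Γ),
    (∀ σ ∈ Live, ∀ b1 b2, ∃ ρ ∈ Live, M.next b1 b2 σ = some ρ) ∧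
    ∀ w b1 b2, M.Cons b1 b2 w → ∃ ρ ∈ Live, M.next b1 b2 (M.clean w) = some ρ
  complete : ∀ w b1 b2, ¬ M.Cons b1 b2 w →
    ∃ ρ n, M.next b1 b2 (M.clean w) = some ρ ∧ M.DiesIn n ρ
  cap : ∀ n, ∃ σ, σ M.c = [] ∧ (∃ k, k ≠ M.t ∧ σ k ≠ []) ∧ M.DiesIn n σ

end Mach

/-- evaluation of a word with one unknown at `g` -/
def evalAt {G : Type} [Group G] (g : G) : Monoid.Coprod G (Multiplicative ℤ) →* G :=
  Monoid.Coprod.lift (MonoidHom.id G) (zpowersHom G g)

/-- strong form of being mixed-identity-free -/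
def MIF (G : Type) [Group G] : Prop :=
  ∀ u : Monoid.Coprod G (Multiplicative ℤ), u ≠ 1 → ∀ X : Finset G, ∃ g, g ∉ X ∧ evalAt g u ≠ 1

end Vale.Agent.P193
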