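import Vale.Agent.P193.Mach

/-! Adding a history stack to a machine. -/

namespace Vale.Agent.P193

namespace Mach

variable {G : Type} [Group G] (M : Mach G)

/-- a step that does not depend on the bits -/
def St (σ ρ : M.Λ → List M.Γ) : Prop := ∀ b1 b2, M.next b1 b2 σ = some ρ

/-- finitely many bit independent steps -/
def Reach : (M.Λ → List M.Γ) → (M.Λ → List M.Γ) → Prop := Relation.ReflTransGen M.St

/-- the properties that do not involve the history stack -/
structure Raw : Prop where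
  two : ∃ z0 z1 : M.Γ, z0 ≠ z1
  surj : ∀ g : G, ∃ w, M.phi w = g
  run : ∀ w b1 b2, ∃ ρ ρ', M.next b1 b2 (M.clean w) = some ρ ∧ M.Reach ρ ρ' ∧
    (M.Cons b1 b2 w → M.St ρ' ρ') ∧ (¬ M.Cons b1 b2 w → M.DiesIn 0 ρ')
  cap : ∀ n, ∃ σ, (∃ k, k ≠ M.t ∧ σ k ≠ []) ∧ M.DiesIn n σ

/-- canonical bits producing a given step -/
noncomputable def cb (tops : M.Λ → Option M.Γ) (W : M.Λ → List M.Γ) : Bool × Bool :=
  Classical.epsilon fun c => M.step tops c.1 c.2 = some W

/-- one symbol of the history record -/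
def probe (z0 z1 : M.Γ) (tops : Option M.Λ → Option M.Γ) (c : Bool × Bool) :
    (Option M.Λ × Bool) ⊕ Bool → M.Γ
  | .inl (k, false) => if (tops k).isSome then z1 else z0
  | .inl (k, true) => (tops k).getD z0
  | .inr false => if c.1 then z1 else z0
  | .inr true => if c.2 then z1 else z0

/-- the history record -/
noncomputable def recd (z0 z1 : M.Γ) (tops : Option M.Λ → Option M.Γ) (c : Bool × Bool) :
    List M.Γ := Finset.univ.toList.map (M.probe z0 z1 tops c)

theorem recd_length (z0 z1 : M.Γ) (tops : Option M.Λ → Option M.Γ) (c : Bool × Bool) :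
    (M.recd z0 z1 tops c).length = (Fintype.card M.Λ + 1) * 2 + 2 := by
  simp [recd]

theorem recd_inj {z0 z1 : M.Γ} (hz : z0 ≠ z1) {tops tops' : Option M.Λ → Option M.Γ}
    {c c' : Bool × Bool} (h : M.recd z0 z1 tops c = M.recd z0 z1 tops' c') :
    tops = tops' ∧ c = c' := by
  have h1 := fun p => List.map_inj_left.mp h p (by simp)
  refine ⟨funext fun k => ?_, Prod.ext ?_ ?_⟩
  · have a := h1 (.inl (k, false))
    have b := h1 (.inl (k, true))
    simp only [probe] at a b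
    rcases e : tops k with _ | x <;> rcases e' : tops' k with _ | y <;> simp_all [hz.symm]
  · have a := h1 (.inr false)
    simp only [probe] at a
    rcases e : c.1 <;> rcases e' : c'.1 <;> simp_all [hz.symm]
  · have a := h1 (.inr true)
    simp only [probe] at a
    rcases e : c.2 <;> rcases e' : c'.2 <;> simp_all [hz.symm]

/-- the machine with a history stack -/
noncomputable def hist (z0 z1 : M.Γ) : Mach G where
  Λ := Option M.Λ
  Γ := M.Γ
  t := some M.t
  c := none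
  val := M.val
  step tops b1 b2 := (M.step (fun k => tops (some k)) b1 b2).map fun W k =>
    k.elim (M.recd z0 z1 tops (M.cb (fun k => tops (some k)) W)) W

variable {M} {z0 z1 : M.Γ}

theorem hist_next (b1 b2 : Bool) (σ : Option M.Λ → List M.Γ) :
    (M.hist z0 z1).next b1 b2 σ = (M.step (fun k => (σ (some k)).head?) b1 b2).map fun W k =>
      k.elim (M.recd z0 z1 (fun k => (σ k).head?) (M.cb (fun k => (σ (some k)).head?) W)) W ++
        (σ k).tail := Option.map_map _ _ _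

theorem hist_none {b1 b2 : Bool} {σ : Option M.Λ → List M.Γ}
    (h : M.next b1 b2 (fun k => σ (some k)) = none) : (M.hist z0 z1).next b1 b2 σ = none := by
  rw [hist_next, Option.map_eq_none_iff.mp h]
  rfl

theorem hist_some (σ : Option M.Λ → List M.Γ) (ρ0 : M.Λ → List M.Γ) :
    ∃ ρ : Option M.Λ → List M.Γ, (fun k => ρ (some k)) = ρ0 ∧ ∀ b1 b2,
      M.next b1 b2 (fun k => σ (some k)) = some ρ0 → (M.hist z0 z1).next b1 b2 σ = some ρ := by
  by_cases h : ∃ b1 b2, M.next b1 b2 (fun k => σ (some k)) = some ρ0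
  · obtain ⟨c1, c2, h⟩ := h
    obtain ⟨W, h1, rfl⟩ := Option.map_eq_some_iff.mp h
    refine ⟨fun k => k.elim (M.recd z0 z1 (fun k => (σ k).head?)
      (M.cb (fun k => (σ (some k)).head?) W)) W ++ (σ k).tail, rfl, fun b1 b2 h => ?_⟩
    obtain ⟨W', h2, h3⟩ := Option.map_eq_some_iff.mp h
    have : W' = W := funext fun k => List.append_cancel_right (congrFun h3 k)
    rw [hist_next, h2, this]
    rfl
  · exact ⟨fun k => k.elim [] ρ0, rfl, fun b1 b2 h' => absurd ⟨b1, b2, h'⟩ h⟩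

theorem hist_dies {n : ℕ} {σ : Option M.Λ → List M.Γ} (h : M.DiesIn n fun k => σ (some k)) :
    (M.hist z0 z1).DiesIn n σ := by
  induction n generalizing σ with
  | zero => exact fun b1 b2 => hist_none (h b1 b2)
  | succ n ih =>
    obtain ⟨ρ0, h1, h2⟩ := h
    obtain ⟨ρ, rfl, h3⟩ := hist_some (z0 := z0) (z1 := z1) σ ρ0
    exact ⟨ρ, fun b1 b2 => h3 b1 b2 (h1 b1 b2), ih h2⟩

theorem Reach.dies {σ ρ : M.Λ → List M.Γ} (h : M.Reach σ ρ) (h' : M.DiesIn 0 ρ) :
    ∃ n, M.DiesIn n σ := by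
  induction h using Relation.ReflTransGen.head_induction_on with
  | refl => exact ⟨0, h'⟩
  | head h1 _ ih => exact ⟨ih.choose + 1, _, h1, ih.choose_spec⟩

theorem hist_clean (w : List M.Γ) :
    (fun k => (M.hist z0 z1).clean w (some k)) = M.clean w := by
  funext k
  simp only [clean, hist]
  congr 1
  exact propext Option.some_inj

theorem hist_inj (hz : z0 ≠ z1) (b1 b2 b1' b2' : Bool) (σ σ' ρ : Option M.Λ → List M.Γ)
    (h1 : (M.hist z0 z1).next b1 b2 σ = some ρ) (h2 : (M.hist z0 z1).next b1' b2' σ' = some ρ) :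
    σ = σ' := by
  rw [hist_next] at h1 h2
  obtain ⟨W, a1, a2⟩ := Option.map_eq_some_iff.mp h1
  obtain ⟨W', c1, c2⟩ := Option.map_eq_some_iff.mp h2
  have e := a2.trans c2.symm
  obtain ⟨e1, e2⟩ := List.append_inj (congrFun e none) (by simp [recd_length])
  obtain ⟨e3, e4⟩ := M.recd_inj hz e1
  have e5 : (fun k => (σ (some k)).head?) = fun k => (σ' (some k)).head? :=
    funext fun k => congrFun e3 (some k)
  have f1 := Classical.epsilon_spec (p := fun c : Bool × Bool =>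
    M.step (fun k => (σ (some k)).head?) c.1 c.2 = some W) ⟨(b1, b2), a1⟩
  have f2 := Classical.epsilon_spec (p := fun c : Bool × Bool =>
    M.step (fun k => (σ' (some k)).head?) c.1 c.2 = some W') ⟨(b1', b2'), c1⟩
  change M.step _ (M.cb _ _).1 (M.cb _ _).2 = _ at f1 f2
  rw [e4, e5, f2] at f1
  cases f1
  funext k
  have g1 : (σ k).tail = (σ' k).tail := by
    rcases k with _ | k
    · exact e2
    · exact List.append_cancel_left (congrFun e (some k))
  have g2 : (σ k).head? = (σ' k).head? := congrFun e3 k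
  revert g1 g2
  cases σ k <;> cases σ' k <;> simp +contextual

theorem hist_len (b1 b2 : Bool) (σ ρ : Option M.Λ → List M.Γ)
    (h1 : (M.hist z0 z1).next b1 b2 σ = some ρ) : (σ none).length < (ρ none).length := by
  rw [hist_next] at h1
  obtain ⟨W, -, rfl⟩ := Option.map_eq_some_iff.mp h1
  simp only [Option.elim_none, List.length_append, recd_length, List.length_tail]
  omega

theorem Raw.good (h : M.Raw) : ∃ M' : Mach G, M'.Good := by
  obtain ⟨z0, z1, hz⟩ := h.two
  refine ⟨M.hist z0 z1, ⟨fun h => (by cases h), h.surj, hist_inj hz, hist_len, ?_, ?_, ?_⟩⟩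
  · refine ⟨{σ | ∃ ρ, M.Reach (fun k => σ (some k)) ρ ∧ M.St ρ ρ}, ?_, ?_⟩
    · rintro σ ⟨ρ', h1, h2⟩ b1 b2
      rcases h1.cases_head with h3 | ⟨ρ0, h3, h4⟩
      · obtain ⟨ρ, a1, a2⟩ := hist_some (z0 := z0) (z1 := z1) σ ρ'
        exact ⟨ρ, ⟨ρ', a1 ▸ .refl, h2⟩, a2 b1 b2 (h3 ▸ h2 b1 b2)⟩
      · obtain ⟨ρ, a1, a2⟩ := hist_some (z0 := z0) (z1 := z1) σ ρ0
        exact ⟨ρ, ⟨ρ', a1 ▸ h4, h2⟩, a2 b1 b2 (h3 b1 b2)⟩
    · intro w b1 b2 hc
      obtain ⟨ρ0, ρ', h1, h2, h3, -⟩ := h.run w b1 b2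
      obtain ⟨ρ, a1, a2⟩ := hist_some (z0 := z0) (z1 := z1) ((M.hist z0 z1).clean w) ρ0
      exact ⟨ρ, ⟨ρ', a1 ▸ h2, h3 hc⟩, a2 b1 b2 ((congrArg _ (hist_clean (M := M) w)).trans h1)⟩
  · intro w b1 b2 hc
    obtain ⟨ρ0, ρ', h1, h2, -, h3⟩ := h.run w b1 b2
    obtain ⟨ρ, a1, a2⟩ := hist_some (z0 := z0) (z1 := z1) ((M.hist z0 z1).clean w) ρ0
    obtain ⟨n, hn⟩ := h2.dies (h3 hc)
    exact ⟨ρ, n, a2 b1 b2 ((congrArg _ (hist_clean (M := M) w)).trans h1), hist_dies (a1 ▸ hn)⟩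
  · intro n
    obtain ⟨σ, ⟨k, h1, h2⟩, h3⟩ := h.cap n
    exact ⟨fun k => k.elim [] σ, rfl, ⟨some k, fun h => h1 (Option.some.inj h), h2⟩, hist_dies h3⟩

end Mach

end Vale.Agent.P193
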