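import Vale.Agent.P193.Mach

/-! The free product of a group with a free group of rank two is mixed-identity-free. -/

namespace Vale.Agent.P193

open Monoid Monoid.Coprod

namespace MifCore

variable {G : Type} [Group G]

abbrev GG (G : Type) [Group G] : Type := Coprod G (FreeGroup Bool)

abbrev HH (G : Type) [Group G] : Type := Coprod (GG G) (Multiplicative ℤ)

def ga : GG G := inr (FreeGroup.of false)

def gb : GG G := inr (FreeGroup.of true)

def xx : HH G := inr (Multiplicative.ofAdd 1)

def degH : HH G →* Multiplicative ℤ :=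
  lift (lift 1 (FreeGroup.lift fun c => cond c 1 (Multiplicative.ofAdd 1))) 1

def deg (h : HH G) : ℤ := (degH h).toAdd

theorem deg_mul (u h : HH G) : deg (u * h) = deg u + deg h := by simp [deg]

theorem deg_inv (u : HH G) : deg u⁻¹ = - deg u := by simp [deg]

theorem deg_apow (N : ℕ) : deg ((inl ga : HH G) ^ N) = N := by simp [deg, degH, ga]

noncomputable def mu (M : ℕ) (d : ℤ) : HH G :=
  if |d| ≤ M then inl gb else ((inl ga : HH G) ^ (2 * M + 1))⁻¹ * xx * inl ga ^ (2 * M + 1)

theorem deg_mu (M : ℕ) (d : ℤ) : deg (mu M d : HH G) = 0 := by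
  unfold mu
  split_ifs
  · simp [deg, degH, gb]
  · rw [deg_mul, deg_mul, deg_inv]
    simp [deg, degH, xx]

noncomputable def beta (M : ℕ) : Equiv.Perm (HH G) where
  toFun h := mu M (deg h) * h
  invFun h := (mu M (deg h))⁻¹ * h
  left_inv h := by simp [deg_mul, deg_mu]
  right_inv h := by simp [deg_mul, deg_inv, deg_mu]

noncomputable def rho (M : ℕ) : GG G →* Equiv.Perm (HH G) :=
  lift ((MulAction.toPermHom (HH G) (HH G)).comp (inl.comp inl))
    (FreeGroup.lift fun c => cond c (beta M) (MulAction.toPermHom (HH G) (HH G) (inl ga)))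

def el (M : ℕ) : GG G := ga ^ (2 * M + 1) * gb * (ga ^ (2 * M + 1))⁻¹

def good : Subgroup (HH G) where
  carrier := {u | ∃ K : ℕ, ∀ (M : ℕ) (h : HH G), |deg h| + K ≤ M →
    rho M (evalAt (el M) u) h = u * h}
  one_mem' := ⟨0, fun M h _ => by simp⟩
  mul_mem' := by
    rintro u v ⟨K, hK⟩ ⟨L, hL⟩
    refine ⟨K + L + (deg v).natAbs, fun M h e => ?_⟩
    have := abs_add_le (deg v) (deg h)
    push_cast at e
    rw [map_mul, map_mul, Equiv.Perm.mul_apply, hL M h (by have := abs_nonneg (deg v); omega),
      hK M _ (by rw [deg_mul]; omega), mul_assoc]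
  inv_mem' := by
    rintro u ⟨K, hK⟩
    refine ⟨K + (deg u).natAbs, fun M h e => ?_⟩
    have := abs_add_le (-deg u) (deg h)
    push_cast at e
    rw [abs_neg] at this
    rw [map_inv, map_inv, Equiv.Perm.inv_eq_iff_eq, hK M _ (by rw [deg_mul, deg_inv]; omega),
      mul_inv_cancel_left]

theorem rho_a (M : ℕ) : rho M (ga : GG G) = MulAction.toPermHom (HH G) (HH G) (inl ga) := by
  simp [rho, ga]

theorem rho_b (M : ℕ) (h : HH G) : rho M (gb : GG G) h = mu M (deg h) * h := by
  simp [rho, gb, beta]

theorem xx_mem : (xx : HH G) ∈ good := by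
  refine ⟨0, fun M h e => ?_⟩
  have h1 : evalAt (el M) (xx : HH G) = el M := by simp [evalAt, xx]
  rw [h1, el, map_mul, map_mul, map_inv, map_pow, rho_a, ← map_pow, ← map_inv,
    Equiv.Perm.mul_apply, Equiv.Perm.mul_apply, rho_b]
  simp only [MulAction.toPermHom_apply, MulAction.toPerm_apply, smul_eq_mul]
  rw [mu, if_neg]
  · group
  · rw [deg_mul, deg_inv, deg_apow]
    push_cast at e ⊢
    intro h2
    have := abs_le.mp h2
    have := le_abs_self (deg h)
    omega

theorem mem_good (u : HH G) : u ∈ good := by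
  induction u using Coprod.induction_on with
  | mul u v hu hv => exact mul_mem hu hv
  | inr z =>
    have : (inr z : HH G) = xx ^ z.toAdd := by
      rw [xx, ← map_zpow, ← ofAdd_zsmul]; simp
    exact this ▸ zpow_mem xx_mem _
  | inl y =>
    induction y using Coprod.induction_on with
    | mul u v hu hv => rw [map_mul]; exact mul_mem hu hv
    | inl g => exact ⟨0, fun M h _ => by simp [evalAt, rho]⟩
    | inr f =>
      induction f using FreeGroup.induction_on with
      | C1 => rw [map_one, map_one]; exact one_mem _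
      | inv_of c hc => rw [map_inv, map_inv]; exact inv_mem hc
      | mul u v hu hv => rw [map_mul, map_mul]; exact mul_mem hu hv
      | of c =>
        refine ⟨0, fun M h e => ?_⟩
        rw [show evalAt (el M) (inl (inr (FreeGroup.of c)) : HH G) = inr (FreeGroup.of c) from rfl]
        cases c
        · exact congrArg (fun p : Equiv.Perm (HH G) => p h) (rho_a M)
        · refine (rho_b M h).trans ?_
          rw [mu, if_pos (by simpa using e), gb]

theorem ev_ne {u : HH G} (hu : u ≠ 1) : ∀ᶠ M in Filter.atTop, evalAt (el M) u ≠ 1 := by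
  obtain ⟨K, hK⟩ := mem_good u
  filter_upwards [Filter.eventually_ge_atTop K] with M hM e
  have := hK M 1 (by simpa [deg] using hM)
  rw [e, map_one (rho M), mul_one] at this
  exact hu this.symm

theorem mif : MIF (GG G) := by
  intro u hu X
  have h1 : ∀ y ∈ X, ∀ᶠ M in Filter.atTop, evalAt (el M) (xx * (inl y)⁻¹ : HH G) ≠ 1 := by
    intro y _
    refine ev_ne fun e => ?_
    have := congrArg Coprod.snd e
    simp [xx] at this
  obtain ⟨M, h2, h3⟩ := (((Filter.eventually_all_finset X).mpr h1).and (ev_ne hu)).exists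
  refine ⟨el M, fun e => h2 _ e ?_, h3⟩
  simp [evalAt, xx]

end MifCore

end Vale.Agent.P193
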