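import Vale.Agent.P193.P1D

/-! Consequences of the formulas, part A: stacks, chains and the verification lemma. -/

namespace Vale.Agent.P193

set_option linter.unusedSectionVars false

variable {G : Type} [Group G] {M : Mach G}
variable {L : Type} [SemilatticeInf L] [BoundedOrder L] [Compl L] [QL L] [MulAction (FF M) L]
  [QM (FF M) L] {b : Pr M → L}

/-- the symbols of a list of pushes on one stack -/
def cfg (l : List (M.Λ × M.Γ)) (k : M.Λ) : List M.Γ :=
  l.filterMap fun p => if p.1 = k then some p.2 else none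

theorem cfg_cons (p : M.Λ × M.Γ) (l : List (M.Λ × M.Γ)) (k : M.Λ) :
    cfg (p :: l) k = if p.1 = k then p.2 :: cfg l k else cfg l k := by
  by_cases h : p.1 = k <;> simp [cfg, h]

theorem cfg_append (l l' : List (M.Λ × M.Γ)) (k : M.Λ) : cfg (l ++ l') k = cfg l k ++ cfg l' k :=
  List.filterMap_append

theorem cfg_map (k' : M.Λ) (w : List M.Γ) (k : M.Λ) :
    cfg (w.map fun a => (k', a)) k = if k' = k then w else [] := by
  induction w with
  | nil => simp [cfg]
  | cons a w ih => rw [List.map_cons, cfg_cons, ih]; split_ifs <;> rfl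

theorem cfg_flat (σ : M.Λ → List M.Γ) : cfg (flat σ) = σ := by
  have key : ∀ ks : List M.Λ, ks.Nodup → ∀ k, cfg (ks.flatMap fun k => (σ k).map fun a => (k, a)) k
      = if k ∈ ks then σ k else [] := by
    intro ks hks k
    induction ks with
    | nil => simp [cfg]
    | cons k' ks ih =>
      rw [List.nodup_cons] at hks
      rw [List.flatMap_cons, cfg_append, cfg_map, ih hks.2]
      by_cases e : k' = k
      · subst e; simp [hks.1]
      · simp [e, Ne.symm e]
  funext k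
  rw [flat, key _ (Finset.nodup_toList _), if_pos (by simp)]

@[simp] theorem pwL_nil : pwL ([] : List (M.Λ × M.Γ)) = 1 := rfl

theorem pwL_cons (p : M.Λ × M.Γ) (l : List (M.Λ × M.Γ)) :
    pwL (p :: l) = (Mv.push p.1 p.2).w * pwL l := by simp [pwL]

theorem pwL_append (l l' : List (M.Λ × M.Γ)) : pwL (l ++ l') = pwL l * pwL l' := by simp [pwL]

theorem Pres.fwd {σ : Mv M} {g g' : Pr M} (H : Pres b σ g g') {z : L} (h1 : z ≤ b g)
    (h2 : z ≤ b σ.dom) : σ.w • z ≤ b g' :=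
  (q_smul_le.2 (le_inf h1 h2)).trans (H.le.trans inf_le_left)

theorem Pres.bwd {σ : Mv M} {g g' : Pr M} (H : Pres b σ g g') {z : L} (h1 : z ≤ b g')
    (h2 : z ≤ b σ.ran) : σ.w⁻¹ • z ≤ b g :=
  (q_le_smul_iff.1 ((le_inf h1 h2).trans H.ge)).trans inf_le_left

theorem Pres.pf {σ : Mv M} {g g' : Pr M} (H : Pres b σ g g') :
    (σ.arr b).pf (b g) = b g' ⊓ b σ.ran := H

theorem Pres.pb {σ : Mv M} {g g' : Pr M} (H : Pres b σ g g') :
    (σ.arr b).pb (b g') = b g ⊓ b σ.dom := Arr.pb_of_pf H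

theorem Eqv.inv_smul_inf {γ γ' : FF M} {e : L} (H : Eqv γ γ' e) (x : L) :
    γ⁻¹ • x ⊓ e = γ'⁻¹ • x ⊓ e :=
  eq_of_forall_le_iff fun z => by
    simp only [le_inf_iff, ← q_smul_le_iff]
    exact and_congr_left fun hz => by rw [H.smul_eq hz]

theorem cm_inf_inf {x a c : L} (h1 : Cm x a) (h2 : Cm x c) (h3 : Cm a c) : Cm (x ⊓ c) (a ⊓ c) :=
  (h1.symm.inf h3 h2).symm.inf (h2.symm.inf h2.right h2).symm h3

namespace Hyp

variable (h : Hyp b)
include h

theorem ok (σ : Mv M) : (σ.arr b).Ok := h.wdom σ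

/-- the algebra generated by the basic predicates -/
def B0 : BSub L := genSub (Set.range b) (by rintro _ ⟨i, rfl⟩ _ ⟨j, rfl⟩; exact h.cm i j)

theorem b_mem (j : Pr M) : b j ∈ h.B0.car := Gen.base ⟨j, rfl⟩

theorem atT_mem (τ : M.Λ → Option M.Γ) : atT b τ ∈ h.B0.car :=
  h.B0.finf_mem _ fun _ _ => h.b_mem _

omit h in
theorem atT_le (τ : M.Λ → Option M.Γ) (k : M.Λ) : atT b τ ≤ b (.tp k (τ k)) :=
  Finset.inf_le (f := fun k => b (.tp k (τ k))) (Finset.mem_univ k)

theorem atT_le_E (τ : M.Λ → Option M.Γ) : atT b τ ≤ b .E := (atT_le τ M.t).trans (h.tpE _ _)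

theorem R0_le_E : R0 b ≤ b .E := h.atT_le_E _

theorem R_le_R0 (x : Fr4) : b (.R x) ≤ R0 b := Finset.le_inf fun k _ => h.rTp x k

theorem push_E (k : M.Λ) (a : M.Γ) : (Mv.push (M := M) k a).w • b .E = b (.tp k (some a)) :=
  h.wdom (.push k a)

theorem pwL_le_E (l : List (M.Λ × M.Γ)) : pwL l • b .E ≤ b .E := by
  induction l with
  | nil => simp
  | cons p l ih =>
    rw [pwL_cons, mul_smul]
    exact (q_smul_le.2 ih).trans ((h.push_E _ _).le.trans (h.tpE _ _))

theorem move_front (l : List (M.Λ × M.Γ)) {k : M.Λ} {a : M.Γ} {r : List M.Γ}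
    (hl : cfg l k = a :: r) : ∃ l', Eqv (pwL l) ((Mv.push k a).w * pwL l') (b .E) ∧
      cfg l' k = r ∧ ∀ k', k' ≠ k → cfg l' k' = cfg l k' := by
  induction l with
  | nil => simp [cfg] at hl
  | cons p l ih =>
    rw [cfg_cons] at hl
    by_cases e : p.1 = k
    · rw [if_pos e, List.cons.injEq] at hl
      refine ⟨l, Eqv.of_eq (by rw [pwL_cons, e, hl.1]) _, hl.2, fun k' hk' => ?_⟩
      rw [cfg_cons, if_neg (e ▸ hk'.symm)]
    · rw [if_neg e] at hl
      obtain ⟨l', h1, h2, h3⟩ := ih hl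
      refine ⟨p :: l', ?_, by rw [cfg_cons, if_neg e, h2], fun k' hk' => by
        rw [cfg_cons, cfg_cons, h3 k' hk']⟩
      rw [pwL_cons, pwL_cons, ← mul_assoc]
      refine (h1.mul_left _).trans ?_
      rw [← mul_assoc]
      exact Eqv.mul_right _ (h.cPush p.1 p.2 k a e) (le_inf (h.pwL_le_E l') (h.pwL_le_E l'))

theorem cfg_eqv {l l' : List (M.Λ × M.Γ)} (hl : cfg l = cfg l') :
    Eqv (pwL l) (pwL l') (b .E) := by
  induction l generalizing l' with
  | nil =>
    rcases l' with _ | ⟨p, l'⟩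
    · exact Eqv.refl _ _
    · have := congrFun hl p.1
      rw [cfg_cons, if_pos rfl] at this
      simp [cfg] at this
  | cons p l ih =>
    have h0 := congrFun hl p.1
    rw [cfg_cons, if_pos rfl] at h0
    obtain ⟨l'', h1, h2, h3⟩ := h.move_front l' h0.symm
    rw [pwL_cons]
    refine ((ih (l' := l'') ?_).mul_left _).trans h1.symm
    funext k
    by_cases e : k = p.1
    · rw [e, h2]
    · rw [h3 k e, ← hl, cfg_cons, if_neg (Ne.symm e)]

theorem rw_append (σ ρ : M.Λ → List M.Γ) :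
    Eqv (rw σ * rw ρ) (rw fun k => σ k ++ ρ k) (b .E) := by
  rw [rw, rw, rw, ← pwL_append]
  refine h.cfg_eqv ?_
  funext k
  rw [cfg_append, cfg_flat, cfg_flat, cfg_flat]

theorem atT_le_rw (τ : M.Λ → Option M.Γ) : atT b τ ≤ rw (fun k => (τ k).toList) • b .E := by
  have key : ∀ ks : List M.Λ, ks.Nodup → ∀ z, z ≤ b .E → (∀ k ∈ ks, z ≤ b (.tp k (τ k))) →
      z ≤ pwL (ks.flatMap fun k => (τ k).toList.map fun a => (k, a)) • b .E := by
    intro ks hks
    induction ks with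
    | nil => intro z hz _; simpa using hz
    | cons k ks ih =>
      intro z hz hk
      rw [List.nodup_cons] at hks
      have h1 := hk k (by simp)
      rw [List.flatMap_cons]
      rcases e : τ k with _ | a
      · exact ih hks.2 z hz fun k' hk' => hk k' (by simp [hk'])
      · rw [e] at h1
        rw [Option.toList_some, List.map_singleton, List.singleton_append, pwL_cons, mul_smul,
          q_le_smul_iff]
        refine ih hks.2 _ (q_le_smul_iff.1 (h1.trans (h.push_E k a).ge)) fun k' hk' => ?_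
        exact (h.pushTp k a k' _ fun e' => hks.1 (e' ▸ hk')).bwd (hk k' (by simp [hk'])) h1
  exact key _ (Finset.nodup_toList _) _ (h.atT_le_E τ) fun k _ => atT_le τ k

theorem pwL_R0_le (l : List (M.Λ × M.Γ)) (k : M.Λ) : pwL l • R0 b ≤ b (.tp k (cfg l k).head?) := by
  induction l with
  | nil => rw [pwL_nil, one_smul]; exact atT_le (fun _ => none) k
  | cons p l ih =>
    have h1 : pwL l • R0 b ≤ b .E := (q_smul_le.2 h.R0_le_E).trans (h.pwL_le_E l)
    rw [pwL_cons, mul_smul, cfg_cons]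
    split_ifs with e
    · subst e
      exact (q_smul_le.2 h1).trans (h.push_E _ _).le
    · exact (h.pushTp p.1 p.2 k _ (Ne.symm e)).fwd ih h1

theorem rw_R0_le (σ : M.Λ → List M.Γ) : rw σ • R0 b ≤ atT b fun k => (σ k).head? :=
  Finset.le_inf fun k _ => by
    have := h.pwL_R0_le (flat σ) k
    rw [cfg_flat] at this
    exact this

/-- the top symbols cover `E` -/
theorem atT_cover : b .E ⊓ (Finset.univ.inf fun τ => (atT b τ)ᶜ) ≤ ⊥ := by
  have key : ∀ s : Finset M.Λ, b .E ⊓ (Finset.univ.inf fun τ : M.Λ → Option M.Γ =>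
      (s.inf fun k => b (.tp k (τ k)))ᶜ) ≤ ⊥ := by
    intro s
    induction s using Finset.induction_on with
    | empty =>
      refine inf_le_right.trans ((Finset.inf_le (Finset.mem_univ fun _ => none)).trans ?_)
      rw [Finset.inf_empty, q_compl_top]
    | insert k s hk ih =>
      have hx := h.B0.inf_mem (h.b_mem .E) (h.B0.finf_mem Finset.univ
        (f := fun τ : M.Λ → Option M.Γ => ((insert k s).inf fun k => b (.tp k (τ k)))ᶜ)
        fun τ _ => h.B0.compl_mem (h.B0.finf_mem _ fun _ _ => h.b_mem _))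
      refine h.B0.dec_fin Finset.univ (f := fun o => b (.tp k o)) (fun _ _ => h.b_mem _) hx
        (fun o _ => le_trans (le_inf (inf_le_left.trans inf_le_left)
          (Finset.le_inf fun τ _ => ?_)) ih) ((inf_le_inf_right _ inf_le_left).trans (h.tpC k))
      refine (h.B0.cm (h.B0.inf_mem hx (h.b_mem _))
        (h.B0.finf_mem _ fun _ _ => h.b_mem _)).le_compl (q_eq_bot
          (e := (insert k s).inf fun k' => b (.tp k' (Function.update τ k o k'))) ?_ ?_).le
      · rw [Finset.inf_insert, Function.update_self]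
        refine inf_le_inf inf_le_right (Finset.le_inf fun k' hk' => ?_)
        have hne : k' ≠ k := fun e => hk (e ▸ hk')
        rw [Function.update_of_ne hne]
        exact Finset.inf_le (f := fun k => b (.tp k (τ k))) hk'
      · exact inf_le_left.trans (inf_le_left.trans (inf_le_right.trans
          (Finset.inf_le (Finset.mem_univ _))))
  exact key Finset.univ

theorem io_A : ioW M • b .A = b .Sh := h.wdom .io

theorem mm_A : mmW M • b .A = b .B := h.wdom .mm

theorem Sh_eq : b .Sh = b .T ⊓ (b .E)ᶜ := le_antisymm (le_inf (h.leT _) h.shE) h.shT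

theorem An_one : An b 1 = b .A := by
  rw [An, An, inf_eq_right.2 (h.leT _), ← h.io_A, inv_smul_smul]

theorem An_two : An b 2 = (ioW M)⁻¹ • (b .A ⊓ b .Sh) := by rw [An, h.An_one]

theorem An_two' : An b 2 = (mmW M)⁻¹ • (b .A ⊓ b .B) := h.An_two.trans h.ioA

theorem io_mm : Eqv (ioW M * mmW M) (mmW M * ioW M) (An b 2) := h.An_two ▸ h.ioMm

theorem An_succ (n : ℕ) : An b (n + 1) = (mmW M)⁻¹ • (An b n ⊓ b .B) := by
  induction n with
  | zero => rw [h.An_one, An, inf_eq_right.2 (h.leT _), ← h.mm_A, inv_smul_smul]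
  | succ n ih =>
    have e1 : An b (n + 1) = (ioW M)⁻¹ • An b n ⊓ b .A := by
      rw [An, q_smul_inf, ← h.io_A, inv_smul_smul]
    have e2 : An b (n + 1) = (mmW M)⁻¹ • An b n ⊓ b .A := by
      rw [ih, q_smul_inf, ← h.mm_A, inv_smul_smul]
    rw [An]
    conv_lhs => rw [e2]
    conv_rhs => rw [e1]
    rw [inf_assoc, inf_assoc, q_smul_inf, q_smul_inf (mmW M)⁻¹, ← h.An_two, ← h.An_two',
      ← mul_smul, ← mul_smul, ← mul_inv_rev, ← mul_inv_rev, h.io_mm.inv_smul_inf]

theorem An_anti (n : ℕ) : An b (n + 1) ≤ An b n := by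
  induction n with
  | zero => rw [h.An_one]; exact h.leT _
  | succ n ih => exact q_smul_le.2 (inf_le_inf_right _ ih)

theorem An_le_T (n : ℕ) : An b n ≤ b .T := by
  induction n with
  | zero => exact le_rfl
  | succ n ih => exact (h.An_anti n).trans ih

theorem An_succ_le_A (n : ℕ) : An b (n + 1) ≤ b .A := Arr.pb_le (h.ok .io) _

theorem Bn_one : Bn b 1 = b .B := by rw [Bn, Bn, inf_eq_right.2 (h.leT _), h.mm_A]

theorem Bn_succ_le_B (n : ℕ) : Bn b (n + 1) ≤ b .B := Arr.pf_le (h.ok .mm) _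

theorem Bn_anti (n : ℕ) : Bn b (n + 1) ≤ Bn b n := by
  induction n with
  | zero => rw [h.Bn_one]; exact h.leT _
  | succ n ih => exact q_smul_le.2 (inf_le_inf_right _ ih)

theorem Bn_le_T (n : ℕ) : Bn b n ≤ b .T := by
  induction n with
  | zero => exact le_rfl
  | succ n ih => exact (h.Bn_anti n).trans ih

theorem io_K : ioW M • b .K = b .K ⊓ b .Sh := by
  rw [← inf_eq_left.2 h.kA]
  exact h.ioK.trans (by rw [inf_eq_left.2 h.kA]; rfl)

theorem Kn_le_An (n m : ℕ) : Kn b n ≤ An b m := by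
  induction n generalizing m with
  | zero =>
    induction m with
    | zero => exact h.leT _
    | succ m ih => exact q_smul_le_iff.1 (h.io_K.le.trans (inf_le_inf_right _ ih))
  | succ n ih =>
    have := q_smul_le (γ := mmW M).2 (ih (m + 1))
    rw [h.An_succ, smul_inv_smul] at this
    exact this.trans inf_le_left

theorem Kn_le_A (n : ℕ) : Kn b n ≤ b .A := h.An_one ▸ h.Kn_le_An n 1

theorem Kn_le_T (n : ℕ) : Kn b n ≤ b .T := h.Kn_le_An n 0

theorem Kn_succ (n : ℕ) : Kn b (n + 1) = mmW M • (Kn b n ⊓ b .A) := by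
  rw [inf_eq_left.2 (h.Kn_le_A n), Kn]

theorem Kn_le_Bn (n : ℕ) : Kn b n ≤ Bn b n := by
  induction n with
  | zero => exact h.leT _
  | succ n ih => exact q_smul_le.2 (le_inf ih (h.Kn_le_A n))

theorem Kn_orth (n : ℕ) : Kn b n ≤ (Bn b (n + 1))ᶜ := by
  induction n with
  | zero => rw [h.Bn_one]; exact h.kB
  | succ n ih =>
    rw [Kn, Bn, ← q_smul_compl]
    exact q_smul_le.2 (ih.trans (QL.anti inf_le_left))

theorem mm_E : mmW M • (b .E ⊓ b .A) = b .E ⊓ b .B := h.mmE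

theorem mm_Sh : mmW M • (b .Sh ⊓ b .A) = b .Sh ⊓ b .B := by
  have e : ∀ j, b .Sh ⊓ b j = (b .E)ᶜ ⊓ b j := fun j => by
    rw [h.Sh_eq, inf_right_comm, inf_eq_right.2 (h.leT j), inf_comm]
  have := Arr.pf_compl (h.ok .mm) (h.cm .E .A)
  rw [h.mmE.pf] at this
  rw [e, e]
  refine this.trans ?_
  rw [inf_comm (b .E), inf_comm (b .E)ᶜ]
  exact (h.cm .B .E).inf_compl_inf

theorem io_step {x : L} (hx : ioW M • (x ⊓ b .A) = x ⊓ b .Sh) :
    ioW M • (mmW M • (x ⊓ b .A) ⊓ b .A) = mmW M • (x ⊓ b .A) ⊓ b .Sh := by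
  have e1 : mmW M • (x ⊓ b .A) ⊓ b .A = mmW M • (x ⊓ b .A ⊓ An b 2) := by
    rw [q_smul_inf _ (x ⊓ b .A), h.An_two', smul_inv_smul, inf_comm (b .A), ← inf_assoc,
      inf_eq_left.2 ((q_smul_le.2 inf_le_right).trans h.mm_A.le)]
  rw [e1, ← mul_smul, h.io_mm.smul_eq inf_le_right, mul_smul, q_smul_inf (ioW M), hx, h.An_two,
    smul_inv_smul, show x ⊓ b .Sh ⊓ (b .A ⊓ b .Sh) = x ⊓ b .A ⊓ (b .Sh ⊓ b .A) by ac_rfl,
    q_smul_inf, h.mm_Sh, inf_comm (b .Sh), ← inf_assoc,
    inf_eq_left.2 ((q_smul_le.2 inf_le_right).trans h.mm_A.le)]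

theorem io_Bn (n : ℕ) : ioW M • (Bn b n ⊓ b .A) = Bn b n ⊓ b .Sh := by
  induction n with
  | zero => rw [Bn, inf_eq_right.2 (h.leT _), inf_eq_right.2 (h.leT _), h.io_A]
  | succ n ih => exact h.io_step ih

theorem io_Kn (n : ℕ) : ioW M • Kn b n = Kn b n ⊓ b .Sh := by
  induction n with
  | zero => exact h.io_K
  | succ n ih =>
    have := h.io_step (x := Kn b n) (by rwa [inf_eq_left.2 (h.Kn_le_A n)])
    rwa [← h.Kn_succ, inf_eq_left.2 (h.Kn_le_A _)] at this

theorem cm_Sh {x : L} (hx : Cm x (b .E)) (hT : x ≤ b .T) : Cm x (b .Sh) := by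
  rw [h.Sh_eq]
  exact (hx.left.of_le (h.cm _ _) hT).inf hx.compl (h.cm _ _).compl

theorem cm_An_E_B (n : ℕ) : Cm (An b n) (b .E) ∧ Cm (An b n) (b .B) := by
  induction n with
  | zero => exact ⟨h.cm _ _, h.cm _ _⟩
  | succ n ih =>
    constructor
    · rw [h.An_succ]
      refine Arr.cm_pb (h.ok .mm) (h.cm _ _) ?_
      rw [h.mmE.pf]
      exact cm_inf_inf ih.1 ih.2 (h.cm _ _)
    · refine Arr.cm_pb (h.ok .io) (h.cm _ _) ?_
      rw [h.ioB.pf]
      exact cm_inf_inf ih.2 (h.cm_Sh ih.1 (h.An_le_T n)) (h.cm _ _)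

theorem cm_An_E (n : ℕ) : Cm (An b n) (b .E) := (h.cm_An_E_B n).1

theorem cm_An_Bn (n m : ℕ) : Cm (An b n) (Bn b m) := by
  induction m generalizing n with
  | zero => exact (h.cm_An_E n).left.of_le (h.cm _ _) (h.An_le_T n)
  | succ m ih =>
    refine (Arr.cm_pf (h.ok .mm) (h.cm_An_E_B n).2 ?_).symm
    have e : (Mv.arr b .mm).pb (An b n) = An b (n + 1) := (h.An_succ n).symm
    rw [e]
    exact ((ih (n + 1)).inf ((h.cm_An_E _).left.of_le (h.cm _ _) (h.An_succ_le_A n))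
      (h.An_one ▸ ih 1).symm).symm

theorem cm_Bn_A (n : ℕ) : Cm (Bn b n) (b .A) := (h.An_one ▸ h.cm_An_Bn 1 n).symm

theorem cm_Bn_pres {j : Pr M} (hj : Pres b .mm j j) (n : ℕ) : Cm (Bn b n) (b j) := by
  induction n with
  | zero => exact h.cm _ _
  | succ n ih =>
    refine Arr.cm_pf (h.ok .mm) (h.cm _ _) ?_
    rw [hj.pb]
    exact cm_inf_inf ih (h.cm_Bn_A n) (h.cm _ _)

theorem cm_Kn_pres {j : Pr M} (hj : Pres b .mm j j) (n : ℕ) : Cm (Kn b n) (b j) := by
  induction n with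
  | zero => exact h.cm _ _
  | succ n ih =>
    rw [h.Kn_succ]
    refine Arr.cm_pf (h.ok .mm) (h.cm _ _) ?_
    rw [hj.pb]
    exact cm_inf_inf ih (ih.left.of_le (h.cm _ _) (h.Kn_le_A n)) (h.cm _ _)

theorem cm_Bn_E (n : ℕ) : Cm (Bn b n) (b .E) := h.cm_Bn_pres h.mmE n

theorem cm_Kn_E (n : ℕ) : Cm (Kn b n) (b .E) := h.cm_Kn_pres h.mmE n

theorem mm_Dg (d : Bool) : Pres b .mm (.Dg d) (.Dg d) := h.allDg .mm d nofun

theorem cm_An_Dg (n : ℕ) (d : Bool) : Cm (An b n) (b (.Dg d)) := by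
  induction n with
  | zero => exact h.cm _ _
  | succ n ih =>
    rw [h.An_succ]
    refine Arr.cm_pb (h.ok .mm) (h.cm _ _) ?_
    rw [(h.mm_Dg d).pf]
    exact cm_inf_inf ih (h.cm_An_E_B n).2 (h.cm _ _)

theorem cm_Bn_Dg (n : ℕ) (d : Bool) : Cm (Bn b n) (b (.Dg d)) := h.cm_Bn_pres (h.mm_Dg d) n

theorem cm_Kn_Dg (n : ℕ) (d : Bool) : Cm (Kn b n) (b (.Dg d)) := h.cm_Kn_pres (h.mm_Dg d) n

theorem dig_basic (d : Bool) {j : Pr M} (hj : ∀ d', j ≠ .Dg d') :
    (Mv.dig (M := M) d).w • b j = b j ⊓ b (.Dg d) := by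
  rw [← inf_eq_left.2 (h.leT j)]
  exact (h.digAll d j hj).trans (by rw [inf_eq_left.2 (h.leT j)]; rfl)

theorem dig_An (d : Bool) (n : ℕ) : (Mv.dig (M := M) d).w • An b n = An b n ⊓ b (.Dg d) := by
  induction n with
  | zero => exact h.dig_basic d nofun
  | succ n ih =>
    have sq : Arr.HSq (Mv.arr b .mm) (Mv.arr b (.dig d)) :=
      ⟨(h.cDig d .mm nofun).symm.mono (inf_comm _ _).le,
        by rw [← h.ok .mm]; exact (congrArg _ (inf_eq_left.2 (h.leT _))).trans
            (inf_eq_left.2 (h.mm_A.le.trans (h.leT _))).symm,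
        by
          refine (congrArg _ (inf_eq_right.2 (h.leT _))).trans
            ((h.dig_basic d (j := .B) nofun).trans ?_)
          exact inf_comm _ _⟩
    have e := sq.pb_pf (h.ok _) (h.ok _) (An b n)
    have e1 : (Mv.arr b .mm).pb (An b n) = An b (n + 1) := (h.An_succ n).symm
    have e2 : ∀ m, (Mv.arr b (.dig d)).pf (An b m) = (Mv.dig (M := M) d).w • An b m := fun m =>
      congrArg _ (inf_eq_left.2 (h.An_le_T m))
    rw [e1, e2, e2, ih, Arr.pb_inf, e1, (h.mm_Dg d).pb] at e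
    rw [← e, inf_comm (b (.Dg d)), ← inf_assoc]
    exact congrArg (· ⊓ _) (inf_eq_left.2 (h.An_succ_le_A n))

theorem dig_step (d : Bool) {x : L} (hx : (Mv.dig (M := M) d).w • x = x ⊓ b (.Dg d)) :
    (Mv.dig (M := M) d).w • mmW M • (x ⊓ b .A) = mmW M • (x ⊓ b .A) ⊓ b (.Dg d) := by
  have e : mmW M • (b (.Dg d) ⊓ b .A) = b (.Dg d) ⊓ b .B := h.mm_Dg d
  have c : Eqv ((Mv.dig d).w * mmW M) (mmW M * (Mv.dig d).w) (b .T ⊓ b .A) := h.cDig d .mm nofun
  rw [← mul_smul, c.smul_eq (le_inf (inf_le_right.trans (h.leT _)) inf_le_right), mul_smul,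
    q_smul_inf (Mv.dig d).w, hx, h.dig_basic d (j := .A) nofun,
    show x ⊓ b (.Dg d) ⊓ (b .A ⊓ b (.Dg d)) = x ⊓ b .A ⊓ (b (.Dg d) ⊓ b .A) by ac_rfl,
    q_smul_inf, e, inf_comm (b (.Dg d)), ← inf_assoc,
    inf_eq_left.2 ((q_smul_le.2 inf_le_right).trans h.mm_A.le)]

theorem dig_Bn (d : Bool) (n : ℕ) : (Mv.dig (M := M) d).w • Bn b n = Bn b n ⊓ b (.Dg d) := by
  induction n with
  | zero => exact h.dig_basic d nofun
  | succ n ih => exact h.dig_step d ih

theorem dig_Kn (d : Bool) (n : ℕ) : (Mv.dig (M := M) d).w • Kn b n = Kn b n ⊓ b (.Dg d) := by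
  induction n with
  | zero => exact h.dig_basic d nofun
  | succ n ih => rw [h.Kn_succ]; exact h.dig_step d ih

omit h in
theorem piece_mem (B : BSub L) (htp : ∀ k o, b (.tp k o) ∈ B.car) (hd : b .dl ∈ B.car)
    (hd' : b .dl' ∈ B.car) (τ : M.Λ → Option M.Γ) (b1 b2 : Bool) : piece b τ b1 b2 ∈ B.car :=
  B.inf_mem (B.inf_mem (B.finf_mem _ fun _ _ => htp _ _) (B.sg_mem _ hd)) (B.sg_mem _ hd')

/-- case distinction on the two bits -/
theorem bits_cases {Q : L → Prop} (hQ : ∀ x f, Cm x f → Q (x ⊓ f) → Q (x ⊓ fᶜ) → Q x) {x : L}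
    (hx : x ∈ h.B0.car) (H : ∀ b1 b2, Q (x ⊓ sg b1 (b .dl) ⊓ sg b2 (b .dl'))) : Q x :=
  hQ _ _ (h.B0.cm hx (h.b_mem .dl))
    (hQ _ _ (h.B0.cm (h.B0.inf_mem hx (h.b_mem _)) (h.b_mem .dl')) (H true true) (H true false))
    (hQ _ _ (h.B0.cm (h.B0.inf_mem hx (h.B0.compl_mem (h.b_mem _))) (h.b_mem .dl'))
      (H false true) (H false false))

theorem piece_cover : b .E ⊓ (Finset.univ.inf fun i : (M.Λ → Option M.Γ) × Bool × Bool =>
    (piece b i.1 i.2.1 i.2.2)ᶜ) ≤ ⊥ := by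
  have hx := h.B0.inf_mem (h.b_mem .E) (h.B0.finf_mem Finset.univ
    (f := fun i : (M.Λ → Option M.Γ) × Bool × Bool => (piece b i.1 i.2.1 i.2.2)ᶜ)
    fun i _ => h.B0.compl_mem (piece_mem _ (fun _ _ => h.b_mem _) (h.b_mem _) (h.b_mem _) _ _ _))
  refine le_trans (le_inf inf_le_left (Finset.le_inf fun τ _ => ?_)) h.atT_cover
  refine (h.B0.cm hx (h.atT_mem τ)).le_compl (h.bits_cases (Q := fun x => x ≤ ⊥)
    (fun _ _ hc => hc.dec) (h.B0.inf_mem hx (h.atT_mem τ)) fun b1 b2 => ?_)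
  refine (q_eq_bot (e := piece b τ b1 b2) (inf_le_inf_right _ (inf_le_inf_right _ inf_le_right))
    ?_).le
  exact inf_le_left.trans (inf_le_left.trans (inf_le_left.trans (inf_le_right.trans
    (Finset.inf_le (Finset.mem_univ (τ, b1, b2))))))

theorem good_pwL {B : BSub L} (hE : b .E ∈ B.car)
    (hp : ∀ k a, Good B (Mv.push (M := M) k a).w (b .E)) (l : List (M.Λ × M.Γ)) :
    Good B (pwL l) (b .E) := by
  induction l with
  | nil => exact Good.one hE
  | cons p l ih => rw [pwL_cons]; exact (hp _ _).mul ih (h.pwL_le_E l)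

/-- the machine step is piecewise a product of stack moves -/
theorem good_mm (B : BSub L) (hE : b .E ∈ B.car) (htp : ∀ k o, b (.tp k o) ∈ B.car)
    (hd : b .dl ∈ B.car) (hd' : b .dl' ∈ B.car)
    (hp : ∀ k a, Good B (Mv.push (M := M) k a).w (b .E)) : Good B (mmW M) (b .E ⊓ b .A) := by
  classical
  have hpm := piece_mem B htp hd hd'
  have hx := B.inf_mem hE (B.finf_mem (Finset.univ.filter fun i : (M.Λ → Option M.Γ) × Bool × Bool
    => M.step i.1 i.2.1 i.2.2 = none) (f := fun i => (piece b i.1 i.2.1 i.2.2)ᶜ)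
    fun i _ => B.compl_mem (hpm _ _ _))
  have hEA : b .E ⊓ b .A ∈ B.car := by
    convert hx using 1
    refine le_antisymm (inf_le_inf_left _ (Finset.le_inf fun i hi =>
      q_le_compl_comm.1 (h.dead _ _ _ (Finset.mem_filter.1 hi).2))) (le_inf inf_le_left ?_)
    refine B.dec_fin Finset.univ (f := fun i : (M.Λ → Option M.Γ) × Bool × Bool =>
      piece b i.1 i.2.1 i.2.2) (fun i _ => hpm _ _ _) hx (fun i _ => ?_)
      (((inf_le_inf_right _ inf_le_left).trans h.piece_cover).trans bot_le)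
    by_cases e : M.step i.1 i.2.1 i.2.2 = none
    · exact (q_eq_bot inf_le_right (inf_le_left.trans (inf_le_right.trans
        (Finset.inf_le (f := fun i : (M.Λ → Option M.Γ) × Bool × Bool =>
          (piece b i.1 i.2.1 i.2.2)ᶜ) (Finset.mem_filter.2 ⟨Finset.mem_univ i, e⟩))))).le.trans
        bot_le
    · exact inf_le_right.trans (h.live _ _ _ e)
  refine Good.fin Finset.univ (g := fun i : (M.Λ → Option M.Γ) × Bool × Bool =>
    piece b i.1 i.2.1 i.2.2) (fun i _ => hpm _ _ _) hEA (fun i _ => ?_) ?_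
  · by_cases e : M.step i.1 i.2.1 i.2.2 = none
    · rw [q_eq_bot (inf_le_left.trans inf_le_right) (inf_le_right.trans (h.dead _ _ _ e))]
      exact Good.bot
    · have hle : b .E ⊓ b .A ⊓ piece b i.1 i.2.1 i.2.2 ≤ rw (fun k => (i.1 k).toList) • b .E :=
        inf_le_right.trans (inf_le_left.trans (inf_le_left.trans (h.atT_le_rw _)))
      exact ((h.good_pwL hE hp _).mul ((h.good_pwL hE hp _).inv.mono (B.inf_mem hEA (hpm _ _ _))
        hle) (q_le_smul_iff.1 hle)).eqv ((h.run _ _ _ e).symm.mono inf_le_right)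
  · rw [le_bot_iff.1 ((inf_le_inf_right _ inf_le_left).trans h.piece_cover)]
    exact Good.bot

theorem mm_step {σ W : M.Λ → List M.Γ} {z : L} (hz : z ≤ rw σ • R0 b)
    (he : Eqv (mmW M) (rw W * (rw fun k => (σ k).head?.toList)⁻¹) z) :
    mmW M • z ≤ rw (fun k => W k ++ (σ k).tail) • R0 b := by
  have e : σ = fun k => (σ k).head?.toList ++ (σ k).tail := by
    funext k; cases σ k <;> rfl
  rw [e, ← (h.rw_append _ _).smul_eq h.R0_le_E, mul_smul, q_le_smul_iff] at hz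
  rw [he.smul_eq le_rfl, ← (h.rw_append _ _).smul_eq h.R0_le_E, mul_smul, mul_smul]
  exact q_smul_le.2 hz

theorem dies {n : ℕ} {σ : M.Λ → List M.Γ} (hd : M.DiesIn n σ) :
    rw σ • R0 b ⊓ An b (n + 1) = ⊥ := by
  induction n generalizing σ with
  | zero =>
    rw [h.An_one]
    refine q_inf_eq_bot ((h.rw_R0_le σ).trans (h.bits_cases (Q := fun x => x ≤ (b .A)ᶜ)
      (fun _ _ hc => hc.dec) (h.atT_mem _) fun b1 b2 => h.dead _ b1 b2 ?_))
    exact Option.map_eq_none_iff.1 (hd b1 b2)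
  | succ n ih =>
    obtain ⟨ρ, h1, h2⟩ := hd
    obtain ⟨W, -, hW⟩ := Option.map_eq_some_iff.1 (h1 true true)
    have he : Eqv (mmW M) (rw W * (rw fun k => (σ k).head?.toList)⁻¹)
        (atT b fun k => (σ k).head?) := by
      refine h.bits_cases (Q := Eqv _ _) (fun _ _ => Eqv.dec) (h.atT_mem _) fun b1 b2 => ?_
      obtain ⟨W', hW', e⟩ := Option.map_eq_some_iff.1 (h1 b1 b2)
      have := h.run _ b1 b2 (by rw [hW']; nofun)
      rw [hW', Option.getD_some] at this
      have e' : W' = W := funext fun k =>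
        List.append_cancel_right (congrFun (e.trans hW.symm) k)
      exact e' ▸ this
    have h3 := h.mm_step inf_le_left (he.mono
      ((inf_le_left (b := An b (n + 1 + 1))).trans (h.rw_R0_le σ)))
    rw [hW] at h3
    refine q_smul_eq_bot.1 (le_bot_iff.1 ((le_inf h3 ?_).trans (ih h2).le))
    refine (q_smul_le.2 inf_le_right).trans ?_
    rw [h.An_succ, smul_inv_smul]
    exact inf_le_left

/-- verification: inconsistent bits are impossible over a clean configuration -/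
theorem ver {w : List M.Γ} {b1 b2 : Bool} (hw : ¬ M.Cons b1 b2 w) :
    pwL (w.map fun a => (M.t, a)) • R0 b ⊓ sg b1 (b .dl) ⊓ sg b2 (b .dl') = ⊥ := by
  obtain ⟨ρ, n, h1, h2⟩ := h.good.complete w b1 b2 hw
  have e : pwL (w.map fun a => (M.t, a)) • R0 b = rw (M.clean w) • R0 b := by
    refine (h.cfg_eqv ?_).smul_eq h.R0_le_E
    funext k
    rw [cfg_map, cfg_flat, Mach.clean]
    simp only [eq_comm]
  rw [e]
  obtain ⟨W, hW, hρ⟩ := Option.map_eq_some_iff.1 h1
  have hr := h.run _ b1 b2 (by rw [hW]; nofun)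
  rw [hW, Option.getD_some] at hr
  have h0 : rw (M.clean w) • R0 b ⊓ sg b1 (b .dl) ⊓ sg b2 (b .dl') ≤ rw (M.clean w) • R0 b :=
    inf_le_left.trans inf_le_left
  have h3 := h.mm_step h0 (hr.mono (inf_le_inf_right _ (inf_le_inf_right _ (h.rw_R0_le _))))
  rw [hρ] at h3
  refine q_smul_eq_bot.1 (le_bot_iff.1 ((le_inf h3 ?_).trans (h.dies h2).le))
  have h4 : rw (M.clean w) • R0 b ≤ b .K := by
    refine (h.rw_R0_le _).trans (le_trans (le_inf (h.atT_le_E _) (Finset.le_inf fun k hk => ?_))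
      h.kCl)
    have := atT_le (b := b) (fun k => (M.clean w k).head?) k
    rwa [Mach.clean, if_neg (Finset.ne_of_mem_erase hk)] at this
  refine (q_smul_le.2 (h0.trans (h4.trans (h.Kn_le_An 0 (n + 1 + 1))))).trans ?_
  rw [h.An_succ, smul_inv_smul]
  exact inf_le_left

end Hyp

end Vale.Agent.P193
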