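import Vale.Agent.P193.P1G

/-! Consequences of the formulas, part B: the two push systems. -/

namespace Vale.Agent.P193

set_option linter.unusedSectionVars false

variable {G : Type} [Group G] {M : Mach G}

/-- frame pushes -/
def Pu.isFr : Pu M → Prop
  | .fA => True
  | .fB => True
  | .fC _ => True
  | .fD _ => True
  | _ => False

variable {L : Type} [SemilatticeInf L] [BoundedOrder L] [Compl L] [QL L] [MulAction (FF M) L]
  [QM (FF M) L] {b : Pr M → L}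

/-- members of the three chains -/
def Chain (b : Pr M → L) (x : L) : Prop := ∃ n, x = An b n ∨ x = Bn b n ∨ x = Kn b n

namespace Hyp

variable (h : Hyp b)
include h

theorem R0_le_tp (k : M.Λ) : R0 b ≤ b (.tp k none) := Finset.inf_le (Finset.mem_univ k)

theorem PmR_le_R0 (x : G) (y : Fr4) : Pm M x • b (.R y) ≤ R0 b :=
  (q_smul_le.2 (h.R_le_R0 y)).trans (h.Pm_R0 x).le

theorem tp_orth_R0 (k : M.Λ) (a : M.Γ) : b (.tp k (some a)) ≤ (R0 b)ᶜ :=
  (h.tpO k _ none (by simp)).trans (QL.anti (h.R0_le_tp k))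

theorem E_orth_Sh : b .E ≤ (b .Sh)ᶜ := q_le_compl_comm.1 h.shE

theorem pu_ok (p : Pu M) : (p.arr b).Ok := by
  cases p with
  | push k a => exact h.wdom (.push k a)
  | fA => exact h.wdom (.fr .A)
  | fB => exact h.wdom (.fr .B)
  | fC x => exact (mul_smul _ _ _).trans (congrArg _ (h.wdom (.fr .C)))
  | fD x => exact (mul_smul _ _ _).trans (congrArg _ (h.wdom (.fr .D)))
  | io => exact h.wdom .io
  | dig d => exact h.wdom (.dig d)
  | flip => exact h.flT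

theorem fr_le_R0 {p : Pu M} (hp : p.isFr) : p.rn b ≤ R0 b := by
  cases p with
  | fA => exact h.R_le_R0 _
  | fB => exact h.R_le_R0 _
  | fC x => exact h.PmR_le_R0 _ _
  | fD x => exact h.PmR_le_R0 _ _
  | _ => exact hp.elim

theorem fr_le_E {p : Pu M} (hp : p.isFr) : p.rn b ≤ b .E := (h.fr_le_R0 hp).trans h.R0_le_E

omit h in
theorem pu_cases (p : Pu M) :
    (∃ k a, p = .push k a) ∨ p.isFr ∨ p = .io ∨ (∃ d, p = .dig d) ∨ p = .flip := by
  cases p <;> simp [Pu.isFr]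

theorem rn_le_T {p : Pu M} (hp : p ≠ .flip) : p.rn b ≤ b .T := by
  rcases pu_cases p with ⟨k, a, rfl⟩ | k | rfl | ⟨d, rfl⟩ | rfl
  · exact h.leT _
  · exact (h.fr_le_E k).trans (h.leT _)
  · exact h.leT _
  · exact h.leT _
  · exact (hp rfl).elim

theorem Pm_inf_Dg (x : G) (d : Bool) {e : L} (he : e ≤ b .E) :
    Pm M x • (b (.Dg d) ⊓ e) = b (.Dg d) ⊓ Pm M x • e := by
  have k : Pm M x • e ≤ b .E := (q_smul_le.2 he).trans (h.Pm_E x).le
  rw [← inf_eq_right.2 he, ← inf_assoc, q_smul_inf, h.Pm_Dg, inf_assoc, inf_eq_right.2 he,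
    inf_eq_right.2 k]

theorem dig_comm (d : Bool) {p : Pu M} (h1 : ∀ d', p ≠ .dig d') (h2 : p ≠ .flip) :
    Eqv ((Mv.dig d).w * p.W) (p.W * (Mv.dig d).w) (b p.dm) := by
  have k : ∀ σ : Mv M, (∀ d', σ ≠ .dig d') →
      Eqv ((Mv.dig d).w * σ.w) (σ.w * (Mv.dig d).w) (b σ.dom) :=
    fun σ hσ => (h.cDig d σ hσ).mono (le_inf (h.leT _) le_rfl)
  have k2 : ∀ (x : G) (y : Fr4), Eqv ((Mv.dig d).w * (Pm M x * (Mv.fr y).w))
      (Pm M x * (Mv.fr y).w * (Mv.dig d).w) (b (Mv.fr (M := M) y).dom) := by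
    intro x y
    have a1 := (h.Pm_dig x d).symm.mul_right (Mv.fr y).w
      ((h.wdom (.fr y)).le.trans (h.R_le_E y))
    have a2 := (k (.fr y) (by simp)).mul_left (Pm M x)
    simp only [mul_assoc] at a1 a2 ⊢
    exact a1.trans a2
  cases p with
  | push k' a => exact k (.push k' a) (by simp)
  | fA => exact k (.fr .A) (by simp)
  | fB => exact k (.fr .B) (by simp)
  | fC x => exact k2 x .C
  | fD x => exact k2 x .D
  | io => exact k .io (by simp)
  | dig d' => exact (h1 d' rfl).elim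
  | flip => exact (h2 rfl).elim

theorem dig_dm (d : Bool) (p : Pu M) :
    (Mv.dig (M := M) d).w • b p.dm = b p.dm ⊓ b (.Dg d) :=
  h.dig_basic d (by cases p <;> simp [Pu.dm])

theorem pu_Dg (d : Bool) {p : Pu M} (h1 : ∀ d', p ≠ .dig d') (h2 : p ≠ .flip) :
    p.W • (b (.Dg d) ⊓ b p.dm) = b (.Dg d) ⊓ p.rn b := by
  have k2 : ∀ (x : G) (y : Fr4), (Pm M x * (Mv.fr y).w) • (b (.Dg d) ⊓ b (Mv.fr (M := M) y).dom) =
      b (.Dg d) ⊓ Pm M x • b (.R y) := by
    intro x y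
    rw [mul_smul, h.allDg (.fr y) d (by simp)]
    exact h.Pm_inf_Dg x d (h.R_le_E y)
  cases p with
  | push k' a => exact h.allDg (.push k' a) d (by simp)
  | fA => exact h.allDg (.fr .A) d (by simp)
  | fB => exact h.allDg (.fr .B) d (by simp)
  | fC x => exact k2 x .C
  | fD x => exact k2 x .D
  | io => exact h.allDg .io d (by simp)
  | dig d' => exact (h1 d' rfl).elim
  | flip => exact (h2 rfl).elim

theorem dig_rn (d : Bool) {p : Pu M} (h1 : ∀ d', p ≠ .dig d') (h2 : p ≠ .flip) :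
    (Mv.dig (M := M) d).w • p.rn b = p.rn b ⊓ b (.Dg d) := by
  have e : p.rn b = p.W • b p.dm := (h.pu_ok p).symm
  rw [e, ← mul_smul, (h.dig_comm d h1 h2).smul_eq le_rfl, mul_smul, h.dig_dm, inf_comm,
    h.pu_Dg d h1 h2, ← e, inf_comm]

theorem hsq_dig (d : Bool) {p : Pu M} (h1 : ∀ d', p ≠ .dig d') (h2 : p ≠ .flip) :
    Arr.HSq ((Pu.dig d).arr b) (p.arr b) := by
  refine ⟨(h.dig_comm d h1 h2).mono inf_le_right, ?_, ?_⟩
  · show (Mv.dig (M := M) d).w • (b .T ⊓ b p.dm) = b (.Dg d) ⊓ b p.dm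
    rw [inf_eq_right.2 (h.leT _), h.dig_dm, inf_comm]
  · show p.W • (b p.dm ⊓ b (.Dg d)) = p.rn b ⊓ b (.Dg d)
    rw [inf_comm, h.pu_Dg d h1 h2, inf_comm]

theorem hsq_dig' (d : Bool) {p : Pu M} (h1 : ∀ d', p ≠ .dig d') (h2 : p ≠ .flip) :
    Arr.HSq (p.arr b) ((Pu.dig d).arr b) := by
  refine ⟨(h.dig_comm d h1 h2).symm.mono inf_le_left, ?_, ?_⟩
  · show p.W • (b p.dm ⊓ b .T) = p.rn b ⊓ b .T
    rw [inf_eq_left.2 (h.leT _), inf_eq_left.2 (h.rn_le_T h2)]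
    exact h.pu_ok p
  · show (Mv.dig (M := M) d).w • (b .T ⊓ p.rn b) = b (.Dg d) ⊓ p.rn b
    rw [inf_eq_right.2 (h.rn_le_T h2), h.dig_rn d h1 h2, inf_comm]

theorem hsq_push {k k' : M.Λ} (hk : k ≠ k') (a a' : M.Γ) :
    Arr.HSq ((Pu.push k a).arr b) ((Pu.push k' a').arr b) := by
  refine ⟨h.cPush k a k' a' hk, ?_, ?_⟩
  · show (Mv.push (M := M) k a).w • (b .E ⊓ b .E) = b (.tp k (some a)) ⊓ b .E
    rw [inf_idem, inf_eq_left.2 (h.tpE _ _)]
    exact h.wdom (.push k a)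
  · show (Mv.push (M := M) k' a').w • (b .E ⊓ b (.tp k (some a))) =
      b (.tp k' (some a')) ⊓ b (.tp k (some a))
    rw [inf_comm, inf_comm (b (.tp k' _))]
    exact h.pushTp k' a' k (some a) hk

theorem PmR_orth (x : G) {y y' : Fr4} (hy : y ≠ y') :
    Pm M x • b (.R y) ≤ (Pm M x • b (.R y'))ᶜ := by
  rw [← q_smul_compl, q_smul_le]; exact h.rO _ _ hy

theorem PmC_le (x : G) : Pm M x • b (.R .C) ≤ dlx b x := q_smul_le.2 h.rC

theorem PmD_le (x : G) : Pm M x • b (.R .D) ≤ dlx b x := q_smul_le.2 h.rD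

theorem fr_tri {p q : Pu M} (hp : p.isFr) (hq : q.isFr) : p.rn b ≤ (q.rn b)ᶜ ∨ p = q := by
  have k : ∀ {x y : G} {u v : L}, x ≠ y → u ≤ dlx b x → v ≤ dlx b y → u ≤ vᶜ :=
    fun hxy h1 h2 => h1.trans ((h.dlx_orth hxy).trans (QL.anti h2))
  have kA : ∀ (x : G) {y : Fr4}, .A ≠ y → b (.R .A) ≤ (Pm M x • b (.R y))ᶜ := fun x y hy => by
    rw [← h.Pm_RA x]; exact h.PmR_orth x hy
  have kB : ∀ (x : G) {y : Fr4}, .B ≠ y → b (.R .B) ≤ (Pm M x • b (.R y))ᶜ := fun x y hy => by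
    rw [← h.Pm_RB x]; exact h.PmR_orth x hy
  cases p with
  | fA =>
    cases q with
    | fA => exact Or.inr rfl
    | fB => exact Or.inl (h.rO _ _ (by simp))
    | fC y => exact Or.inl (kA y (by simp))
    | fD y => exact Or.inl (kA y (by simp))
    | _ => exact hq.elim
  | fB =>
    cases q with
    | fA => exact Or.inl (h.rO _ _ (by simp))
    | fB => exact Or.inr rfl
    | fC y => exact Or.inl (kB y (by simp))
    | fD y => exact Or.inl (kB y (by simp))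
    | _ => exact hq.elim
  | fC x =>
    cases q with
    | fA => exact Or.inl (q_le_compl_comm.1 (kA x (by simp)))
    | fB => exact Or.inl (q_le_compl_comm.1 (kB x (by simp)))
    | fC y =>
      by_cases e : x = y
      · exact Or.inr (e ▸ rfl)
      · exact Or.inl (k e (h.PmC_le x) (h.PmC_le y))
    | fD y =>
      by_cases e : x = y
      · subst e; exact Or.inl (h.PmR_orth x (by simp))
      · exact Or.inl (k e (h.PmC_le x) (h.PmD_le y))
    | _ => exact hq.elim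
  | fD x =>
    cases q with
    | fA => exact Or.inl (q_le_compl_comm.1 (kA x (by simp)))
    | fB => exact Or.inl (q_le_compl_comm.1 (kB x (by simp)))
    | fC y =>
      by_cases e : x = y
      · subst e; exact Or.inl (h.PmR_orth x (by simp))
      · exact Or.inl (k e (h.PmD_le x) (h.PmC_le y))
    | fD y =>
      by_cases e : x = y
      · exact Or.inr (e ▸ rfl)
      · exact Or.inl (k e (h.PmD_le x) (h.PmD_le y))
    | _ => exact hq.elim
  | _ => exact hp.elim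

theorem pu_tri (p q : Pu M) :
    p.rn b ≤ (q.rn b)ᶜ ∨ p = q ∨ (p.sq q ∧ Arr.HSq (p.arr b) (q.arr b)) := by
  by_cases hq : q = .flip
  · subst hq
    by_cases hp : p = .flip
    · exact Or.inr (Or.inl hp)
    · exact Or.inl (by rw [Pu.rn, QL.cc]; exact h.rn_le_T hp)
  by_cases hp : p = .flip
  · subst hp
    exact Or.inl (QL.anti (h.rn_le_T hq))
  by_cases hpd : ∃ d, p = .dig d
  · obtain ⟨d, rfl⟩ := hpd
    by_cases hqd : ∃ d, q = .dig d
    · obtain ⟨d', rfl⟩ := hqd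
      cases d <;> cases d'
      · exact Or.inr (Or.inl rfl)
      · exact Or.inl h.dgO
      · exact Or.inl (q_le_compl_comm.1 h.dgO)
      · exact Or.inr (Or.inl rfl)
    · push Not at hqd
      exact Or.inr (Or.inr ⟨by cases q <;> simp_all [Pu.sq], h.hsq_dig d hqd hq⟩)
  push Not at hpd
  by_cases hqd : ∃ d, q = .dig d
  · obtain ⟨d, rfl⟩ := hqd
    exact Or.inr (Or.inr ⟨by cases p <;> simp_all [Pu.sq], h.hsq_dig' d hpd hp⟩)
  rcases pu_cases p with ⟨k, a, rfl⟩ | k1 | rfl | ⟨d, rfl⟩ | rfl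
  · rcases pu_cases q with ⟨k', a', rfl⟩ | k2 | rfl | k2 | rfl
    · by_cases hk : k = k'
      · subst hk
        by_cases ha : a = a'
        · exact Or.inr (Or.inl (ha ▸ rfl))
        · exact Or.inl (h.tpO k _ _ (by simpa using ha))
      · exact Or.inr (Or.inr ⟨hk, h.hsq_push hk a a'⟩)
    · exact Or.inl ((h.tp_orth_R0 k a).trans (QL.anti (h.fr_le_R0 k2)))
    · exact Or.inl ((h.tpE _ _).trans h.E_orth_Sh)
    · exact (hqd k2).elim
    · exact (hq rfl).elim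
  · rcases pu_cases q with ⟨k', a', rfl⟩ | k2 | rfl | k2 | rfl
    · exact Or.inl (q_le_compl_comm.1 ((h.tp_orth_R0 k' a').trans (QL.anti (h.fr_le_R0 k1))))
    · exact (h.fr_tri k1 k2).imp_right Or.inl
    · exact Or.inl ((h.fr_le_E k1).trans h.E_orth_Sh)
    · exact (hqd k2).elim
    · exact (hq rfl).elim
  · rcases pu_cases q with ⟨k', a', rfl⟩ | k2 | rfl | k2 | rfl
    · exact Or.inl (q_le_compl_comm.1 ((h.tpE _ _).trans h.E_orth_Sh))
    · exact Or.inl (q_le_compl_comm.1 ((h.fr_le_E k2).trans h.E_orth_Sh))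
    · exact Or.inr (Or.inl rfl)
    · exact (hqd k2).elim
    · exact (hq rfl).elim
  · exact (hpd d rfl).elim
  · exact (hp rfl).elim

/-! ### the cylinder algebra -/

theorem cm_Pm_self (x : G) (j : Pr M) : Cm (Pm M x • b j) (Pm M x • b j) := (h.cm j j).smul _

theorem cm_Pm_tp (x : G) (j : Pr M) (k : M.Λ) (o : Option M.Γ) :
    Cm (Pm M x • b j) (b (.tp k o)) := by
  rw [← h.Pm_tp x]; exact (h.cm _ _).smul _

theorem cm_Pm_Dg (x : G) {j : Pr M} (hj : b j ≤ b .E) (d : Bool) :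
    Cm (Pm M x • b j) (b (.Dg d)) := by
  refine QL.Cm.loc ((q_smul_le.2 hj).trans (h.Pm_E x).le) (h.cm _ _) ?_
  rw [← h.Pm_Dg x]
  exact ((h.cm _ _).inf (h.cm _ _) (h.cm _ _)).smul _

theorem G1_real {x : L} (hx : G1 b x) : Cm x x := by
  cases hx with
  | dl x => exact h.cm_Pm_self _ _
  | dl' x => exact h.cm_Pm_self _ _
  | _ => exact h.cm _ _

theorem G1_le_T {x : L} (hx : G1 b x) : x ≤ b .T := by
  cases hx with
  | dl x => exact (h.dlx_le_E x).trans (h.leT _)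
  | dl' x => exact (h.dlx'_le_E x).trans (h.leT _)
  | _ => exact h.leT _

theorem cm_dlx {x : L} (hx : G1 b x) (y : G) : Cm (dlx b y) x ∧ Cm (dlx' b y) x := by
  have r := h.G1_real (.dl y)
  have r' := h.G1_real (.dl' y)
  cases hx with
  | T => exact ⟨r.of_le (h.cm _ _) (h.G1_le_T (.dl y)), r'.of_le (h.cm _ _) (h.G1_le_T (.dl' y))⟩
  | E => exact ⟨r.of_le (h.cm _ _) (h.dlx_le_E y), r'.of_le (h.cm _ _) (h.dlx'_le_E y)⟩
  | tp k o => exact ⟨h.cm_Pm_tp _ _ _ _, h.cm_Pm_tp _ _ _ _⟩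
  | dl x =>
    refine ⟨?_, (h.cm_dlx_dlx' x y).symm⟩
    by_cases e : y = x
    · subst e; exact r
    · exact r.of_orth (h.G1_real (.dl x)) (h.dlx_orth e)
  | dl' x =>
    refine ⟨h.cm_dlx_dlx' y x, ?_⟩
    by_cases e : y = x
    · subst e; exact r'
    · exact r'.of_orth (h.G1_real (.dl' x)) (h.dlx'_orth e)
  | dg d => exact ⟨h.cm_Pm_Dg _ h.dlE _, h.cm_Pm_Dg _ h.dlE' _⟩

theorem G1_cm {x y : L} (hx : G1 b x) (hy : G1 b y) : Cm x y := by
  have k : ∀ j, G1 b (b j) → Cm (b j) y := fun j hj => by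
    cases hy with
    | dl y => exact (h.cm_dlx hj y).1.symm
    | dl' y => exact (h.cm_dlx hj y).2.symm
    | _ => exact h.cm _ _
  cases hx with
  | T => exact k _ .T
  | E => exact k _ .E
  | tp k' o => exact k _ (.tp k' o)
  | dl x => exact (h.cm_dlx hy x).1
  | dl' x => exact (h.cm_dlx hy x).2
  | dg d => exact k _ (.dg d)

omit h in
theorem pb_of_smul {p : Arr (FF M) L} {x y : L} (H : p.w • x = y ⊓ p.r) : p.pb y = x := by
  rw [Arr.pb, ← H, inv_smul_smul]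

theorem push_pb (k : M.Λ) (a : M.Γ) {g : L} (hg : G1 b g) :
    Gen {x | G1 b x} (((Pu.push k a).arr b).pb g) := by
  have ok := h.pu_ok (.push k a)
  cases hg with
  | T => rw [Arr.pb_of_ge ok (h.leT _)]; exact .base .E
  | E => rw [Arr.pb_of_ge ok (h.tpE _ _)]; exact .base .E
  | tp k' o =>
    by_cases hk : k' = k
    · subst hk
      by_cases ho : o = some a
      · subst ho; rw [Arr.pb_of_ge (x := b (.tp k' (some a))) ok le_rfl]; exact .base .E
      · rw [Arr.pb_of_orth (h.tpO _ _ _ ho)]; exact .bot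
    · rw [pb_of_smul (p := (Pu.push k a).arr b) (h.pushTp k a k' o hk)]
      exact (Gen.base (.tp k' o)).inf (.base .E)
  | dl x => rw [pb_of_smul (h.push_dlx k a x)]; exact .base (.dl x)
  | dl' x =>
    by_cases hk : k = M.t
    · subst hk; rw [pb_of_smul (h.pusht_dlx' a x)]; exact .base (.dl' _)
    · rw [pb_of_smul (h.push_dlx' hk a x)]; exact .base (.dl' x)
  | dg d =>
    rw [pb_of_smul (p := (Pu.push k a).arr b) (h.allDg (.push k a) d (by simp))]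
    exact (Gen.base (.dg d)).inf (.base .E)

/-- the push system of the stack moves -/
noncomputable def PS1 : PushSys (FF M) L where
  I := M.Λ × M.Γ
  p i := (Pu.push i.1 i.2).arr b
  G0 := {x | G1 b x}
  ok _ := h.pu_ok _
  cm0 _ hx _ hy := h.G1_cm hx hy
  d_mem _ := .base .E
  r_mem _ := .base (.tp _ _)
  pb_mem i _ hg := h.push_pb i.1 i.2 hg
  tri i j := (h.pu_tri (.push i.1 i.2) (.push j.1 j.2)).imp_right
    (Or.imp (fun e => by injection e with e1 e2; exact Prod.ext e1 e2) fun e => e.2)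

theorem cyl_G1 {x : L} (hx : G1 b x) : x ∈ h.PS1.Alg.car := h.PS1.base_mem hx

theorem cyl_good_mm : Good h.PS1.Alg (mmW M) (b .E ⊓ b .A) :=
  h.good_mm _ (h.cyl_G1 .E) (fun k o => h.cyl_G1 (.tp k o)) (h.dlx_one ▸ h.cyl_G1 (.dl 1))
    (h.dlx'_one ▸ h.cyl_G1 (.dl' 1)) fun k a => h.PS1.good (k, a)

theorem mm_EA : mmW M • (b .E ⊓ b .A) = b .E ⊓ b .B := h.mmE

theorem good_pf {B : BSub L} (hg : Good B (mmW M) (b .E ⊓ b .A)) {x : L} (hx : x ⊓ b .E ∈ B.car) :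
    mmW M • (x ⊓ b .A) ⊓ b .E ∈ B.car := by
  have e : mmW M • (x ⊓ b .A) ⊓ b .E = mmW M • (x ⊓ b .E ⊓ (b .E ⊓ b .A)) := by
    have : x ⊓ b .E ⊓ (b .E ⊓ b .A) = x ⊓ b .A ⊓ (b .E ⊓ b .A) := by ac_rfl
    rw [this, q_smul_inf _ (x ⊓ b .A), h.mm_EA, q_smul_inf, h.mm_A]
    ac_rfl
  rw [e]
  exact hg.fwd _ (B.inf_mem hx hg.mem) inf_le_right

theorem good_pb {B : BSub L} (hg : Good B (mmW M) (b .E ⊓ b .A)) {x : L} (hx : x ⊓ b .E ∈ B.car) :
    (mmW M)⁻¹ • (x ⊓ b .B) ⊓ b .E ∈ B.car := by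
  have e : (mmW M)⁻¹ • (x ⊓ b .B) ⊓ b .E = (mmW M)⁻¹ • (x ⊓ b .E ⊓ (b .E ⊓ b .B)) := by
    have : x ⊓ b .E ⊓ (b .E ⊓ b .B) = x ⊓ b .B ⊓ (b .E ⊓ b .B) := by ac_rfl
    rw [this, q_smul_inf _ (x ⊓ b .B), ← h.mm_EA, inv_smul_smul, q_smul_inf, ← h.mm_A,
      inv_smul_smul]
    ac_rfl
  rw [e]
  exact hg.bwd _ (B.inf_mem hx (h.mm_EA ▸ hg.img)) (h.mm_EA ▸ inf_le_right)

theorem cyl_An (n : ℕ) : An b n ⊓ b .E ∈ h.PS1.Alg.car := by
  induction n with
  | zero => exact h.PS1.Alg.inf_mem (h.cyl_G1 .T) (h.cyl_G1 .E)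
  | succ n ih => rw [h.An_succ]; exact h.good_pb h.cyl_good_mm ih

theorem cyl_Bn (n : ℕ) : Bn b n ⊓ b .E ∈ h.PS1.Alg.car := by
  induction n with
  | zero => exact h.PS1.Alg.inf_mem (h.cyl_G1 .T) (h.cyl_G1 .E)
  | succ n ih => exact h.good_pf h.cyl_good_mm ih

theorem cyl_Kn (n : ℕ) : Kn b n ⊓ b .E ∈ h.PS1.Alg.car := by
  induction n with
  | zero =>
    have e : b .K ⊓ b .E = b .E ⊓ ((Finset.univ.erase M.t).inf fun k => b (.tp k none)) :=
      le_antisymm (le_inf inf_le_right (Finset.le_inf fun k hk => h.kTp k (by simpa using hk)))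
        (le_inf h.kCl inf_le_left)
    rw [Kn, e]
    exact h.PS1.Alg.inf_mem (h.cyl_G1 .E) (h.PS1.Alg.finf_mem _ fun k _ => h.cyl_G1 (.tp k none))
  | succ n ih => rw [h.Kn_succ]; exact h.good_pf h.cyl_good_mm ih

/-! ### the full algebra -/

theorem chain_facts {x : L} (hx : Chain b x) :
    Cm x (b .E) ∧ x ⊓ b .E ∈ h.PS1.Alg.car ∧ x ≤ b .T ∧ (∀ d, Cm x (b (.Dg d))) ∧
      (∀ d, (Mv.dig (M := M) d).w • x = x ⊓ b (.Dg d)) ∧ ∀ y, Qm M y • x = x := by
  obtain ⟨n, rfl | rfl | rfl⟩ := hx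
  · exact ⟨h.cm_An_E n, h.cyl_An n, h.An_le_T n, h.cm_An_Dg n, fun d => h.dig_An d n,
      fun y => h.Qm_An y n⟩
  · exact ⟨h.cm_Bn_E n, h.cyl_Bn n, h.Bn_le_T n, h.cm_Bn_Dg n, fun d => h.dig_Bn d n,
      fun y => h.Qm_Bn y n⟩
  · exact ⟨h.cm_Kn_E n, h.cyl_Kn n, h.Kn_le_An n 0, h.cm_Kn_Dg n, fun d => h.dig_Kn d n,
      fun y => h.Qm_Kn y n⟩

theorem An_antitone : Antitone (An b) := antitone_nat_of_succ_le h.An_anti

theorem Bn_antitone : Antitone (Bn b) := antitone_nat_of_succ_le h.Bn_anti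

theorem Kn_orth' {n m : ℕ} (hnm : n < m) : Kn b n ≤ (Bn b m)ᶜ :=
  (h.Kn_orth n).trans (QL.anti (h.Bn_antitone hnm))

theorem chain_cm {x y : L} (hx : Chain b x) (hy : Chain b y) : Cm x y := by
  have rx := (h.chain_facts hx).1.left
  have ry := (h.chain_facts hy).1.left
  have kb : ∀ n m, Cm (Kn b n) (Bn b m) := fun n m => by
    rcases lt_or_ge n m with k | k
    · exact (h.cm_Kn_E n).left.of_orth (h.cm_Bn_E m).left (h.Kn_orth' k)
    · exact (h.cm_Kn_E n).left.of_le (h.cm_Bn_E m).left ((h.Kn_le_Bn n).trans (h.Bn_antitone k))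
  obtain ⟨n, rfl | rfl | rfl⟩ := hx <;> obtain ⟨m, rfl | rfl | rfl⟩ := hy
  · rcases le_total n m with k | k
    · exact (ry.of_le rx (h.An_antitone k)).symm
    · exact rx.of_le ry (h.An_antitone k)
  · exact h.cm_An_Bn n m
  · exact (ry.of_le rx (h.Kn_le_An m n)).symm
  · exact (h.cm_An_Bn m n).symm
  · rcases le_total n m with k | k
    · exact (ry.of_le rx (h.Bn_antitone k)).symm
    · exact rx.of_le ry (h.Bn_antitone k)
  · exact (kb m n).symm
  · exact rx.of_le ry (h.Kn_le_An n m)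
  · exact kb n m
  · rcases lt_trichotomy n m with k | rfl | k
    · exact rx.of_orth ry ((h.Kn_orth' k).trans (QL.anti (h.Kn_le_Bn m)))
    · exact rx
    · exact (ry.of_orth rx ((h.Kn_orth' k).trans (QL.anti (h.Kn_le_Bn n)))).symm

theorem G1_cases {x : L} (hx : G1 b x) : x = b .T ∨ x ≤ b .E ∨ ∃ d, x = b (.Dg d) := by
  cases hx with
  | T => exact Or.inl rfl
  | E => exact Or.inr (Or.inl le_rfl)
  | tp k o => exact Or.inr (Or.inl (h.tpE _ _))
  | dl x => exact Or.inr (Or.inl (h.dlx_le_E x))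
  | dl' x => exact Or.inr (Or.inl (h.dlx'_le_E x))
  | dg d => exact Or.inr (Or.inr ⟨d, rfl⟩)

theorem pf1_le (i : h.PS1.I) (x : L) : (h.PS1.p i).pf x ≤ b (.tp i.1 (some i.2)) :=
  Arr.pf_le (h.PS1.ok i) x

theorem chain_cm_cyl {x : L} (hx : Chain b x) : ∀ c ∈ h.PS1.Alg.car, Cm x c := by
  obtain ⟨h1, h2, h3, h4, -⟩ := h.chain_facts hx
  have k : ∀ c ∈ h.PS1.Alg.car, c ≤ b .E → Cm x c := fun c hc hE =>
    (QL.Cm.loc hE h1 (h.PS1.Alg.cm hc h2)).symm
  refine h.PS1.cm_alg h1.left (fun g hg => ?_) fun i c hc _ =>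
    k _ (h.PS1.pf_mem i hc) ((h.pf1_le i c).trans (h.tpE _ _))
  rcases h.G1_cases hg with rfl | hE | ⟨d, rfl⟩
  · exact h1.left.of_le (h.cm _ _) h3
  · exact k _ (h.cyl_G1 hg) hE
  · exact h4 d

theorem fr_real {p : Pu M} (hp : p.isFr) : Cm (p.rn b) (p.rn b) := by
  cases p with
  | fA => exact h.cm _ _
  | fB => exact h.cm _ _
  | fC x => exact h.cm_Pm_self _ _
  | fD x => exact h.cm_Pm_self _ _
  | _ => exact hp.elim

theorem fr_cm_cyl {p : Pu M} (hp : p.isFr) : ∀ c ∈ h.PS1.Alg.car, Cm (p.rn b) c := by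
  have r := h.fr_real hp
  have h0 := h.fr_le_R0 hp
  have hE := h.fr_le_E hp
  have kd : ∀ y, Cm (p.rn b) (dlx b y) := fun y => by
    have k : ∀ x, p.rn b ≤ dlx b x → Cm (p.rn b) (dlx b y) := fun x hx => by
      by_cases e : x = y
      · subst e; exact r.of_le (h.G1_real (.dl x)) hx
      · exact r.of_orth (h.G1_real (.dl y)) (hx.trans (h.dlx_orth e))
    cases p with
    | fA => rw [Pu.rn, ← h.Pm_RA y]; exact (h.cm _ _).smul _
    | fB => rw [Pu.rn, ← h.Pm_RB y]; exact (h.cm _ _).smul _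
    | fC x => exact k x (h.PmC_le x)
    | fD x => exact k x (h.PmD_le x)
    | _ => exact hp.elim
  have kt : ∀ k o, Cm (p.rn b) (b (.tp k o)) := fun k o => by
    cases o with
    | none => exact r.of_le (h.cm _ _) (h0.trans (h.R0_le_tp k))
    | some a => exact r.of_orth (h.cm _ _) (h0.trans (q_le_compl_comm.1 (h.tp_orth_R0 k a)))
  refine h.PS1.cm_alg r (fun g hg => ?_) fun i c hc _ =>
    r.of_orth (h.PS1.Alg.cm (h.PS1.pf_mem i hc) (h.PS1.pf_mem i hc))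
      (h0.trans (q_le_compl_comm.1 ((h.pf1_le i c).trans (h.tp_orth_R0 _ _))))
  cases hg with
  | T => exact r.of_le (h.cm _ _) (hE.trans (h.leT _))
  | E => exact r.of_le (h.cm _ _) hE
  | tp k o => exact kt k o
  | dl y => exact kd y
  | dl' y =>
    refine QL.Cm.loc (h0.trans (h.R0_le_tp M.t)) (h.G1_cm (.dl' y) (.tp _ _)) ?_
    rw [inf_comm, ← h.dlx_tp]
    exact (kt _ _).inf (kd y) (h.G1_cm (.tp _ _) (.dl y))
  | dg d =>
    cases p with
    | fA => exact h.cm _ _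
    | fB => exact h.cm _ _
    | fC x => exact h.cm_Pm_Dg _ (h.R_le_E _) _
    | fD x => exact h.cm_Pm_Dg _ (h.R_le_E _) _
    | _ => exact hp.elim

omit h in
theorem G2_cases {C : Set L} {x : L} (hx : G2 b C x) :
    x ∈ C ∨ (∃ p : Pu M, p.isFr ∧ x = p.rn b) ∨ Chain b x := by
  cases hx with
  | cyl hx => exact Or.inl hx
  | rA => exact Or.inr (Or.inl ⟨.fA, trivial, rfl⟩)
  | rB => exact Or.inr (Or.inl ⟨.fB, trivial, rfl⟩)
  | rC x => exact Or.inr (Or.inl ⟨.fC x, trivial, rfl⟩)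
  | rD x => exact Or.inr (Or.inl ⟨.fD x, trivial, rfl⟩)
  | an n => exact Or.inr (Or.inr ⟨n, Or.inl rfl⟩)
  | bn n => exact Or.inr (Or.inr ⟨n, Or.inr (Or.inl rfl)⟩)
  | kn n => exact Or.inr (Or.inr ⟨n, Or.inr (Or.inr rfl)⟩)

omit h in
theorem G2_fr {C : Set L} {p : Pu M} (hp : p.isFr) : G2 b C (p.rn b) := by
  cases p with
  | fA => exact .rA
  | fB => exact .rB
  | fC x => exact .rC x
  | fD x => exact .rD x
  | _ => exact hp.elim

omit h in
theorem G2_chain {C : Set L} {x : L} (hx : Chain b x) : G2 b C x := by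
  obtain ⟨n, rfl | rfl | rfl⟩ := hx
  exacts [.an n, .bn n, .kn n]

theorem G2_cm {x y : L} (hx : G2 b h.PS1.Alg.car x) (hy : G2 b h.PS1.Alg.car y) : Cm x y := by
  have k : ∀ {p : Pu M} {y : L}, p.isFr → Chain b y → Cm (p.rn b) y := fun hp hy =>
    QL.Cm.loc (h.fr_le_E hp) (h.chain_facts hy).1 (h.fr_cm_cyl hp _ (h.chain_facts hy).2.1)
  rcases G2_cases hx with hx | ⟨p, hp, rfl⟩ | hx <;> rcases G2_cases hy with hy | ⟨q, hq, rfl⟩ | hy
  · exact h.PS1.Alg.cm hx hy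
  · exact (h.fr_cm_cyl hq _ hx).symm
  · exact (h.chain_cm_cyl hy _ hx).symm
  · exact h.fr_cm_cyl hp _ hy
  · rcases h.fr_tri hp hq with e | rfl
    · exact (h.fr_real hp).of_orth (h.fr_real hq) e
    · exact h.fr_real hp
  · exact k hp hy
  · exact h.chain_cm_cyl hx _ hy
  · exact (k hq hx).symm
  · exact h.chain_cm hx hy

theorem gen2_G1 {x : L} (hx : G1 b x) : Gen {x | G2 b h.PS1.Alg.car x} x :=
  .base (.cyl (h.cyl_G1 hx))

theorem gen2_A : Gen {x | G2 b h.PS1.Alg.car x} (b .A) := h.An_one ▸ .base (.an 1)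

theorem gen2_dm (p : Pu M) : Gen {x | G2 b h.PS1.Alg.car x} (b p.dm) := by
  cases p with
  | fC x => exact h.gen2_G1 .T
  | io => exact h.gen2_A
  | dig d => exact h.gen2_G1 .T
  | flip => exact h.gen2_G1 .T
  | _ => exact h.gen2_G1 .E

theorem gen2_rn (p : Pu M) : Gen {x | G2 b h.PS1.Alg.car x} (p.rn b) := by
  rcases pu_cases p with ⟨k, a, rfl⟩ | k | rfl | ⟨d, rfl⟩ | rfl
  · exact h.gen2_G1 (.tp _ _)
  · exact .base (G2_fr k)
  · rw [Pu.rn, h.Sh_eq]; exact (h.gen2_G1 .T).inf (h.gen2_G1 .E).compl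
  · exact h.gen2_G1 (.dg d)
  · exact (h.gen2_G1 .T).compl

theorem pb_Dg {p : Pu M} (h1 : ∀ d', p ≠ .dig d') (h2 : p ≠ .flip) (d : Bool) :
    (p.arr b).pb (b (.Dg d)) = b (.Dg d) ⊓ b p.dm := pb_of_smul (h.pu_Dg d h1 h2)

theorem pb_cyl (p : Pu M) {c : L} (hc : c ∈ h.PS1.Alg.car) :
    Gen {x | G2 b h.PS1.Alg.car x} ((p.arr b).pb c) := by
  have ok := h.pu_ok p
  have hcm : ∀ x ∈ {x | G2 b h.PS1.Alg.car x}, ∀ y ∈ {x | G2 b h.PS1.Alg.car x}, Cm x y :=
    fun _ hx _ hy => h.G2_cm hx hy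
  have hr : ∀ x ∈ h.PS1.Alg.car, Cm x (p.arr b).r := fun x hx =>
    Gen.cm hcm (.base (.cyl hx)) (h.gen2_rn p)
  have key : (∀ g, G1 b g → Gen {x | G2 b h.PS1.Alg.car x} ((p.arr b).pb g)) →
      (∀ k a, b (.tp k (some a)) ≤ (p.rn b)ᶜ) → Gen {x | G2 b h.PS1.Alg.car x} ((p.arr b).pb c) :=
    fun h1 h2 => h.PS1.pb_alg ok hr (B := genSub _ hcm) (h.gen2_dm p) h1 (fun i x _ _ => by
      rw [Arr.pb_of_orth ((h.pf1_le i x).trans (h2 _ _))]; exact Gen.bot) c hc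
  rcases pu_cases p with ⟨k, a, rfl⟩ | hp | rfl | ⟨d, rfl⟩ | rfl
  · exact .base (.cyl (h.PS1.pb_mem' (k, a) hc))
  · have h0 := h.fr_le_R0 hp
    have kd : ∀ y, Gen {x | G2 b h.PS1.Alg.car x} ((p.arr b).pb (dlx b y)) := fun y => by
      have k : ∀ x, p.rn b ≤ dlx b x → Gen {x | G2 b h.PS1.Alg.car x} ((p.arr b).pb (dlx b y)) :=
        fun x hx => by
          by_cases e : x = y
          · subst e; rw [Arr.pb_of_ge ok hx]; exact h.gen2_dm p
          · rw [Arr.pb_of_orth (q_le_compl_comm.1 (hx.trans (h.dlx_orth e)))]; exact Gen.bot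
      cases p with
      | fA => rw [pb_of_smul (h.fA_dlx y)]; exact h.gen2_G1 (.dl y)
      | fB => rw [pb_of_smul (h.fB_dlx y)]; exact h.gen2_G1 (.dl' y)
      | fC x => exact k x (h.PmC_le x)
      | fD x => exact k x (h.PmD_le x)
      | _ => exact hp.elim
    refine key (fun g hg => ?_) fun k a => (h.tp_orth_R0 k a).trans (QL.anti h0)
    cases hg with
    | T => rw [Arr.pb_of_ge ok ((h.fr_le_E hp).trans (h.leT _))]; exact h.gen2_dm p
    | E => rw [Arr.pb_of_ge ok (h.fr_le_E hp)]; exact h.gen2_dm p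
    | tp k o =>
      cases o with
      | none => rw [Arr.pb_of_ge ok (h0.trans (h.R0_le_tp k))]; exact h.gen2_dm p
      | some a => rw [Arr.pb_of_orth ((h.tp_orth_R0 k a).trans (QL.anti h0))]; exact Gen.bot
    | dl y => exact kd y
    | dl' y =>
      have ht : (p.arr b).r ≤ b (.tp M.t none) := h0.trans (h.R0_le_tp _)
      rw [← Arr.pb_inf_of_ge ht, inf_comm, ← h.dlx_tp, inf_comm, Arr.pb_inf_of_ge ht]
      exact kd y
    | dg d =>
      rw [h.pb_Dg (by rintro _ rfl; exact hp) (by rintro rfl; exact hp)]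
      exact (h.gen2_G1 (.dg d)).inf (h.gen2_dm p)
  · refine key (fun g hg => ?_) fun k a => (h.tpE _ _).trans h.E_orth_Sh
    rcases h.G1_cases hg with rfl | hE | ⟨d, rfl⟩
    · rw [Arr.pb_of_ge ok (h.leT _)]; exact h.gen2_A
    · rw [Arr.pb_of_orth (hE.trans h.E_orth_Sh)]; exact Gen.bot
    · rw [h.pb_Dg (by simp) (by simp)]; exact (h.gen2_G1 (.dg d)).inf h.gen2_A
  · refine .base (.cyl (h.PS1.pb_alg ok hr (h.cyl_G1 .T) (fun g hg => ?_) (fun i x _ hx => ?_) c hc))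
    · cases hg with
      | T => rw [Arr.pb_of_ge ok (h.leT _)]; exact h.cyl_G1 .T
      | E => rw [pb_of_smul (h.dig_basic d (by simp))]; exact h.cyl_G1 .E
      | tp k o => rw [pb_of_smul (h.dig_basic d (by simp))]; exact h.cyl_G1 (.tp k o)
      | dl y => rw [pb_of_smul (h.dig_dlx d y)]; exact h.cyl_G1 (.dl y)
      | dl' y => rw [pb_of_smul (h.dig_dlx' d y)]; exact h.cyl_G1 (.dl' y)
      | dg d' =>
        rcases h.pu_tri (.dig d') (.dig d) with e | e | e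
        · rw [Arr.pb_of_orth e]; exact h.PS1.Alg.bot_mem
        · cases e; rw [Arr.pb_of_ge (x := b (.Dg d)) ok le_rfl]; exact h.cyl_G1 .T
        · exact e.1.elim
    · have := (h.hsq_dig d (p := .push i.1 i.2) (by simp) (by simp)).pb_pf ok (h.pu_ok _) x
      exact this ▸ h.PS1.pf_mem i hx
  · refine key (fun g hg => ?_) fun k a => by rw [Pu.rn, QL.cc]; exact h.leT _
    rw [Arr.pb_of_orth (by rw [Pu.arr, Pu.rn, QL.cc]; exact h.G1_le_T hg)]; exact Gen.bot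

theorem pb_G2 (p : Pu M) {g : L} (hg : G2 b h.PS1.Alg.car g) :
    Gen {x | G2 b h.PS1.Alg.car x} ((p.arr b).pb g) := by
  have ok := h.pu_ok p
  rcases G2_cases hg with hg | ⟨q, hq, rfl⟩ | hg
  · exact h.pb_cyl p hg
  · rcases h.pu_tri q p with e | rfl | ⟨e, -⟩
    · rw [Arr.pb_of_orth e]; exact Gen.bot
    · rw [Arr.pb_of_ge (x := q.rn b) ok le_rfl]; exact h.gen2_dm q
    · obtain ⟨d, rfl⟩ : ∃ d, p = .dig d := by
        cases q <;> cases p <;> simp_all [Pu.sq, Pu.isFr]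
      rw [pb_of_smul (h.dig_rn d (by rintro _ rfl; exact hq) (by rintro rfl; exact hq))]
      exact .base (G2_fr hq)
  · obtain ⟨-, h2, h3, -, h5, -⟩ := h.chain_facts hg
    rcases pu_cases p with ⟨k, a, rfl⟩ | hp | rfl | ⟨d, rfl⟩ | rfl
    · rw [← Arr.pb_inf_of_ge (h.tpE _ _)]; exact h.pb_cyl _ h2
    · rw [← Arr.pb_inf_of_ge (h.fr_le_E hp)]; exact h.pb_cyl _ h2
    · obtain ⟨n, rfl | rfl | rfl⟩ := hg
      · exact .base (.an (n + 1))
      · rw [pb_of_smul (h.io_Bn n)]; exact (Gen.base (.bn n)).inf h.gen2_A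
      · rw [pb_of_smul (h.io_Kn n)]; exact .base (.kn n)
    · rw [pb_of_smul (h5 d)]; exact .base (G2_chain hg)
    · rw [Arr.pb_of_orth (by rw [Pu.arr, Pu.rn, QL.cc]; exact h3)]; exact Gen.bot

/-- the push system of all pushes -/
noncomputable def PS2 : PushSys (FF M) L where
  I := Pu M
  p i := i.arr b
  G0 := {x | G2 b h.PS1.Alg.car x}
  ok := h.pu_ok
  cm0 _ hx _ hy := h.G2_cm hx hy
  d_mem := h.gen2_dm
  r_mem := h.gen2_rn
  pb_mem i _ hg := h.pb_G2 i hg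
  tri i j := (h.pu_tri i j).imp_right (Or.imp_right fun e => e.2)

end Hyp

end Vale.Agent.P193
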