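import Vale.Agent.P193.P1B

/-! Consequences of the formulas, part C: the full algebra is invariant. -/

namespace Vale.Agent.P193

set_option linter.unusedSectionVars false

variable {G : Type} [Group G] {M : Mach G}

/-- units over `E` -/
def EU (M : Mach G) : Subgroup (FF M) :=
  Subgroup.closure (Set.range (Pm M) ∪ Set.range (Qm M) ∪ {jW M})

theorem Pm_mem_EU (x : G) : Pm M x ∈ EU M := Subgroup.subset_closure (Or.inl (Or.inl ⟨x, rfl⟩))

theorem Qm_mem_EU (x : G) : Qm M x ∈ EU M := Subgroup.subset_closure (Or.inl (Or.inr ⟨x, rfl⟩))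

theorem jW_mem_EU : jW M ∈ EU M := Subgroup.subset_closure (Or.inr rfl)

variable {L : Type} [SemilatticeInf L] [BoundedOrder L] [Compl L] [QL L] [MulAction (FF M) L]
  [QM (FF M) L] {b : Pr M → L}

namespace Hyp

variable (h : Hyp b)
include h

theorem EU_smul {e : L} (h1 : ∀ x, Pm M x • e = e) (h2 : ∀ x, Qm M x • e = e)
    (h3 : jW M • e = e) {g : FF M} (hg : g ∈ EU M) : g • e = e := by
  induction hg using Subgroup.closure_induction with
  | mem g hg =>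
    rcases hg with (⟨x, rfl⟩ | ⟨x, rfl⟩) | rfl
    exacts [h1 x, h2 x, h3]
  | one => exact one_smul _ _
  | mul g g' _ _ k1 k2 => rw [mul_smul, k2, k1]
  | inv g _ k => rw [inv_smul_eq_iff, k]

theorem EU_E {g : FF M} (hg : g ∈ EU M) : g • b .E = b .E :=
  h.EU_smul h.Pm_E (fun x => h.Qm_basic x _) (h.wdom .jj) hg

theorem j_tp (k : M.Λ) (o : Option M.Γ) : jW M • b (.tp k o) = b (.tp k o) := by
  have := h.jTp k o
  rwa [Pres, Mv.dom, Mv.ran, inf_eq_left.2 (h.tpE k o)] at this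

theorem EU_R0 {g : FF M} (hg : g ∈ EU M) : g • R0 b = R0 b :=
  h.EU_smul h.Pm_R0 (fun x => by simp only [R0, atT, q_smul_finf, h.Qm_basic])
    (by simp only [R0, atT, q_smul_finf, h.j_tp]) hg

theorem EU_pass {w : FF M} (h1 : ∀ x, ∃ g' ∈ EU M, Eqv (Pm M x * w) (w * g') (b .E))
    (h2 : ∀ x, ∃ g' ∈ EU M, Eqv (Qm M x * w) (w * g') (b .E))
    (h3 : ∃ g' ∈ EU M, Eqv (jW M * w) (w * g') (b .E)) {g : FF M} (hg : g ∈ EU M) :
    ∃ g' ∈ EU M, Eqv (g * w) (w * g') (b .E) := by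
  induction hg using Subgroup.closure_induction with
  | mem g hg =>
    rcases hg with (⟨x, rfl⟩ | ⟨x, rfl⟩) | rfl
    exacts [h1 x, h2 x, h3]
  | one => exact ⟨1, one_mem _, Eqv.of_eq (by simp) _⟩
  | mul g g' _ _ k1 k2 =>
    obtain ⟨u, hu, k1⟩ := k1
    obtain ⟨u', hu', k2⟩ := k2
    refine ⟨u * u', mul_mem hu hu', ?_⟩
    have := (k2.mul_left g).trans ((Eqv.of_eq (mul_assoc _ _ _).symm _).trans
      (k1.mul_right u' (h.EU_E hu').le))
    simpa [mul_assoc] using this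
  | inv g _ k =>
    obtain ⟨u, hu, k⟩ := k
    refine ⟨u⁻¹, inv_mem hu, ?_⟩
    have := ((k.mul_right u⁻¹ (h.EU_E (inv_mem hu)).le).mul_left g⁻¹).symm
    simpa [mul_assoc] using this

theorem EU_push (k : M.Λ) (a : M.Γ) {g : FF M} (hg : g ∈ EU M) :
    ∃ g' ∈ EU M, Eqv (g * (Mv.push k a).w) ((Mv.push k a).w * g') (b .E) := by
  refine h.EU_pass (fun x => ⟨_, Pm_mem_EU x, h.Pm_push x k a⟩)
    (fun x => ⟨_, Qm_mem_EU x, h.Qm_comm x (.push k a) (by simp) (by simp) (by simp)⟩) ?_ hg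
  by_cases hk : k = M.t
  · subst hk
    exact ⟨_, mul_mem (Qm_mem_EU _) jW_mem_EU, by simpa [mul_assoc] using h.j_pusht a⟩
  · exact ⟨_, jW_mem_EU, (h.cJPush k a hk).mono (le_inf le_rfl le_rfl)⟩

theorem EU_dig (d : Bool) {g : FF M} (hg : g ∈ EU M) :
    ∃ g' ∈ EU M, Eqv (g * (Mv.dig d).w) ((Mv.dig d).w * g') (b .E) :=
  h.EU_pass (fun x => ⟨_, Pm_mem_EU x, h.Pm_dig x d⟩)
    (fun x => ⟨_, Qm_mem_EU x,
      (h.Qm_comm x (.dig d) (by simp) (by simp) (by simp)).mono (h.leT _)⟩)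
    ⟨_, jW_mem_EU, (h.cDig d .jj (by simp)).symm.mono (le_inf (h.leT _) le_rfl)⟩ hg

theorem EU_on_R0 {g : FF M} (hg : g ∈ EU M) : ∃ x x', Eqv g (Pm M x * Qm M x') (R0 b) := by
  have hE := h.R0_le_E
  have hT := hE.trans (h.leT _)
  have one : Eqv 1 (Pm M 1 * Qm M 1) (R0 b) := by
    simpa using (h.Pm_one.eqv.mono hE).mul (h.Qm_one.eqv.mono hT) (by simp)
  have mul : ∀ x x' y y', Eqv (Pm M x * Qm M x' * (Pm M y * Qm M y'))
      (Pm M (x * y) * Qm M (x' * y')) (R0 b) := by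
    intro x x' y y'
    have e1 := h.EU_R0 (Qm_mem_EU y')
    have e2 := h.EU_R0 (mul_mem (Qm_mem_EU x') (Qm_mem_EU y'))
    have k1 := (((h.Qm_Pm x' y).mono hE).mul_right _ e1.le).mul_left (Pm M x)
    have k2 := ((h.Pm_mul x y).mono hE).mul ((h.Qm_mul x' y').mono hT) e2.le
    simp only [mul_assoc] at k1 k2 ⊢
    exact k1.trans k2
  induction hg using Subgroup.closure_induction with
  | mem g hg =>
    rcases hg with (⟨x, rfl⟩ | ⟨x, rfl⟩) | rfl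
    · exact ⟨x, 1, by simpa using (h.Qm_one.eqv.mono hT).mul_left (Pm M x)⟩
    · exact ⟨1, x, by
        simpa using (h.Pm_one.eqv.mono hE).mul_right (Qm M x) (h.EU_R0 (Qm_mem_EU x)).le⟩
    · exact ⟨1, 1, (h.jT.eqv.mono (h.R0_le_tp _)).symm.trans one⟩
  | one => exact ⟨1, 1, one⟩
  | mul g g' _ hg' k1 k2 =>
    obtain ⟨x, x', k1⟩ := k1
    obtain ⟨y, y', k2⟩ := k2
    exact ⟨_, _, (k1.mul k2 (h.EU_R0 hg').le).trans (mul _ _ _ _)⟩
  | inv g hg k =>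
    obtain ⟨x, x', k⟩ := k
    refine ⟨x⁻¹, x'⁻¹, ?_⟩
    have e := h.EU_R0 (mul_mem (Pm_mem_EU x⁻¹) (Qm_mem_EU x'⁻¹))
    have k1 := (k.mul_right _ e.le).trans (mul x x' x⁻¹ x'⁻¹)
    rw [mul_inv_cancel, mul_inv_cancel] at k1
    simpa using ((k1.trans one.symm).mul_left g⁻¹).symm

theorem EU_tp {g : FF M} (hg : g ∈ EU M) (k : M.Λ) (o : Option M.Γ) :
    g • b (.tp k o) = b (.tp k o) :=
  h.EU_smul (fun x => h.Pm_tp x k o) (fun x => h.Qm_basic x _) (h.j_tp k o) hg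

theorem EU_Dg {g : FF M} (hg : g ∈ EU M) (d : Bool) :
    g • (b (.Dg d) ⊓ b .E) = b (.Dg d) ⊓ b .E :=
  h.EU_smul (fun x => h.Pm_Dg x d) (fun x => by rw [q_smul_inf, h.Qm_basic, h.Qm_basic])
    (h.allDg .jj d (by simp)) hg

theorem EU_dlx {g : FF M} (hg : g ∈ EU M) :
    ∃ x, ∀ y, g • dlx b y = dlx b (x * y) ∧ g • dlx' b y = dlx' b (x * y) := by
  induction hg using Subgroup.closure_induction with
  | mem g hg =>
    rcases hg with (⟨x, rfl⟩ | ⟨x, rfl⟩) | rfl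
    · exact ⟨x, fun y => ⟨h.Pm_Pm h.dlE x y, h.Pm_Pm h.dlE' x y⟩⟩
    · exact ⟨1, fun y => by
        rw [one_mul]; exact ⟨h.Qm_Pm_basic x y _ h.dlE, h.Qm_Pm_basic x y _ h.dlE'⟩⟩
    · exact ⟨1, fun y => by rw [one_mul]; exact ⟨h.j_dlx y, h.j_dlx' y⟩⟩
  | one => exact ⟨1, fun y => by simp⟩
  | mul g g' _ _ k1 k2 =>
    obtain ⟨x, k1⟩ := k1
    obtain ⟨x', k2⟩ := k2
    exact ⟨x * x', fun y => by
      rw [mul_smul, mul_smul, (k2 y).1, (k2 y).2, mul_assoc]; exact k1 _⟩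
  | inv g _ k =>
    obtain ⟨x, k⟩ := k
    exact ⟨x⁻¹, fun y => by
      rw [inv_smul_eq_iff, inv_smul_eq_iff, (k _).1, (k _).2, mul_inv_cancel_left]
      exact ⟨rfl, rfl⟩⟩

/-- passing a unit through a frame push -/
theorem EU_fr {q : Pu M} (hq : q.isFr) {g : FF M} (hg : g ∈ EU M) :
    ∃ (q' : Pu M) (g' : FF M), q'.dm = q.dm ∧ ((q.dm = .E ∧ g' ∈ EU M) ∨ ∃ x, g' = Qm M x) ∧
      Eqv (g * q.W) (q'.W * g') (b q.dm) := by
  obtain ⟨x, x', k⟩ := h.EU_on_R0 hg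
  have k0 := k.mul_right q.W ((h.pu_ok q).le.trans (h.fr_le_R0 hq))
  have hu := mul_mem (Pm_mem_EU (M := M) x) (Qm_mem_EU x')
  cases q with
  | fA =>
    refine ⟨.fA, _, rfl, Or.inl ⟨rfl, hu⟩, k0.trans ?_⟩
    have k1 := (h.Qm_comm x' (.fr .A) (by simp) (by simp) (by simp)).mul_left (Pm M x)
    have k2 := (h.Pm_fA x).mul_right _ (h.Qm_basic x' .E).le
    simp only [mul_assoc] at k1 k2 ⊢
    exact k1.trans k2
  | fB =>
    refine ⟨.fB, _, rfl, Or.inl ⟨rfl, hu⟩, k0.trans ?_⟩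
    have k1 := (h.Qm_comm x' (.fr .B) (by simp) (by simp) (by simp)).mul_left (Pm M x)
    have k2 := (h.Pm_fB x).mul_right _ (h.Qm_basic x' .E).le
    simp only [mul_assoc] at k1 k2 ⊢
    exact k1.trans k2
  | fC u =>
    refine ⟨.fC (x * u), _, rfl, Or.inr ⟨x', rfl⟩, k0.trans ?_⟩
    have hw : (Mv.fr (M := M) .C).w • b .T ≤ b .E := (h.wdom (.fr .C)).le.trans (h.R_le_E _)
    have k1 := ((h.Qm_Pm x' u).mul_right _ hw).mul_left (Pm M x)
    have k2 := (h.Qm_comm x' (.fr .C) (by simp) (by simp) (by simp)).mul_left (Pm M x * Pm M u)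
    have k3 := (h.Pm_mul x u).mul_right ((Mv.fr (M := M) .C).w * Qm M x') (e := b .T)
      (by rw [mul_smul, h.Qm_basic]; exact hw)
    simp only [mul_assoc, Pu.W] at k1 k2 k3 ⊢
    exact k1.trans (k2.trans k3)
  | fD u =>
    refine ⟨.fD (x * u), _, rfl, Or.inl ⟨rfl, Pm_mem_EU x'⟩, k0.trans ?_⟩
    have hw : (Mv.fr (M := M) .D).w • b .E ≤ b .E := (h.wdom (.fr .D)).le.trans (h.R_le_E _)
    have k1 := ((h.Qm_Pm x' u).mul_right _ hw).mul_left (Pm M x)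
    have k2 := (h.Qm_fD x').mul_left (Pm M x * Pm M u)
    have k3 := (h.Pm_mul x u).mul_right ((Mv.fr (M := M) .D).w * Pm M x') (e := b .E)
      (by rw [mul_smul, h.Pm_E]; exact hw)
    simp only [mul_assoc, Pu.W] at k1 k2 k3 ⊢
    exact k1.trans (k2.trans k3)
  | _ => exact hq.elim

theorem alg_G1 {x : L} (hx : G1 b x) : x ∈ h.PS2.Alg.car := h.PS2.gen_mem (h.gen2_G1 hx)

theorem alg_cyl {x : L} (hx : x ∈ h.PS1.Alg.car) : x ∈ h.PS2.Alg.car := h.PS2.base_mem (.cyl hx)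

theorem alg_rn (p : Pu M) : p.rn b ∈ h.PS2.Alg.car := h.PS2.gen_mem (h.gen2_rn p)

theorem basic_mem (j : Pr M) : b j ∈ h.PS2.Alg.car := by
  have kR : ∀ x, b (.R x) = Pm M 1 • b (.R x) := fun x => (h.Pm_one.smul_eq (h.R_le_E x)).symm
  cases j with
  | T => exact h.alg_G1 .T
  | E => exact h.alg_G1 .E
  | Sh => exact h.alg_rn .io
  | tp k o => exact h.alg_G1 (.tp k o)
  | dl => exact h.dlx_one ▸ h.alg_G1 (.dl 1)
  | dl' => exact h.dlx'_one ▸ h.alg_G1 (.dl' 1)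
  | R x =>
    cases x with
    | A => exact h.alg_rn .fA
    | B => exact h.alg_rn .fB
    | C => rw [kR]; exact h.alg_rn (.fC 1)
    | D => rw [kR]; exact h.alg_rn (.fD 1)
  | A => exact h.PS2.gen_mem h.gen2_A
  | B => exact h.Bn_one ▸ h.PS2.base_mem (.bn 1)
  | K => exact h.PS2.base_mem (.kn 0)
  | Dg d => exact h.alg_G1 (.dg d)

theorem pass_mem (p : Pu M) {γ δ : FF M} {e x : L} (he : Eqv γ (p.W * δ) e) (hx : x ≤ e)
    (hm : δ • x ∈ h.PS2.Alg.car) (hd : δ • x ≤ b p.dm) : γ • x ∈ h.PS2.Alg.car := by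
  rw [he.smul_eq hx, mul_smul]
  exact (h.PS2.good p).fwd _ hm hd

theorem Qm_inf (x : G) (c : L) (j : Pr M) : Qm M x • (c ⊓ b j) = Qm M x • (c ⊓ b .T) ⊓ b j := by
  rw [← h.Qm_basic x j, ← q_smul_inf, h.Qm_basic, inf_assoc, inf_eq_right.2 (h.leT j)]

theorem dig_inf (d : Bool) (c : L) {j : Pr M} (hj : ∀ d', j ≠ .Dg d') :
    (Mv.dig (M := M) d).w • (c ⊓ b .T) ⊓ b j = (Mv.dig (M := M) d).w • (c ⊓ b j) := by
  rw [q_smul_inf, q_smul_inf, h.dig_basic d hj, h.dig_basic d (j := .T) (by simp),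
    inf_eq_right.2 (h.leT (.Dg d))]
  ac_rfl

/-- closure under units -/
def QU (c : L) : Prop :=
  (∀ g ∈ EU M, g • (c ⊓ b .E) ∈ h.PS2.Alg.car) ∧ ∀ x, Qm M x • (c ⊓ b .T) ∈ h.PS2.Alg.car

theorem QU_of_le {c : L} (hc : c ≤ b .E) (H : ∀ g ∈ EU M, g • c ∈ h.PS2.Alg.car) : h.QU c :=
  ⟨fun g hg => by rw [inf_eq_left.2 hc]; exact H g hg,
    fun x => by rw [inf_eq_left.2 (hc.trans (h.leT _))]; exact H _ (Qm_mem_EU x)⟩

theorem QU_top : h.QU ⊤ :=
  ⟨fun g hg => by rw [top_inf_eq, h.EU_E hg]; exact h.basic_mem _,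
    fun x => by rw [top_inf_eq, h.Qm_basic]; exact h.basic_mem _⟩

theorem QU_inf {x y : L} (hx : h.QU x) (hy : h.QU y) : h.QU (x ⊓ y) :=
  ⟨fun g hg => by
    rw [inf_inf_distrib_right, q_smul_inf]; exact h.PS2.Alg.inf_mem (hx.1 g hg) (hy.1 g hg),
   fun u => by
    rw [inf_inf_distrib_right, q_smul_inf]; exact h.PS2.Alg.inf_mem (hx.2 u) (hy.2 u)⟩

theorem QU_compl {x : L} (hm : x ∈ h.PS2.Alg.car) (hx : h.QU x) : h.QU xᶜ := by
  refine ⟨fun g hg => ?_, fun u => ?_⟩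
  · have := Arr.pf_compl (p := ⟨g, b .E, b .E⟩) (h.EU_E hg) (h.PS2.Alg.cm hm (h.basic_mem .E))
    exact Set.mem_of_eq_of_mem this
      (h.PS2.Alg.inf_mem (h.basic_mem _) (h.PS2.Alg.compl_mem (hx.1 g hg)))
  · have := Arr.pf_compl (p := ⟨Qm M u, b .T, b .T⟩) (h.Qm_basic u _)
      (h.PS2.Alg.cm hm (h.basic_mem .T))
    exact Set.mem_of_eq_of_mem this
      (h.PS2.Alg.inf_mem (h.basic_mem _) (h.PS2.Alg.compl_mem (hx.2 u)))

theorem QU_pf (p : Pu M) {c : L} (hc : h.QU c) : h.QU ((p.arr b).pf c) := by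
  have hle : (p.arr b).pf c ≤ p.rn b := Arr.pf_le (h.pu_ok p) c
  have kQ : ∀ (x : G) (j : Pr M), Qm M x • (c ⊓ b j) ∈ h.PS2.Alg.car := fun x j => by
    rw [h.Qm_inf]; exact h.PS2.Alg.inf_mem (hc.2 x) (h.basic_mem j)
  have kQ' : ∀ (x : G) (j : Pr M), Qm M x • (c ⊓ b j) ≤ b j := fun x j =>
    (q_smul_le.2 inf_le_right).trans (h.Qm_basic x j).le
  have kE : ∀ g ∈ EU M, g • (c ⊓ b .E) ≤ b .E := fun g hg =>
    (q_smul_le.2 inf_le_right).trans (h.EU_E hg).le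
  rcases pu_cases p with ⟨k, a, rfl⟩ | hp | rfl | ⟨d, rfl⟩ | rfl
  · refine h.QU_of_le (hle.trans (h.tpE _ _)) fun g hg => ?_
    obtain ⟨g', k1, k2⟩ := h.EU_push k a hg
    rw [Arr.pf, ← mul_smul]
    exact h.pass_mem (.push k a) k2 inf_le_right (hc.1 g' k1) (kE g' k1)
  · refine h.QU_of_le (hle.trans (h.fr_le_E hp)) fun g hg => ?_
    obtain ⟨q', g', k1, k2, k3⟩ := h.EU_fr hp hg
    rw [Arr.pf, ← mul_smul]
    rcases k2 with ⟨k2, k4⟩ | ⟨x, rfl⟩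
    · refine h.pass_mem q' k3 inf_le_right ?_ ?_
      · show g' • (c ⊓ b p.dm) ∈ _
        rw [k2]; exact hc.1 g' k4
      · show g' • (c ⊓ b p.dm) ≤ _
        rw [k1, k2]; exact kE g' k4
    · exact h.pass_mem q' k3 inf_le_right (kQ x _) (k1 ▸ kQ' x _)
  · refine ⟨fun g hg => ?_, fun x => ?_⟩
    · rw [q_inf_eq_bot (hle.trans h.shE), q_smul_bot]; exact h.PS2.Alg.bot_mem
    · rw [inf_eq_left.2 (hle.trans (h.leT .Sh)), Arr.pf, ← mul_smul]
      exact h.pass_mem .io (h.Qm_comm x .io (by simp) (by simp) (by simp)) inf_le_right (kQ x _)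
        (kQ' x _)
  · refine ⟨fun g hg => ?_, fun x => ?_⟩
    · obtain ⟨g', k1, k2⟩ := h.EU_dig d hg
      have e : ((Pu.dig d).arr b).pf c ⊓ b .E = (Mv.dig (M := M) d).w • (c ⊓ b .E) :=
        h.dig_inf d c (by simp)
      rw [e, ← mul_smul]
      exact h.pass_mem (.dig d) k2 inf_le_right (hc.1 g' k1) ((kE g' k1).trans (h.leT _))
    · rw [inf_eq_left.2 (hle.trans (h.leT (.Dg d))), Arr.pf, ← mul_smul]
      exact h.pass_mem (.dig d) (h.Qm_comm x (.dig d) (by simp) (by simp) (by simp)) inf_le_right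
        (kQ x _) (kQ' x _)
  · refine ⟨fun g hg => ?_, fun x => ?_⟩
    · rw [q_inf_eq_bot (hle.trans (QL.anti (h.leT _))), q_smul_bot]; exact h.PS2.Alg.bot_mem
    · rw [q_inf_eq_bot hle, q_smul_bot]; exact h.PS2.Alg.bot_mem

theorem QU_cyl : ∀ c ∈ h.PS1.Alg.car, h.QU c := by
  refine h.PS1.ind (fun g hg => ?_) h.QU_top (fun _ _ _ _ => h.QU_inf)
    (fun _ hx => h.QU_compl (h.alg_cyl hx)) fun i _ _ => h.QU_pf (.push i.1 i.2)
  cases hg with
  | T =>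
    exact ⟨fun g hg => by rw [inf_eq_right.2 (h.leT _), h.EU_E hg]; exact h.basic_mem _,
      fun x => by rw [inf_idem, h.Qm_basic]; exact h.basic_mem _⟩
  | E => exact h.QU_of_le le_rfl fun g hg => by rw [h.EU_E hg]; exact h.basic_mem _
  | tp k o => exact h.QU_of_le (h.tpE _ _) fun g hg => by rw [h.EU_tp hg]; exact h.basic_mem _
  | dl y =>
    refine h.QU_of_le (h.dlx_le_E y) fun g hg => ?_
    obtain ⟨x, k⟩ := h.EU_dlx hg
    rw [(k y).1]; exact h.alg_G1 (.dl _)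
  | dl' y =>
    refine h.QU_of_le (h.dlx'_le_E y) fun g hg => ?_
    obtain ⟨x, k⟩ := h.EU_dlx hg
    rw [(k y).2]; exact h.alg_G1 (.dl' _)
  | dg d =>
    exact ⟨fun g hg => by
      rw [h.EU_Dg hg]; exact h.PS2.Alg.inf_mem (h.basic_mem _) (h.basic_mem _),
      fun x => by rw [inf_eq_left.2 (h.leT _), h.Qm_basic]; exact h.basic_mem _⟩

theorem QU_alg : ∀ c ∈ h.PS2.Alg.car, h.QU c := by
  refine h.PS2.ind (fun g hg => ?_) h.QU_top (fun _ _ _ _ => h.QU_inf)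
    (fun _ hx => h.QU_compl hx) fun i _ _ => h.QU_pf i
  rcases G2_cases hg with k | ⟨p, -, rfl⟩ | k
  · exact h.QU_cyl _ k
  · have := h.QU_pf p h.QU_top
    rwa [Arr.pf_top (h.pu_ok p)] at this
  · obtain ⟨-, k2, k3, -, -, k6⟩ := h.chain_facts k
    refine ⟨fun u hu => ?_, fun x => ?_⟩
    · have := (h.QU_cyl _ k2).1 u hu
      rwa [inf_assoc, inf_idem] at this
    · rw [inf_eq_left.2 k3, k6]; exact h.PS2.base_mem hg

theorem good_EU {g : FF M} (hg : g ∈ EU M) : Good h.PS2.Alg g (b .E) := by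
  refine ⟨h.basic_mem _, fun x hx hl => ?_, fun x hx hl => ?_⟩
  · have := (h.QU_alg x hx).1 g hg
    rwa [inf_eq_left.2 hl] at this
  · have := (h.QU_alg x hx).1 g⁻¹ (inv_mem hg)
    rwa [inf_eq_left.2 (hl.trans (h.EU_E hg).le)] at this

theorem Qm_inv (x : G) : Eqv (Qm M x)⁻¹ (Qm M x⁻¹) (b .T) := by
  have := (h.Qm_mul x x⁻¹).trans (by simpa using h.Qm_one.eqv.symm)
  simpa using (this.mul_left (Qm M x)⁻¹).symm

theorem good_Qm (u : G) : Good h.PS2.Alg (Qm M u) (b .T) := by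
  refine ⟨h.basic_mem _, fun x hx hl => ?_, fun x hx hl => ?_⟩
  · have := (h.QU_alg x hx).2 u
    rwa [inf_eq_left.2 hl] at this
  · rw [h.Qm_basic] at hl
    have := (h.QU_alg x hx).2 u⁻¹
    rwa [inf_eq_left.2 hl, ← (h.Qm_inv u).smul_eq hl] at this

/-! ### the machine step -/

theorem alg_good_mm : Good h.PS2.Alg (mmW M) (b .E ⊓ b .A) :=
  h.good_mm _ (h.basic_mem _) (fun _ _ => h.basic_mem _) (h.basic_mem _) (h.basic_mem _)
    fun k a => h.PS2.good (.push k a)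

theorem mm_pf_E {c : L} (hc : c ∈ h.PS2.Alg.car) (hE : c ≤ b .E) :
    mmW M • (c ⊓ b .A) ∈ h.PS2.Alg.car :=
  h.alg_good_mm.fwd _ (h.PS2.Alg.inf_mem hc (h.basic_mem _)) (inf_le_inf_right _ hE)

theorem mm_pb_E {c : L} (hc : c ∈ h.PS2.Alg.car) (hE : c ≤ b .E) :
    (mmW M)⁻¹ • (c ⊓ b .B) ∈ h.PS2.Alg.car :=
  h.alg_good_mm.bwd _ (h.PS2.Alg.inf_mem hc (h.basic_mem _)) (h.mm_EA ▸ inf_le_inf_right _ hE)

theorem rn_cases (p : Pu M) : p.rn b ≤ b .E ∨ p = .io ∨ (∃ d, p = .dig d) ∨ p = .flip := by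
  rcases pu_cases p with ⟨k, a, rfl⟩ | hp | k
  · exact Or.inl (h.tpE _ _)
  · exact Or.inl (h.fr_le_E hp)
  · exact Or.inr k

theorem io_mm2 : Eqv (ioW M * mmW M) (mmW M * ioW M) (An b 2) := by
  have := h.ioMm
  rwa [← h.An_one] at this

theorem io_An2 : ioW M • An b 2 = b .A ⊓ b .Sh := by rw [An, smul_inv_smul, h.An_one]

theorem mm_An2 : mmW M • An b 2 = b .A ⊓ b .B := by rw [h.An_succ, smul_inv_smul, h.An_one]

theorem dig_mm (d : Bool) :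
    Eqv ((Mv.dig d).w * mmW M) (mmW M * (Mv.dig d).w) (b .A) :=
  (h.cDig d .mm (by simp)).mono (le_inf (h.leT _) le_rfl)

theorem mm_pf_step (p : Pu M) {c : L} (hc : c ∈ h.PS2.Alg.car)
    (H : mmW M • (c ⊓ b .A) ∈ h.PS2.Alg.car) :
    mmW M • ((p.arr b).pf c ⊓ b .A) ∈ h.PS2.Alg.car := by
  have hle : (p.arr b).pf c ≤ p.rn b := Arr.pf_le (h.pu_ok p) c
  rcases h.rn_cases p with k | rfl | ⟨d, rfl⟩ | rfl
  · exact h.mm_pf_E (h.PS2.pf_mem p hc) (hle.trans k)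
  · have h2 : An b 2 ≤ b .A := h.An_succ_le_A 1
    have e : ((Pu.io (M := M)).arr b).pf c ⊓ b .A = ioW M • (c ⊓ An b 2) := by
      show ioW M • (c ⊓ b .A) ⊓ b .A = _
      rw [q_smul_inf, q_smul_inf, h.io_A, h.io_An2]; ac_rfl
    have e2 : mmW M • (c ⊓ An b 2) = mmW M • (c ⊓ b .A) ⊓ b .A := by
      rw [q_smul_inf, q_smul_inf, h.mm_A, h.mm_An2]; ac_rfl
    rw [e, ← mul_smul]
    exact h.pass_mem .io h.io_mm2.symm inf_le_right
      (e2 ▸ h.PS2.Alg.inf_mem H (h.basic_mem _)) (e2 ▸ inf_le_right)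
  · have e : ((Pu.dig d).arr b).pf c ⊓ b .A = (Mv.dig (M := M) d).w • (c ⊓ b .A) :=
      h.dig_inf d c (by simp)
    rw [e, ← mul_smul]
    exact h.pass_mem (.dig d) (h.dig_mm d).symm inf_le_right H
      ((q_smul_le.2 inf_le_right).trans (h.mm_A.le.trans (h.leT _)))
  · rw [q_inf_eq_bot (hle.trans (QL.anti (h.leT _))), q_smul_bot]; exact h.PS2.Alg.bot_mem

theorem mm_pb_step (p : Pu M) {c : L} (hc : c ∈ h.PS2.Alg.car)
    (H : (mmW M)⁻¹ • (c ⊓ b .B) ∈ h.PS2.Alg.car) :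
    (mmW M)⁻¹ • ((p.arr b).pf c ⊓ b .B) ∈ h.PS2.Alg.car := by
  have hle : (p.arr b).pf c ≤ p.rn b := Arr.pf_le (h.pu_ok p) c
  have hA : (mmW M)⁻¹ • (c ⊓ b .B) ≤ b .A := by
    rw [q_smul_le_iff, inv_inv, h.mm_A]; exact inf_le_right
  rcases h.rn_cases p with k | rfl | ⟨d, rfl⟩ | rfl
  · exact h.mm_pb_E (h.PS2.pf_mem p hc) (hle.trans k)
  · have e0 : ioW M • (b .B ⊓ b .A) = b .B ⊓ b .Sh := h.ioB
    have e : ((Pu.io (M := M)).arr b).pf c ⊓ b .B =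
        (ioW M * mmW M) • ((mmW M)⁻¹ • (c ⊓ b .B) ⊓ An b 2) := by
      show ioW M • (c ⊓ b .A) ⊓ b .B = _
      have : c ⊓ b .B ⊓ (b .A ⊓ b .B) = c ⊓ (b .B ⊓ b .A) := by ac_rfl
      rw [mul_smul, q_smul_inf (mmW M), smul_inv_smul, h.mm_An2, this, q_smul_inf, q_smul_inf, e0,
        h.io_A]
      ac_rfl
    rw [e, h.io_mm2.smul_eq inf_le_right, mul_smul, inv_smul_smul]
    exact (h.PS2.good .io).fwd _ (h.PS2.Alg.inf_mem H (h.PS2.base_mem (.an 2)))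
      (inf_le_left.trans hA)
  · have e : ((Pu.dig d).arr b).pf c ⊓ b .B =
        ((Mv.dig (M := M) d).w * mmW M) • (mmW M)⁻¹ • (c ⊓ b .B) := by
      rw [mul_smul, smul_inv_smul]; exact h.dig_inf d c (by simp)
    rw [e, (h.dig_mm d).smul_eq hA, mul_smul, inv_smul_smul]
    exact (h.PS2.good (.dig d)).fwd _ H (hA.trans (h.leT _))
  · rw [q_inf_eq_bot (hle.trans (QL.anti (h.leT _))), q_smul_bot]; exact h.PS2.Alg.bot_mem

theorem good_mm_alg : Good h.PS2.Alg (mmW M) (b .A) := by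
  have ok : ((Mv.mm (M := M)).arr b).Ok := h.ok .mm
  have hA := h.basic_mem .A
  have hB := h.basic_mem .B
  have mD : ∀ d, mmW M • (b (.Dg d) ⊓ b .A) = b (.Dg d) ⊓ b .B := fun d =>
    h.allDg .mm d (by simp)
  have ind : ∀ {Q : L → Prop}, Q ⊤ → Q (b .T) → (∀ d, Q (b (.Dg d))) →
      (∀ x ∈ h.PS2.Alg.car, x ≤ b .E → Q x) → (∀ x, Chain b x → Q x) →
      (∀ x y, Q x → Q y → Q (x ⊓ y)) → (∀ x ∈ h.PS2.Alg.car, Q x → Q xᶜ) →
      (∀ p : Pu M, ∀ x ∈ h.PS2.Alg.car, Q x → Q ((p.arr b).pf x)) →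
      ∀ x ∈ h.PS2.Alg.car, Q x := by
    intro Q q1 q2 q3 q4 q5 q6 q7 q8
    refine h.PS2.ind (fun g hg => ?_) q1 (fun x _ y _ => q6 x y) q7 q8
    rcases G2_cases hg with k | ⟨p, hp, rfl⟩ | k
    · refine h.PS1.ind (fun g hg => ?_) q1 (fun x _ y _ => q6 x y)
        (fun x hx => q7 x (h.alg_cyl hx)) (fun i x hx => q8 (.push i.1 i.2) x (h.alg_cyl hx)) g k
      rcases h.G1_cases hg with rfl | hE | ⟨d, rfl⟩
      · exact q2
      · exact q4 _ (h.alg_G1 hg) hE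
      · exact q3 d
    · exact q4 _ (h.alg_rn p) (h.fr_le_E hp)
    · exact q5 _ k
  refine Arr.good ok hA (ind ?_ ?_ ?_ (fun x => h.mm_pf_E) ?_ ?_ ?_ fun p x => h.mm_pf_step p)
    (ind ?_ ?_ ?_ (fun x => h.mm_pb_E) ?_ ?_ ?_ fun p x => h.mm_pb_step p)
  · rw [Arr.pf_top ok]; exact hB
  · rw [Arr.pf_of_ge ok (h.leT _)]; exact hB
  · exact fun d => Set.mem_of_eq_of_mem (mD d) (h.PS2.Alg.inf_mem (h.basic_mem _) hB)
  · rintro x ⟨n, rfl | rfl | rfl⟩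
    · cases n with
      | zero => rw [Arr.pf_of_ge (x := An b 0) ok (h.leT _)]; exact hB
      | succ n =>
        show mmW M • (An b (n + 1) ⊓ b .A) ∈ _
        rw [inf_eq_left.2 (h.An_succ_le_A n), h.An_succ, smul_inv_smul]
        exact h.PS2.Alg.inf_mem (h.PS2.base_mem (.an n)) hB
    · exact h.PS2.base_mem (.bn (n + 1))
    · exact Set.mem_of_eq_of_mem (h.Kn_succ n).symm (h.PS2.base_mem (.kn (n + 1)))
  · exact fun x y h1 h2 => by rw [Arr.pf_inf]; exact h.PS2.Alg.inf_mem h1 h2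
  · exact fun x hx h1 => by
      rw [Arr.pf_compl ok (h.PS2.Alg.cm hx hA)]
      exact h.PS2.Alg.inf_mem hB (h.PS2.Alg.compl_mem h1)
  · rw [Arr.pb_top ok]; exact hA
  · rw [Arr.pb_of_ge ok (h.leT _)]; exact hA
  · intro d
    rw [pb_of_smul (p := (Mv.mm (M := M)).arr b) (mD d)]
    exact h.PS2.Alg.inf_mem (h.basic_mem _) hA
  · rintro x ⟨n, rfl | rfl | rfl⟩
    · exact Set.mem_of_eq_of_mem (h.An_succ n).symm (h.PS2.base_mem (.an (n + 1)))
    · cases n with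
      | zero => rw [Arr.pb_of_ge (x := Bn b 0) ok (h.leT _)]; exact hA
      | succ n =>
        exact Set.mem_of_eq_of_mem (Arr.pb_pf ok (Bn b n))
          (h.PS2.Alg.inf_mem (h.PS2.base_mem (.bn n)) hA)
    · cases n with
      | zero => rw [Arr.pb_of_orth (p := (Mv.mm (M := M)).arr b) (x := Kn b 0) h.kB]; exact h.PS2.Alg.bot_mem
      | succ n =>
        rw [h.Kn_succ]
        exact Set.mem_of_eq_of_mem (Arr.pb_pf ok (Kn b n))
          (h.PS2.Alg.inf_mem (h.PS2.base_mem (.kn n)) hA)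
  · exact fun x y h1 h2 => by rw [Arr.pb_inf]; exact h.PS2.Alg.inf_mem h1 h2
  · exact fun x hx h1 => by
      rw [Arr.pb_compl ok (h.PS2.Alg.cm hx hB)]
      exact h.PS2.Alg.inf_mem hA (h.PS2.Alg.compl_mem h1)

/-! ### all generators -/

theorem fr_one (x : Fr4) :
    Eqv (Pm M 1 * (Mv.fr x).w) (Mv.fr x).w (b (Mv.fr (M := M) x).dom) := by
  simpa using h.Pm_one.eqv.symm.mul_right _ ((h.wdom (.fr x)).le.trans (h.R_le_E x))

theorem good_move (σ : Mv M) : Good h.PS2.Alg σ.w (b σ.dom) := by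
  cases σ with
  | push k a => exact h.PS2.good (.push k a)
  | pm a => exact (h.good_EU (Pm_mem_EU _)).eqv (h.Pm_val a).symm
  | qm a => exact (h.good_Qm _).eqv (h.Qm_val a).symm
  | jj => exact h.good_EU jW_mem_EU
  | fr x =>
    cases x with
    | A => exact h.PS2.good .fA
    | B => exact h.PS2.good .fB
    | C => exact (h.PS2.good (.fC 1)).eqv (h.fr_one .C)
    | D => exact (h.PS2.good (.fD 1)).eqv (h.fr_one .D)
  | io => exact h.PS2.good .io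
  | mm => exact h.good_mm_alg
  | dig d => exact h.PS2.good (.dig d)

omit h in
theorem eqv_inv_self {u : FF M} (hu : Tv (u * u) (⊤ : L)) : Eqv u⁻¹ u (⊤ : L) := by
  simpa [Eqv] using hu

omit h in
theorem good_inv_top {B : BSub L} {u : FF M} (hu : Good B u ⊤) : Good B u⁻¹ ⊤ :=
  q_smul_top (L := L) u ▸ hu.inv

theorem good_fl : Good h.PS2.Alg (fl M) ⊤ := by
  have k : Good h.PS2.Alg (fl M) (b .T) := h.PS2.good .flip
  refine Good.dec h.PS2.Alg.top_mem (h.basic_mem .T) (by rwa [top_inf_eq]) ?_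
  rw [top_inf_eq, ← h.flT]
  exact k.inv.eqv ((eqv_inv_self h.fl2).mono le_top)

theorem good_ta (σ : Mv M) : Good h.PS2.Alg σ.ta ⊤ := by
  have hd := h.basic_mem σ.dom
  have hr : fl M • b σ.ran ∈ h.PS2.Alg.car := h.good_fl.fwd _ (h.basic_mem _) le_top
  have k1 : Good h.PS2.Alg σ.ta (b σ.dom) := by
    simpa [Mv.w] using (good_inv_top h.good_fl).mul (h.good_move σ) le_top
  refine Good.dec h.PS2.Alg.top_mem hd (by rwa [top_inf_eq]) ?_
  rw [top_inf_eq]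
  refine Good.dec (h.PS2.Alg.compl_mem hd) hr ?_
    ((Good.one (h.PS2.Alg.inf_mem (h.PS2.Alg.compl_mem hd) (h.PS2.Alg.compl_mem hr))).eqv
      (h.taOff σ).eqv)
  have e : σ.ta • b σ.dom = fl M • b σ.ran := by
    rw [← h.wdom, Mv.w, ← mul_smul, ← mul_assoc, mul_smul, h.fl2.smul_eq le_top]
  exact ((e ▸ k1.inv).eqv ((eqv_inv_self (h.ta2 σ)).mono le_top)).mono
    (h.PS2.Alg.inf_mem (h.PS2.Alg.compl_mem hd) hr) inf_le_right

theorem good_all (γ : FF M) : Good h.PS2.Alg γ ⊤ := by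
  induction γ using FreeGroup.induction_on with
  | C1 => exact Good.one h.PS2.Alg.top_mem
  | of s =>
    cases s with
    | none => exact h.good_fl
    | some σ => exact h.good_ta σ
  | inv_of s ih => exact good_inv_top ih
  | mul s t hs ht => exact hs.mul ht le_top

theorem smul_mem (γ : FF M) {x : L} (hx : x ∈ h.PS2.Alg.car) : γ • x ∈ h.PS2.Alg.car :=
  (h.good_all γ).fwd x hx le_top

theorem eval_mem (t : Tm (FF M) (Pr M)) : t.eval b ∈ h.PS2.Alg.car := by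
  induction t with
  | top => exact h.PS2.Alg.top_mem
  | basic j => exact h.basic_mem j
  | act γ t ih => exact h.smul_mem γ ih
  | inf s t ihs iht => exact h.PS2.Alg.inf_mem ihs iht
  | compl t ih => exact h.PS2.Alg.compl_mem ih

theorem phase1 (s t : Tm (FF M) (Pr M)) : Cm (s.eval b) (t.eval b) :=
  h.PS2.Alg.cm (h.eval_mem s) (h.eval_mem t)

end Hyp

end Vale.Agent.P193
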