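import Vale.Agent.P193.Push

/-! Derived elements of a model of the defining formulas. -/

namespace Vale.Agent.P193

set_option linter.unusedSectionVars false

variable {G : Type} [Group G] {M : Mach G}

open Classical in
/-- a word representing a group element -/
noncomputable def wd (M : Mach G) (x : G) : List M.Γ :=
  if h : ∃ w, M.phi w = x then h.choose else []

theorem phi_wd (hM : M.Good) (x : G) : M.phi (wd M x) = x := by
  rw [wd, dif_pos (hM.surj x)]; exact (hM.surj x).choose_spec

/-- left multiplication of the first register by a word -/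
def pmW (l : List M.Γ) : FF M := (l.map fun a => (Mv.pm a).w).prod

/-- left multiplication of the second register by a word -/
def qmW (l : List M.Γ) : FF M := (l.map fun a => (Mv.qm a).w).prod

/-- left multiplication of the first register by a group element -/
noncomputable def Pm (M : Mach G) (x : G) : FF M := pmW (wd M x)

/-- left multiplication of the second register by a group element -/
noncomputable def Qm (M : Mach G) (x : G) : FF M := qmW (wd M x)

/-- the word of the sheet shift -/
def ioW (M : Mach G) : FF M := (Mv.io (M := M)).w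

/-- the word of the machine step -/
def mmW (M : Mach G) : FF M := (Mv.mm (M := M)).w

/-- the word of the tape multiplication -/
def jW (M : Mach G) : FF M := (Mv.jj (M := M)).w

/-- pushes -/
inductive Pu (M : Mach G) : Type
  | push (k : M.Λ) (a : M.Γ)
  | fA | fB
  | fC (x : G)
  | fD (x : G)
  | io
  | dig (d : Bool)
  | flip

/-- the word of a push -/
noncomputable def Pu.W : Pu M → FF M
  | .push k a => (Mv.push k a).w
  | .fA => (Mv.fr .A).w
  | .fB => (Mv.fr .B).w
  | .fC x => Pm M x * (Mv.fr .C).w
  | .fD x => Pm M x * (Mv.fr .D).w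
  | .io => ioW M
  | .dig d => (Mv.dig d).w
  | .flip => fl M

/-- the domain of a push -/
def Pu.dm : Pu M → Pr M
  | .push _ _ => .E
  | .fA => .E
  | .fB => .E
  | .fC _ => .T
  | .fD _ => .E
  | .io => .A
  | .dig _ => .T
  | .flip => .T

/-- pairs of pushes forming commuting squares -/
def Pu.sq : Pu M → Pu M → Prop
  | .push k _, .push k' _ => k ≠ k'
  | .dig _, .dig _ => False
  | .dig _, .flip => False
  | .dig _, _ => True
  | .flip, _ => False
  | _, .dig _ => True
  | _, _ => False

variable {L : Type} [SemilatticeInf L] [BoundedOrder L] [Compl L] [QL L] [MulAction (FF M) L]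
  [QM (FF M) L] (b : Pr M → L)

/-- the range of a push -/
noncomputable def Pu.rn : Pu M → L
  | .push k a => b (.tp k (some a))
  | .fA => b (.R .A)
  | .fB => b (.R .B)
  | .fC x => Pm M x • b (.R .C)
  | .fD x => Pm M x • b (.R .D)
  | .io => b .Sh
  | .dig d => b (.Dg d)
  | .flip => (b .T)ᶜ

/-- the arrow of a push -/
noncomputable def Pu.arr (p : Pu M) : Arr (FF M) L := ⟨p.W, b p.dm, p.rn b⟩

/-- the arrow of a move -/
def Mv.arr (σ : Mv M) : Arr (FF M) L := ⟨σ.w, b σ.dom, b σ.ran⟩

/-- the first register equals `x` -/
noncomputable def dlx (x : G) : L := Pm M x • b .dl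

/-- the first register equals `x` times the tape value -/
noncomputable def dlx' (x : G) : L := Pm M x • b .dl'

/-- all stacks are empty -/
def R0 : L := atT b fun _ => none

/-- domains of the powers of the sheet shift -/
def An : ℕ → L
  | 0 => b .T
  | n + 1 => (ioW M)⁻¹ • (An n ⊓ b .Sh)

/-- ranges of the powers of the machine step -/
def Bn : ℕ → L
  | 0 => b .T
  | n + 1 => mmW M • (Bn n ⊓ b .A)

/-- images of the clean configurations -/
def Kn : ℕ → L
  | 0 => b .K
  | n + 1 => mmW M • Kn n

/-- generators of the cylinder algebra -/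
inductive G1 : L → Prop
  | T : G1 (b .T)
  | E : G1 (b .E)
  | tp (k o) : G1 (b (.tp k o))
  | dl (x) : G1 (dlx b x)
  | dl' (x) : G1 (dlx' b x)
  | dg (d) : G1 (b (.Dg d))

/-- generators of the full algebra over a cylinder algebra `C` -/
inductive G2 (C : Set L) : L → Prop
  | cyl {x} : x ∈ C → G2 C x
  | rA : G2 C (b (.R .A))
  | rB : G2 C (b (.R .B))
  | rC (x) : G2 C (Pm M x • b (.R .C))
  | rD (x) : G2 C (Pm M x • b (.R .D))
  | an (n) : G2 C (An b n)
  | bn (n) : G2 C (Bn b n)
  | kn (n) : G2 C (Kn b n)

/-- standing hypotheses -/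
structure Hyp : Prop extends Ax b where
  good : M.Good
  cm : ∀ i j, Cm (b i) (b j)

end Vale.Agent.P193
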