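import Vale.Agent.P193.P1A

/-! Consequences of the formulas, part G: the relations of the group hold. -/

namespace Vale.Agent.P193

set_option linter.unusedSectionVars false

variable {G : Type} [Group G] {M : Mach G}
variable {L : Type} [SemilatticeInf L] [BoundedOrder L] [Compl L] [QL L] [MulAction (FF M) L]
  [QM (FF M) L] {b : Pr M → L}

theorem word_fix {I : Type} {f : I → FF M} {e : L} (H : ∀ a, f a • e = e) (l : List I) :
    (l.map f).prod • e = e := by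
  induction l with
  | nil => simp
  | cons a l ih => rw [List.map_cons, List.prod_cons, mul_smul, ih, H]

theorem word_le {I : Type} {f : I → FF M} {e : L} (H : ∀ a, f a • e ≤ e) (l : List I) :
    (l.map f).prod • e ≤ e := by
  induction l with
  | nil => simp
  | cons a l ih =>
    rw [List.map_cons, List.prod_cons, mul_smul]
    exact (q_smul_le.2 ih).trans (H a)

theorem word_comm {I : Type} {f g : I → FF M} {γ : FF M} {e : L}
    (H : ∀ a, Eqv (f a * γ) (γ * g a) e) (hg : ∀ a, g a • e ≤ e) (l : List I) :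
    Eqv ((l.map f).prod * γ) (γ * (l.map g).prod) e := by
  induction l with
  | nil => exact Eqv.of_eq (by simp) _
  | cons a l ih =>
    rw [List.map_cons, List.prod_cons, List.map_cons, List.prod_cons, mul_assoc, ← mul_assoc γ]
    refine (ih.mul_left _).trans ?_
    rw [← mul_assoc]
    exact (H a).mul_right _ (word_le hg l)

theorem Mach.phi_append (u v : List M.Γ) : M.phi (u ++ v) = M.phi u * M.phi v := by
  simp [Mach.phi]

theorem pmW_append (u v : List M.Γ) : pmW (u ++ v) = pmW u * pmW v := by simp [pmW]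

theorem qmW_append (u v : List M.Γ) : qmW (u ++ v) = qmW u * qmW v := by simp [qmW]

theorem pmW_cons (a : M.Γ) (v : List M.Γ) : pmW (a :: v) = (Mv.pm a).w * pmW v := by simp [pmW]

theorem qmW_cons (a : M.Γ) (v : List M.Γ) : qmW (a :: v) = (Mv.qm a).w * qmW v := by simp [qmW]

/-- the word writing `w` on the tape -/
def rt (w : List M.Γ) : FF M := pwL (w.map fun a => (M.t, a))

theorem rt_cons (a : M.Γ) (w : List M.Γ) : rt (a :: w) = (Mv.push M.t a).w * rt w := by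
  rw [rt, List.map_cons, pwL_cons, rt]

theorem Pres.eq {σ : Mv M} {g g' : Pr M} (H : Pres b σ g g') (hg : b g ≤ b σ.dom) :
    σ.w • b g = b g' ⊓ b σ.ran := by
  rw [← H, inf_eq_left.2 hg]

theorem Pres.fix {σ : Mv M} {g : Pr M} (H : Pres b σ g g) (hg : b g ≤ b σ.dom)
    (hg' : b g ≤ b σ.ran) : σ.w • b g = b g := by
  rw [H.eq hg, inf_eq_left.2 hg']

theorem Cmt.on {σ σ' : Mv M} (H : Cmt b σ σ') {e : L} (h1 : e ≤ b σ.dom) (h2 : e ≤ b σ'.dom) :
    Eqv (σ.w * σ'.w) (σ'.w * σ.w) e := Eqv.mono H (le_inf h1 h2)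

namespace Hyp

variable (h : Hyp b)
include h

theorem R_le_E (x : Fr4) : b (.R x) ≤ b .E := (h.R_le_R0 x).trans h.R0_le_E

theorem pm_E (a : M.Γ) : (Mv.pm a).w • b .E = b .E := h.wdom (.pm a)

theorem qm_basic (a : M.Γ) (j : Pr M) : (Mv.qm a).w • b j = b j :=
  (h.qmAll a j).fix (h.leT _) (h.leT _)

theorem j_E : jW M • b .E = b .E := h.wdom .jj

theorem pmW_E (w : List M.Γ) : pmW w • b .E = b .E := word_fix h.pm_E w

theorem pmW_tp (w : List M.Γ) (k : M.Λ) (o : Option M.Γ) : pmW w • b (.tp k o) = b (.tp k o) :=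
  word_fix (fun a => (h.pmTp a k o).fix (h.tpE _ _) (h.tpE _ _)) w

theorem pmW_R0 (w : List M.Γ) : pmW w • R0 b = R0 b := by
  rw [R0, atT, q_smul_finf]
  simp only [h.pmW_tp]

theorem pmW_RA (w : List M.Γ) : pmW w • b (.R .A) = b (.R .A) :=
  word_fix (fun a => (h.pmA a).fix (h.R_le_E _) (h.R_le_E _)) w

theorem pmW_RB (w : List M.Γ) : pmW w • b (.R .B) = b (.R .B) :=
  word_fix (fun a => (h.pmB a).fix (h.R_le_E _) (h.R_le_E _)) w

theorem pmW_comm {σ : Mv M} (H : ∀ a, Cmt b (.pm a) σ) (hσ : b .E ≤ b σ.dom) (w : List M.Γ) :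
    Eqv (pmW w * σ.w) (σ.w * pmW w) (b .E) :=
  word_comm (fun a => (H a).on le_rfl hσ) (fun a => (h.pm_E a).le) w

theorem pwL_comm {γ : FF M} (H : ∀ k a, Eqv (γ * (Mv.push k a).w) ((Mv.push k a).w * γ) (b .E))
    (l : List (M.Λ × M.Γ)) : Eqv (γ * pwL l) (pwL l * γ) (b .E) :=
  (word_comm (fun p : M.Λ × M.Γ => (H p.1 p.2).symm)
    (fun p => (h.push_E p.1 p.2).le.trans (h.tpE _ _)) l).symm

theorem qmW_basic (w : List M.Γ) (j : Pr M) : qmW w • b j = b j :=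
  word_fix (fun a => h.qm_basic a j) w

theorem qmW_comm {σ : Mv M} (H : ∀ a, Cmt b (.qm a) σ) (w : List M.Γ) :
    Eqv (qmW w * σ.w) (σ.w * qmW w) (b σ.dom) :=
  word_comm (fun a => (H a).on (h.leT _) le_rfl) (fun a => (h.qm_basic a _).le) w

theorem qmW_fD (w : List M.Γ) : Eqv (qmW w * (Mv.fr .D).w) ((Mv.fr .D).w * pmW w) (b .E) :=
  word_comm h.qmD (fun a => (h.pm_E a).le) w

theorem rt_le_E (w : List M.Γ) : rt w • b .E ≤ b .E := h.pwL_le_E _

theorem pm_rt (a : M.Γ) (w : List M.Γ) {z : L} (hz : z ≤ b .E) :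
    (Mv.pm a).w • rt w • z = rt w • (Mv.pm a).w • z := by
  rw [← mul_smul, ← mul_smul]
  exact (h.pwL_comm (fun k a' => (h.cPmPush a k a').on le_rfl le_rfl) _).smul_eq hz

theorem push_dl (k : M.Λ) (a : M.Γ) :
    (Mv.push (M := M) k a).w • b .dl = b .dl ⊓ b (.tp k (some a)) := (h.pushDl k a).eq h.dlE

theorem push_le_tp (k : M.Λ) (a : M.Γ) {z : L} (hz : z ≤ b .E) :
    (Mv.push (M := M) k a).w • z ≤ b (.tp k (some a)) := (q_smul_le.2 hz).trans (h.push_E k a).le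

theorem rt_dl (w : List M.Γ) : rt w • b .dl = rt w • b .E ⊓ b .dl := by
  induction w with
  | nil => exact (one_smul _ _).trans (inf_eq_right.2 (h.dlE.trans (one_smul _ _).ge)).symm
  | cons a w ih =>
    rw [rt_cons, mul_smul, mul_smul, ih, q_smul_inf, h.push_dl, inf_comm (b .dl), ← inf_assoc,
      inf_eq_left.2 (h.push_le_tp _ _ (h.rt_le_E w))]

theorem rt_dl' (w : List M.Γ) : rt w • pmW w • b .dl' = rt w • b .E ⊓ b .dl' := by
  induction w with
  | nil =>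
    exact (one_smul _ _).trans ((one_smul _ _).trans
      (inf_eq_right.2 (h.dlE'.trans (one_smul _ _).ge)).symm)
  | cons a w ih =>
    rw [rt_cons, pmW_cons, mul_smul, mul_smul, mul_smul,
      ← h.pm_rt a w ((q_smul_le.2 h.dlE').trans (h.pmW_E w).le), ih, q_smul_inf, q_smul_inf,
      ← mul_smul _ _ (b .dl'), h.pushPm, h.pm_rt a w le_rfl, h.pm_E, inf_comm (b .dl'),
      ← inf_assoc, inf_eq_left.2 (h.push_le_tp _ _ (h.rt_le_E w))]

theorem R0_dl : R0 b ⊓ b .dl = R0 b ⊓ b .dl' := by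
  have e : R0 b ⊓ b (.tp M.t none) = R0 b := inf_eq_left.2 (atT_le (fun _ => none) M.t)
  rw [← e, inf_assoc, inf_assoc, h.dlEq]

theorem c_dl (w : List M.Γ) : rt w • R0 b ⊓ b .dl = rt w • (R0 b ⊓ b .dl) := by
  rw [q_smul_inf, h.rt_dl, ← inf_assoc, inf_eq_left.2 (q_smul_le.2 h.R0_le_E)]

theorem c_dl' (w : List M.Γ) : rt w • R0 b ⊓ b .dl' = rt w • (R0 b ⊓ pmW w • b .dl) := by
  have e : R0 b ⊓ pmW w • b .dl = R0 b ⊓ pmW w • b .dl' := by
    conv_lhs => rw [← h.pmW_R0 w]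
    conv_rhs => rw [← h.pmW_R0 w]
    rw [← q_smul_inf, ← q_smul_inf, h.R0_dl]
  rw [e, q_smul_inf, h.rt_dl', ← inf_assoc, inf_eq_left.2 (q_smul_le.2 h.R0_le_E)]

theorem c_le_E (w : List M.Γ) : rt w • R0 b ≤ b .E := (q_smul_le.2 h.R0_le_E).trans (h.rt_le_E w)

theorem cm_c_dl (w : List M.Γ) : Cm (rt w • R0 b) (b .dl) := by
  induction w with
  | nil => exact (one_smul (FF M) (R0 b)).symm ▸ h.B0.cm (h.atT_mem _) (h.b_mem _)
  | cons a w ih =>
    rw [rt_cons, mul_smul]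
    refine QL.Cm.loc (h.push_le_tp _ _ (h.c_le_E w)) (h.cm _ _) ?_
    rw [← h.push_dl]
    exact ih.smul _

theorem cm_c_dl' (w : List M.Γ) : Cm (rt w • R0 b) (b .dl') := by
  induction w with
  | nil => exact (one_smul (FF M) (R0 b)).symm ▸ h.B0.cm (h.atT_mem _) (h.b_mem _)
  | cons a w ih =>
    rw [rt_cons, mul_smul]
    refine QL.Cm.loc (h.push_le_tp _ _ (h.c_le_E w)) (h.cm _ _) ?_
    have e : (Mv.pm a).w • R0 b = R0 b := by simpa [pmW] using h.pmW_R0 [a]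
    rw [← h.pushPm, ← e, ← h.pm_rt a w h.R0_le_E, ← mul_smul]
    exact ih.smul _

theorem cm_cd_dl' (w : List M.Γ) : Cm (rt w • R0 b ⊓ b .dl) (b .dl') :=
  ((h.cm_c_dl' w).symm.inf (h.cm _ _) (h.cm_c_dl w)).symm

theorem j_rt (w : List M.Γ) : Eqv (jW M * rt w) (rt w * qmW w * jW M) (b .E) := by
  induction w with
  | nil => exact Eqv.of_eq (by simp [rt, qmW]) _
  | cons a w ih =>
    have h1 := (h.jPush a).mul_right (rt w) (h.rt_le_E w)
    have h2 := ih.mul_left ((Mv.push M.t a).w * (Mv.qm a).w)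
    have h3 := ((h.pwL_comm (γ := (Mv.qm a).w) (fun k a' => (h.cQmPush a k a').on (h.leT _) le_rfl)
      (w.map fun a => (M.t, a))).mul_left (Mv.push M.t a).w).mul_right (qmW w * jW M)
      (e := b .E) (by rw [mul_smul, h.j_E, h.qmW_basic])
    rw [rt_cons, qmW_cons]
    simp only [mul_assoc] at h1 h2 h3 ⊢
    exact (h1.trans h2).trans h3

theorem qmW_triv {w : List M.Γ} (hw : M.phi w = 1) : Tv (qmW w) (b .T) := by
  have h0 : rt w • (R0 b ⊓ b .dl) ≤ b .dl ⊓ b .dl' := by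
    rw [← h.c_dl]
    exact le_inf inf_le_right ((h.cm_cd_dl' w).le_of_inf_compl
      (h.ver (b1 := true) (b2 := false) fun hc => nomatch hc.1 hw).le)
  have h1 : Eqv (1 * rt w) (jW M * rt w) (R0 b ⊓ b .dl) := h.jD.eqv.mul_right _ h0
  have h2 : Eqv (rt w * qmW w * 1) (rt w * qmW w * jW M) (R0 b ⊓ b .dl) :=
    (h.jT.eqv.mono (inf_le_left.trans (atT_le (fun _ => none) M.t))).mul_left _
  have h3 := (h1.trans ((h.j_rt w).mono (inf_le_left.trans h.R0_le_E))).trans h2.symm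
  rw [one_mul, mul_one] at h3
  have h4 : Eqv 1 (qmW w) (R0 b ⊓ b .dl) := Eqv.cancel_left (rt w) (by rwa [mul_one])
  have h5 := h4.mul_right (Mv.fr .C).w (e := b .T)
    ((h.wdom (.fr .C)).le.trans (le_inf (h.R_le_R0 _) h.rC))
  have h6 := h5.trans (h.qmW_comm (σ := .fr .C) (fun a => h.cQmFr a _ nofun) w)
  exact Eqv.tv (Eqv.cancel_left (Mv.fr .C).w (by rwa [mul_one, ← one_mul (Mv.fr .C).w]))

theorem pmW_triv {w : List M.Γ} (hw : M.phi w = 1) : Tv (pmW w) (b .E) := by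
  have h5 := (h.qmW_triv hw).eqv.mul_right (Mv.fr .D).w (e := b .E)
    ((h.wdom (.fr .D)).le.trans (h.leT _))
  have h6 := h5.trans (h.qmW_fD w)
  exact Eqv.tv (Eqv.cancel_left (Mv.fr .D).w (by rwa [mul_one, ← one_mul (Mv.fr .D).w]))

theorem pmW_eqv {u v : List M.Γ} (huv : M.phi u = M.phi v) : Eqv (pmW u) (pmW v) (b .E) := by
  obtain ⟨w, hw⟩ := h.good.surj (M.phi u)⁻¹
  refine Eqv.cancel_left (pmW w) ?_
  rw [← pmW_append, ← pmW_append]
  exact (h.pmW_triv (by simp [Mach.phi_append, hw])).eqv.symm.trans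
    (h.pmW_triv (by simp [Mach.phi_append, hw, huv])).eqv

theorem qmW_eqv {u v : List M.Γ} (huv : M.phi u = M.phi v) : Eqv (qmW u) (qmW v) (b .T) := by
  obtain ⟨w, hw⟩ := h.good.surj (M.phi u)⁻¹
  refine Eqv.cancel_left (qmW w) ?_
  rw [← qmW_append, ← qmW_append]
  exact (h.qmW_triv (by simp [Mach.phi_append, hw])).eqv.symm.trans
    (h.qmW_triv (by simp [Mach.phi_append, hw, huv])).eqv

theorem conj {π γ : FF M} (hc : Eqv (π * γ) (γ * π) (b .E)) {e e' r : L} (he : e ≤ b .E)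
    (h1 : γ • e = e' ⊓ r) (h2 : π • r = r) : γ • π • e = π • e' ⊓ r := by
  rw [← mul_smul, ← hc.smul_eq he, mul_smul, h1, q_smul_inf, h2]

theorem fA_pmW (w : List M.Γ) :
    (Mv.fr (M := M) .A).w • pmW w • b .dl = pmW w • b .dl ⊓ b (.R .A) :=
  h.conj (h.pmW_comm h.cPmA le_rfl w) h.dlE (h.frA.eq h.dlE) (h.pmW_RA w)

theorem fB_pmW (w : List M.Γ) :
    (Mv.fr (M := M) .B).w • pmW w • b .dl' = pmW w • b .dl ⊓ b (.R .B) :=
  h.conj (h.pmW_comm h.cPmB le_rfl w) h.dlE' (h.frB.eq h.dlE') (h.pmW_RB w)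

theorem dl_orth {w : List M.Γ} (hw : M.phi w ≠ 1) : b .dl ≤ (pmW w • b .dl)ᶜ := by
  have h0 : rt w • R0 b ⊓ b .dl ≤ (rt w • R0 b ⊓ b .dl')ᶜ :=
    ((h.cm_cd_dl' w).le_compl (h.ver (b1 := true) (b2 := true)
      fun hc => hc.2 hw ⟨rfl, rfl⟩).le).trans (QL.anti inf_le_right)
  rw [h.c_dl, h.c_dl', ← q_smul_compl, q_smul_le] at h0
  rw [← q_smul_le (γ := (Mv.fr (M := M) .A).w), q_smul_compl, h.fA_pmW, h.frA.eq h.dlE]
  exact (le_inf (inf_le_right.trans (h.R_le_R0 _)) inf_le_left).trans (h0.trans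
    (QL.anti (le_inf (inf_le_right.trans (h.R_le_R0 _)) inf_le_left)))

theorem dl'_orth {w : List M.Γ} (hw : M.phi w ≠ 1) : b .dl' ≤ (pmW w • b .dl')ᶜ := by
  rw [← q_smul_le (γ := (Mv.fr (M := M) .B).w), q_smul_compl, h.fB_pmW, h.frB.eq h.dlE']
  exact inf_le_left.trans ((h.dl_orth hw).trans (QL.anti inf_le_left))

theorem Pm_E (x : G) : Pm M x • b .E = b .E := h.pmW_E _

theorem Pm_tp (x : G) (k : M.Λ) (o : Option M.Γ) : Pm M x • b (.tp k o) = b (.tp k o) :=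
  h.pmW_tp _ k o

theorem Pm_R0 (x : G) : Pm M x • R0 b = R0 b := h.pmW_R0 _

theorem Pm_RA (x : G) : Pm M x • b (.R .A) = b (.R .A) := h.pmW_RA _

theorem Pm_RB (x : G) : Pm M x • b (.R .B) = b (.R .B) := h.pmW_RB _

theorem Pm_Dg (x : G) (d : Bool) : Pm M x • (b (.Dg d) ⊓ b .E) = b (.Dg d) ⊓ b .E :=
  word_fix (f := fun a => (Mv.pm a).w) (e := b (.Dg d) ⊓ b .E)
    (fun a => h.allDg (.pm a) d nofun) _

theorem Pm_mul (x y : G) : Eqv (Pm M x * Pm M y) (Pm M (x * y)) (b .E) := by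
  rw [Pm, Pm, Pm, ← pmW_append]
  exact h.pmW_eqv (by simp only [Mach.phi_append, phi_wd h.good])

theorem Pm_one : Tv (Pm M 1) (b .E) := h.pmW_triv (phi_wd h.good 1)

theorem Pm_val (a : M.Γ) : Eqv (Mv.pm a).w (Pm M (M.val a)) (b .E) := by
  have := h.pmW_eqv (u := [a]) (v := wd M (M.val a)) (by simp [phi_wd h.good])
  rwa [pmW_cons, show pmW ([] : List M.Γ) = 1 from rfl, mul_one] at this

theorem Pm_push (x : G) (k : M.Λ) (a : M.Γ) :
    Eqv (Pm M x * (Mv.push (M := M) k a).w) ((Mv.push (M := M) k a).w * Pm M x) (b .E) :=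
  h.pmW_comm (fun c => h.cPmPush c k a) le_rfl _

theorem Pm_fA (x : G) : Eqv (Pm M x * (Mv.fr .A).w) ((Mv.fr .A).w * Pm M x) (b .E) :=
  h.pmW_comm h.cPmA le_rfl _

theorem Pm_fB (x : G) : Eqv (Pm M x * (Mv.fr .B).w) ((Mv.fr .B).w * Pm M x) (b .E) :=
  h.pmW_comm h.cPmB le_rfl _

theorem Pm_dig (x : G) (d : Bool) :
    Eqv (Pm M x * (Mv.dig d).w) ((Mv.dig d).w * Pm M x) (b .E) :=
  word_comm (fun a => ((h.cDig d (.pm a) nofun).on (h.leT _) le_rfl).symm)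
    (fun a => (h.pm_E a).le) _

theorem Pm_j (x : G) : Eqv (Pm M x * jW M) (jW M * Pm M x) (b .E) :=
  word_comm (fun a => ((h.cJPm a).on le_rfl le_rfl).symm) (fun a => (h.pm_E a).le) _

theorem Qm_basic (x : G) (j : Pr M) : Qm M x • b j = b j := h.qmW_basic _ j

theorem Qm_mul (x y : G) : Eqv (Qm M x * Qm M y) (Qm M (x * y)) (b .T) := by
  rw [Qm, Qm, Qm, ← qmW_append]
  exact h.qmW_eqv (by simp only [Mach.phi_append, phi_wd h.good])

theorem Qm_one : Tv (Qm M 1) (b .T) := h.qmW_triv (phi_wd h.good 1)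

theorem Qm_val (a : M.Γ) : Eqv (Mv.qm a).w (Qm M (M.val a)) (b .T) := by
  have := h.qmW_eqv (u := [a]) (v := wd M (M.val a)) (by simp [phi_wd h.good])
  rwa [qmW_cons, show qmW ([] : List M.Γ) = 1 from rfl, mul_one] at this

theorem Qm_comm (x : G) (σ : Mv M) (h1 : ∀ a, σ ≠ .qm a) (h2 : σ ≠ .jj) (h3 : σ ≠ .fr .D) :
    Eqv (Qm M x * σ.w) (σ.w * Qm M x) (b σ.dom) := by
  refine h.qmW_comm (fun a => ?_) _
  cases σ with
  | push k c => exact h.cQmPush a k c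
  | pm c => exact h.cQmPm a c
  | qm c => exact (h1 c rfl).elim
  | jj => exact (h2 rfl).elim
  | fr y => exact h.cQmFr a y fun e => h3 (e ▸ rfl)
  | io => exact h.cQmIo a
  | mm => exact h.cQmMm a
  | dig d => exact (h.cDig d (.qm a) nofun).symm

theorem Qm_Pm (x y : G) : Eqv (Qm M x * Pm M y) (Pm M y * Qm M x) (b .E) :=
  (word_comm (fun a => (h.qmW_comm (σ := .pm a) (fun c => h.cQmPm c a) _).symm)
    (fun a => (h.pm_E a).le) _).symm

theorem Qm_fD (x : G) : Eqv (Qm M x * (Mv.fr .D).w) ((Mv.fr .D).w * Pm M x) (b .E) :=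
  h.qmW_fD _

theorem Qm_An (x : G) (n : ℕ) : Qm M x • An b n = An b n := by
  induction n with
  | zero => exact h.Qm_basic x _
  | succ n ih =>
    have e := (h.Qm_comm x .io nofun nofun nofun).smul_eq (h.An_succ_le_A n)
    rw [mul_smul, mul_smul] at e
    have e' : (Mv.io (M := M)).w • An b (n + 1) = An b n ⊓ b .Sh := smul_inv_smul _ _
    rw [e', q_smul_inf, ih, h.Qm_basic, ← e'] at e
    exact (smul_left_cancel _ e).symm

theorem Qm_mm (x : G) {z : L} (hz : Qm M x • z = z) :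
    Qm M x • mmW M • (z ⊓ b .A) = mmW M • (z ⊓ b .A) := by
  have e := (h.Qm_comm x .mm nofun nofun nofun).smul_eq (inf_le_right (a := z))
  rw [mul_smul, mul_smul, q_smul_inf (Qm M x), hz, h.Qm_basic] at e
  exact e

theorem Qm_Bn (x : G) (n : ℕ) : Qm M x • Bn b n = Bn b n := by
  induction n with
  | zero => exact h.Qm_basic x _
  | succ n ih => exact h.Qm_mm x ih

theorem Qm_Kn (x : G) (n : ℕ) : Qm M x • Kn b n = Kn b n := by
  induction n with
  | zero => exact h.Qm_basic x _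
  | succ n ih => rw [h.Kn_succ]; exact h.Qm_mm x ih

theorem Qm_Pm_basic (x y : G) (j : Pr M) (hj : b j ≤ b .E) :
    Qm M x • Pm M y • b j = Pm M y • b j := by
  rw [← mul_smul, (h.Qm_Pm x y).smul_eq hj, mul_smul, h.Qm_basic]

theorem dlx_one : dlx b 1 = b .dl := h.Pm_one.smul_eq h.dlE

theorem dlx'_one : dlx' b 1 = b .dl' := h.Pm_one.smul_eq h.dlE'

theorem dlx_le_E (x : G) : dlx b x ≤ b .E := (q_smul_le.2 h.dlE).trans (h.Pm_E x).le

theorem dlx'_le_E (x : G) : dlx' b x ≤ b .E := (q_smul_le.2 h.dlE').trans (h.Pm_E x).le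

theorem Pm_Pm {e : L} (he : e ≤ b .E) (x y : G) : Pm M x • Pm M y • e = Pm M (x * y) • e := by
  rw [← mul_smul, (h.Pm_mul x y).smul_eq he]

theorem dlx_orth {x y : G} (hxy : x ≠ y) : dlx b x ≤ (dlx b y)ᶜ := by
  have := q_smul_le (γ := Pm M x).2 (h.dl_orth (w := wd M (x⁻¹ * y)) (by
    rw [phi_wd h.good, ne_eq, inv_mul_eq_one]; exact hxy))
  rwa [q_smul_compl, ← Pm, h.Pm_Pm h.dlE, mul_inv_cancel_left] at this

theorem dlx'_orth {x y : G} (hxy : x ≠ y) : dlx' b x ≤ (dlx' b y)ᶜ := by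
  have := q_smul_le (γ := Pm M x).2 (h.dl'_orth (w := wd M (x⁻¹ * y)) (by
    rw [phi_wd h.good, ne_eq, inv_mul_eq_one]; exact hxy))
  rwa [q_smul_compl, ← Pm, h.Pm_Pm h.dlE', mul_inv_cancel_left] at this

theorem push_dlx (k : M.Λ) (a : M.Γ) (x : G) :
    (Mv.push (M := M) k a).w • dlx b x = dlx b x ⊓ b (.tp k (some a)) :=
  h.conj (h.Pm_push x k a) h.dlE (h.push_dl k a) (h.Pm_tp _ _ _)

theorem push_dlx' {k : M.Λ} (hk : k ≠ M.t) (a : M.Γ) (x : G) :
    (Mv.push (M := M) k a).w • dlx' b x = dlx' b x ⊓ b (.tp k (some a)) :=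
  h.conj (h.Pm_push x k a) h.dlE' ((h.pushDl' k a hk).eq h.dlE') (h.Pm_tp _ _ _)

theorem pusht_dlx' (a : M.Γ) (x : G) :
    (Mv.push (M := M) M.t a).w • dlx' b (x * M.val a) = dlx' b x ⊓ b (.tp M.t (some a)) := by
  rw [dlx', ← h.Pm_Pm h.dlE', ← (h.Pm_val a).smul_eq h.dlE']
  exact h.conj (h.Pm_push x _ a) ((q_smul_le.2 h.dlE').trans (h.pm_E a).le)
    ((mul_smul _ _ _).symm.trans (h.pushPm a)) (h.Pm_tp _ _ _)

theorem grp_ind {P : G → Prop} {x : G} (h0 : P x) (hs : ∀ y a, P y → P (y * M.val a)) (y : G) :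
    P y := by
  have key : ∀ w y, P y → P (y * M.phi w) := by
    intro w
    induction w with
    | nil => intro y hy; simpa using hy
    | cons a w ih => intro y hy; rw [Mach.phi_cons, ← mul_assoc]; exact ih _ (hs y a hy)
  have := key (wd M (x⁻¹ * y)) x h0
  rwa [phi_wd h.good, mul_inv_cancel_left] at this

theorem cm_dlx_dlx' (x y : G) : Cm (dlx b x) (dlx' b y) := by
  refine h.grp_ind (P := fun y => Cm (dlx b x) (dlx' b y)) (x := x) ((h.cm _ _).smul _)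
    (fun y a hy => ?_) y
  rw [← cm_smul_iff (Mv.push (M := M) M.t a).w, h.push_dlx, h.pusht_dlx']
  exact cm_inf_inf hy (h.Pm_tp x _ _ ▸ (h.cm _ _).smul _) (h.Pm_tp y _ _ ▸ (h.cm _ _).smul _)

theorem dlx_tp (x : G) : b (.tp M.t none) ⊓ dlx b x = b (.tp M.t none) ⊓ dlx' b x := by
  rw [← h.Pm_tp x, dlx, dlx', ← q_smul_inf, ← q_smul_inf, h.dlEq]

theorem fA_dlx (x : G) : (Mv.fr (M := M) .A).w • dlx b x = dlx b x ⊓ b (.R .A) := h.fA_pmW _

theorem fB_dlx (x : G) : (Mv.fr (M := M) .B).w • dlx' b x = dlx b x ⊓ b (.R .B) := h.fB_pmW _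

theorem dig_Pm (d : Bool) (x : G) {j : Pr M} (hj : ∀ d', j ≠ .Dg d') (hE : b j ≤ b .E) :
    (Mv.dig (M := M) d).w • Pm M x • b j = Pm M x • b j ⊓ b (.Dg d) := by
  have e : ∀ z, z ≤ b .E → z ⊓ (b (.Dg d) ⊓ b .E) = z ⊓ b (.Dg d) := fun z hz => by
    rw [inf_comm (b (.Dg d)), ← inf_assoc, inf_eq_left.2 hz]
  rw [h.conj (h.Pm_dig x d) hE ((h.dig_basic d hj).trans (e _ hE).symm) (h.Pm_Dg x d),
    e _ ((q_smul_le.2 hE).trans (h.Pm_E x).le)]

theorem dig_dlx (d : Bool) (x : G) :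
    (Mv.dig (M := M) d).w • dlx b x = dlx b x ⊓ b (.Dg d) := h.dig_Pm d x (j := .dl) nofun h.dlE

theorem dig_dlx' (d : Bool) (x : G) :
    (Mv.dig (M := M) d).w • dlx' b x = dlx' b x ⊓ b (.Dg d) :=
  h.dig_Pm d x (j := .dl') nofun h.dlE'

theorem j_dlx (x : G) : jW M • dlx b x = dlx b x :=
  (h.conj (h.Pm_j x) h.dlE (h.jDl.eq h.dlE) (h.Pm_E x)).trans (inf_eq_left.2 (h.dlx_le_E x))

theorem j_dlx' (x : G) : jW M • dlx' b x = dlx' b x :=
  (h.conj (h.Pm_j x) h.dlE' (h.jDl'.eq h.dlE') (h.Pm_E x)).trans (inf_eq_left.2 (h.dlx'_le_E x))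

theorem j_pusht (a : M.Γ) : Eqv (jW M * (Mv.push (M := M) M.t a).w)
    ((Mv.push (M := M) M.t a).w * Qm M (M.val a) * jW M) (b .E) :=
  (h.jPush a).trans (((h.Qm_val a).mul_left _).mul_right _ (h.j_E.le.trans (h.leT _)))

theorem j_on (x y : G) : Eqv (jW M) (Qm M (y⁻¹ * x)) (dlx b x ⊓ dlx' b y) := by
  refine h.grp_ind (P := fun y => Eqv (jW M) (Qm M (y⁻¹ * x)) (dlx b x ⊓ dlx' b y)) (x := x) ?_
    (fun y a hy => ?_) y
  · have h1 : Eqv (Pm M x * 1) (Pm M x * jW M) (b .dl ⊓ b .dl') := h.jD.eqv.mul_left _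
    have h2 := h1.trans ((h.Pm_j x).mono (inf_le_left.trans h.dlE))
    rw [mul_one, ← one_mul (Pm M x)] at h2
    have h3 := Eqv.cancel_right (Pm M x) (by simpa only [one_mul] using h2 :
      Eqv (1 * Pm M x) (jW M * Pm M x) (b .dl ⊓ b .dl'))
    rw [q_smul_inf] at h3
    rw [inv_mul_cancel]
    exact h3.symm.trans (h.Qm_one.eqv.mono (inf_le_left.trans ((h.dlx_le_E x).trans (h.leT _))))
  · have hE : dlx b x ⊓ dlx' b (y * M.val a) ≤ b .E := inf_le_left.trans (h.dlx_le_E x)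
    have h1 := hy.mul_right (Mv.push (M := M) M.t a).w (e := dlx b x ⊓ dlx' b (y * M.val a)) (by
      rw [q_smul_inf, h.push_dlx, h.pusht_dlx']; exact inf_le_inf inf_le_left inf_le_left)
    have h2 := (((h.j_pusht a).mono hE).symm.trans h1).trans
      ((h.Qm_comm (y⁻¹ * x) (.push M.t a) nofun nofun nofun).mono hE)
    rw [mul_assoc] at h2
    have h3 := (h.Qm_mul (M.val a) ((y * M.val a)⁻¹ * x)).mono (hE.trans (h.leT _))
    rw [show M.val a * ((y * M.val a)⁻¹ * x) = y⁻¹ * x by group] at h3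
    exact Eqv.cancel_left _ ((Eqv.cancel_left _ h2).trans h3.symm)

theorem R_cover (x : G) : R0 b ⊓ dlx b x ⊓ (b (.R .A))ᶜ ⊓ (b (.R .B))ᶜ ⊓
    (Pm M x • b (.R .C))ᶜ ⊓ (Pm M x • b (.R .D))ᶜ ≤ ⊥ := by
  rw [← h.Pm_R0 x, ← h.Pm_RA x, ← h.Pm_RB x, dlx, ← q_smul_bot (Pm M x)]
  simp only [← q_smul_compl, ← q_smul_inf]
  refine q_smul_le.2 (le_trans (le_inf ?_ (Finset.le_inf fun y _ => ?_)) h.rCov)
  · exact inf_le_left.trans (inf_le_left.trans (inf_le_left.trans inf_le_left))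
  · cases y
    · exact inf_le_left.trans (inf_le_left.trans (inf_le_left.trans inf_le_right))
    · exact inf_le_left.trans (inf_le_left.trans inf_le_right)
    · exact inf_le_left.trans inf_le_right
    · exact inf_le_right

end Hyp

end Vale.Agent.P193
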