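import Vale.Agent.P193.P2D

/-! Normal forms of germs exist. -/

namespace Vale.Agent.P193

open scoped Pointwise

set_option linter.unusedSectionVars false

variable {G : Type} [Group G] {M : Mach G}
variable {N : Type} [MulAction (FF M) N] {b : Pr M → Set N}

theorem mem_of_smul_eq {γ : FF M} {e e' : Set N} (H : γ • e = e') {y : N} :
    γ • y ∈ e' ↔ y ∈ e := by
  rw [← H]; exact Set.smul_mem_smul_set_iff

/-- units at a point -/
def UnitAt (b : Pr M → Set N) (y : N) (g : FF M) : Prop :=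
  (y ∈ b .E ∧ g ∈ EU M) ∨ (y ∈ b .T ∧ ∃ x, g = Qm M x)

namespace Hyp

variable (h : Hyp b)
include h

theorem mem_rn (p : Pu M) {y : N} : p.W • y ∈ p.rn b ↔ y ∈ b p.dm := Arr.mem_r (h.pu_ok p)

theorem mem_ran (σ : Mv M) {y : N} : σ.w • y ∈ b σ.ran ↔ y ∈ b σ.dom := Arr.mem_r (h.ok σ)

theorem inv_mem_dm (p : Pu M) {y : N} (hy : y ∈ p.rn b) : p.W⁻¹ • y ∈ b p.dm :=
  (h.mem_rn p).1 (by simpa using hy)

theorem an_mem (n : ℕ) : An b n ∈ h.PS2.Alg.car := h.PS2.base_mem (G2.an n)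

theorem R0_mem : R0 b ∈ h.PS2.Alg.car := h.PS2.Alg.finf_mem _ fun _ _ => h.basic_mem _

theorem germ {j : Pr M} {y : N} (hy : y ∈ b j) {g g' : FF M} (H : Eqv g g' (b j)) :
    Germ h y g g' := Germ.of_eqv (h.basic_mem j) hy H

theorem sq_pre {p q : Pu M} (H : Arr.HSq (p.arr b) (q.arr b)) {y : N} (h1 : p.W • y ∈ p.rn b)
    (h2 : p.W • y ∈ b q.dm) : y ∈ b p.dm ∧ y ∈ b q.dm :=
  (mem_of_smul_eq H.h1).1 ⟨h1, h2⟩

theorem sq_germ {p q : Pu M} (H : Arr.HSq (p.arr b) (q.arr b)) {y : N} (h1 : y ∈ b p.dm)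
    (h2 : y ∈ b q.dm) : Germ h y (p.W * q.W) (q.W * p.W) :=
  Germ.of_eqv (h.PS2.Alg.inf_mem (h.basic_mem _) (h.basic_mem _)) ⟨h1, h2⟩ H.eqv

theorem pull (p : Pu M) {ω : List (Pu M)} {y : N} (hω : Path b ω y)
    (hp : PW ω • y ∈ p.rn b) :
    (∃ ω', Path b ω' y ∧ PW ω' • y ∈ b p.dm ∧ Germ h y (p.W * PW ω') (PW ω)) ∨
      (y ∈ p.rn b ∧ (∀ q ∈ ω, p.sq q) ∧ Path b ω (p.W⁻¹ • y) ∧
        Germ h (p.W⁻¹ • y) (p.W * PW ω) (PW ω * p.W)) := by
  induction ω with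
  | nil => exact Or.inr ⟨by simpa using hp, by simp, trivial, Germ.of_eq _ (by simp)⟩
  | cons q ω ih =>
    obtain ⟨h1, h2⟩ := hω
    rw [PW_cons, mul_smul] at hp
    have hq := (h.mem_rn q).2 h2
    rcases h.pu_tri p q with H | rfl | ⟨hs, H⟩
    · exact (H hp hq).elim
    · exact Or.inl ⟨ω, h1, h2, Germ.of_eq _ (by simp)⟩
    · have h3 : PW ω • y ∈ p.rn b := ((mem_of_smul_eq H.h2).1 ⟨hq, hp⟩).2
      rcases ih h1 h3 with ⟨ω1, k1, k2, k3⟩ | ⟨k1, k2, k3, k4⟩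
      · have e : p.W • PW ω1 • y = PW ω • y := by rw [← mul_smul]; exact k3.eq
        have k5 := h.sq_pre H (e ▸ h3) (e ▸ h2)
        have k6 := h.sq_germ H k5.1 k5.2
        refine Or.inl ⟨q :: ω1, ⟨k1, k5.2⟩, ?_, ?_⟩
        · rw [← h.mem_rn, PW_cons, mul_smul, ← mul_smul p.W, k6.eq, mul_smul, e]
          exact hp
        · have := (k6.mul_right _).trans ((Germ.of_eq y (mul_assoc _ _ _)).trans (k3.mul_left q.W))
          simpa [mul_assoc] using this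
      · have e : p.W • PW ω • p.W⁻¹ • y = PW ω • y := by
          rw [← mul_smul, k4.eq, mul_smul, smul_inv_smul]
        have k5 := h.sq_pre H (e ▸ h3) (e ▸ h2)
        have k6 := h.sq_germ H k5.1 k5.2
        refine Or.inr ⟨k1, ?_, ⟨k3, k5.2⟩, ?_⟩
        · intro q' hq'
          rcases List.mem_cons.1 hq' with rfl | hq'
          · exact hs
          · exact k2 q' hq'
        · have := (k6.mul_right _).trans ((Germ.of_eq _ (mul_assoc _ _ _)).trans (k4.mul_left q.W))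
          simpa [mul_assoc] using this

/-! ### basic properties of normal forms -/

omit h in
theorem _root_.Vale.Agent.P193.NF.congr {h : Hyp b} {g g' : FF M} {y : N} (H : NF h g y)
    (e : Germ h y g g') : NF h g' y := by
  obtain ⟨y0, g1, g2, ω, ω', h1, h2, h3, rfl, h5⟩ := H
  exact ⟨y0, g1, g2, ω, ω', h1, h2, h3, rfl, (e.symm.mul_right _).trans h5⟩

omit h in
theorem _root_.Vale.Agent.P193.NF.comp {h : Hyp b} {g : FF M} {y : N} (H : NF h g y)
    {ω ω' : List (Pu M)} (hω : Path b ω y) (hω' : Path b ω' (g • y)) :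
    NF h (PW ω' * g * (PW ω)⁻¹) (PW ω • y) := by
  obtain ⟨y0, g1, g2, ρ, ρ', h1, h2, h3, rfl, h5⟩ := H
  refine ⟨y0, g1, g2, ω ++ ρ, ω' ++ ρ', h1, path_append.2 ⟨h2, by rwa [← mul_smul]⟩,
    path_append.2 ⟨h3, ?_⟩, by simp [PW_append, mul_smul], ?_⟩
  · rwa [← mul_smul, ← h5.eq, mul_smul]
  · simpa [PW_append, mul_assoc] using h5.mul_left (PW ω')

theorem nf_mid {y0 : N} {g1 g2 : FF M} (H : Mid b y0 g1 g2) : NF h (g2 * g1⁻¹) (g1 • y0) :=
  ⟨y0, g1, g2, [], [], H, trivial, trivial, by simp, Germ.of_eq _ (by simp)⟩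

theorem nf_path {y0 : N} {g1 g2 : FF M} (H : Mid b y0 g1 g2) {ω' : List (Pu M)}
    (hω : Path b ω' (g2 • y0)) : NF h (PW ω' * g2 * g1⁻¹) (g1 • y0) := by
  simpa [mul_assoc] using (h.nf_mid H).comp (ω := []) (ω' := ω') trivial (by simpa [mul_smul])

theorem reduce {s : FF M} {Q : N → Prop}
    (H : ∀ y0 g1 g2 ω', Mid b y0 g1 g2 → Path b ω' (g2 • y0) → Q (PW ω' • g2 • y0) →
      NF h (s * (PW ω' * g2 * g1⁻¹)) (g1 • y0))
    {g : FF M} {y : N} (hg : NF h g y) (hQ : Q (g • y)) : NF h (s * g) y := by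
  obtain ⟨y0, g1, g2, ω, ω', h1, h2, h3, rfl, h5⟩ := hg
  have e := h5.eq
  rw [mul_smul, mul_smul (PW ω')] at e
  have k := (H y0 g1 g2 ω' h1 h3 (e ▸ hQ)).comp h2 (ω' := []) trivial
  rw [mul_smul]
  refine k.congr ?_
  have h6 : Germ h ((PW ω * g1)⁻¹ • PW ω • g1 • y0) (g * (PW ω * g1)) (PW ω' * g2) := by
    simpa [mul_smul] using h5
  simpa [mul_assoc] using ((h6.mul_right _).mul_left s).symm

theorem nf_push (p : Pu M) {g : FF M} {y : N} (H : NF h g y) (hp : g • y ∈ b p.dm) :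
    NF h (p.W * g) y := by
  simpa using H.comp (ω := []) (ω' := [p]) trivial ⟨trivial, by simpa⟩

theorem mem_Sh {y : N} (h1 : y ∈ b .T) (h2 : y ∉ b .E) : y ∈ b .Sh := h.shT ⟨h1, h2⟩

theorem not_E {y : N} (h1 : y ∈ b .Sh) : y ∉ b .E := h.shE h1

theorem nf_of_unit {y : N} {g : FF M} (H : UnitAt b y g) : NF h g y := by
  by_cases hE : y ∈ b .E
  · have hg : g ∈ EU M := H.elim (fun k => k.2) fun ⟨_, x, e⟩ => e ▸ Qm_mem_EU x
    simpa using h.nf_mid (Mid.E hE hg)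
  · obtain ⟨h1, x, rfl⟩ := H.resolve_left fun k => hE k.1
    simpa using h.nf_mid (Mid.S x 0 0 (h.mem_Sh h1 hE) h1 h1)

theorem nf_one (y : N) : NF h 1 y := by
  by_cases hT : y ∈ b .T
  · exact (h.nf_of_unit (Or.inr ⟨hT, 1, rfl⟩)).congr (h.germ hT h.Qm_one.eqv.symm)
  · simpa using h.nf_mid (Mid.O hT)

/-! ### units -/

omit h in
theorem _root_.Vale.Agent.P193.UnitAt.eu {y : N} {g : FF M} (H : UnitAt b y g) : g ∈ EU M :=
  H.elim (fun k => k.2) fun ⟨_, x, e⟩ => e ▸ Qm_mem_EU x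

theorem EU_mem_E {g : FF M} (hg : g ∈ EU M) {y : N} : g • y ∈ b .E ↔ y ∈ b .E :=
  mem_of_smul_eq (h.EU_E hg)

theorem Qm_mem (x : G) (j : Pr M) {y : N} : Qm M x • y ∈ b j ↔ y ∈ b j :=
  mem_of_smul_eq (h.Qm_basic x j)

theorem unit_inv {y : N} {g : FF M} (H : UnitAt b y g) :
    ∃ g', UnitAt b (g • y) g' ∧ Germ h y (g' * g) 1 := by
  rcases H with ⟨h1, h2⟩ | ⟨h1, x, rfl⟩
  · exact ⟨g⁻¹, Or.inl ⟨(h.EU_mem_E h2).2 h1, inv_mem h2⟩, Germ.of_eq _ (by simp)⟩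
  · refine ⟨Qm M x⁻¹, Or.inr ⟨(h.Qm_mem x _).2 h1, _, rfl⟩, h.germ h1 ?_⟩
    exact (h.Qm_mul x⁻¹ x).trans (by simpa using h.Qm_one.eqv.symm)

theorem fr_germ {y : N} {g w : FF M} (hg : g ∈ EU M) (hw : w • y ∈ R0 b) :
    ∃ x x', Germ h y (g * w) (Pm M x * Qm M x' * w) :=
  let ⟨x, x', k⟩ := h.EU_on_R0 hg
  ⟨x, x', (Germ.of_eqv h.R0_mem hw k).mul_right w⟩

theorem ustep (q : Pu M) {y : N} (hy : y ∈ b q.dm) {g : FF M} (H : UnitAt b (q.W • y) g) :
    ∃ q' g', UnitAt b y g' ∧ g' • y ∈ b (Pu.dm q') ∧ Germ h y (g * q.W) (q'.W * g') := by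
  have hr := (h.mem_rn q).2 hy
  cases q with
  | push k a =>
    obtain ⟨g', h1, h2⟩ := h.EU_push k a H.eu
    exact ⟨.push k a, g', Or.inl ⟨hy, h1⟩, (h.EU_mem_E h1).2 hy, h.germ hy h2⟩
  | fA =>
    obtain ⟨x, x', k⟩ := h.fr_germ H.eu (h.R_le_R0 _ hr)
    have hu := mul_mem (Pm_mem_EU (M := M) x) (Qm_mem_EU x')
    refine ⟨.fA, _, Or.inl ⟨hy, hu⟩, (h.EU_mem_E hu).2 hy, k.trans (h.germ hy ?_)⟩
    have k1 := (h.Qm_comm x' (.fr .A) (by simp) (by simp) (by simp)).mul_left (Pm M x)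
    have k2 := (h.Pm_fA x).mul_right _ (h.Qm_basic x' .E).le
    simp only [mul_assoc] at k1 k2 ⊢
    exact k1.trans k2
  | fB =>
    obtain ⟨x, x', k⟩ := h.fr_germ H.eu (h.R_le_R0 _ hr)
    have hu := mul_mem (Pm_mem_EU (M := M) x) (Qm_mem_EU x')
    refine ⟨.fB, _, Or.inl ⟨hy, hu⟩, (h.EU_mem_E hu).2 hy, k.trans (h.germ hy ?_)⟩
    have k1 := (h.Qm_comm x' (.fr .B) (by simp) (by simp) (by simp)).mul_left (Pm M x)
    have k2 := (h.Pm_fB x).mul_right _ (h.Qm_basic x' .E).le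
    simp only [mul_assoc] at k1 k2 ⊢
    exact k1.trans k2
  | fC u =>
    have hR : Pm M u • b (.R .C) ≤ R0 b := (q_smul_le.2 (h.R_le_R0 _)).trans (h.Pm_R0 u).le
    obtain ⟨x, x', k⟩ := h.fr_germ H.eu (hR hr)
    refine ⟨.fC (x * u), _, Or.inr ⟨hy, x', rfl⟩, (h.Qm_mem _ _).2 hy, k.trans (h.germ hy ?_)⟩
    have hw : (Mv.fr (M := M) .C).w • b .T ≤ b .E :=
      (h.wdom (.fr .C)).le.trans ((h.R_le_R0 _).trans h.R0_le_E)
    have k1 := ((h.Qm_Pm x' u).mul_right _ hw).mul_left (Pm M x)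
    have k2 := (h.Qm_comm x' (.fr .C) (by simp) (by simp) (by simp)).mul_left (Pm M x * Pm M u)
    have k3 := (h.Pm_mul x u).mul_right ((Mv.fr (M := M) .C).w * Qm M x') (e := b .T)
      (by rw [mul_smul, h.Qm_basic]; exact hw)
    simp only [mul_assoc, Pu.W] at k1 k2 k3 ⊢
    exact k1.trans (k2.trans k3)
  | fD u =>
    have hR : Pm M u • b (.R .D) ≤ R0 b := (q_smul_le.2 (h.R_le_R0 _)).trans (h.Pm_R0 u).le
    obtain ⟨x, x', k⟩ := h.fr_germ H.eu (hR hr)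
    refine ⟨.fD (x * u), _, Or.inl ⟨hy, Pm_mem_EU x'⟩, (h.EU_mem_E (Pm_mem_EU x')).2 hy,
      k.trans (h.germ hy ?_)⟩
    have hw : (Mv.fr (M := M) .D).w • b .E ≤ b .E :=
      (h.wdom (.fr .D)).le.trans ((h.R_le_R0 _).trans h.R0_le_E)
    have k1 := ((h.Qm_Pm x' u).mul_right _ hw).mul_left (Pm M x)
    have k2 := (h.Qm_fD x').mul_left (Pm M x * Pm M u)
    have k3 := (h.Pm_mul x u).mul_right ((Mv.fr (M := M) .D).w * Pm M x') (e := b .E)
      (by rw [mul_smul, h.Pm_E]; exact hw)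
    simp only [mul_assoc, Pu.W] at k1 k2 k3 ⊢
    exact k1.trans (k2.trans k3)
  | io =>
    obtain ⟨-, x, rfl⟩ := H.resolve_left fun k => h.not_E hr k.1
    exact ⟨.io, _, Or.inr ⟨h.leT _ hy, x, rfl⟩, (h.Qm_mem _ _).2 hy,
      h.germ hy (h.Qm_comm x .io (by simp) (by simp) (by simp))⟩
  | dig d =>
    rcases H with ⟨h1, h2⟩ | ⟨-, x, rfl⟩
    · have hE : y ∈ b .E := ((mem_of_smul_eq (h.digAll d .E (by simp))).1 ⟨h1, hr⟩).1
      obtain ⟨g', k1, k2⟩ := h.EU_dig d h2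
      exact ⟨.dig d, g', Or.inl ⟨hE, k1⟩, h.leT _ ((h.EU_mem_E k1).2 hE), h.germ hE k2⟩
    · exact ⟨.dig d, _, Or.inr ⟨hy, x, rfl⟩, (h.Qm_mem _ _).2 hy,
        h.germ hy (h.Qm_comm x (.dig d) (by simp) (by simp) (by simp))⟩
  | flip => exact (hr (H.elim (fun k => h.leT _ k.1) fun k => k.1)).elim

theorem upath {ω : List (Pu M)} {y : N} (hω : Path b ω y) {g : FF M} (H : UnitAt b (PW ω • y) g) :
    ∃ ω' g', UnitAt b y g' ∧ Path b ω' (g' • y) ∧ Germ h y (g * PW ω) (PW ω' * g') := by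
  induction ω generalizing g with
  | nil => exact ⟨[], g, by simpa using H, trivial, Germ.of_eq _ (by simp)⟩
  | cons q ω ih =>
    rw [PW_cons, mul_smul] at H
    obtain ⟨q', g1, k1, k2, k3⟩ := h.ustep q hω.2 H
    obtain ⟨ω', g', l1, l2, l3⟩ := ih hω.1 k1
    refine ⟨q' :: ω', g', l1, ⟨l2, by rwa [← mul_smul, ← l3.eq, mul_smul]⟩, ?_⟩
    have := (k3.mul_right _).trans ((Germ.of_eq _ (mul_assoc _ _ _)).trans (l3.mul_left q'.W))
    simpa [mul_assoc] using this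

theorem mem_An_succ {n : ℕ} {y : N} : y ∈ An b (n + 1) ↔ y ∈ b .A ∧ mmW M • y ∈ An b n := by
  rw [h.An_succ, Set.mem_inv_smul_set_iff]
  exact ⟨fun k => ⟨(h.mem_ran .mm).1 k.2, k.1⟩, fun k => ⟨k.2, (h.mem_ran .mm).2 k.1⟩⟩

theorem mem_An_succ' {n : ℕ} {y : N} : y ∈ An b (n + 1) ↔ y ∈ b .A ∧ ioW M • y ∈ An b n := by
  rw [An, Set.mem_inv_smul_set_iff]
  exact ⟨fun k => ⟨(h.mem_ran .io).1 k.2, k.1⟩, fun k => ⟨k.2, (h.mem_ran .io).2 k.1⟩⟩

theorem mem_An_add {n m : ℕ} {y : N} (hy : y ∈ An b n) :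
    y ∈ An b (m + n) ↔ mmW M ^ n • y ∈ An b m := by
  induction n generalizing y with
  | zero => simp
  | succ n ih =>
    have := h.mem_An_succ.1 hy
    rw [← add_assoc, h.mem_An_succ, ih this.2, pow_succ, mul_smul]
    exact and_iff_right this.1

theorem pow_pres {j : Pr M} (hj : Pres b .mm j j) {n : ℕ} {y : N} (hy : y ∈ An b n) :
    mmW M ^ n • y ∈ b j ↔ y ∈ b j := by
  induction n generalizing y with
  | zero => simp
  | succ n ih =>
    have := h.mem_An_succ.1 hy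
    rw [pow_succ, mul_smul, ih this.2]
    exact ⟨fun k => ((mem_of_smul_eq hj).1 ⟨k, (h.mem_ran .mm).2 this.1⟩).1,
      fun k => ((mem_of_smul_eq hj).2 ⟨k, this.1⟩).1⟩

theorem pow_Sh {n : ℕ} {y : N} (hy : y ∈ An b n) : mmW M ^ n • y ∈ b .Sh ↔ y ∈ b .Sh :=
  h.pow_pres h.mm_Sh hy

theorem mid_Sh {y0 : N} (x : G) {m : ℕ} (h1 : y0 ∈ b .Sh) (h2 : y0 ∈ An b m) :
    (Qm M x * mmW M ^ m) • y0 ∈ b .Sh := by
  rw [mul_smul, h.Qm_mem, h.pow_Sh h2]; exact h1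

theorem umid {y0 : N} {g1 g2 : FF M} (H : Mid b y0 g1 g2) {g : FF M} (hg : UnitAt b (g2 • y0) g) :
    ∃ g2', Mid b y0 g1 g2' ∧ Germ h y0 (g * g2) g2' := by
  cases H with
  | E h1 h2 => exact ⟨_, Mid.E h1 (mul_mem hg.eu h2), Germ.refl _ _⟩
  | S x n m h1 h2 h3 =>
    obtain ⟨-, x', rfl⟩ := hg.resolve_left fun k => h.not_E (h.mid_Sh x h1 h3) k.1
    refine ⟨_, Mid.S (x' * x) n m h1 h2 h3, ?_⟩
    rw [← mul_assoc]
    exact (h.germ (h.leT _ ((h.pow_Sh h3).2 h1)) (h.Qm_mul x' x)).mul_right _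
  | O h1 =>
    rw [one_smul] at hg
    exact (h1 (hg.elim (fun k => h.leT _ k.1) fun k => k.1)).elim

theorem nf_unit {s g : FF M} {y : N} (H : NF h g y) (hs : UnitAt b (g • y) s) : NF h (s * g) y := by
  refine h.reduce (Q := fun z => UnitAt b z s) ?_ H hs
  intro y0 g1 g2 ω' h1 h2 h3
  obtain ⟨ω1, g', k1, k2, k3⟩ := h.upath h2 h3
  obtain ⟨g2', l1, l2⟩ := h.umid h1 k1
  refine (h.nf_path l1 (ω' := ω1) (by rwa [← l2.eq, mul_smul])).congr ?_
  have := ((k3.mul_right _).trans ((Germ.of_eq _ (mul_assoc _ _ _)).trans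
    (l2.mul_left (PW ω1)))).symm
  have e : Germ h (g1⁻¹ • g1 • y0) (PW ω1 * g2') (s * PW ω' * g2) := by simpa using this
  simpa [mul_assoc] using e.mul_right _

/-! ### pulling back -/

theorem dig_pow (d : Bool) {n : ℕ} {y : N} (hy : y ∈ An b n) :
    Germ h y ((Mv.dig d).w * mmW M ^ n) (mmW M ^ n * (Mv.dig d).w) := by
  induction n generalizing y with
  | zero => exact Germ.of_eq _ (by simp)
  | succ n ih =>
    have k := h.mem_An_succ.1 hy
    have k1 := (ih k.2).mul_right _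
    have k2 := (h.germ k.1 ((h.cDig d .mm (by simp)).mono (le_inf (h.leT _) le_rfl))).mul_left
      (mmW M ^ n)
    simp only [pow_succ, mul_assoc] at k1 k2 ⊢
    exact k1.trans k2

theorem io_pow {n : ℕ} {y : N} (hy : y ∈ An b (n + 1)) :
    Germ h y (ioW M * mmW M ^ n) (mmW M ^ n * ioW M) := by
  induction n generalizing y with
  | zero => exact Germ.of_eq _ (by simp)
  | succ n ih =>
    have k := h.mem_An_succ.1 hy
    have k1 := (ih k.2).mul_right _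
    have h2 : y ∈ An b 2 := by
      clear ih k k1
      induction n with
      | zero => exact hy
      | succ n ih => exact ih (h.An_anti _ hy)
    have k2 := (Germ.of_eqv (h.an_mem 2) h2 (g := ioW M * mmW M) (g' := mmW M * ioW M) (by
      have := h.ioMm
      rwa [← h.An_one] at this)).mul_left (mmW M ^ n)
    simp only [pow_succ, mul_assoc] at k1 k2 ⊢
    exact k1.trans k2

theorem rn_le_E_or (p : Pu M) : p.rn b ≤ b .E ∨ p = .io ∨ (∃ d, p = .dig d) ∨ p = .flip := by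
  have hR : ∀ x, b (.R x) ≤ b .E := fun x => (h.R_le_R0 x).trans h.R0_le_E
  cases p with
  | push k a => exact Or.inl (h.tpE _ _)
  | fA => exact Or.inl (hR _)
  | fB => exact Or.inl (hR _)
  | fC x => exact Or.inl ((q_smul_le.2 (hR _)).trans (h.Pm_E x).le)
  | fD x => exact Or.inl ((q_smul_le.2 (hR _)).trans (h.Pm_E x).le)
  | io => simp
  | dig d => simp
  | flip => simp

theorem sh_cases {p : Pu M} {y : N} (h1 : y ∈ b .Sh) (h2 : y ∈ p.rn b) :
    p = .io ∨ ∃ d, p = .dig d := by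
  rcases h.rn_le_E_or p with k | k | k | rfl
  · exact (h.not_E h1 (k h2)).elim
  · exact Or.inl k
  · exact Or.inr k
  · exact (h2 (h.leT _ h1)).elim

theorem nf_inv_push (p : Pu M) {y : N} (hy : y ∈ p.rn b) : NF h p.W⁻¹ y := by
  simpa using (h.nf_one (p.W⁻¹ • y)).comp (ω := [p]) (ω' := [])
    ⟨trivial, by simpa using h.inv_mem_dm p hy⟩ trivial

theorem unit_pull (p : Pu M) {y : N} {g : FF M} (H : UnitAt b y g) (hp : g • y ∈ p.rn b) :
    NF h (p.W⁻¹ * g) y := by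
  obtain ⟨g', k1, k2⟩ := h.unit_inv H
  have hd := h.inv_mem_dm p hp
  obtain ⟨q, g'', l1, l2, l3⟩ := h.ustep p hd (g := g') (by simpa using k1)
  obtain ⟨g3, m1, m2⟩ := h.unit_inv l1
  have e : q.W • g'' • p.W⁻¹ • g • y = y := by
    rw [← mul_smul q.W, ← l3.eq, mul_smul, smul_inv_smul, ← mul_smul, k2.eq, one_smul]
  have n1 := (h.nf_of_unit m1).comp (ω := [q]) (ω' := []) ⟨trivial, by simpa using l2⟩ trivial
  simp only [PW_cons, PW_nil, mul_one, one_mul, e] at n1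
  refine n1.congr ?_
  have a1 := k2.symm.mul_left (g3 * q.W⁻¹)
  have a2 : Germ h y (g' * p.W * (p.W⁻¹ * g)) (q.W * g'' * (p.W⁻¹ * g)) :=
    Germ.mul_right _ (by rwa [mul_smul])
  have a3 : Germ h y (g3 * g'' * (p.W⁻¹ * g)) (1 * (p.W⁻¹ * g)) :=
    Germ.mul_right _ (by rwa [mul_smul])
  have a4 := a2.mul_left (g3 * q.W⁻¹)
  simp only [mul_assoc, mul_inv_cancel_left, inv_mul_cancel_left, mul_one, one_mul] at a1 a3 a4 ⊢
  exact a1.trans (a4.trans a3)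

theorem midpull {p : Pu M} (hp : p ≠ .io) {y0 : N} {g1 g2 : FF M} (H : Mid b y0 g1 g2)
    (hr : g2 • y0 ∈ p.rn b) : NF h (p.W⁻¹ * g2 * g1⁻¹) (g1 • y0) := by
  cases H with
  | E h1 h2 => simpa using h.unit_pull p (Or.inl ⟨h1, h2⟩) hr
  | O h1 => simpa using h.nf_inv_push p (by simpa using hr)
  | S x n m h1 h2 h3 =>
    obtain ⟨d, rfl⟩ := (h.sh_cases (h.mid_Sh x h1 h3) hr).resolve_left hp
    have hd : y0 ∈ b (.Dg d) := by
      rwa [Pu.rn, mul_smul, h.Qm_mem, h.pow_pres (h.allDg .mm d (by simp)) h3] at hr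
    obtain ⟨y1, rfl⟩ : ∃ y1, y0 = (Mv.dig (M := M) d).w • y1 := ⟨_, (smul_inv_smul _ _).symm⟩
    have k1 : y1 ∈ b .Sh := ((mem_of_smul_eq (h.digAll d .Sh (by simp))).1 ⟨h1, hd⟩).1
    have k2 : y1 ∈ An b n := (mem_of_smul_eq (h.dig_An d n)).1 ⟨h2, hd⟩
    have k3 : y1 ∈ An b m := (mem_of_smul_eq (h.dig_An d m)).1 ⟨h3, hd⟩
    refine ⟨y1, _, _, [.dig d], [], Mid.S x n m k1 k2 k3,
      ⟨trivial, by simpa [Pu.dm] using h.leT _ ((h.pow_Sh k2).2 k1)⟩, trivial, ?_, ?_⟩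
    · simpa [Pu.W, mul_smul] using (h.dig_pow d k2).eq
    · have a1 := (h.dig_pow d k2).mul_left
        ((Mv.dig d).w⁻¹ * (Qm M x * mmW M ^ m) * (mmW M ^ n)⁻¹)
      have a2 := (h.dig_pow d k3).symm.mul_left ((Mv.dig d).w⁻¹ * Qm M x)
      have a3 := ((h.germ (h.leT _ ((h.pow_Sh k3).2 k1))
        (h.Qm_comm x (.dig d) (by simp) (by simp) (by simp))).mul_right _).mul_left (Mv.dig d).w⁻¹
      simp only [mul_assoc, inv_mul_cancel_left, PW_cons, PW_nil, Pu.W, mul_one,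
        one_mul] at a1 a2 a3 ⊢
      exact a1.trans (a2.trans a3)

theorem nf_pull_of {p : Pu M}
    (hp : ∀ (y0 : N) (g1 g2 : FF M), Mid b y0 g1 g2 → g2 • y0 ∈ p.rn b →
      NF h (p.W⁻¹ * g2 * g1⁻¹) (g1 • y0))
    {g : FF M} {y : N} (H : NF h g y) (hr : g • y ∈ p.rn b) : NF h (p.W⁻¹ * g) y := by
  refine h.reduce (Q := fun z => z ∈ p.rn b) ?_ H hr
  intro y0 g1 g2 ω' h1 h2 h3
  rcases h.pull p h2 h3 with ⟨ω1, k1, -, k3⟩ | ⟨k1, -, k3, k4⟩
  · refine (h.nf_path h1 k1).congr ?_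
    have e : Germ h ((g2 * g1⁻¹) • g1 • y0) (p.W * PW ω1) (PW ω') := by simpa [mul_smul] using k3
    simpa [mul_assoc] using (e.mul_right _).mul_left p.W⁻¹
  · have n1 := (hp y0 g1 g2 h1 k1).comp (ω := []) (ω' := ω') trivial (by simpa [mul_smul] using k3)
    simp only [PW_nil, one_smul, inv_one, mul_one] at n1
    refine n1.congr ?_
    have e : Germ h ((p.W⁻¹ * g2 * g1⁻¹) • g1 • y0) (p.W * PW ω') (PW ω' * p.W) := by
      simpa [mul_smul] using k4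
    simpa [mul_assoc] using (e.mul_right _).mul_left p.W⁻¹

theorem nf_pull' {p : Pu M} (hp : p ≠ .io) {g : FF M} {y : N} (H : NF h g y)
    (hr : g • y ∈ p.rn b) : NF h (p.W⁻¹ * g) y :=
  h.nf_pull_of (fun _ _ _ => h.midpull hp) H hr

theorem nf_pwL (l : List (M.Λ × M.Γ)) {g : FF M} {y : N} (H : NF h g y) (hE : g • y ∈ b .E) :
    NF h (pwL l * g) y := by
  induction l with
  | nil => simpa [pwL] using H
  | cons p l ih =>
    have := h.nf_push (.push p.1 p.2) ih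
      (by rw [mul_smul]; exact h.pwL_le_E l (Set.smul_mem_smul_set hE))
    simpa [pwL, Pu.W, mul_assoc] using this

theorem nf_pwL_inv (l : List (M.Λ × M.Γ)) {g : FF M} {y : N} (H : NF h g y)
    (hE : g • y ∈ pwL l • b .E) : NF h ((pwL l)⁻¹ * g) y := by
  induction l generalizing g with
  | nil => simpa [pwL] using H
  | cons p l ih =>
    have e : pwL (p :: l) = (Pu.push p.1 p.2).W * pwL l := by simp [pwL, Pu.W]
    rw [e, mul_smul, Set.mem_smul_set_iff_inv_smul_mem] at hE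
    have k : g • y ∈ (Pu.push p.1 p.2).rn b := by
      have := (h.mem_rn (.push p.1 p.2)).2 (h.pwL_le_E l hE)
      simpa using this
    have := ih (h.nf_pull' (by simp) H k) (by rwa [mul_smul])
    rwa [e, mul_inv_rev, mul_assoc]

theorem piece_alg (τ : M.Λ → Option M.Γ) (b1 b2 : Bool) : piece b τ b1 b2 ∈ h.PS2.Alg.car :=
  h.PS2.Alg.inf_mem (h.PS2.Alg.inf_mem (h.PS2.Alg.finf_mem _ fun _ _ => h.basic_mem _)
    (h.PS2.Alg.sg_mem _ (h.basic_mem _))) (h.PS2.Alg.sg_mem _ (h.basic_mem _))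

theorem mm_germ {y : N} (hE : y ∈ b .E) (hA : y ∈ b .A) :
    ∃ l l' : List (M.Λ × M.Γ), y ∈ pwL l' • b .E ∧ Germ h y (mmW M) (pwL l * (pwL l')⁻¹) := by
  classical
  obtain ⟨τ, hτ⟩ : ∃ τ, y ∈ atT b τ := by
    by_contra k
    push Not at k
    refine h.atT_cover (a := y) ⟨hE, ?_⟩
    simpa [Finset.inf_set_eq_iInter] using k
  have hs : ∀ e : Set N, y ∈ sg (decide (y ∈ e)) e := fun e => by
    by_cases k : y ∈ e <;> simp [k, sg]
  have hp : y ∈ piece b τ (decide (y ∈ b .dl)) (decide (y ∈ b .dl')) := ⟨⟨hτ, hs _⟩, hs _⟩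
  have hl : M.step τ (decide (y ∈ b .dl)) (decide (y ∈ b .dl')) ≠ none :=
    fun k => h.dead _ _ _ k hp hA
  exact ⟨_, _, h.atT_le_rw τ hτ, Germ.of_eqv (h.piece_alg _ _ _) hp (h.run _ _ _ hl)⟩

theorem nf_mmE {g : FF M} {y : N} (H : NF h g y) (hE : g • y ∈ b .E) (hA : g • y ∈ b .A) :
    NF h (mmW M * g) y := by
  obtain ⟨l, l', k1, k2⟩ := h.mm_germ hE hA
  have := h.nf_pwL l (h.nf_pwL_inv l' H k1)
    (by rw [mul_smul]; exact Set.mem_smul_set_iff_inv_smul_mem.1 k1)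
  exact this.congr (by simpa [mul_assoc] using (k2.mul_right g).symm)

theorem nf_mmE_inv {g : FF M} {y : N} (H : NF h g y) (hE : g • y ∈ b .E) (hB : g • y ∈ b .B) :
    NF h ((mmW M)⁻¹ * g) y := by
  have k : (mmW M)⁻¹ • g • y ∈ b .E ⊓ b .A :=
    (mem_of_smul_eq h.mmE).1 (by simpa [mmW] using ⟨hE, hB⟩)
  obtain ⟨l, l', k1, k2⟩ := h.mm_germ k.1 k.2
  have e : g • y = pwL l • (pwL l')⁻¹ • (mmW M)⁻¹ • g • y := by
    rw [← mul_smul (pwL l), ← k2.eq, smul_inv_smul]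
  have k3 := Set.mem_smul_set_iff_inv_smul_mem.1 k1
  have := h.nf_pwL l' (h.nf_pwL_inv l H (e ▸ Set.smul_mem_smul_set k3))
    (by rw [mul_smul, e, inv_smul_smul]; exact k3)
  refine this.congr ?_
  have k4 := k2.inv
  rw [smul_inv_smul] at k4
  simpa [mul_assoc] using (k4.mul_right g).symm

theorem nf_powE (n : ℕ) {g : FF M} {y : N} (H : NF h g y) (hE : g • y ∈ b .E)
    (hA : g • y ∈ An b n) : NF h (mmW M ^ n * g) y := by
  induction n generalizing g with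
  | zero => simpa using H
  | succ n ih =>
    have k := h.mem_An_succ.1 hA
    have := ih (h.nf_mmE H hE k.1)
      (by rw [mul_smul]; exact ((mem_of_smul_eq h.mmE).2 ⟨hE, k.1⟩).1) (by rw [mul_smul]; exact k.2)
    rwa [pow_succ, mul_assoc]

theorem nf_powE_inv (n : ℕ) {y : N} (hE : y ∈ b .E) (hA : y ∈ An b n) :
    NF h (mmW M ^ n)⁻¹ (mmW M ^ n • y) := by
  induction n generalizing y with
  | zero => simpa using h.nf_one y
  | succ n ih =>
    have k := h.mem_An_succ.1 hA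
    have k1 := (mem_of_smul_eq h.mmE).2 ⟨hE, k.1⟩
    have := h.nf_mmE_inv (ih k1.1 k.2) (by simpa using k1.1) (by simpa [Mv.ran] using k1.2)
    rwa [pow_succ, mul_inv_rev, mul_smul]

theorem midpull_io {y0 : N} {g1 g2 : FF M} (H : Mid b y0 g1 g2)
    (hr : g2 • y0 ∈ (Pu.io (M := M)).rn b) :
    NF h ((Pu.io (M := M)).W⁻¹ * g2 * g1⁻¹) (g1 • y0) := by
  cases H with
  | E h1 h2 => exact (h.not_E hr ((h.EU_mem_E h2).2 h1)).elim
  | O h1 => exact (h1 (h.leT .Sh (by simpa [Pu.rn] using hr))).elim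
  | S x n m h1 h2 h3 =>
    obtain ⟨y1, rfl⟩ : ∃ y1, y0 = ioW M • y1 := ⟨_, (smul_inv_smul _ _).symm⟩
    have k1 : y1 ∈ b .A := (h.mem_ran .io).1 h1
    have k2 : y1 ∈ An b (n + 1) := h.mem_An_succ'.2 ⟨k1, h2⟩
    have k3 : y1 ∈ An b (m + 1) := h.mem_An_succ'.2 ⟨k1, h3⟩
    have k2' := h.An_anti _ k2
    have k3' := h.An_anti _ k3
    have n1 : NF h (Qm M x * mmW M ^ m * (mmW M ^ n)⁻¹) (mmW M ^ n • y1) := by
      by_cases hE : y1 ∈ b .E
      · have a1 := h.nf_powE m (h.nf_powE_inv n hE k2') (by simpa using hE) (by simpa using k3')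
        have a2 := h.nf_unit a1 (s := Qm M x) (Or.inr ⟨by
          simpa [mul_smul, An] using (h.mem_An_add (m := 0) k3').1 (by simpa using k3'), x, rfl⟩)
        rwa [mul_assoc]
      · exact h.nf_mid (Mid.S x n m (h.mem_Sh (h.leT _ k1) hE) k2' k3')
    have hA : ∀ {n}, y1 ∈ An b (n + 1) → mmW M ^ n • y1 ∈ b .A := fun {n} k => by
      rw [← h.An_one, ← h.mem_An_add (h.An_anti _ k), add_comm]; exact k
    have n2 := n1.comp (ω := [.io]) (ω' := []) ⟨trivial, by simpa [Pu.dm] using hA k2⟩ trivial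
    have e : ioW M • mmW M ^ n • y1 = mmW M ^ n • ioW M • y1 := by
      simpa [mul_smul] using (h.io_pow k2).eq
    simp only [PW_cons, PW_nil, mul_one, one_mul, Pu.W, e] at n2 ⊢
    refine n2.congr ?_
    have a1 := ((h.io_pow k2).inv).mul_left (Qm M x * mmW M ^ m)
    rw [mul_smul, e] at a1
    have a2 := ((h.germ (hA k3) (h.Qm_comm x .io (by simp) (by simp) (by simp))).mul_right _).symm
    have a3 := (a2.trans (by simpa [mul_assoc, ioW] using (h.io_pow k3).mul_left (Qm M x))).mul_left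
      (ioW M)⁻¹
    have a4 : Germ h (((ioW M)⁻¹ * (mmW M ^ n)⁻¹) • mmW M ^ n • ioW M • y1)
        (Qm M x * mmW M ^ m) ((ioW M)⁻¹ * (Qm M x * (mmW M ^ m * ioW M))) := by
      simpa [mul_smul, mul_assoc, ioW] using a3
    have a5 := a4.mul_right _
    simp only [mul_assoc, mul_inv_rev, mul_inv_cancel_left] at a1 a5 ⊢
    exact a1.trans a5

theorem nf_pull (p : Pu M) {g : FF M} {y : N} (H : NF h g y) (hr : g • y ∈ p.rn b) :
    NF h (p.W⁻¹ * g) y := by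
  by_cases hp : p = .io
  · subst hp
    exact h.nf_pull_of (fun _ _ _ => h.midpull_io) H hr
  · exact h.nf_pull' hp H hr

/-! ### the machine step -/

theorem io_mm_germ {y : N} (hy : y ∈ An b 2) : Germ h y (ioW M * mmW M) (mmW M * ioW M) := by
  simpa using h.io_pow (n := 1) hy

theorem dig_mm_germ (d : Bool) {y : N} (hy : y ∈ b .A) :
    Germ h y ((Mv.dig d).w * mmW M) (mmW M * (Mv.dig d).w) :=
  h.germ hy ((h.cDig d .mm (by simp)).mono (le_inf (h.leT _) le_rfl))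

theorem mid_of_Sh {y0 : N} {g1 g2 : FF M} (H : Mid b y0 g1 g2) (hs : g2 • y0 ∈ b .Sh) :
    ∃ x n m, y0 ∈ b .Sh ∧ y0 ∈ An b n ∧ y0 ∈ An b m ∧ g1 = mmW M ^ n ∧
      g2 = Qm M x * mmW M ^ m := by
  cases H with
  | E h1 h2 => exact (h.not_E hs ((h.EU_mem_E h2).2 h1)).elim
  | O h1 => exact (h1 (h.leT .Sh (by simpa using hs))).elim
  | S x n m h1 h2 h3 => exact ⟨x, n, m, h1, h2, h3, rfl, rfl⟩

theorem Qm_mm_germ (x : G) {y : N} (hy : y ∈ b .A) :
    Germ h y (Qm M x * mmW M) (mmW M * Qm M x) :=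
  h.germ hy (h.Qm_comm x .mm (by simp) (by simp) (by simp))

theorem nf_mm {g : FF M} {y : N} (H : NF h g y) (hA : g • y ∈ b .A) : NF h (mmW M * g) y := by
  refine h.reduce (Q := fun z => z ∈ b .A) ?_ H hA
  intro y0 g1 g2 ω' h1 h2 h3
  have val : ∀ ω : List (Pu M), (PW ω * g2 * g1⁻¹) • g1 • y0 = PW ω • g2 • y0 := fun ω => by
    simp [mul_smul]
  induction ω' with
  | nil =>
    by_cases hE : PW ([] : List (Pu M)) • g2 • y0 ∈ b .E
    · exact h.nf_mmE (h.nf_path h1 h2) (val _ ▸ hE) (val _ ▸ h3)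
    simp only [PW_nil, one_smul, one_mul] at h3 hE ⊢
    obtain ⟨x, n, m, k1, k2, k3, rfl, rfl⟩ := h.mid_of_Sh h1 (h.mem_Sh (h.leT _ h3) hE)
    rw [mul_smul, h.Qm_mem] at h3
    have k4 : y0 ∈ An b (m + 1) := by
      rw [add_comm, h.mem_An_add k3, h.An_one]; exact h3
    refine (h.nf_mid (Mid.S x n (m + 1) k1 k2 k4)).congr ?_
    have e : Germ h ((mmW M ^ m * (mmW M ^ n)⁻¹) • mmW M ^ n • y0) (Qm M x * mmW M)
        (mmW M * Qm M x) := by simpa [mul_smul] using h.Qm_mm_germ x h3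
    simpa [mul_assoc, pow_succ'] using e.mul_right _
  | cons q ω ih =>
    by_cases hE : PW (q :: ω) • g2 • y0 ∈ b .E
    · exact h.nf_mmE (h.nf_path h1 h2) (val _ ▸ hE) (val _ ▸ h3)
    rw [PW_cons, mul_smul] at h3 hE
    have hr := (h.mem_rn q).2 h2.2
    rcases h.sh_cases (h.mem_Sh (h.leT _ h3) hE) hr with rfl | ⟨d, rfl⟩
    · have k1 : PW ω • g2 • y0 ∈ An b 2 := h.mem_An_succ'.2 ⟨h2.2, h.An_one ▸ h3⟩
      have k2 := h.nf_push .io (ih h2.1 h2.2) (by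
        rw [mul_smul, val]
        exact h.An_one ▸ (h.mem_An_succ.1 k1).2)
      refine k2.congr ?_
      have k9 := Germ.mul_right (PW ω * g2 * g1⁻¹) ((val ω).symm ▸ h.io_mm_germ k1)
      simpa [mul_assoc, Pu.W] using k9
    · have k1 : PW ω • g2 • y0 ∈ b .A := ((mem_of_smul_eq (h.digAll d .A (by simp))).1 ⟨h3, hr⟩).1
      have k2 := h.nf_push (.dig d) (ih h2.1 k1) (by
        rw [mul_smul, val]
        exact h.leT _ ((h.mem_ran .mm).2 k1))
      refine k2.congr ?_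
      have k9 := Germ.mul_right (PW ω * g2 * g1⁻¹) ((val ω).symm ▸ h.dig_mm_germ d k1)
      simpa [mul_assoc, Pu.W] using k9

omit h in
theorem _root_.Vale.Agent.P193.Germ.comm_inv {h : Hyp b} {y : N} {u v : FF M}
    (H : Germ h (v⁻¹ • y) (u * v) (v * u)) : Germ h y (u * v⁻¹) (v⁻¹ * u) := by
  simpa [mul_assoc] using ((H.mul_right _).mul_left v⁻¹).symm

theorem inv_mem_A {y : N} (hy : y ∈ b .B) : (mmW M)⁻¹ • y ∈ b .A :=
  (h.mem_ran .mm).1 (by simpa [mmW, Mv.ran] using hy)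

theorem nf_mm_inv {g : FF M} {y : N} (H : NF h g y) (hB : g • y ∈ b .B) :
    NF h ((mmW M)⁻¹ * g) y := by
  refine h.reduce (Q := fun z => z ∈ b .B) ?_ H hB
  intro y0 g1 g2 ω' h1 h2 h3
  have val : ∀ ω : List (Pu M), (PW ω * g2 * g1⁻¹) • g1 • y0 = PW ω • g2 • y0 := fun ω => by
    simp [mul_smul]
  induction ω' with
  | nil =>
    by_cases hE : PW ([] : List (Pu M)) • g2 • y0 ∈ b .E
    · exact h.nf_mmE_inv (h.nf_path h1 h2) (val _ ▸ hE) (val _ ▸ h3)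
    simp only [PW_nil, one_smul, one_mul] at h3 hE ⊢
    obtain ⟨x, n, m, k1, k2, k3, rfl, rfl⟩ := h.mid_of_Sh h1 (h.mem_Sh (h.leT _ h3) hE)
    rw [mul_smul, h.Qm_mem] at h3
    have e : Germ h ((mmW M ^ m * (mmW M ^ n)⁻¹) • mmW M ^ n • y0) (Qm M x * (mmW M)⁻¹)
        ((mmW M)⁻¹ * Qm M x) := by
      simpa [mul_smul] using (h.Qm_mm_germ x (h.inv_mem_A h3)).comm_inv
    have e' := e.mul_right _
    cases m with
    | succ m =>
      refine (h.nf_mid (Mid.S x n m k1 k2 (h.An_anti _ k3))).congr ?_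
      simpa [mul_assoc, pow_succ'] using e'
    | zero =>
      rw [pow_zero, one_smul] at h3
      have k4 := h.inv_mem_A h3
      have k5 : (mmW M)⁻¹ • y0 ∈ An b (n + 1) := h.mem_An_succ.2 ⟨k4, by simpa using k2⟩
      have k6 : (mmW M)⁻¹ • y0 ∈ b .Sh :=
        ((mem_of_smul_eq h.mm_Sh).1 (by simpa using ⟨k1, h3⟩)).1
      have := h.nf_mid (Mid.S x (n + 1) 0 k6 k5 (h.leT _ k4))
      rw [pow_succ, mul_smul, smul_inv_smul] at this
      refine this.congr ?_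
      simpa [mul_assoc] using e'
  | cons q ω ih =>
    by_cases hE : PW (q :: ω) • g2 • y0 ∈ b .E
    · exact h.nf_mmE_inv (h.nf_path h1 h2) (val _ ▸ hE) (val _ ▸ h3)
    rw [PW_cons, mul_smul] at h3 hE
    have hr := (h.mem_rn q).2 h2.2
    rcases h.sh_cases (h.mem_Sh (h.leT _ h3) hE) hr with rfl | ⟨d, rfl⟩
    · have k0 : PW ω • g2 • y0 ∈ b .B := ((mem_of_smul_eq h.ioB).1 ⟨h3, hr⟩).1
      have k3 := h.inv_mem_A k0
      have k1 : (mmW M)⁻¹ • PW ω • g2 • y0 ∈ An b 2 :=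
        h.mem_An_succ.2 ⟨k3, by rw [smul_inv_smul, h.An_one]; exact h2.2⟩
      have k2 := h.nf_push .io (ih h2.1 k0) (by rw [mul_smul, val]; exact k3)
      refine k2.congr ?_
      have k9 := Germ.mul_right (PW ω * g2 * g1⁻¹) ((val ω).symm ▸ (h.io_mm_germ k1).comm_inv)
      simpa [mul_assoc, Pu.W] using k9
    · have k1 : PW ω • g2 • y0 ∈ b .B := ((mem_of_smul_eq (h.digAll d .B (by simp))).1 ⟨h3, hr⟩).1
      have k3 := h.inv_mem_A k1
      have k2 := h.nf_push (.dig d) (ih h2.1 k1) (by rw [mul_smul, val]; exact h.leT _ k3)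
      refine k2.congr ?_
      have k9 := Germ.mul_right (PW ω * g2 * g1⁻¹) ((val ω).symm ▸ (h.dig_mm_germ d k3).comm_inv)
      simpa [mul_assoc, Pu.W] using k9

/-! ### all generators -/

theorem fr_germ_one {x : Fr4} {y : N} (hy : y ∈ b (Mv.fr (M := M) x).dom) :
    Germ h y (Pm M 1 * (Mv.fr x).w) (Mv.fr x).w := by
  have k : (Mv.fr (M := M) x).w • y ∈ b .E :=
    h.R0_le_E (h.R_le_R0 x ((h.mem_ran (.fr x)).2 hy))
  simpa using (h.germ k h.Pm_one.eqv.symm).mul_right _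

theorem nf_move (σ : Mv M) {g : FF M} {y : N} (H : NF h g y) (hd : g • y ∈ b σ.dom) :
    NF h (σ.w * g) y := by
  cases σ with
  | push k a => exact h.nf_push (.push k a) H hd
  | pm a =>
    exact (h.nf_unit H (Or.inl ⟨hd, Pm_mem_EU _⟩)).congr
      ((h.germ hd (h.Pm_val a).symm).mul_right _)
  | qm a =>
    exact (h.nf_unit H (Or.inr ⟨hd, _, rfl⟩)).congr ((h.germ hd (h.Qm_val a).symm).mul_right _)
  | jj => exact h.nf_unit H (Or.inl ⟨hd, jW_mem_EU⟩)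
  | fr x =>
    cases x with
    | A => exact h.nf_push .fA H hd
    | B => exact h.nf_push .fB H hd
    | C => exact (h.nf_push (.fC 1) H hd).congr ((h.fr_germ_one hd).mul_right _)
    | D => exact (h.nf_push (.fD 1) H hd).congr ((h.fr_germ_one hd).mul_right _)
  | io => exact h.nf_push .io H hd
  | mm => exact h.nf_mm H hd
  | dig d => exact h.nf_push (.dig d) H hd

theorem nf_move_inv (σ : Mv M) {g : FF M} {y : N} (H : NF h g y) (hr : g • y ∈ b σ.ran) :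
    NF h (σ.w⁻¹ * g) y := by
  have hd : σ.w⁻¹ • g • y ∈ b σ.dom := (h.mem_ran σ).1 (by simpa using hr)
  have key : ∀ u : FF M, Germ h (σ.w⁻¹ • g • y) σ.w u → NF h (u⁻¹ * g) y → NF h (σ.w⁻¹ * g) y := by
    intro u k1 k2
    have := k1.inv
    rw [smul_inv_smul] at this
    exact k2.congr (this.mul_right _).symm
  have kR : ∀ x, b (.R x) = Pm M 1 • b (.R x) := fun x =>
    (h.Pm_one.smul_eq ((h.R_le_R0 x).trans h.R0_le_E)).symm
  cases σ with
  | push k a => exact h.nf_pull (.push k a) H hr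
  | pm a =>
    exact key _ (h.germ hd (h.Pm_val a)) (h.nf_unit H (Or.inl ⟨hr, inv_mem (Pm_mem_EU _)⟩))
  | qm a =>
    refine key _ (h.germ hd (h.Qm_val a))
      ((h.nf_unit H (Or.inr ⟨hr, (M.val a)⁻¹, rfl⟩)).congr (Germ.mul_right _ (h.germ hr ?_)))
    have := (h.Qm_mul (M.val a) (M.val a)⁻¹).trans (by simpa using h.Qm_one.eqv.symm)
    simpa [Mv.ran] using this.mul_left (Qm M (M.val a))⁻¹
  | jj => exact h.nf_unit H (Or.inl ⟨hr, inv_mem jW_mem_EU⟩)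
  | fr x =>
    cases x with
    | A => exact h.nf_pull .fA H hr
    | B => exact h.nf_pull .fB H hr
    | C => exact key _ (h.fr_germ_one hd).symm (h.nf_pull (.fC 1) H (by rw [Pu.rn, ← kR]; exact hr))
    | D => exact key _ (h.fr_germ_one hd).symm (h.nf_pull (.fD 1) H (by rw [Pu.rn, ← kR]; exact hr))
  | io => exact h.nf_pull .io H hr
  | mm => exact h.nf_mm_inv H hr
  | dig d => exact h.nf_pull (.dig d) H hr

theorem germ_inv_self {u : FF M} (hu : Tv (u * u) (⊤ : Set N)) (y : N) : Germ h y u⁻¹ u :=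
  Germ.of_eqv h.PS2.Alg.top_mem trivial (by simpa [Eqv] using hu)

theorem nf_fl {g : FF M} {y : N} (H : NF h g y) : NF h (fl M * g) y := by
  by_cases hT : g • y ∈ b .T
  · exact h.nf_push .flip H hT
  · exact (h.nf_pull .flip H hT).congr ((h.germ_inv_self h.fl2 _).mul_right _)

theorem nf_fl_inv {g : FF M} {y : N} (H : NF h g y) : NF h ((fl M)⁻¹ * g) y :=
  (h.nf_fl H).congr ((h.germ_inv_self h.fl2 _).symm.mul_right _)

theorem nf_ta (σ : Mv M) {g : FF M} {y : N} (H : NF h g y) : NF h (σ.ta * g) y := by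
  by_cases h1 : g • y ∈ b σ.dom
  · simpa [Mv.w, mul_assoc] using h.nf_fl_inv (h.nf_move σ H h1)
  by_cases h2 : g • y ∈ fl M • b σ.ran
  · have k := h.nf_move_inv σ (h.nf_fl_inv H)
      (by rw [mul_smul]; exact Set.mem_smul_set_iff_inv_smul_mem.1 h2)
    refine k.congr ?_
    have a1 := ((h.germ_inv_self h.fl2 ((fl M)⁻¹ • g • y)).mul_right _).mul_right _
    have a2 := (h.germ_inv_self (h.ta2 σ) (g • y)).mul_right _
    have a3 := a1.mul_left σ.ta⁻¹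
    simp only [Mv.w, mul_assoc, mul_inv_rev, mul_inv_cancel_left] at a2 a3 ⊢
    exact a3.trans a2
  · refine H.congr ?_
    have := (Germ.of_eqv (h := h) (h.PS2.Alg.inf_mem (h.PS2.Alg.compl_mem (h.basic_mem _))
      (h.PS2.Alg.compl_mem (h.smul_mem _ (h.basic_mem _)))) ⟨h1, h2⟩ (h.taOff σ).eqv).mul_right g
    simpa using this

theorem nf (g : FF M) (y : N) : NF h g y := by
  have key : ∀ s : FF M, ∀ g, NF h g y → NF h (s * g) y := by
    intro s
    induction s using FreeGroup.induction_on with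
    | C1 => intro g H; simpa using H
    | of s =>
      intro g H
      cases s with
      | none => exact h.nf_fl H
      | some σ => exact h.nf_ta σ H
    | inv_of s _ =>
      intro g H
      cases s with
      | none => exact h.nf_fl_inv H
      | some σ =>
        exact (h.nf_ta σ H).congr ((h.germ_inv_self (h.ta2 σ) _).symm.mul_right _)
    | mul s t hs ht => intro g H; rw [mul_assoc]; exact hs _ (ht _ H)
  simpa using key g 1 (h.nf_one y)

end Hyp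

end Vale.Agent.P193
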