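import Vale.Agent.P193.P2D
import Vale.Agent.P193.Conc

/-! Concrete computations used for density and effectiveness. -/

namespace Vale.Agent.P193

open scoped Pointwise

variable {G : Type} [Group G] {M : Mach G}

theorem pmW_smul (hM : M.Good) (l : List M.Γ) {y : CY M} (h : y ∈ ce M .E) :
    (pmW l • y).r.1 = { y.r.1 with P := M.phi l * y.r.1.P } ∧ (pmW l • y).n = y.n ∧
      (pmW l • y).side = true := by
  induction l with
  | nil => simp [pmW, h.1]
  | cons a l ih =>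
    have e : pmW (a :: l) • y = (Mv.pm a).w • pmW l • y := by simp [pmW, mul_smul]
    have k : pmW l • y ∈ ce M (Mv.pm a).dom :=
      ⟨ih.2.2, by rw [ih.1]; exact h.2.1, trivial⟩
    rw [e, Mv.w_r hM _ k, Mv.w_n hM _ k, Mv.w_side hM _ k, ih.1, ih.2.1]
    exact ⟨by simp [Mv.raw, mul_assoc], rfl, rfl⟩

theorem qmW_smul (hM : M.Good) (l : List M.Γ) {y : CY M} (h : y.side = true) :
    (qmW l • y).r.1 = { y.r.1 with Q := M.phi l * y.r.1.Q } ∧ (qmW l • y).n = y.n ∧
      (qmW l • y).side = true := by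
  induction l with
  | nil => simp [qmW, h]
  | cons a l ih =>
    have e : qmW (a :: l) • y = (Mv.qm a).w • qmW l • y := by simp [qmW, mul_smul]
    have k : qmW l • y ∈ ce M (Mv.qm a).dom := ⟨ih.2.2, trivial, trivial⟩
    rw [e, Mv.w_r hM _ k, Mv.w_n hM _ k, Mv.w_side hM _ k, ih.1, ih.2.1]
    exact ⟨by simp [Mv.raw, mul_assoc], rfl, rfl⟩

theorem Pm_smul (hM : M.Good) (x : G) {y : CY M} (h : y ∈ ce M .E) :
    (Pm M x • y).r.1 = { y.r.1 with P := x * y.r.1.P } ∧ (Pm M x • y).n = y.n ∧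
      (Pm M x • y).side = true := by
  have := pmW_smul hM (wd M x) h
  rwa [phi_wd hM] at this

theorem Qm_smul (hM : M.Good) (x : G) {y : CY M} (h : y.side = true) :
    (Qm M x • y).r.1 = { y.r.1 with Q := x * y.r.1.Q } ∧ (Qm M x • y).n = y.n ∧
      (Qm M x • y).side = true := by
  have := qmW_smul hM (wd M x) h
  rwa [phi_wd hM] at this

theorem Pm_mem_E (hM : M.Good) (x : G) {y : CY M} (h : y ∈ ce M .E) : Pm M x • y ∈ ce M .E :=
  ⟨(Pm_smul hM x h).2.2, by rw [(Pm_smul hM x h).1]; exact h.2.1, trivial⟩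

theorem Pm_inv_smul (hM : M.Good) (x : G) {y : CY M} (h : y ∈ ce M .E) :
    (Pm M x)⁻¹ • y = Pm M x⁻¹ • y := by
  rw [inv_smul_eq_iff]
  have h1 := Pm_smul hM x⁻¹ h
  have h2 := Pm_smul hM x (Pm_mem_E hM x⁻¹ h)
  refine cy_ext ?_ ?_ ?_
  · rw [h2.1, h1.1]; simp
  · rw [h2.2.1, h1.2.1]
  · rw [h2.2.2, h.1]

theorem mem_Pm_smul (hM : M.Good) (x : G) {j : Pr M} (hj : ce M j ⊆ ce M .E) {y : CY M} :
    y ∈ Pm M x • ce M j ↔
      y ∈ ce M .E ∧ j.inR { y.r.1 with P := x⁻¹ * y.r.1.P } ∧ j.inD y.n := by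
  have key : ∀ hy : y ∈ ce M .E, (Pm M x)⁻¹ • y ∈ ce M j ↔
      j.inR { y.r.1 with P := x⁻¹ * y.r.1.P } ∧ j.inD y.n := by
    intro hy
    have h1 := Pm_smul hM x⁻¹ hy
    rw [Pm_inv_smul hM x hy, mem_ce, h1.1, h1.2.1, h1.2.2]
    simp
  constructor
  · intro h
    have hy : y ∈ ce M .E := by
      obtain ⟨z, hz, rfl⟩ := h
      exact Pm_mem_E hM x (hj hz)
    exact ⟨hy, (key hy).1 (Set.mem_smul_set_iff_inv_smul_mem.1 h)⟩
  · exact fun h => Set.mem_smul_set_iff_inv_smul_mem.2 ((key h.1).2 h.2)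

theorem leg_iff_of_dies {P : G} {m : ℕ} {s : M.Λ → List M.Γ} (h : M.DiesIn m s) (k : ℕ) :
    Leg M P k s ↔ k ≤ m := by
  induction m generalizing s k with
  | zero =>
    cases k with
    | zero => simp [Leg]
    | succ k =>
      simp only [Leg, m0, h _ _]
      simp
  | succ m ih =>
    cases k with
    | zero => simp [Leg]
    | succ k =>
      obtain ⟨ρ, h1, h2⟩ := h
      simp only [Leg, m0, h1 _ _, Option.some.injEq, exists_eq_left', ih h2]
      omega

theorem Leg.of_le {P : G} {f f' : ℕ} {σ : M.Λ → List M.Γ} (h : Leg M P f' σ) (hf : f ≤ f') :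
    Leg M P f σ := by
  induction hf with
  | refl => exact h
  | step _ ih => exact ih h.of_succ

/-- number of frames pushed -/
def Pu.cF : Pu M → ℕ
  | .fA => 1
  | .fB => 1
  | .fC _ => 1
  | .fD _ => 1
  | _ => 0

/-- number of digits pushed -/
def Pu.cD : Pu M → ℕ
  | .dig _ => 1
  | _ => 0

/-- number of sheet shifts -/
def Pu.cI : Pu M → ℕ
  | .io => 1
  | _ => 0

/-- number of symbols pushed on a stack -/
def Pu.cP (k : M.Λ) : Pu M → ℕ
  | .push k' _ => if k' = k then 1 else 0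
  | _ => 0

/-- the effect of a list of pushes on the counters -/
structure Stat (z z' : CY M) (cF cD cI : ℕ) (cP : M.Λ → ℕ) : Prop where
  gen : Generic z'
  hs : z'.r.1.s.length = z.r.1.s.length + cF
  hn : z'.n.size = z.n.size + cD
  hf : cF = 0 → z'.r.1.f = z.r.1.f + cI
  hσ : cF = 0 → ∀ k, (z'.r.1.σ k).length = (z.r.1.σ k).length + cP k

theorem fcons_of_ne {a : Fr M} {l : List (Fr M)} (h : l ≠ []) : fcons a l = a :: l := by
  simp [fcons, h]

theorem fr_stat (hM : M.Good) (x : Fr4) {z : CY M} (hz : z ∈ ce M (Mv.fr (M := M) x).dom)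
    (hg : Generic z) : ∃ a, ((Mv.fr (M := M) x).w • z).r.1.s = a :: z.r.1.s ∧
      ((Mv.fr (M := M) x).w • z).n = z.n := by
  rw [Mv.w_r hM _ hz, Mv.w_n hM _ hz]
  cases x <;> exact ⟨_, fcons_of_ne hg.1, rfl⟩

theorem Pu.stat (hM : M.Good) (p : Pu M) {z : CY M} (hz : z ∈ ce M p.dm) (hg : Generic z) :
    Stat z (p.W • z) p.cF p.cD p.cI fun k => p.cP k := by
  have frame : ∀ {z' : CY M} {a : Fr M}, z'.r.1.s = a :: z.r.1.s → z'.n = z.n →
      Stat z z' 1 0 0 fun _ => 0 := fun h1 h2 =>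
    ⟨⟨by rw [h1]; simp, h2 ▸ hg.2⟩, by rw [h1]; simp, by rw [h2]; rfl, by simp, by simp⟩
  cases p with
  | push k a =>
    have h1 := (Mv.push k a).w_r hM hz
    have h2 := (Mv.push k a).w_n hM hz
    change (Pu.W (.push k a) • z).r.1 = _ at h1
    change (Pu.W (.push k a) • z).n = z.n at h2
    refine ⟨⟨by rw [h1]; exact hg.1, h2 ▸ hg.2⟩, by rw [h1]; rfl, by rw [h2]; rfl,
      fun _ => by rw [h1]; rfl, fun _ k' => ?_⟩
    rw [h1]
    by_cases hk : k = k'
    · subst hk; simp [Mv.raw, Pu.cP]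
    · simp [Mv.raw, Pu.cP, hk, Ne.symm hk]
  | fA => obtain ⟨a, h1, h2⟩ := fr_stat hM .A hz hg; exact frame h1 h2
  | fB => obtain ⟨a, h1, h2⟩ := fr_stat hM .B hz hg; exact frame h1 h2
  | fC x =>
    obtain ⟨a, h1, h2⟩ := fr_stat hM .C hz hg
    have h3 := (Mv.fr .C).w_mem_ran hM hz
    have h4 := Pm_smul hM x (y := (Mv.fr .C).w • z) ⟨h3.1, h3.2.1.1, trivial⟩
    refine frame (a := a) ?_ ?_
    · rw [Pu.W, mul_smul, h4.1]; exact h1
    · rw [Pu.W, mul_smul, h4.2.1]; exact h2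
  | fD x =>
    obtain ⟨a, h1, h2⟩ := fr_stat hM .D hz hg
    have h3 := (Mv.fr .D).w_mem_ran hM hz
    have h4 := Pm_smul hM x (y := (Mv.fr .D).w • z) ⟨h3.1, h3.2.1.1, trivial⟩
    refine frame (a := a) ?_ ?_
    · rw [Pu.W, mul_smul, h4.1]; exact h1
    · rw [Pu.W, mul_smul, h4.2.1]; exact h2
  | io =>
    have h1 := Mv.io.w_r hM hz
    have h2 := Mv.io.w_n hM hz
    change (Pu.W .io • z).r.1 = _ at h1
    change (Pu.W .io • z).n = z.n at h2
    exact ⟨⟨by rw [h1]; exact hg.1, h2 ▸ hg.2⟩, by rw [h1]; rfl, by rw [h2]; rfl,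
      fun _ => by rw [h1]; rfl, fun _ k' => by rw [h1]; rfl⟩
  | dig d =>
    have h1 := (Mv.dig d).w_r hM hz
    have h2 := (Mv.dig d).w_n hM hz
    change (Pu.W (.dig d) • z).r.1 = z.r.1 at h1
    change (Pu.W (.dig d) • z).n = Nat.bit d z.n at h2
    have h3 : Nat.bit d z.n ≠ 0 := Nat.bit_ne_zero d hg.2
    exact ⟨⟨by rw [h1]; exact hg.1, h2 ▸ h3⟩, by rw [h1]; rfl,
      by rw [h2, Nat.size_bit h3]; rfl, fun _ => by rw [h1]; rfl, fun _ k' => by rw [h1]; rfl⟩
  | flip =>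
    have h1 : Pu.W .flip • z = ⟨z.r, z.n, !z.side⟩ := fl_smul z
    rw [h1]
    exact ⟨hg, rfl, rfl, fun _ => rfl, fun _ _ => rfl⟩

theorem path_stat (hM : M.Good) {ω : List (Pu M)} {z : CY M} (hz : Path (ce M) ω z)
    (hg : Generic z) : Stat z (PW ω • z) (ω.map Pu.cF).sum (ω.map Pu.cD).sum (ω.map Pu.cI).sum
      fun k => (ω.map (Pu.cP k)).sum := by
  induction ω with
  | nil => simpa using ⟨hg, rfl, rfl, fun _ => rfl, fun _ _ => rfl⟩
  | cons p ω ih =>
    have h1 := ih hz.1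
    have h2 := p.stat hM hz.2 h1.gen
    rw [PW_cons, mul_smul]
    simp only [List.map_cons, List.sum_cons]
    refine ⟨h2.gen, by rw [h2.hs, h1.hs]; omega, by rw [h2.hn, h1.hn]; omega, fun h => ?_,
      fun h k => ?_⟩
    · rw [h2.hf (by omega), h1.hf (by omega)]; omega
    · rw [h2.hσ (by omega), h1.hσ (by omega)]; omega

theorem path_side {ω : List (Pu M)} {p : Pu M} {z : CY M} (hz : Path (ce M) (p :: ω) z) :
    z.side = true := by
  induction ω generalizing p with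
  | nil => simpa using hz.2.1
  | cons q ω ih => exact ih hz.1

/-- two points with the same counters -/
structure Same (z z' : CY M) : Prop where
  hs : z.r.1.s = z'.r.1.s
  hn : z.n = z'.n
  side : z.side = z'.side
  hf : z.r.1.f = z'.r.1.f
  hσ : z.r.1.f = 0 → z.r.1.σ = z'.r.1.σ

theorem Same.symm {z z' : CY M} (h : Same z z') : Same z' z :=
  ⟨h.hs.symm, h.hn.symm, h.side.symm, h.hf.symm, fun e => (h.hσ (h.hf.trans e)).symm⟩

theorem Same.gen {z z' : CY M} (h : Same z z') (hg : Generic z) : Generic z' :=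
  ⟨h.hs ▸ hg.1, h.hn ▸ hg.2⟩

theorem sum_eq_zero_of {ω : List (Pu M)} {f : Pu M → ℕ} (h : ∀ q ∈ ω, f q = 0) :
    (ω.map f).sum = 0 := by
  induction ω with
  | nil => rfl
  | cons p ω ih =>
    simp only [List.map_cons, List.sum_cons, h p (by simp),
      ih fun q hq => h q (List.mem_cons_of_mem _ hq)]

theorem no_sq (hM : M.Good) {p : Pu M} {ω ω' : List (Pu M)} {z z' : CY M} (hg : Generic z)
    (hs : Same z z') (h1 : Path (ce M) (p :: ω) z) (h2 : Path (ce M) ω' z')
    (e : PW (p :: ω) • z = PW ω' • z') (hq : ∀ q ∈ ω', p.sq q) : False := by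
  have s0 := path_stat hM h1.1 hg
  have s1 := path_stat hM h1 hg
  have s2 := path_stat hM h2 (hs.gen hg)
  rw [e] at s1
  have eF := s1.hs.symm.trans s2.hs
  have eD := s1.hn.symm.trans s2.hn
  rw [hs.hs] at eF
  rw [hs.hn] at eD
  simp only [List.map_cons, List.sum_cons] at eF eD s1
  have fr : p.cF = 1 → (∀ q, p.sq q → q.cF = 0) → False := fun a1 a2 => by
    rw [a1, sum_eq_zero_of fun q hq' => a2 q (hq q hq')] at eF
    omega
  cases p with
  | push k a =>
    have z1 : (ω'.map Pu.cF).sum = 0 := sum_eq_zero_of fun q hq' => by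
      have := hq q hq'
      cases q <;> first | rfl | exact this.elim
    have z2 : (ω'.map (Pu.cP k)).sum = 0 := sum_eq_zero_of fun q hq' => by
      have := hq q hq'
      cases q with
      | push k' a' => exact if_neg (Ne.symm this)
      | _ => rfl
    have z3 : (ω.map Pu.cF).sum = 0 := by omega
    have f0 : z.r.1.f = 0 := by
      have a1 := s0.hf z3
      have a2 : (PW ω • z).r.1.f = 0 := h1.2.2.1
      omega
    have a1 := s1.hσ (by omega) k
    have a2 := s2.hσ z1 k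
    rw [hs.hσ f0, a2] at a1
    simp only [Pu.cP, if_true, z2] at a1
    omega
  | fA => exact fr rfl fun q h => by cases q <;> first | rfl | exact h.elim
  | fB => exact fr rfl fun q h => by cases q <;> first | rfl | exact h.elim
  | fC x => exact fr rfl fun q h => by cases q <;> first | rfl | exact h.elim
  | fD x => exact fr rfl fun q h => by cases q <;> first | rfl | exact h.elim
  | io =>
    have z1 : (ω'.map Pu.cF).sum = 0 := sum_eq_zero_of fun q hq' => by
      have := hq q hq'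
      cases q <;> first | rfl | exact this.elim
    have z2 : (ω'.map Pu.cI).sum = 0 := sum_eq_zero_of fun q hq' => by
      have := hq q hq'
      cases q <;> first | rfl | exact this.elim
    have a1 := s1.hf (by omega)
    have a2 := s2.hf z1
    rw [hs.hf, a2, z2] at a1
    simp only [Pu.cI] at a1
    omega
  | dig d =>
    have z1 : (ω'.map Pu.cD).sum = 0 := sum_eq_zero_of fun q hq' => by
      have := hq q hq'
      cases q <;> first | rfl | exact this.elim
    simp only [Pu.cD, z1] at eD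
    omega
  | flip =>
    cases ω' with
    | cons q ω' =>
      have := hq q (by simp)
      cases q <;> exact this.elim
    | nil =>
      have a1 := path_side h1
      have a2 : (PW ω • z).side = true := h1.2.1
      have a3 : PW (.flip :: ω) • z = ⟨(PW ω • z).r, (PW ω • z).n, !(PW ω • z).side⟩ := by
        rw [PW_cons, mul_smul]; exact fl_smul _
      rw [a3, a2, PW_nil, one_smul] at e
      rw [hs.side, ← e] at a1
      exact Bool.false_ne_true a1

variable {N : Type} [MulAction (FF M) N] {b : Pr M → Set N} {ι : CY M → N}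

theorem Emb.mem_smul (E : Emb b ι) (γ : FF M) (j : Pr M) (z : CY M) :
    ι z ∈ γ • b j ↔ z ∈ γ • ce M j := by
  rw [Set.mem_smul_set_iff_inv_smul_mem, Set.mem_smul_set_iff_inv_smul_mem, ← E.smul, E.mem]

theorem Emb.path (E : Emb b ι) (ω : List (Pu M)) (z : CY M) :
    Path b ω (ι z) ↔ Path (ce M) ω z := by
  induction ω with
  | nil => rfl
  | cons p ω ih => simp only [Path, ih, ← E.smul, E.mem]

theorem Emb.mem_An (hM : M.Good) (E : Emb b ι) (n : ℕ) (z : CY M) :
    ι z ∈ An b n ↔ z.side = true ∧ Leg M z.r.1.P (z.r.1.f + n) z.r.1.σ := by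
  induction n generalizing z with
  | zero =>
    rw [An, E.mem]
    exact ⟨fun h => ⟨h.1, z.r.2.1⟩, fun h => ⟨h.1, trivial, trivial⟩⟩
  | succ n ih =>
    rw [An, Set.mem_inv_smul_set_iff, ← E.smul]
    change ι (ioW M • z) ∈ An b n ∧ ι (ioW M • z) ∈ b .Sh ↔ _
    rw [ih, E.mem]
    have key : z ∈ ce M Mv.io.dom → (Leg M (ioW M • z).r.1.P ((ioW M • z).r.1.f + n)
        (ioW M • z).r.1.σ ↔ Leg M z.r.1.P (z.r.1.f + (n + 1)) z.r.1.σ) := by
      intro hz
      rw [ioW, Mv.io.w_r hM hz, show z.r.1.f + (n + 1) = z.r.1.f + 1 + n by omega]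
      rfl
    constructor
    · intro h
      have hz := Mv.io.mem_dom_of_ran hM h.2
      exact ⟨hz.1, (key hz).1 h.1.2⟩
    · intro h
      have hz : z ∈ ce M Mv.io.dom := ⟨h.1, h.2.of_le (by omega), trivial⟩
      exact ⟨⟨Mv.io.w_side hM hz, (key hz).2 h.2⟩, Mv.io.w_mem_ran hM hz⟩

namespace Hyp

variable (h : Hyp b)
include h

theorem An_mono {n m : ℕ} (hnm : n ≤ m) : An b m ⊆ An b n := by
  induction hnm with
  | refl => exact le_rfl
  | step _ ih => exact (h.An_anti _).trans ih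

theorem Bn_mono {n m : ℕ} (hnm : n ≤ m) : Bn b m ⊆ Bn b n := by
  induction hnm with
  | refl => exact le_rfl
  | step _ ih => exact (h.Bn_anti _).trans ih

theorem mm_mem_B {u : N} (hu : u ∈ b .A) : mmW M • u ∈ b .B := (Arr.mem_r (h.ok .mm)).2 hu

theorem mm_mem_An {u : N} (hu : u ∈ b .A) (n : ℕ) : mmW M • u ∈ An b n ↔ u ∈ An b (n + 1) := by
  rw [h.An_succ, Set.mem_inv_smul_set_iff]
  exact ⟨fun k => ⟨k, h.mm_mem_B hu⟩, fun k => k.1⟩

theorem mm_pow_mem_An {u : N} (i : ℕ) (hu : u ∈ An b i) (n : ℕ) :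
    mmW M ^ i • u ∈ An b n ↔ u ∈ An b (n + i) := by
  induction i generalizing u with
  | zero => simp
  | succ i ih =>
    have hA := h.An_succ_le_A i hu
    rw [pow_succ, mul_smul, ih ((h.mm_mem_An hA i).2 hu), h.mm_mem_An hA]
    rfl

theorem mm_pow_mem_Bn {u : N} (i : ℕ) (hu : u ∈ An b i) (n : ℕ) :
    mmW M ^ i • u ∈ Bn b (n + i) ↔ u ∈ Bn b n := by
  induction i with
  | zero => simp
  | succ i ih =>
    have h1 : mmW M ^ i • u ∈ b .A := by
      rw [← h.An_one, h.mm_pow_mem_An i (h.An_anti i hu), add_comm]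
      exact hu
    rw [← add_assoc, Bn, pow_succ', mul_smul, Set.smul_mem_smul_set_iff,
      ← ih (h.An_anti i hu)]
    exact ⟨fun k => k.1, fun k => ⟨k, h1⟩⟩

theorem mm_pow_conc (E : Emb b ι) {z : CY M} (i : ℕ) (hz : ι z ∈ An b i) :
    (mmW M ^ i • z).r.1.P = z.r.1.P ∧ (mmW M ^ i • z).r.1.Q = z.r.1.Q ∧
      (mmW M ^ i • z).r.1.f = z.r.1.f ∧ (mmW M ^ i • z).r.1.s = z.r.1.s ∧
      (mmW M ^ i • z).n = z.n ∧ (mmW M ^ i • z).side = z.side ∧
      (z.r.1.σ M.c).length + i ≤ ((mmW M ^ i • z).r.1.σ M.c).length := by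
  induction i generalizing z with
  | zero => simp
  | succ i ih =>
    have hA := h.An_succ_le_A i hz
    have hA' : z ∈ ce M Mv.mm.dom := (E.mem _ _).1 hA
    have h1 := ih (z := mmW M • z) (by rw [E.smul]; exact (h.mm_mem_An hA i).2 hz)
    have h2 : (mmW M • z).r.1 = _ := Mv.mm.w_r h.good hA'
    have h3 : (mmW M • z).n = z.n := Mv.mm.w_n h.good hA'
    have h4 : (mmW M • z).side = z.side := (Mv.mm.w_side h.good hA').trans hA'.1.symm
    obtain ⟨ρ, e, -⟩ := hA'.2.1
    have h5 := h.good.len _ _ _ _ e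
    rw [pow_succ, mul_smul]
    rw [h2, h3, h4] at h1
    simp only [Mv.raw, e, Option.getD_some] at h1
    obtain ⟨a1, a2, a3, a4, a5, a6, a7⟩ := h1
    exact ⟨a1, a2, a3, a4, a5, a6, by omega⟩

end Hyp

end Vale.Agent.P193
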