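import Vale.Agent.P193.P2D
import Vale.Agent.P193.Conc
import Vale.Agent.P193.P2Aux

/-! Density of the generic concrete points. -/

namespace Vale.Agent.P193

open scoped Pointwise
open Filter

set_option linter.unusedSectionVars false

variable {G : Type} [Group G] {M : Mach G}
variable {N : Type} [MulAction (FF M) N] {b : Pr M → Set N} {ι : CY M → N}

theorem Emb.mem_dlx (hM : M.Good) (E : Emb b ι) (x : G) (z : CY M) :
    ι z ∈ dlx b x ↔ z ∈ ce M .E ∧ z.r.1.P = x := by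
  rw [dlx, E.mem_smul, mem_Pm_smul hM x (ax1_conc hM).dlE]
  refine and_congr_right fun hz => ?_
  simp only [Pr.inR, Pr.inD, and_true, inv_mul_eq_one]
  exact ⟨fun k => k.2.symm, fun k => ⟨hz.2.1, k.symm⟩⟩

theorem Emb.mem_dlx' (hM : M.Good) (E : Emb b ι) (x : G) (z : CY M) :
    ι z ∈ dlx' b x ↔ z ∈ ce M .E ∧ z.r.1.P = x * M.phi (z.r.1.σ M.t) := by
  rw [dlx', E.mem_smul, mem_Pm_smul hM x (ax1_conc hM).dlE']
  refine and_congr_right fun hz => ?_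
  simp only [Pr.inR, Pr.inD, and_true, inv_mul_eq_iff_eq_mul]
  exact ⟨fun k => k.2, fun k => ⟨hz.2.1, k⟩⟩

theorem Hyp.R0_cyl (h : Hyp b) : R0 b ∈ h.PS1.Alg.car :=
  h.PS1.Alg.finf_mem _ fun k _ => h.PS1.base_mem (G1.tp k none)

theorem Hyp.to_cyl (h : Hyp b) {c : Set N} (hc : Gen h.PS2.G0 c) :
    ∃ c' ∈ h.PS1.Alg.car, ∀ z ∈ b .E, z ∉ R0 b → (z ∈ c' ↔ z ∈ c) := by
  have k0 : ∀ {x : Set N}, x ⊆ R0 b →
      ∃ c' ∈ h.PS1.Alg.car, ∀ z ∈ b .E, z ∉ R0 b → (z ∈ c' ↔ z ∈ x) := fun hx =>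
    ⟨⊥, h.PS1.Alg.bot_mem, fun z _ hz => ⟨fun k => k.elim, fun k => (hz (hx k)).elim⟩⟩
  have k1 : ∀ {x : Set N}, x ⊓ b .E ∈ h.PS1.Alg.car →
      ∃ c' ∈ h.PS1.Alg.car, ∀ z ∈ b .E, z ∉ R0 b → (z ∈ c' ↔ z ∈ x) := fun hx =>
    ⟨_, hx, fun z hz _ => ⟨fun k => k.1, fun k => ⟨k, hz⟩⟩⟩
  induction hc with
  | base hx =>
    cases hx with
    | cyl hx => exact ⟨_, hx, fun _ _ _ => Iff.rfl⟩
    | rA => exact k0 (h.R_le_R0 _)
    | rB => exact k0 (h.R_le_R0 _)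
    | rC x => exact k0 (h.PmR_le_R0 x _)
    | rD x => exact k0 (h.PmR_le_R0 x _)
    | an n => exact k1 (h.cyl_An n)
    | bn n => exact k1 (h.cyl_Bn n)
    | kn n => exact k1 (h.cyl_Kn n)
  | top => exact ⟨⊤, h.PS1.Alg.top_mem, fun _ _ _ => Iff.rfl⟩
  | inf _ _ h1 h2 =>
    obtain ⟨c1, a1, a2⟩ := h1
    obtain ⟨c2, a3, a4⟩ := h2
    exact ⟨c1 ⊓ c2, h.PS1.Alg.inf_mem a1 a3, fun z k k' => and_congr (a2 z k k') (a4 z k k')⟩
  | compl _ h1 =>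
    obtain ⟨c1, a1, a2⟩ := h1
    exact ⟨c1ᶜ, h.PS1.Alg.compl_mem a1, fun z k k' => not_congr (a2 z k k')⟩

/-- a frame of a given kind -/
def frm (M : Mach G) : Fr4 → Fr M
  | .A => .A fun _ => []
  | .B => .B fun _ => []
  | .C => .C 1 (fun _ => []) 0
  | .D => .D 1 fun _ => []

theorem frm_kind (κ : Fr4) : (frm M κ).kind = κ := by cases κ <;> rfl

/-- a generic concrete point -/
def mkP (P : G) (σ : M.Λ → List M.Γ) (f : ℕ) (hl : Leg M P f σ) (κ : Fr4) (d sd : Bool) : CY M :=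
  ⟨⟨⟨P, 1, σ, f, [frm M κ, .A fun _ => []]⟩, hl, by
    intro a ha
    simp only [List.mem_cons, List.not_mem_nil, or_false] at ha
    rcases ha with rfl | rfl
    · cases κ <;> trivial
    · trivial, by simp [Fr.triv]⟩, Nat.bit d 1, sd⟩

theorem mkP_gen (P : G) (σ : M.Λ → List M.Γ) (f : ℕ) (hl : Leg M P f σ) (κ : Fr4)
    (d sd : Bool) : Generic (mkP P σ f hl κ d sd) :=
  ⟨by simp [mkP], Nat.bit_ne_zero d one_ne_zero⟩

/-- a generic point of the base sheet -/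
def mkE (τ : M.Λ → Option M.Γ) (P : G) (w : List M.Γ) (κ : Fr4) (d : Bool) : CY M :=
  mkP P (fun k => if k = M.t then w else (τ k).toList) 0 trivial κ d true

theorem mkE_E (τ : M.Λ → Option M.Γ) (P : G) (w : List M.Γ) (κ : Fr4) (d : Bool) :
    mkE τ P w κ d ∈ ce M .E := ⟨rfl, rfl, trivial⟩

theorem mkE_t (τ : M.Λ → Option M.Γ) (P : G) (w : List M.Γ) (κ : Fr4) (d : Bool) :
    (mkE τ P w κ d).r.1.σ M.t = w := if_pos rfl

theorem mkE_head {τ : M.Λ → Option M.Γ} (P : G) {w : List M.Γ} (hw : w.head? = τ M.t) (κ : Fr4)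
    (d : Bool) (k : M.Λ) : ((mkE τ P w κ d).r.1.σ k).head? = τ k := by
  change (if k = M.t then w else (τ k).toList).head? = τ k
  split_ifs with hk
  · rw [hk, hw]
  · cases τ k <;> rfl

namespace Hyp

variable (h : Hyp b)
include h

theorem exists_dg {y : N} (hy : y ∈ b .T) : ∃ d0, ∀ d, y ∈ b (.Dg d) ↔ d0 = d := by
  by_cases h0 : y ∈ b (.Dg false)
  · refine ⟨false, fun d => ?_⟩
    cases d
    · simpa using h0
    · simpa using h.dgO h0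
  · refine ⟨true, fun d => ?_⟩
    cases d
    · simpa using h0
    · simpa using h.dgC ⟨hy, h0⟩

theorem exists_tops {y : N} (hy : y ∈ b .E) :
    ∃ τ : M.Λ → Option M.Γ, ∀ k o, y ∈ b (.tp k o) ↔ τ k = o := by
  have : ∀ k, ∃ o, y ∈ b (.tp k o) := fun k => by
    by_contra hc
    exact h.tpC k ⟨hy, mem_finset_inf.2 fun o _ ho => hc ⟨o, ho⟩⟩
  choose τ hτ using this
  refine ⟨τ, fun k o => ⟨fun ho => ?_, fun e => e ▸ hτ k⟩⟩
  by_contra hne
  exact h.tpO k _ _ hne (hτ k) ho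

theorem mem_dlx_iff {y : N} {x0 : G} (hy : y ∈ dlx b x0) (x : G) : x0 = x ↔ y ∈ dlx b x :=
  ⟨fun e => e ▸ hy, fun hx => by_contra fun hne => h.dlx_orth hne hy hx⟩

theorem mem_dlx'_iff {y : N} {x0 : G} (hy : y ∈ dlx' b x0) (x : G) : x0 = x ↔ y ∈ dlx' b x :=
  ⟨fun e => e ▸ hy, fun hx => by_contra fun hne => h.dlx'_orth hne hy hx⟩

theorem cyl_ev {A : Type} {l : Filter A} {w : A → N} {y : N}
    (hg : ∀ g, G1 b g → ∀ᶠ a in l, (w a ∈ g ↔ y ∈ g)) (hy : ∀ k a, y ∉ b (.tp k (some a))) :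
    ∀ x ∈ h.PS1.Alg.car, ∀ᶠ a in l, (w a ∈ x ↔ y ∈ x) := by
  refine h.PS1.ind hg (by simp) (fun x _ x' _ h1 h2 => ?_) (fun x _ h1 => ?_) fun i x _ _ => ?_
  · filter_upwards [h1, h2] with a h1 h2 using and_congr h1 h2
  · filter_upwards [h1] with a h1 using not_congr h1
  · filter_upwards [hg _ (G1.tp i.1 (some i.2))] with a ha
    have k : (h.PS1.p i).pf x ⊆ b (.tp i.1 (some i.2)) := Arr.pf_le (h.PS1.ok i) x
    exact ⟨fun e => (hy _ _ (ha.1 (k e))).elim, fun e => (hy _ _ (k e)).elim⟩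

theorem g1_ev (E : Emb b ι) {A : Type} {l : Filter A} {y : N} (hy : y ∈ b .E)
    {τ : M.Λ → Option M.Γ} (hτ : ∀ k o, y ∈ b (.tp k o) ↔ τ k = o) {d0 : Bool}
    (hd : ∀ d, y ∈ b (.Dg d) ↔ d0 = d) (κ : Fr4) {P : A → G} {w : A → List M.Γ}
    (hw : ∀ a, (w a).head? = τ M.t) (h1 : ∀ x, ∀ᶠ a in l, (P a = x ↔ y ∈ dlx b x))
    (h2 : ∀ x, ∀ᶠ a in l, (P a = x * M.phi (w a) ↔ y ∈ dlx' b x)) :
    ∀ g, G1 b g → ∀ᶠ a in l, (ι (mkE τ (P a) (w a) κ d0) ∈ g ↔ y ∈ g) := by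
  intro g hg
  cases hg with
  | T => exact .of_forall fun a => iff_of_true ((E.mem _ _).2 ⟨rfl, trivial, trivial⟩) (h.leT _ hy)
  | E => exact .of_forall fun a => iff_of_true ((E.mem _ _).2 (mkE_E _ _ _ _ _)) hy
  | tp k o =>
    refine .of_forall fun a => ?_
    rw [E.mem, hτ, ← mkE_head (P a) (hw a) κ d0 k]
    exact ⟨fun k => k.2.1.2, fun k => ⟨rfl, ⟨rfl, k⟩, trivial⟩⟩
  | dl x =>
    filter_upwards [h1 x] with a ha
    rw [E.mem_dlx h.good, ← ha]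
    exact ⟨fun k => k.2, fun k => ⟨mkE_E _ _ _ _ _, k⟩⟩
  | dl' x =>
    filter_upwards [h2 x] with a ha
    rw [E.mem_dlx' h.good, ← ha, mkE_t]
    exact ⟨fun k => k.2, fun k => ⟨mkE_E _ _ _ _ _, k⟩⟩
  | dg d =>
    refine .of_forall fun a => ?_
    rw [E.mem, hd]
    have : (mkE τ (P a) (w a) κ d0).n.bodd = d0 := Nat.bodd_bit _ _
    exact ⟨fun k => this.symm.trans k.2.2, fun k => ⟨rfl, trivial, this.trans k⟩⟩

/-- a filter of values of the first register -/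
theorem exists_filter [Infinite G] (y : N) :
    ∃ l : Filter G, l.NeBot ∧ ∀ x, ∀ᶠ P in l, (P = x ↔ y ∈ dlx b x) := by
  by_cases hx : ∃ x0, y ∈ dlx b x0
  · obtain ⟨x0, hx0⟩ := hx
    exact ⟨pure x0, inferInstance, fun x => eventually_pure.2 (h.mem_dlx_iff hx0 x)⟩
  · refine ⟨cofinite, inferInstance, fun x => ?_⟩
    filter_upwards [eventually_cofinite_ne x] with P hP
    exact iff_of_false hP fun k => hx ⟨x, k⟩

theorem dlx_iff_of_tp {y : N} (hy : y ∈ b (.tp M.t none)) (x : G) :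
    y ∈ dlx b x ↔ y ∈ dlx' b x := by
  have := Set.ext_iff.1 (h.dlx_tp x) y
  exact ⟨fun k => (this.1 ⟨hy, k⟩).2, fun k => (this.2 ⟨hy, k⟩).2⟩

end Hyp

theorem Hyp.approx (h : Hyp b) [Infinite G] (E : Emb b ι) {y : N} (hy : y ∈ b .E)
    (ht : y ∉ b (.tp M.t none)) (hd : (∀ x, y ∉ dlx b x) ∨ ∀ x, y ∉ dlx' b x) {c : Set N}
    (hc : Gen h.PS1.G0 c) (hyc : y ∈ c) :
    ∀ᶠ g in Filter.cofinite, ∃ z : CY M, Generic z ∧ ι z ∈ c ∧ z ∈ ce M .E ∧
      M.phi (z.r.1.σ M.t) = g := by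
  obtain ⟨τ, hτ⟩ := h.exists_tops hy
  obtain ⟨d0, hd0⟩ := h.exists_dg (h.leT _ hy)
  obtain ⟨a0, ha0⟩ := Option.ne_none_iff_exists'.1 fun e => ht ((hτ _ _).2 e)
  let w : G → List M.Γ := fun g => a0 :: wd M ((M.val a0)⁻¹ * g)
  have hw : ∀ g, (w g).head? = τ M.t := fun g => ha0.symm
  have hphi : ∀ g, M.phi (w g) = g := fun g => by simp [w, phi_wd h.good]
  have fin : ∀ P g, ι (mkE τ P (w g) .A d0) ∈ c → ∃ z : CY M, Generic z ∧ ι z ∈ c ∧
      z ∈ ce M .E ∧ M.phi (z.r.1.σ M.t) = g := fun P g k =>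
    ⟨mkE τ P (w g) .A d0, mkP_gen _ _ _ _ _ _ _, k, mkE_E _ _ _ _ _, by rw [mkE_t, hphi]⟩
  by_cases h1 : ∃ x0, y ∈ dlx b x0
  · obtain ⟨x0, hx0⟩ := h1
    have h2 : ∀ x, y ∉ dlx' b x := hd.resolve_left fun k => k x0 hx0
    have := Gen.eventually (h.g1_ev E (l := cofinite) hy hτ hd0 .A (P := fun _ => x0) hw
      (fun x => .of_forall fun _ => h.mem_dlx_iff hx0 x) (fun x => by
        filter_upwards [eventually_cofinite_ne (x⁻¹ * x0)] with g hg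
        rw [hphi]
        exact iff_of_false (fun e => hg (by simp [e])) (h2 x))) hc
    filter_upwards [this] with g hg using fin _ g (hg.2 hyc)
  by_cases h2 : ∃ x1, y ∈ dlx' b x1
  · obtain ⟨x1, hx1⟩ := h2
    have := Gen.eventually (h.g1_ev E (l := cofinite) hy hτ hd0 .A (P := fun g => x1 * g) hw
      (fun x => by
        filter_upwards [eventually_cofinite_ne (x1⁻¹ * x)] with g hg
        exact iff_of_false (fun e => hg (by simp [← e])) fun k => h1 ⟨x, k⟩)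
      (fun x => .of_forall fun g => by
        rw [hphi, mul_left_inj]
        exact h.mem_dlx'_iff hx1 x)) hc
    filter_upwards [this] with g hg using fin _ g (hg.2 hyc)
  · have := Gen.eventually (h.g1_ev E (l := (cofinite : Filter G).curry (cofinite : Filter G))
      hy hτ hd0 .A (P := fun a => a.2) (w := fun a => w a.1) (fun a => hw a.1)
      (fun x => eventually_curry_iff.2 (.of_forall fun g => by
        filter_upwards [eventually_cofinite_ne x] with P hP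
        exact iff_of_false hP fun k => h1 ⟨x, k⟩))
      (fun x => eventually_curry_iff.2 (.of_forall fun g => by
        filter_upwards [eventually_cofinite_ne (x * M.phi (w g))] with P hP
        exact iff_of_false hP fun k => h2 ⟨x, k⟩))) hc
    filter_upwards [eventually_curry_iff.1 this] with g hg
    obtain ⟨P, hP⟩ := hg.exists
    exact fin P g (hP.2 hyc)

namespace Hyp

variable (h : Hyp b)
include h

theorem dense_step (E : Emb b ι) (p : Pu M) {x : Set N}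
    (H : ∃ z : CY M, Generic z ∧ ι z ∈ (p.arr b).pb x) : ∃ z : CY M, Generic z ∧ ι z ∈ x := by
  obtain ⟨z, hz, hx⟩ := H
  obtain ⟨h1, h2⟩ := (Arr.mem_pb (h.pu_ok p)).1 hx
  exact ⟨p.W • z, (p.stat h.good ((E.mem _ _).1 h2) hz).gen, by rw [E.smul]; exact h1⟩

theorem dense_cyl [Infinite G] (E : Emb b ι) :
    ∀ c ∈ h.PS1.Alg.car, ∀ y ∈ c, y ∈ b .E → ∃ z : CY M, Generic z ∧ ι z ∈ c := by
  refine h.PS1.pind (R := fun y c => y ∈ b .E → ∃ z : CY M, Generic z ∧ ι z ∈ c)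
    (fun y x _ x' _ _ hx H hy => ?_) (fun c hc y hyc hy => ?_) fun i y x _ hy H _ => ?_
  · obtain ⟨z, h1, h2⟩ := H hy
    exact ⟨z, h1, hx h2⟩
  · obtain ⟨τ, hτ⟩ := h.exists_tops hy
    obtain ⟨d0, hd0⟩ := h.exists_dg (h.leT _ hy)
    by_cases ht : y ∈ b (.tp M.t none)
    · obtain ⟨l, hl, h1⟩ := h.exists_filter y
      obtain ⟨P, hP⟩ := (Gen.eventually (h.g1_ev E (l := l) hy hτ hd0 .A (P := fun P => P)
        (w := fun _ => []) (fun _ => ((hτ _ _).1 ht).symm) h1 (fun x => by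
          simpa only [Mach.phi_nil, mul_one, ← h.dlx_iff_of_tp ht] using h1 x)) hc).exists
      exact ⟨_, mkP_gen _ _ _ _ _ _ _, hP.2 hyc⟩
    by_cases hd : (∀ x, y ∉ dlx b x) ∨ ∀ x, y ∉ dlx' b x
    · obtain ⟨g, z, h1, h2, -⟩ := (h.approx E hy ht hd hc hyc).exists
      exact ⟨z, h1, h2⟩
    · push Not at hd
      obtain ⟨⟨x0, hx0⟩, x1, hx1⟩ := hd
      obtain ⟨a0, ha0⟩ := Option.ne_none_iff_exists'.1 fun e => ht ((hτ _ _).2 e)
      obtain ⟨-, hP⟩ := (Gen.eventually (h.g1_ev E (l := pure ()) hy hτ hd0 .A (P := fun _ => x0)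
        (w := fun _ => a0 :: wd M ((M.val a0)⁻¹ * (x1⁻¹ * x0))) (fun _ => ha0.symm)
        (fun x => .of_forall fun _ => h.mem_dlx_iff hx0 x) (fun x => .of_forall fun _ => by
          rw [← h.mem_dlx'_iff hx1 x, Mach.phi_cons, phi_wd h.good, mul_inv_cancel_left,
            ← mul_assoc, eq_comm, mul_eq_right, mul_inv_eq_one, eq_comm])) hc).exists
      exact ⟨_, mkP_gen _ _ _ _ _ _ _, hP.2 hyc⟩
  · exact h.dense_step E (.push i.1 i.2) (H ((Arr.mem_pb (h.PS1.ok i)).1 hy).2)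

theorem g1_le {g : Set N} (hg : G1 b g) : g = b .T ∨ (∃ d, g = b (.Dg d)) ∨ g ⊆ b .E := by
  cases hg with
  | T => exact Or.inl rfl
  | E => exact Or.inr (Or.inr le_rfl)
  | tp k o => exact Or.inr (Or.inr (h.tpE k o))
  | dl x => exact Or.inr (Or.inr (h.dlx_le_E x))
  | dl' x => exact Or.inr (Or.inr (h.dlx'_le_E x))
  | dg d => exact Or.inr (Or.inl ⟨d, rfl⟩)

/-- agreement off the base sheet -/
theorem g2_ev_off {A : Type} {l : Filter A} {w : A → N} {y : N} (hy : y ∉ b .E)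
    (hw : ∀ a, w a ∉ b .E) (hT : ∀ a, w a ∈ b .T ↔ y ∈ b .T)
    (hD : ∀ a d, w a ∈ b (.Dg d) ↔ y ∈ b (.Dg d))
    (hA : ∀ n, ∀ᶠ a in l, (w a ∈ An b n ↔ y ∈ An b n))
    (hB : ∀ n, ∀ᶠ a in l, (w a ∈ Bn b n ↔ y ∈ Bn b n))
    (hK : ∀ n, ∀ᶠ a in l, (w a ∈ Kn b n ↔ y ∈ Kn b n)) :
    ∀ g ∈ h.PS2.G0, ∀ᶠ a in l, (w a ∈ g ↔ y ∈ g) := by
  have k : ∀ {g : Set N}, g ⊆ b .E → ∀ᶠ a in l, (w a ∈ g ↔ y ∈ g) := fun hg =>
    .of_forall fun a => iff_of_false (fun e => hw a (hg e)) fun e => hy (hg e)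
  intro g hg
  cases hg with
  | cyl hx =>
    refine h.cyl_ev (fun g hg => ?_) (fun k a e => hy (h.tpE _ _ e)) _ hx
    rcases h.g1_le hg with rfl | ⟨d, rfl⟩ | hg
    · exact .of_forall hT
    · exact .of_forall fun a => hD a d
    · exact k hg
  | rA => exact k ((h.R_le_R0 _).trans h.R0_le_E)
  | rB => exact k ((h.R_le_R0 _).trans h.R0_le_E)
  | rC x => exact k ((h.PmR_le_R0 x _).trans h.R0_le_E)
  | rD x => exact k ((h.PmR_le_R0 x _).trans h.R0_le_E)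
  | an n => exact hA n
  | bn n => exact hB n
  | kn n => exact hK n

theorem dense_O (E : Emb b ι) {c : Set N} (hc : Gen h.PS2.G0 c) {y : N} (hyc : y ∈ c)
    (hy : y ∉ b .T) : ∃ z : CY M, Generic z ∧ ι z ∈ c := by
  let z : CY M := mkP 1 (fun _ => []) 0 trivial .A false false
  have hz : ι z ∉ b .T := fun e => Bool.false_ne_true ((E.mem _ _).1 e).1
  have k : ∀ {g : Set N}, g ⊆ b .T → (ι z ∈ g ↔ y ∈ g) := fun hg =>
    iff_of_false (fun e => hz (hg e)) fun e => hy (hg e)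
  obtain ⟨-, hP⟩ := (Gen.eventually (h.g2_ev_off (l := pure ()) (w := fun _ => ι z)
    (fun e => hy (h.leT _ e)) (fun _ e => hz (h.leT _ e)) (fun _ => k le_rfl)
    (fun _ _ => k (h.leT _)) (fun n => .of_forall fun _ => k (h.An_le_T n))
    (fun n => .of_forall fun _ => k (h.Bn_le_T n))
    (fun n => .of_forall fun _ => k (h.Kn_le_An n 0))) hc).exists
  exact ⟨z, mkP_gen _ _ _ _ _ _ _, hP.2 hyc⟩

theorem Kn_Bn_iff {u : N} {k : ℕ} (hu : u ∈ Kn b k) (n : ℕ) : u ∈ Bn b n ↔ n ≤ k :=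
  ⟨fun e => by
    by_contra hc
    exact h.Kn_orth k hu (h.Bn_mono (by omega) e), fun e => h.Bn_mono e (h.Kn_le_Bn k hu)⟩

theorem Kn_Kn_iff {u : N} {k : ℕ} (hu : u ∈ Kn b k) (n : ℕ) : u ∈ Kn b n ↔ n = k :=
  ⟨fun e => le_antisymm ((h.Kn_Bn_iff hu n).1 (h.Kn_le_Bn n e))
    ((h.Kn_Bn_iff e k).1 (h.Kn_le_Bn k hu)), fun e => e ▸ hu⟩

theorem mm_pow_Kn {u : N} (hu : u ∈ b .K) (k : ℕ) : mmW M ^ k • u ∈ Kn b k := by
  induction k with
  | zero => simpa [Kn] using hu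
  | succ k ih =>
    rw [pow_succ', mul_smul, Kn]
    exact Set.smul_mem_smul_set ih

theorem run_pt (E : Emb b ι) {s : M.Λ → List M.Γ} (hl : Leg M 1 1 s) (d0 : Bool) (i : ℕ)
    (hi : ι (mkP 1 s 1 hl .A d0 true) ∈ An b i) :
    Generic (mmW M ^ i • mkP 1 s 1 hl .A d0 true) ∧
      ι (mmW M ^ i • mkP 1 s 1 hl .A d0 true) ∉ b .E ∧
      ι (mmW M ^ i • mkP 1 s 1 hl .A d0 true) ∈ b .T ∧
      ∀ d, ι (mmW M ^ i • mkP 1 s 1 hl .A d0 true) ∈ b (.Dg d) ↔ d0 = d := by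
  obtain ⟨-, -, a3, a4, a5, a6, -⟩ := h.mm_pow_conc E i hi
  have hg := mkP_gen 1 s 1 hl .A d0 true
  refine ⟨⟨a4 ▸ hg.1, a5 ▸ hg.2⟩, fun e => ?_, (E.mem _ _).2 ⟨a6, trivial, trivial⟩, fun d => ?_⟩
  · have : (mmW M ^ i • mkP 1 s 1 hl .A d0 true).r.1.f = 0 := ((E.mem _ _).1 e).2.1
    rw [a3] at this
    exact one_ne_zero this
  · rw [E.mem]
    have : (mmW M ^ i • mkP 1 s 1 hl .A d0 true).n.bodd = d0 := by
      rw [a5]; exact Nat.bodd_bit _ _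
    exact ⟨fun k => this.symm.trans k.2.2, fun k => ⟨a6, trivial, this.trans k⟩⟩

theorem dense_S (E : Emb b ι) {c : Set N} (hc : Gen h.PS2.G0 c) {y : N} (hyc : y ∈ c)
    (hT : y ∈ b .T) (hy : y ∉ b .E) : ∃ z : CY M, Generic z ∧ ι z ∈ c := by
  classical
  obtain ⟨d0, hd0⟩ := h.exists_dg hT
  by_cases hK : ∃ k, y ∈ Kn b k
  · obtain ⟨k, hk⟩ := hK
    have hl : Leg M 1 1 fun _ => [] := leg_clean h.good _ _ fun _ _ => rfl
    have h0 : ι (mkP 1 (fun _ => []) 1 hl .A d0 true) ∈ b .K :=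
      (E.mem _ _).2 ⟨rfl, fun _ _ => rfl, trivial⟩
    obtain ⟨a1, a2, a3, a4⟩ := h.run_pt E hl d0 k (h.Kn_le_An 0 k h0)
    have a5 := h.mm_pow_Kn h0 k
    rw [← E.smul] at a5
    obtain ⟨-, hP⟩ := (Gen.eventually (h.g2_ev_off (l := pure ()) hy (fun _ => a2)
      (fun _ => iff_of_true a3 hT) (fun _ d => (a4 d).trans (hd0 d).symm)
      (fun n => .of_forall fun _ => iff_of_true (h.Kn_le_An k n a5) (h.Kn_le_An k n hk))
      (fun n => .of_forall fun _ => (h.Kn_Bn_iff a5 n).trans (h.Kn_Bn_iff hk n).symm)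
      (fun n => .of_forall fun _ => (h.Kn_Kn_iff a5 n).trans (h.Kn_Kn_iff hk n).symm)) hc).exists
    exact ⟨_, a1, hP.2 hyc⟩
  · choose s hs1 hs2 hs3 using h.good.cap
    let i : ℕ → ℕ := Nat.findGreatest fun j => y ∈ Bn b j
    let e : ℕ → ℕ := Nat.findGreatest fun j => y ∈ An b j
    have hi : ∀ a, y ∈ Bn b (i a) := fun a =>
      Nat.findGreatest_spec (P := fun j => y ∈ Bn b j) (Nat.zero_le a) hT
    have he : ∀ a, y ∈ An b (e a) := fun a =>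
      Nat.findGreatest_spec (P := fun j => y ∈ An b j) (Nat.zero_le a) hT
    have hl : ∀ a, Leg M 1 1 (s (i a + 1 + e a)) := fun a =>
      (leg_iff_of_dies (hs3 _) 1).2 (by omega)
    let z0 : ℕ → CY M := fun a => mkP 1 (s (i a + 1 + e a)) 1 (hl a) .A d0 true
    have hA0 : ∀ a j, ι (z0 a) ∈ An b j ↔ j ≤ i a + e a := fun a j => by
      rw [E.mem_An h.good]
      change true = true ∧ Leg M 1 (1 + j) (s (i a + 1 + e a)) ↔ _
      rw [leg_iff_of_dies (hs3 _)]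
      simp only [true_and]
      omega
    have hB0 : ∀ a, ι (z0 a) ∉ Bn b 1 := fun a k => by
      rw [h.Bn_one, E.mem] at k
      obtain ⟨ρ, k⟩ := k.2.1
      have := h.good.len _ _ _ _ k
      change _ < (s (i a + 1 + e a) M.c).length at this
      rw [hs1] at this
      exact Nat.not_lt_zero _ this
    have h0 : ∀ a, ι (z0 a) ∈ An b (i a) := fun a => (hA0 a _).2 (by omega)
    have hA : ∀ a j, ι (mmW M ^ i a • z0 a) ∈ An b j ↔ j ≤ e a := fun a j => by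
      rw [E.smul, h.mm_pow_mem_An _ (h0 a), hA0]
      omega
    have hB : ∀ a j, ι (mmW M ^ i a • z0 a) ∈ Bn b j ↔ j ≤ i a := fun a j => by
      rw [E.smul]
      refine ⟨fun k => ?_, fun k => h.Bn_mono (m := 0 + i a) (by omega) ?_⟩
      · by_contra hc
        exact hB0 a ((h.mm_pow_mem_Bn _ (h0 a) 1).1 (h.Bn_mono (by omega) k))
      · exact (h.mm_pow_mem_Bn _ (h0 a) 0).2 (h.An_le_T _ (h0 a))
    obtain ⟨a, hP⟩ := (Gen.eventually (h.g2_ev_off (l := atTop)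
      (w := fun a => ι (mmW M ^ i a • z0 a)) hy (fun a => (h.run_pt E _ d0 _ (h0 a)).2.1)
      (fun a => iff_of_true (h.run_pt E _ d0 _ (h0 a)).2.2.1 hT)
      (fun a d => ((h.run_pt E _ d0 _ (h0 a)).2.2.2 d).trans (hd0 d).symm)
      (fun n => by
        filter_upwards [eventually_ge_atTop n] with a ha
        rw [hA]
        exact ⟨fun k => h.An_mono k (he a), fun k => Nat.le_findGreatest ha k⟩)
      (fun n => by
        filter_upwards [eventually_ge_atTop n] with a ha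
        rw [hB]
        exact ⟨fun k => h.Bn_mono k (hi a), fun k => Nat.le_findGreatest ha k⟩)
      (fun n => .of_forall fun a => iff_of_false
        (fun k => Nat.not_succ_le_self _ ((hA a _).1 (h.Kn_le_An n (e a + 1) k)))
        fun k => hK ⟨n, k⟩)) hc).exists
    exact ⟨_, (h.run_pt E _ d0 _ (h0 a)).1, hP.2 hyc⟩

theorem exists_kind {y : N} (hy : y ∈ R0 b) : ∃ κ : Fr4, (κ = .A ↔ y ∈ b (.R .A)) ∧
    (κ = .B ↔ y ∈ b (.R .B)) ∧ (∀ x, κ = .C ∧ y ∈ dlx b x ↔ y ∈ Pm M x • b (.R .C)) ∧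
    ∀ x, κ = .D ∧ y ∈ dlx b x ↔ y ∈ Pm M x • b (.R .D) := by
  have o : ∀ x κ κ', κ ≠ κ' → y ∈ Pm M x • b (.R κ) → y ∉ Pm M x • b (.R κ') := by
    intro x κ κ' hne h1 h2
    rw [Set.mem_smul_set_iff_inv_smul_mem] at h1 h2
    exact h.rO _ _ hne h1 h2
  have hC : ∀ x, y ∈ Pm M x • b (.R .C) → y ∈ dlx b x := fun x k => Set.smul_set_mono h.rC k
  have hD : ∀ x, y ∈ Pm M x • b (.R .D) → y ∈ dlx b x := fun x k => Set.smul_set_mono h.rD k
  by_cases hA : y ∈ b (.R .A)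
  · refine ⟨.A, by simpa, by simpa using h.rO .A .B (by simp) hA, fun x => ?_, fun x => ?_⟩
    · simpa using o x .A .C (by simp) (by rwa [h.Pm_RA])
    · simpa using o x .A .D (by simp) (by rwa [h.Pm_RA])
  by_cases hB : y ∈ b (.R .B)
  · refine ⟨.B, by simpa, by simpa, fun x => ?_, fun x => ?_⟩
    · simpa using o x .B .C (by simp) (by rwa [h.Pm_RB])
    · simpa using o x .B .D (by simp) (by rwa [h.Pm_RB])
  by_cases hx : ∃ x1, y ∈ Pm M x1 • b (.R .C)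
  · obtain ⟨x1, hx1⟩ := hx
    refine ⟨.C, by simpa, by simpa, fun x => ⟨fun k => ?_, fun k => ⟨rfl, hC x k⟩⟩, fun x => ?_⟩
    · rwa [← (h.mem_dlx_iff (hC x1 hx1) x).2 k.2]
    · refine iff_of_false (by simp) fun k => ?_
      rw [← (h.mem_dlx_iff (hC x1 hx1) x).2 (hD x k)] at k
      exact o x1 .C .D (by simp) hx1 k
  · refine ⟨.D, by simpa, by simpa, fun x => iff_of_false (by simp) fun k => hx ⟨x, k⟩,
      fun x => ⟨fun k => ?_, fun k => ⟨rfl, hD x k⟩⟩⟩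
    by_contra hc
    exact h.R_cover x ⟨⟨⟨⟨⟨hy, k.2⟩, hA⟩, hB⟩, fun k' => hx ⟨x, k'⟩⟩, hc⟩

theorem dense_R [Infinite G] (E : Emb b ι) {c : Set N} (hc : Gen h.PS2.G0 c) {y : N}
    (hyc : y ∈ c) (hy : y ∈ R0 b) : ∃ z : CY M, Generic z ∧ ι z ∈ c := by
  have hE := h.R0_le_E hy
  have hτ : ∀ k o, y ∈ b (.tp k o) ↔ (fun _ => none) k = o := fun k o =>
    ⟨fun e => by_contra fun hne => h.tpO k _ _ hne (h.R0_le_tp k hy) e,
      fun e => e ▸ h.R0_le_tp k hy⟩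
  obtain ⟨d0, hd0⟩ := h.exists_dg (h.leT _ hE)
  obtain ⟨l, hl, h1⟩ := h.exists_filter y
  obtain ⟨κ, kA, kB, kC, kD⟩ := h.exists_kind hy
  let z : G → CY M := fun P => mkE (fun _ => none) P [] κ d0
  have hz : ∀ P k, (z P).r.1.σ k = [] := fun P k => by
    change (if k = M.t then [] else []) = []
    simp
  have hcyl : ∀ x ∈ h.PS1.Alg.car, ∀ᶠ P in l, (ι (z P) ∈ x ↔ y ∈ x) :=
    h.cyl_ev (h.g1_ev E (l := l) hE hτ hd0 κ (P := fun P => P) (w := fun _ => [])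
      (fun _ => rfl) h1 fun x => by
        simpa only [Mach.phi_nil, mul_one, ← h.dlx_iff_of_tp (h.R0_le_tp M.t hy)] using h1 x)
      fun k a e => by simpa using (hτ _ _).1 e
  have hloc : ∀ {x : Set N}, x ⊓ b .E ∈ h.PS1.Alg.car → ∀ᶠ P in l, (ι (z P) ∈ x ↔ y ∈ x) := by
    intro x hx
    filter_upwards [hcyl _ hx] with P hP
    exact ⟨fun k => (hP.1 ⟨k, (E.mem _ _).2 (mkE_E _ _ _ _ _)⟩).1, fun k => (hP.2 ⟨k, hE⟩).1⟩
  have hR : ∀ P κ', (κ' = .A ∨ κ' = .B) → (ι (z P) ∈ b (.R κ') ↔ κ = κ') := by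
    intro P κ' hκ
    rw [E.mem, ← frm_kind (M := M) κ]
    refine ⟨fun k => k.2.1.2.2.1, fun k => ⟨rfl, ⟨rfl, hz P, k, fun e => ?_⟩, trivial⟩⟩
    rcases hκ with rfl | rfl <;> simp at e
  have hR' : ∀ P x κ', (κ' = .C ∨ κ' = .D) →
      (ι (z P) ∈ Pm M x • b (.R κ') ↔ κ = κ' ∧ P = x) := by
    intro P x κ' hκ
    rw [E.mem_smul, mem_Pm_smul h.good x (j := .R κ') (fun u hu => ⟨hu.1, hu.2.1.1, trivial⟩),
      ← frm_kind (M := M) κ]
    exact ⟨fun k => ⟨k.2.1.2.2.1, (inv_mul_eq_one.1 (k.2.1.2.2.2 hκ)).symm⟩,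
      fun k => ⟨mkE_E _ _ _ _ _, ⟨rfl, hz P, k.1, fun _ => inv_mul_eq_one.2 k.2.symm⟩, trivial⟩⟩
  obtain ⟨P, hP⟩ := (Gen.eventually (l := l) (z := fun P => ι (z P)) (y := y) (fun g hg => by
    cases hg with
    | cyl hx => exact hcyl _ hx
    | rA => exact .of_forall fun P => (hR P _ (Or.inl rfl)).trans kA
    | rB => exact .of_forall fun P => (hR P _ (Or.inr rfl)).trans kB
    | rC x =>
      filter_upwards [h1 x] with P hP
      rw [hR' P x _ (Or.inl rfl), hP, kC]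
    | rD x =>
      filter_upwards [h1 x] with P hP
      rw [hR' P x _ (Or.inr rfl), hP, kD]
    | an n => exact hloc (h.cyl_An n)
    | bn n => exact hloc (h.cyl_Bn n)
    | kn n => exact hloc (h.cyl_Kn n)) hc).exists
  exact ⟨_, mkP_gen _ _ _ _ _ _ _, hP.2 hyc⟩

/-- reduction to the cylinder algebra off the empty configuration -/
theorem shrink_cyl {c : Set N} (hc : Gen h.PS2.G0 c) {y : N} (hyc : y ∈ c) (hE : y ∈ b .E)
    (hR : y ∉ R0 b) : ∃ c' ∈ h.PS1.Alg.car, y ∈ c' ∧ c' ⊆ c := by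
  obtain ⟨c', h1, h2⟩ := h.to_cyl hc
  exact ⟨c' ⊓ (b .E ⊓ (R0 b)ᶜ), h.PS1.Alg.inf_mem h1 (h.PS1.Alg.inf_mem (h.PS1.base_mem G1.E)
    (h.PS1.Alg.compl_mem h.R0_cyl)), ⟨(h2 y hE hR).2 hyc, hE, hR⟩,
    fun z hz => (h2 z hz.2.1 hz.2.2).1 hz.1⟩

end Hyp

theorem Hyp.dense_alg (h : Hyp b) [Infinite G] (E : Emb b ι) :
    ∀ c ∈ h.PS2.Alg.car, ∀ y ∈ c, ∃ z : CY M, Generic z ∧ ι z ∈ c := by
  refine h.PS2.pind (R := fun _ c => ∃ z : CY M, Generic z ∧ ι z ∈ c)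
    (fun y x _ x' _ _ hx H => ?_) (fun c hc y hyc => ?_) fun p y x _ _ H => h.dense_step E p H
  · obtain ⟨z, h1, h2⟩ := H
    exact ⟨z, h1, hx h2⟩
  · by_cases hT : y ∈ b .T
    · by_cases hE : y ∈ b .E
      · by_cases hR : y ∈ R0 b
        · exact h.dense_R E hc hyc hR
        · obtain ⟨c', h1, h2, h3⟩ := h.shrink_cyl hc hyc hE hR
          obtain ⟨z, h4, h5⟩ := h.dense_cyl E c' h1 y h2 hE
          exact ⟨z, h4, h3 h5⟩
      · exact h.dense_S E hc hyc hT hE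
    · exact h.dense_O E hc hyc hT

end Vale.Agent.P193
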