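import Vale.Agent.P193.P2A
import Vale.Agent.P193.P2B

/-! Effectiveness. -/

namespace Vale.Agent.P193

open scoped Pointwise
open Monoid

variable {G : Type} [Group G] {M : Mach G}
variable {N : Type} [MulAction (FF M) N] {b : Pr M → Set N} {ι : CY M → N}

theorem MIF.infinite (hG : MIF G) : Infinite G := by
  by_contra hc
  have := not_infinite_iff_finite.1 hc
  have := Fintype.ofFinite G
  obtain ⟨g, hg, -⟩ := hG (Coprod.inr (Multiplicative.ofAdd 1)) (fun e => by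
    simpa using congrArg Coprod.snd e) Finset.univ
  exact hg (Finset.mem_univ g)

/-- the unknown -/
def ugen (G : Type) [Group G] : Coprod G (Multiplicative ℤ) :=
  Coprod.inr (Multiplicative.ofAdd 1)

theorem evalAt_inl (g x : G) : evalAt g (Coprod.inl x) = x := by simp [evalAt]

theorem evalAt_ugen (g : G) : evalAt g (ugen G) = g := by simp [evalAt, ugen]

theorem u_ind {p : Coprod G (Multiplicative ℤ) → Prop} (h1 : ∀ x, p (Coprod.inl x))
    (h2 : p (ugen G)) (h3 : ∀ u v, p u → p v → p (u * v)) (h4 : ∀ u, p u → p u⁻¹) (v) : p v := by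
  induction v using Coprod.induction_on with
  | inl x => exact h1 x
  | inr n =>
    have e : (Coprod.inr n : Coprod G (Multiplicative ℤ)) = ugen G ^ n.toAdd := by
      rw [ugen, ← map_zpow, ← ofAdd_zsmul, smul_eq_mul, mul_one, ofAdd_toAdd]
    rw [e]
    have k : ∀ m : ℕ, p (ugen G ^ m) := fun m => by
      induction m with
      | zero => simpa using h1 1
      | succ m ih => rw [pow_succ]; exact h3 _ _ ih h2
    obtain ⟨m, hm | hm⟩ := Int.eq_nat_or_neg n.toAdd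
    · rw [hm, zpow_natCast]; exact k m
    · rw [hm, zpow_neg, zpow_natCast]; exact h4 _ (k m)
  | mul u v hu hv => exact h3 u v hu hv

/-- substitution of the unknown -/
def usub (x : G) : Coprod G (Multiplicative ℤ) →* Coprod G (Multiplicative ℤ) :=
  Coprod.lift Coprod.inl (zpowersHom _ (Coprod.inl x * ugen G))

theorem usub_inl (x y : G) : usub x (Coprod.inl y) = Coprod.inl y := by simp [usub]

theorem usub_ugen (x : G) : usub x (ugen G) = Coprod.inl x * ugen G := by simp [usub, ugen]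

theorem evalAt_usub (g x : G) (v : Coprod G (Multiplicative ℤ)) :
    evalAt g (usub x v) = evalAt (x * g) v := by
  induction v using u_ind with
  | h1 y => rw [usub_inl, evalAt_inl, evalAt_inl]
  | h2 => rw [usub_ugen, map_mul, evalAt_inl, evalAt_ugen, evalAt_ugen]
  | h3 u v hu hv => simp only [map_mul, hu, hv]
  | h4 u hu => simp only [map_inv, hu]

/-- restriction of a group element to an invariant set -/
def resP {e : Set N} (γ : FF M) (hγ : γ • e = e) : Equiv.Perm e :=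
  (MulAction.toPerm γ).subtypePerm fun y => by
    change γ • y ∈ e ↔ y ∈ e
    conv_lhs => rw [← hγ]
    exact Set.smul_mem_smul_set_iff

theorem resP_val {e : Set N} (γ : FF M) (hγ : γ • e = e) (y : e) :
    (resP γ hγ y : N) = γ • (y : N) := rfl

namespace Hyp

variable (h : Hyp b)

/-- the action of the second register on the base sheet -/
noncomputable def qH : G →* Equiv.Perm (b .E) := MonoidHom.mk'
  (fun x => resP (Qm M x) (h.Qm_basic x .E)) fun x x' => by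
    ext y
    change Qm M (x * x') • (y : N) = Qm M x • Qm M x' • (y : N)
    rw [← mul_smul, set_eqv.1 (h.Qm_mul x x') _ (h.leT _ y.2)]

/-- the action of the first register on the base sheet -/
noncomputable def pH : G →* Equiv.Perm (b .E) := MonoidHom.mk'
  (fun x => resP (Pm M x) (h.Pm_E x)) fun x x' => by
    ext y
    change Pm M (x * x') • (y : N) = Pm M x • Pm M x' • (y : N)
    rw [← mul_smul, set_eqv.1 (h.Pm_mul x x') _ y.2]

/-- the action of words with one unknown on the base sheet -/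
noncomputable def uH : Coprod G (Multiplicative ℤ) →* Equiv.Perm (b .E) :=
  Coprod.lift h.qH (zpowersHom _ (resP (jW M) (h.wdom .jj)))

theorem qH_val (x : G) (y : b .E) : (h.qH x y : N) = Qm M x • (y : N) := rfl

theorem pH_val (x : G) (y : b .E) : (h.pH x y : N) = Pm M x • (y : N) := rfl

theorem uH_inl (x : G) : h.uH (Coprod.inl x) = h.qH x := by simp [uH]

theorem uH_ugen (y : b .E) : (h.uH (ugen G) y : N) = jW M • (y : N) := by
  simp only [uH, ugen, Coprod.lift_apply_inr, zpowersHom_apply, toAdd_ofAdd, zpow_one]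
  rfl

theorem uH_eval {D : Set N} {g0 : G} (h1 : ∀ x, ∀ y ∈ D, Qm M x • y ∈ D)
    (h2 : ∀ y : b .E, (y : N) ∈ D → jW M • (y : N) = Qm M g0 • (y : N))
    (v : Coprod G (Multiplicative ℤ)) :
    ∀ y : b .E, (y : N) ∈ D → h.uH v y = h.qH (evalAt g0 v) y := by
  induction v using u_ind with
  | h1 x => intro y _; rw [uH_inl, evalAt_inl]
  | h2 => intro y hy; rw [evalAt_ugen]; exact Subtype.ext ((h.uH_ugen y).trans (h2 y hy))
  | h3 u v hu hv =>
    intro y hy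
    rw [map_mul, map_mul, map_mul, Equiv.Perm.mul_apply, Equiv.Perm.mul_apply, hv y hy,
      hu _ (h1 _ _ hy)]
  | h4 u hu =>
    intro y hy
    rw [map_inv, Equiv.Perm.inv_eq_iff_eq, hu _ (h1 _ _ hy), ← Equiv.Perm.mul_apply, ← map_mul,
      map_inv, mul_inv_cancel, map_one, Equiv.Perm.one_apply]

theorem uH_inter (w : b .E → b .E) (s : Coprod G (Multiplicative ℤ) →* _)
    (h1 : ∀ x y, h.qH x (w y) = w (h.uH (s (Coprod.inl x)) y))
    (h2 : ∀ y, h.uH (ugen G) (w y) = w (h.uH (s (ugen G)) y)) (v : Coprod G (Multiplicative ℤ)) :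
    ∀ y, h.uH v (w y) = w (h.uH (s v) y) := by
  induction v using u_ind with
  | h1 x => intro y; rw [uH_inl, h1]
  | h2 => exact h2
  | h3 u v hu hv =>
    intro y
    rw [map_mul, map_mul, map_mul, Equiv.Perm.mul_apply, Equiv.Perm.mul_apply, hv, hu]
  | h4 u hu =>
    intro y
    rw [map_inv, Equiv.Perm.inv_eq_iff_eq, hu, ← Equiv.Perm.mul_apply, ← map_mul, map_inv,
      mul_inv_cancel, map_one, Equiv.Perm.one_apply]

theorem uH_pH (x : G) (v : Coprod G (Multiplicative ℤ)) : h.uH v * h.pH x = h.pH x * h.uH v := by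
  ext y
  refine congrArg Subtype.val (h.uH_inter (h.pH x) (MonoidHom.id _) (fun x' y => ?_)
    (fun y => ?_) v y)
  · refine Subtype.ext ?_
    rw [MonoidHom.id_apply, uH_inl, qH_val, pH_val, pH_val, qH_val, ← mul_smul, ← mul_smul]
    exact set_eqv.1 (h.Qm_Pm x' x) _ y.2
  · refine Subtype.ext ?_
    rw [MonoidHom.id_apply, uH_ugen, pH_val, pH_val, uH_ugen, ← mul_smul, ← mul_smul]
    exact (set_eqv.1 (h.Pm_j x) _ y.2).symm

theorem EU_rep {g : FF M} (hg : g ∈ EU M) :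
    ∃ x v, ∀ y : b .E, g • (y : N) = ((h.pH x * h.uH v) y : b .E) := by
  induction hg using Subgroup.closure_induction with
  | mem g hg =>
    rcases hg with (⟨x, rfl⟩ | ⟨x, rfl⟩) | rfl
    · exact ⟨x, 1, fun y => by rw [map_one, mul_one, pH_val]⟩
    · exact ⟨1, Coprod.inl x, fun y => by rw [map_one, one_mul, uH_inl, qH_val]⟩
    · exact ⟨1, ugen G, fun y => by rw [map_one, one_mul, uH_ugen]⟩
  | one => exact ⟨1, 1, fun y => by simp⟩
  | mul g g' _ _ h1 h2 =>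
    obtain ⟨x, v, h1⟩ := h1
    obtain ⟨x', v', h2⟩ := h2
    refine ⟨x * x', v * v', fun y => ?_⟩
    rw [mul_smul, h2, h1, ← Equiv.Perm.mul_apply, map_mul, map_mul, mul_assoc, mul_assoc,
      ← mul_assoc (h.uH v), uH_pH, mul_assoc]
  | inv g _ h1 =>
    obtain ⟨x, v, h1⟩ := h1
    refine ⟨x⁻¹, v⁻¹, fun y => ?_⟩
    rw [inv_smul_eq_iff, h1, ← Equiv.Perm.mul_apply, ← uH_pH h x⁻¹, mul_assoc,
      ← mul_assoc (h.uH v), ← map_mul, mul_inv_cancel, map_one, one_mul, ← map_mul,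
      mul_inv_cancel, map_one, Equiv.Perm.one_apply]

theorem uH_conc (E : Emb b ι) (v : Coprod G (Multiplicative ℤ)) {z : CY M} (hz : ι z ∈ b .E) :
    (h.uH v ⟨ι z, hz⟩ : N) = ι (Qm M (evalAt (M.phi (z.r.1.σ M.t)) v) • z) := by
  rw [h.uH_eval (D := {y | ∃ z' : CY M, ι z' = y ∧ z'.side = true ∧ z'.r.1.σ = z.r.1.σ})
    (g0 := M.phi (z.r.1.σ M.t)) ?_ ?_ v _ ⟨z, rfl, ((E.mem _ _).1 hz).1, rfl⟩, qH_val, E.smul]
  · rintro x _ ⟨z', rfl, h1, h2⟩
    have := Qm_smul h.good x h1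
    exact ⟨Qm M x • z', E.smul _ _, this.2.2, by rw [this.1]; exact h2⟩
  · rintro ⟨_, hy⟩ ⟨z', rfl, h1, h2⟩
    have h3 : z' ∈ ce M Mv.jj.dom := (E.mem _ _).1 hy
    have := Qm_smul h.good (M.phi (z.r.1.σ M.t)) h1
    change jW M • ι z' = _ • ι z'
    rw [← E.smul, ← E.smul]
    refine congrArg ι (cy_ext ?_ ?_ ?_)
    · rw [this.1, jW, Mv.jj.w_r h.good h3, ← h2]; rfl
    · rw [this.2.1, jW, Mv.jj.w_n h.good h3]; rfl
    · rw [this.2.2, jW, Mv.jj.w_side h.good h3]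

theorem EU_conc (E : Emb b ι) {g : FF M} {x : G} {v : Coprod G (Multiplicative ℤ)}
    (hg : ∀ y : b .E, g • (y : N) = ((h.pH x * h.uH v) y : b .E)) {z : CY M} (hz : z ∈ ce M .E) :
    (g • z).r.1 = { z.r.1 with P := x * z.r.1.P, Q := evalAt (M.phi (z.r.1.σ M.t)) v * z.r.1.Q } ∧
      (g • z).n = z.n ∧ (g • z).side = true := by
  have h1 := hg ⟨ι z, (E.mem _ _).2 hz⟩
  rw [Equiv.Perm.mul_apply, pH_val, h.uH_conc E, ← E.smul, ← E.smul] at h1
  have h2 := Qm_smul h.good (evalAt (M.phi (z.r.1.σ M.t)) v) hz.1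
  have h3 := Pm_smul h.good x (y := Qm M (evalAt (M.phi (z.r.1.σ M.t)) v) • z)
    ⟨h2.2.2, by rw [h2.1]; exact hz.2.1, trivial⟩
  rw [E.inj h1, h3.1, h3.2.1, h3.2.2, h2.1, h2.2.1]
  exact ⟨rfl, rfl, rfl⟩

/-- the property proved by induction on the algebra -/
def URel (ι : CY M → N) (y : N) (c : Set N) : Prop :=
  ∀ v : Coprod G (Multiplicative ℤ),
    (∀ z : CY M, ι z ∈ c → z ∈ ce M .E → evalAt (M.phi (z.r.1.σ M.t)) v = 1) →
      ∀ hy : y ∈ b .E, h.uH v ⟨y, hy⟩ = ⟨y, hy⟩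

theorem urel_mono {y : N} {c c' : Set N} (hc : c ⊆ c') (H : h.URel ι y c) : h.URel ι y c' :=
  fun v hv => H v fun z hz => hv z (hc hz)

theorem urel_of [Infinite G] (E : Emb b ι) {y : N} {c D : Set N} (hc : c ∈ h.PS2.Alg.car)
    (hD : D ∈ h.PS2.Alg.car) (hy : y ∈ c) (hyD : y ∈ D) {g0 : G}
    (h1 : ∀ x, ∀ y ∈ D, Qm M x • y ∈ D) (h2 : ∀ y ∈ D, jW M • y = Qm M g0 • y)
    (h3 : ∀ z : CY M, ι z ∈ D → z ∈ ce M .E ∧ M.phi (z.r.1.σ M.t) = g0) : h.URel ι y c := by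
  intro v hv hE
  obtain ⟨z, -, hz⟩ := h.dense_alg E _ (h.PS2.Alg.inf_mem hc hD) y ⟨hy, hyD⟩
  have h4 := hv z hz.1 (h3 z hz.2).1
  rw [(h3 z hz.2).2] at h4
  rw [h.uH_eval h1 (fun y hy => h2 y hy) v _ hyD, h4, map_one, Equiv.Perm.one_apply]

theorem urel_tp [Infinite G] (E : Emb b ι) {y : N} {c : Set N} (hc : c ∈ h.PS2.Alg.car)
    (hy : y ∈ c) (ht : y ∈ b (.tp M.t none)) : h.URel ι y c := by
  refine h.urel_of E hc (h.basic_mem _) hy ht (g0 := 1) (fun x y hy => ?_) (fun y hy => ?_)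
    fun z hz => ?_
  · rw [← h.Qm_basic x]
    exact Set.smul_mem_smul_set hy
  · rw [set_tv.1 h.Qm_one y (h.leT _ hy)]
    exact set_tv.1 h.jT y hy
  · have := (E.mem _ _).1 hz
    refine ⟨⟨this.1, this.2.1.1, trivial⟩, ?_⟩
    rw [List.head?_eq_none_iff.1 this.2.1.2]
    rfl

theorem urel_move (E : Emb b ι) (σ : Mv M) (hE : ∀ y ∈ b σ.dom, σ.w • y ∈ b .E ↔ y ∈ b .E)
    (hd : b .E ⊆ b σ.dom) (hq : ∀ a, σ ≠ .qm a) (hj : σ ≠ .jj) (hD : σ ≠ .fr .D)
    (s : Coprod G (Multiplicative ℤ) →* Coprod G (Multiplicative ℤ))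
    (hs : ∀ x, s (Coprod.inl x) = Coprod.inl x)
    (h2 : ∀ y : b .E, jW M • σ.w • (y : N) = σ.w • (h.uH (s (ugen G)) y : N))
    (h3 : ∀ z ∈ ce M .E, ∀ v, evalAt (M.phi (z.r.1.σ M.t)) (s v) =
      evalAt (M.phi ((σ.w • z).r.1.σ M.t)) v)
    {y : N} {x : Set N} (hy : y ∈ (σ.arr b).pb x) (H : h.URel ι y ((σ.arr b).pb x)) :
    h.URel ι (σ.w • y) x := by
  intro v hv hy'
  have hyE : y ∈ b .E := (hE y ((Arr.mem_pb (h.ok σ)).1 hy).2).1 hy'
  have h4 := H (s v) (fun z hz hzE => by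
    rw [h3 z hzE]
    obtain ⟨a1, a2⟩ := (Arr.mem_pb (h.ok σ)).1 hz
    refine hv _ (by rw [E.smul]; exact a1) ?_
    rw [← E.mem, E.smul]
    exact (hE _ a2).2 ((E.mem _ _).2 hzE)) hyE
  have h5 := h.uH_inter (fun y => ⟨σ.w • (y : N), (hE _ (hd y.2)).2 y.2⟩) s (fun x y => by
    refine Subtype.ext ?_
    rw [hs, uH_inl, qH_val]
    change Qm M x • σ.w • (y : N) = σ.w • Qm M x • (y : N)
    rw [← mul_smul, ← mul_smul]
    exact set_eqv.1 (h.Qm_comm x σ hq hj hD) _ (hd y.2))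
    (fun y => Subtype.ext ((h.uH_ugen _).trans (h2 y))) v ⟨y, hyE⟩
  rw [h4] at h5
  exact h5

theorem urel_push (E : Emb b ι) (k : M.Λ) (a : M.Γ) {y : N} {x : Set N}
    (hy : y ∈ ((Pu.push k a).arr b).pb x) (H : h.URel ι y (((Pu.push k a).arr b).pb x)) :
    h.URel ι ((Pu.push k a).W • y) x := by
  have hE : ∀ y ∈ b (Mv.push k a).dom, (Mv.push k a).w • y ∈ b .E ↔ y ∈ b .E := fun y hy =>
    iff_of_true (h.tpE _ _ ((Arr.mem_r (h.ok (.push k a))).2 hy)) hy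
  by_cases hk : k = M.t
  · subst hk
    refine h.urel_move E (.push M.t a) hE le_rfl (by simp) (by simp) (by simp) (usub (M.val a))
      (usub_inl _) (fun y => ?_) (fun z hz v => ?_) hy H
    · rw [usub_ugen, map_mul, Equiv.Perm.mul_apply, uH_inl, qH_val, uH_ugen, ← mul_smul,
        ← mul_smul, ← mul_smul]
      exact set_eqv.1 (h.j_pusht a) _ y.2
    · rw [evalAt_usub, (Mv.push M.t a).w_r h.good hz]
      simp [Mv.raw]
  · refine h.urel_move E (.push k a) hE le_rfl (by simp) (by simp) (by simp) (MonoidHom.id _)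
      (fun _ => rfl) (fun y => ?_) (fun z hz v => ?_) hy H
    · rw [MonoidHom.id_apply, uH_ugen, ← mul_smul, ← mul_smul]
      exact set_eqv.1 (h.cJPush k a hk) _ ⟨y.2, y.2⟩
    · rw [(Mv.push k a).w_r h.good hz]
      simp [Mv.raw, Ne.symm hk]

theorem urel_dig (E : Emb b ι) (d : Bool) {y : N} {x : Set N}
    (hy : y ∈ ((Pu.dig d).arr b).pb x) (H : h.URel ι y (((Pu.dig d).arr b).pb x)) :
    h.URel ι ((Pu.dig (M := M) d).W • y) x := by
  refine h.urel_move E (.dig d) (fun y hy => ?_) (h.leT _) (by simp) (by simp) (by simp)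
    (MonoidHom.id _) (fun _ => rfl) (fun y => ?_) (fun z hz v => ?_) hy H
  · have e := Set.ext_iff.1 (h.digAll d .E (by simp)) ((Mv.dig (M := M) d).w • y)
    rw [Set.smul_mem_smul_set_iff] at e
    exact ⟨fun k => (e.2 ⟨k, (Arr.mem_r (h.ok (.dig d))).2 hy⟩).1, fun k => (e.1 ⟨k, hy⟩).1⟩
  · rw [MonoidHom.id_apply, uH_ugen, ← mul_smul, ← mul_smul]
    exact (set_eqv.1 (h.cDig d .jj (by simp)) _ ⟨h.leT _ y.2, y.2⟩).symm
  · rw [(Mv.dig d).w_r h.good ⟨hz.1, trivial, trivial⟩]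
    rfl

theorem urel_cyl (hG : MIF G) (E : Emb b ι) : ∀ c ∈ h.PS1.Alg.car, ∀ y ∈ c, h.URel ι y c := by
  have := hG.infinite
  refine h.PS1.pind (R := h.URel ι) (fun y x _ x' _ _ hx H => h.urel_mono hx H)
    (fun c hc y hyc => ?_) fun i y x _ hy H => h.urel_push E i.1 i.2 hy H
  have hc' : c ∈ h.PS2.Alg.car := h.PS2.base_mem (G2.cyl (h.PS1.gen_mem hc))
  by_cases ht : y ∈ b (.tp M.t none)
  · exact h.urel_tp E hc' hyc ht
  by_cases hd : (∀ x, y ∉ dlx b x) ∨ ∀ x, y ∉ dlx' b x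
  · intro v hv hy
    have h1 := h.approx E hy ht hd hc hyc
    have h2 : v = 1 := by
      by_contra hne
      obtain ⟨g, hg, hg'⟩ := hG v hne (Filter.eventually_cofinite.1 h1).toFinset
      rw [Set.Finite.mem_toFinset, Set.mem_ofPred_eq, not_not] at hg
      obtain ⟨z, -, a1, a2, rfl⟩ := hg
      exact hg' (hv z a1 a2)
    rw [h2, map_one, Equiv.Perm.one_apply]
  · push Not at hd
    obtain ⟨⟨x0, hx0⟩, x1, hx1⟩ := hd
    refine h.urel_of E hc' (D := dlx b x0 ⊓ dlx' b x1) (h.PS2.Alg.inf_mem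
      (h.smul_mem _ (h.basic_mem _)) (h.smul_mem _ (h.basic_mem _))) hyc ⟨hx0, hx1⟩
      (g0 := x1⁻¹ * x0) (fun x y hy => ⟨?_, ?_⟩) (set_eqv.1 (h.j_on x0 x1)) fun z hz => ?_
    · rw [dlx, ← h.Qm_Pm_basic x x0 .dl h.dlE]
      exact Set.smul_mem_smul_set hy.1
    · rw [dlx', ← h.Qm_Pm_basic x x1 .dl' h.dlE']
      exact Set.smul_mem_smul_set hy.2
    · obtain ⟨a1, a2⟩ := (E.mem_dlx h.good _ _).1 hz.1
      obtain ⟨-, a3⟩ := (E.mem_dlx' h.good _ _).1 hz.2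
      exact ⟨a1, by rw [← a2, a3, inv_mul_cancel_left]⟩

theorem urel_alg (hG : MIF G) (E : Emb b ι) : ∀ c ∈ h.PS2.Alg.car, ∀ y ∈ c, h.URel ι y c := by
  have := hG.infinite
  refine h.PS2.pind (R := h.URel ι) (fun y x _ x' _ _ hx H => h.urel_mono hx H)
    (fun c hc y hyc => ?_) fun p y x hx hy H => ?_
  · by_cases ht : y ∈ b (.tp M.t none)
    · exact h.urel_tp E (h.PS2.gen_mem hc) hyc ht
    · intro v hv hy
      obtain ⟨c', h1, h2, h3⟩ := h.shrink_cyl hc hyc hy fun k => ht (h.R0_le_tp M.t k)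
      exact h.urel_mono h3 (h.urel_cyl hG E c' h1 y h2) v hv hy
  · obtain ⟨h1, h2⟩ := (Arr.mem_pb (h.pu_ok p)).1 hy
    have h3 := (Arr.mem_r (h.pu_ok p)).2 h2
    cases p with
    | push k a => exact h.urel_push E k a hy H
    | fA => exact h.urel_tp E hx h1 (h.rTp _ _ h3)
    | fB => exact h.urel_tp E hx h1 (h.rTp _ _ h3)
    | fC x' => exact h.urel_tp E hx h1 (h.R0_le_tp M.t (h.PmR_le_R0 _ _ h3))
    | fD x' => exact h.urel_tp E hx h1 (h.R0_le_tp M.t (h.PmR_le_R0 _ _ h3))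
    | io => exact fun v _ hE => (h.shE h3 hE).elim
    | dig d => exact h.urel_dig E d hy H
    | flip => exact fun v _ hE => (h3 (h.leT _ hE)).elim

end Hyp

theorem Hyp.unit_E (h : Hyp b) (hG : MIF G) (E : Emb b ι) {g : FF M} (hg : g ∈ EU M) {c : Set N}
    (hc : c ∈ h.PS2.Alg.car) {y : N} (hy : y ∈ c) (hE : y ∈ b .E)
    (H : ∀ z : CY M, ι z ∈ c → g • z = z) : g • y = y := by
  have := hG.infinite
  obtain ⟨x, v, hr⟩ := h.EU_rep hg
  have key : ∀ z : CY M, ι z ∈ c → z ∈ ce M .E →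
      x = 1 ∧ evalAt (M.phi (z.r.1.σ M.t)) v = 1 := by
    intro z hz hzE
    have h1 := (h.EU_conc E hr hzE).1
    rw [H z hz] at h1
    exact ⟨right_eq_mul.1 (congrArg Raw.P h1), right_eq_mul.1 (congrArg Raw.Q h1)⟩
  obtain ⟨z, -, hz⟩ := h.dense_alg E _ (h.PS2.Alg.inf_mem hc (h.basic_mem .E)) y ⟨hy, hE⟩
  have hx := (key z hz.1 ((E.mem _ _).1 hz.2)).1
  have h2 := hr ⟨y, hE⟩
  rw [hx, map_one, one_mul, h.urel_alg hG E c hc y hy v (fun z a1 a2 => (key z a1 a2).2) hE] at h2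
  exact h2

theorem Hyp.An_mem (h : Hyp b) (n : ℕ) : An b n ∈ h.PS2.Alg.car := h.PS2.base_mem (G2.an n)

theorem Hyp.mid_same (h : Hyp b) (E : Emb b ι) {y : N} {g1 g2 : FF M} (hm : Mid b y g1 g2) :
    ∃ e ∈ h.PS2.Alg.car, y ∈ e ∧ ∀ z : CY M, ι z ∈ e → Generic z →
      Generic (g1 • z) ∧ Same (g1 • z) (g2 • z) := by
  cases hm with
  | E hy hg =>
    obtain ⟨x, v, hr⟩ := h.EU_rep hg
    refine ⟨_, h.basic_mem .E, hy, fun z hz hg => ?_⟩
    have hz' := (E.mem _ _).1 hz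
    obtain ⟨a1, a2, a3⟩ := h.EU_conc E hr hz'
    rw [one_smul]
    exact ⟨hg, by rw [a1], a2.symm, hz'.1.trans a3.symm, by rw [a1], fun _ => by rw [a1]⟩
  | S x n m h1 h2 h3 =>
    refine ⟨b .Sh ⊓ (An b n ⊓ An b m), h.PS2.Alg.inf_mem (h.basic_mem _)
      (h.PS2.Alg.inf_mem (h.An_mem n) (h.An_mem m)), ⟨h1, h2, h3⟩, fun z hz hg => ?_⟩
    have hz' := (E.mem _ _).1 hz.1
    obtain ⟨-, -, a3, a4, a5, a6, -⟩ := h.mm_pow_conc E n hz.2.1
    obtain ⟨-, -, b3, b4, b5, b6, -⟩ := h.mm_pow_conc E m hz.2.2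
    obtain ⟨c1, c2, c3⟩ := Qm_smul h.good x (b6.trans hz'.1)
    rw [mul_smul]
    exact ⟨⟨a4 ▸ hg.1, a5 ▸ hg.2⟩, by rw [c1, a4]; exact b4.symm, by rw [c2, a5, b5],
      by rw [c3, a6, hz'.1], by rw [c1, a3]; exact b3.symm,
      fun e => (hz'.2.1 (a3.symm.trans e)).elim⟩
  | O hy => exact ⟨⊤, h.PS2.Alg.top_mem, trivial, fun z _ hg =>
      ⟨by rwa [one_smul], rfl, rfl, rfl, rfl, fun _ => rfl⟩⟩

theorem Hyp.exists_test (h : Hyp b) [Infinite G] (E : Emb b ι) {y : N} {g1 g2 : FF M}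
    (hm : Mid b y g1 g2) {ω ω' : List (Pu M)} (hω : Path b ω (g1 • y)) (hω' : Path b ω' (g2 • y))
    {c : Set N} (hc : c ∈ h.PS2.Alg.car) (hy : y ∈ c) :
    ∃ z : CY M, ι z ∈ c ∧ Generic (g1 • z) ∧ Same (g1 • z) (g2 • z) ∧ Path (ce M) ω (g1 • z) ∧
      Path (ce M) ω' (g2 • z) := by
  obtain ⟨e, he, hye, H⟩ := h.mid_same E hm
  obtain ⟨z, hg, hz⟩ := h.dense_alg E
    (c ⊓ (e ⊓ (g1⁻¹ • {y | Path b ω y} ⊓ g2⁻¹ • {y | Path b ω' y})))
    (h.PS2.Alg.inf_mem hc (h.PS2.Alg.inf_mem he (h.PS2.Alg.inf_mem (h.smul_mem _ (h.path_mem ω))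
      (h.smul_mem _ (h.path_mem ω'))))) y
    ⟨hy, hye, Set.mem_inv_smul_set_iff.2 hω, Set.mem_inv_smul_set_iff.2 hω'⟩
  have a1 := Set.mem_inv_smul_set_iff.1 hz.2.2.1
  have a2 := Set.mem_inv_smul_set_iff.1 hz.2.2.2
  rw [← E.smul] at a1 a2
  exact ⟨z, hz.1, (H z hz.2.1 hg).1, (H z hz.2.1 hg).2, (E.path _ _).1 a1, (E.path _ _).1 a2⟩

theorem Hyp.mm_pow_lt (h : Hyp b) (E : Emb b ι) {z : CY M} {n m : ℕ} (hnm : n < m)
    (hz : ι z ∈ An b m) :
    ((mmW M ^ n • z).r.1.σ M.c).length < ((mmW M ^ m • z).r.1.σ M.c).length := by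
  obtain ⟨k, rfl⟩ := Nat.exists_eq_add_of_lt hnm
  have h1 : ι (mmW M ^ n • z) ∈ An b (k + 1) := by
    rw [E.smul, h.mm_pow_mem_An n (h.An_mono hnm.le hz), add_comm, ← add_assoc]
    exact hz
  have h2 := (h.mm_pow_conc E (k + 1) h1).2.2.2.2.2.2
  rw [← mul_smul, ← pow_add, show k + 1 + n = n + k + 1 by omega] at h2
  omega

theorem Hyp.cmp_mid (h : Hyp b) (hG : MIF G) (E : Emb b ι) {y : N} {g1 g2 : FF M}
    (hm : Mid b y g1 g2) {c : Set N} (hc : c ∈ h.PS2.Alg.car) (hy : y ∈ c)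
    (H : ∀ z : CY M, ι z ∈ c → g1 • z = g2 • z) : g1 • y = g2 • y := by
  have := hG.infinite
  cases hm with
  | E hE hg =>
    rw [one_smul, h.unit_E hG E hg hc hy hE fun z hz => by rw [← H z hz, one_smul]]
  | S x n m h1 h2 h3 =>
    obtain ⟨z, -, hz⟩ := h.dense_alg E (c ⊓ (An b n ⊓ An b m))
      (h.PS2.Alg.inf_mem hc (h.PS2.Alg.inf_mem (h.An_mem n) (h.An_mem m))) y ⟨hy, h2, h3⟩
    have hs : z.side = true := ((E.mem _ _).1 (h.An_le_T _ hz.2.1)).1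
    obtain ⟨-, a2, -⟩ := h.mm_pow_conc E n hz.2.1
    obtain ⟨-, b2, -, -, -, b6, -⟩ := h.mm_pow_conc E m hz.2.2
    have c1 := (Qm_smul h.good x (b6.trans hs)).1
    rw [← mul_smul, ← H z hz.1] at c1
    have eσ : (mmW M ^ n • z).r.1.σ = (mmW M ^ m • z).r.1.σ := by rw [c1]
    have eQ : (mmW M ^ n • z).r.1.Q = x * (mmW M ^ m • z).r.1.Q := by rw [c1]
    have hnm : n = m := by
      rcases lt_trichotomy n m with k | k | k
      · have := h.mm_pow_lt E k hz.2.2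
        rw [eσ] at this
        exact (lt_irrefl _ this).elim
      · exact k
      · have := h.mm_pow_lt E k hz.2.1
        rw [eσ] at this
        exact (lt_irrefl _ this).elim
    rw [a2, b2] at eQ
    rw [right_eq_mul.1 eQ, hnm, mul_smul, set_tv.1 h.Qm_one]
    exact (h.mm_pow_mem_An m h3 0).2 (by rwa [zero_add])
  | O _ => rfl

theorem Hyp.cmp (h : Hyp b) (hG : MIF G) (E : Emb b ι) {y : N} {g1 g2 : FF M}
    (hm : Mid b y g1 g2) {ω ω' : List (Pu M)} (hω : Path b ω (g1 • y)) (hω' : Path b ω' (g2 • y))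
    {c : Set N} (hc : c ∈ h.PS2.Alg.car) (hy : y ∈ c)
    (H : ∀ z : CY M, ι z ∈ c → (PW ω * g1) • z = (PW ω' * g2) • z) :
    (PW ω * g1) • y = (PW ω' * g2) • y := by
  have := hG.infinite
  induction ω generalizing ω' c with
  | nil =>
    cases ω' with
    | nil =>
      simp only [PW_nil, one_mul] at H ⊢
      exact h.cmp_mid hG E hm hc hy H
    | cons q ω' =>
      obtain ⟨z, a1, a2, a3, a4, a5⟩ := h.exists_test E hm hω hω' hc hy
      refine (no_sq h.good (a3.gen a2) a3.symm a5 a4 ?_ (by simp)).elim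
      rw [← mul_smul, ← mul_smul, H z a1]
  | cons p ω ih =>
    have hp : PW ω' • g2 • y ∈ p.rn b := by
      by_contra hne
      obtain ⟨z, a1, -, -, a4, -⟩ := h.exists_test E hm hω hω'
        (c := c ⊓ (PW ω' * g2)⁻¹ • (p.rn b)ᶜ) (h.PS2.Alg.inf_mem hc (h.smul_mem _
          (h.PS2.Alg.compl_mem (h.PS2.gen_mem (h.PS2.r_mem p)))))
        ⟨hy, Set.mem_inv_smul_set_iff.2 (by rwa [mul_smul])⟩
      refine Set.mem_inv_smul_set_iff.1 a1.2 ?_
      rw [← E.smul, ← H z a1.1, PW_cons, mul_assoc, mul_smul, mul_smul, E.smul]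
      exact (Arr.mem_r (h.pu_ok p)).2 ((E.mem _ _).2 a4.2)
    rcases h.pull p hω' hp with ⟨ω'', a1, -, a3⟩ | ⟨-, a2, -⟩
    · obtain ⟨c0, hc0, hy0, H0⟩ := a3.mul_right g2
      have := ih hω.1 a1 (h.PS2.Alg.inf_mem hc hc0) ⟨hy, hy0⟩ fun z hz => by
        have e1 := H0 _ hz.2
        rw [← E.smul, ← E.smul, ← H z hz.1, PW_cons, mul_assoc, mul_assoc, mul_smul p.W,
          mul_smul p.W] at e1
        exact (MulAction.injective _ (E.inj e1)).symm
      rw [← H0 y hy0, PW_cons, mul_assoc, mul_assoc, mul_smul p.W, mul_smul p.W, this]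
    · obtain ⟨z, a1, a3, a4, a5, a6⟩ := h.exists_test E hm hω hω' hc hy
      refine (no_sq h.good a3 a4 a5 a6 ?_ a2).elim
      rw [← mul_smul, ← mul_smul, H z a1]

theorem Hyp.eff_alg (h : Hyp b) (hG : MIF G) (E : Emb b ι) (g : FF M) {c : Set N}
    (hc : c ∈ h.PS2.Alg.car) {y : N} (hy : y ∈ c) (H : ∀ z : CY M, ι z ∈ c → g • z = z) :
    g • y = y := by
  obtain ⟨y0, g1, g2, ω, ω', hm, hω, hω', rfl, c0, hc0, hy0, H0⟩ := h.nf g y
  have key := h.cmp hG E hm hω hω' (c := c0 ⊓ (PW ω * g1)⁻¹ • c)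
    (h.PS2.Alg.inf_mem hc0 (h.smul_mem _ hc)) ⟨hy0, Set.mem_inv_smul_set_iff.2 hy⟩ (by
      intro z hz
      apply E.inj
      have h1 := H0 _ hz.1
      have h2 := Set.mem_inv_smul_set_iff.1 hz.2
      rw [← E.smul] at h2
      rw [E.smul (PW ω' * g2), ← h1, mul_smul g, ← E.smul, ← E.smul, H _ h2])
  rw [← mul_smul, H0 y0 hy0, key]

end Vale.Agent.P193
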