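import Vale.Agent.P193.P1C
import Vale.Agent.P193.ConcD

/-! Set models: germs, paths of pushes, normal forms. -/

namespace Vale.Agent.P193

open scoped Pointwise

variable {G : Type} [Group G] {M : Mach G}

/-- the word of a list of pushes (the head is applied last) -/
noncomputable def PW (ω : List (Pu M)) : FF M := (ω.map Pu.W).prod

@[simp] theorem PW_nil : PW ([] : List (Pu M)) = 1 := rfl

@[simp] theorem PW_cons (p : Pu M) (ω : List (Pu M)) : PW (p :: ω) = p.W * PW ω := by simp [PW]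

theorem PW_append (ω ω' : List (Pu M)) : PW (ω ++ ω') = PW ω * PW ω' := by simp [PW]

/-- generic points of the concrete model -/
def Generic (z : CY M) : Prop := z.r.1.s ≠ [] ∧ z.n ≠ 0

variable {N : Type} [MulAction (FF M) N] (b : Pr M → Set N)

/-- the list of pushes can be applied to the point -/
def Path : List (Pu M) → N → Prop
  | [], _ => True
  | p :: ω, y => Path ω y ∧ PW ω • y ∈ b p.dm

/-- middle parts of normal forms -/
inductive Mid : N → FF M → FF M → Prop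
  | E {y : N} {g : FF M} : y ∈ b .E → g ∈ EU M → Mid y 1 g
  | S {y : N} (x : G) (n m : ℕ) : y ∈ b .Sh → y ∈ An b n → y ∈ An b m →
      Mid y (mmW M ^ n) (Qm M x * mmW M ^ m)
  | O {y : N} : y ∉ b .T → Mid y 1 1

/-- equivariant embeddings of the concrete model -/
structure Emb (ι : CY M → N) : Prop where
  inj : Function.Injective ι
  smul : ∀ (γ : FF M) (z : CY M), ι (γ • z) = γ • ι z
  mem : ∀ j z, ι z ∈ b j ↔ z ∈ ce M j

variable {b}

/-- equality of germs -/
def Germ (h : Hyp b) (y : N) (g g' : FF M) : Prop :=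
  ∃ c ∈ h.PS2.Alg.car, y ∈ c ∧ ∀ z ∈ c, g • z = g' • z

/-- normal forms of germs -/
def NF (h : Hyp b) (g : FF M) (y : N) : Prop :=
  ∃ (y0 : N) (g1 g2 : FF M) (ω ω' : List (Pu M)), Mid b y0 g1 g2 ∧ Path b ω (g1 • y0) ∧
    Path b ω' (g2 • y0) ∧ (PW ω * g1) • y0 = y ∧ Germ h y0 (g * (PW ω * g1)) (PW ω' * g2)

namespace Germ

variable {h : Hyp b} {y : N} {g g' g'' : FF M}

theorem eq (H : Germ h y g g') : g • y = g' • y := let ⟨_, _, h1, h2⟩ := H; h2 y h1

theorem refl (y : N) (g : FF M) : Germ h y g g := ⟨⊤, h.PS2.Alg.top_mem, trivial, fun _ _ => rfl⟩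

theorem of_eq (y : N) (e : g = g') : Germ h y g g' := e ▸ refl y g

theorem symm (H : Germ h y g g') : Germ h y g' g :=
  let ⟨c, h0, h1, h2⟩ := H; ⟨c, h0, h1, fun z hz => (h2 z hz).symm⟩

theorem trans (H : Germ h y g g') (H' : Germ h y g' g'') : Germ h y g g'' :=
  let ⟨c, h0, h1, h2⟩ := H
  let ⟨c', h0', h1', h2'⟩ := H'
  ⟨c ⊓ c', h.PS2.Alg.inf_mem h0 h0', ⟨h1, h1'⟩, fun z hz => (h2 z hz.1).trans (h2' z hz.2)⟩

theorem mul_left (δ : FF M) (H : Germ h y g g') : Germ h y (δ * g) (δ * g') :=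
  let ⟨c, h0, h1, h2⟩ := H; ⟨c, h0, h1, fun z hz => by rw [mul_smul, mul_smul, h2 z hz]⟩

theorem mul_right (δ : FF M) (H : Germ h (δ • y) g g') : Germ h y (g * δ) (g' * δ) :=
  let ⟨c, h0, h1, h2⟩ := H
  ⟨δ⁻¹ • c, h.smul_mem _ h0, Set.mem_inv_smul_set_iff.2 h1, fun z hz => by
    rw [mul_smul, mul_smul, h2 _ (Set.mem_inv_smul_set_iff.1 hz)]⟩

theorem of_eqv {e : Set N} (he : e ∈ h.PS2.Alg.car) (hy : y ∈ e) (H : Eqv g g' e) :
    Germ h y g g' := ⟨e, he, hy, set_eqv.1 H⟩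

theorem inv (H : Germ h y g g') : Germ h (g • y) g⁻¹ g'⁻¹ := by
  have := ((H.symm.mul_left g'⁻¹).trans (of_eq y rfl))
  have h2 : Germ h (g⁻¹ • g • y) (g'⁻¹ * g') (g'⁻¹ * g) := by simpa using this
  simpa using h2.mul_right g⁻¹

end Germ

theorem Hyp.path_mem (h : Hyp b) (ω : List (Pu M)) : {y | Path b ω y} ∈ h.PS2.Alg.car := by
  induction ω with
  | nil => exact h.PS2.Alg.top_mem
  | cons p ω ih =>
    have : {y | Path b (p :: ω) y} = {y | Path b ω y} ⊓ (PW ω)⁻¹ • b p.dm := by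
      ext y; simp [Path, Set.mem_inv_smul_set_iff]
    rw [this]
    exact h.PS2.Alg.inf_mem ih (h.smul_mem _ (h.basic_mem _))

theorem path_append {ω ω' : List (Pu M)} {y : N} :
    Path b (ω ++ ω') y ↔ Path b ω' y ∧ Path b ω (PW ω' • y) := by
  induction ω with
  | nil => simp [Path]
  | cons p ω ih => simp [Path, ih, PW_append, mul_smul, and_assoc]

end Vale.Agent.P193
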