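import Vale.Agent.P193.PresA1

/-! A realization by a centerless group with cuts is faithful. -/

namespace Vale.Agent.P193

open Equiv
open scoped Pointwise

namespace PA

variable {Sg J Y : Type} [MulAction (FreeGroup Sg) Y] {e : J → Set Y}

/-- elementary swaps with positions in `P` and support in `Z` -/
def EPZ (Sg : Type) [MulAction (FreeGroup Sg) Y] (e : J → Set Y) (P : Finset Pos)
    (Z : Set (Y × Pos)) : Subgroup (Perm (Y × Pos)) :=
  Subgroup.closure {u | ∃ (d : Set Y) (γ : FreeGroup Sg), ∃ i ∈ P, ∃ j ∈ P,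
    Defn (FreeGroup Sg) e d ∧ IsMatch (elRel d γ i j) ∧ rsupp (elRel d γ i j) ⊆ Z ∧
      u = swapR (elRel d γ i j)}

theorem EP_le_EPZ (P : Finset Pos) : EP Sg e P ≤ EPZ Sg e P Set.univ :=
  Subgroup.closure_mono fun _ ⟨d, γ, i, hi, j, hj, h1, h2, h3⟩ =>
    ⟨d, γ, i, hi, j, hj, h1, h2, Set.subset_univ _, h3⟩

theorem elRel_mono {d d' : Set Y} (h : d ⊆ d') (γ : FreeGroup Sg) (i j : Pos) :
    elRel d γ i j ⊆ elRel d' γ i j := fun _ ⟨y, hy, hp⟩ => ⟨y, h hy, hp⟩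

theorem swapR_split {d : Set Y} (d' : Set Y) {γ : FreeGroup Sg} {i j : Pos}
    (h : IsMatch (elRel d γ i j)) :
    swapR (elRel d γ i j) = swapR (elRel (d ∩ d') γ i j) * swapR (elRel (d \ d') γ i j) := by
  have h1 := elRel_mono (Set.inter_subset_left (s := d) (t := d')) γ i j
  have h2 := elRel_mono (Set.sdiff_subset (s := d) (t := d')) γ i j
  rw [← swapR_union (h.mono h1) (h.mono h2) (h.disjoint_rsupp h1 h2 ?_)]
  · congr 1
    refine subset_antisymm ?_ (Set.union_subset h1 h2)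
    rintro _ ⟨y, hy, rfl⟩
    by_cases hy' : y ∈ d'
    · exact Or.inl ⟨y, ⟨hy, hy'⟩, rfl⟩
    · exact Or.inr ⟨y, ⟨hy, hy'⟩, rfl⟩
  · rw [Set.disjoint_left]
    rintro _ ⟨y, hy, rfl⟩ ⟨z, hz, he⟩
    simp only [Prod.mk.injEq] at he
    exact hz.2 (he.1.1 ▸ hy.2)

/-- conjugating an elementary swap by a piecewise uniform permutation -/
theorem conj_mem_EPZ {P : Finset Pos} {u : Perm (Y × Pos)}
    (hu : ∀ p ∈ P, ∀ d, Defn (FreeGroup Sg) e d → Cov Sg e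
      (fun d => ∃ g : FreeGroup Sg, ∃ i ∈ P, ∀ y ∈ d, u (y, p) = (g • y, i)) d)
    {Z : Set (Y × Pos)} {γ : FreeGroup Sg} {i j : Pos} (hi : i ∈ P) (hj : j ∈ P) {d : Set Y}
    (hd : Defn (FreeGroup Sg) e d) (hm : IsMatch (elRel d γ i j))
    (hZ : u '' rsupp (elRel d γ i j) ⊆ Z) :
    u * swapR (elRel d γ i j) * u⁻¹ ∈ EPZ Sg e P Z := by
  have h1 : Cov Sg e (fun d => ∃ α β : FreeGroup Sg, ∃ i' ∈ P, ∃ j' ∈ P,
      (∀ y ∈ d, u (y, i) = (α • y, i')) ∧ ∀ y ∈ d, u (γ • y, j) = (β • γ • y, j')) d := by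
    refine Cov.bind ?_ hd (hu i hi d hd)
    rintro d hd ⟨α, i', hi', h1⟩
    refine Cov.ind (Q' := fun d' => d' ⊆ d → Cov Sg e (fun d => ∃ α β : FreeGroup Sg, ∃ i' ∈ P,
      ∃ j' ∈ P, (∀ y ∈ d, u (y, i) = (α • y, i')) ∧ ∀ y ∈ d, u (γ • y, j) = (β • γ • y, j')) d')
      ?_ ?_ hd (hu j hj _ (hd.smul γ)).smul subset_rfl
    · rintro d' - ⟨β, j', hj', h2⟩ hs
      exact Cov.base _ ⟨α, β, i', hi', j', hj', fun y hy => h1 y (hs hy),
        fun y hy => h2 _ ⟨y, hy, rfl⟩⟩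
    · intro d1 d2 _ hd2 h2 h3 hs
      exact Cov.split d1 d2 hd2 (h2 (Set.inter_subset_left.trans hs))
        (h3 (Set.sdiff_subset.trans hs))
  refine Cov.ind (Q' := fun d => IsMatch (elRel d γ i j) → u '' rsupp (elRel d γ i j) ⊆ Z →
    u * swapR (elRel d γ i j) * u⁻¹ ∈ EPZ Sg e P Z) ?_ ?_ hd h1 hm hZ
  · rintro d hd ⟨α, β, i', hi', j', hj', h1, h2⟩ hm hZ
    have h3 := image_elRel h1 h2
    rw [conj_swapR hm, h3]
    refine Subgroup.subset_closure ⟨_, _, i', hi', j', hj', hd.smul α, h3 ▸ hm.image u, ?_, rfl⟩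
    rwa [← h3, rsupp_image]
  · intro d d' _ _ h2 h3 hm hZ
    have s1 := elRel_mono (Set.inter_subset_left (s := d) (t := d')) γ i j
    have s2 := elRel_mono (Set.sdiff_subset (s := d) (t := d')) γ i j
    have h4 := mul_mem (h2 (hm.mono s1) ((Set.image_mono (rsupp_mono s1)).trans hZ))
      (h3 (hm.mono s2) ((Set.image_mono (rsupp_mono s2)).trans hZ))
    rw [swapR_split d' hm]
    rwa [conj_mul] at h4

theorem exists_five {Q P : Finset Pos} (h : Q ⊆ P) (hQ : Q.card ≤ 5) (hP : 5 ≤ P.card) :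
    ∃ T, Q ⊆ T ∧ T ⊆ P ∧ T.card = 5 := Finset.exists_subsuperset_card_eq h hQ hP

variable {H : Type} [Group H] (R : Real Sg e H)

theorem AP_le_map (P : Finset Pos) : AP Sg e P ≤ (R.S.L P).map R.π := by
  rw [AP, Subgroup.closure_le]
  rintro _ ((⟨i, hi, s, rfl⟩ | ⟨π, hπ, rfl⟩) | ⟨j, τ, hτ, rfl⟩)
  · exact ⟨_, R.S.lab_mem hi _, R.π_lab _⟩
  · exact ⟨_, R.S.io_mem hπ, R.π_io _⟩
  · exact ⟨_, Gn_mem_L R (Or.inr (Or.inr ⟨_, R.D_basic j, τ, hτ, rfl⟩)), R.π_c _ (R.D_basic j) _⟩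

theorem map_mem_EP (hi : InvH Sg e) {P : Finset Pos} {h : H} (hh : h ∈ R.S.L P) :
    R.π h ∈ EP Sg e P := by
  refine L_induction R (p := fun h => R.π h ∈ EP Sg e P) ?_ ?_ hh
  · rw [map_one]; exact one_mem _
  · intro x hx h ih
    rw [map_mul]
    refine mul_mem ?_ ih
    rcases hx with ⟨j, hj, γ, rfl⟩ | ⟨ρ, hρ, rfl⟩ | ⟨d0, hd0, ρ, hρ, rfl⟩
    · rw [R.π_lab]; exact AP_le_EP hi P (Lab_single_mem_AP hj γ)
    · rw [R.π_io]; exact cnd_mem_EP Defn.univ hρ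
    · rw [R.π_c _ hd0]; exact cnd_mem_EP (R.D_defn _ hd0) hρ

/-- the group generated by the small lifts of elementary swaps supported in `Z` -/
def Lam (Z : Set (Y × Pos)) : Subgroup H :=
  Subgroup.closure {h | (∃ P : Finset Pos, P.card ≤ 5 ∧ h ∈ R.S.L P) ∧
    ∃ (d : Set Y) (γ : FreeGroup Sg) (i j : Pos), Defn (FreeGroup Sg) e d ∧
      IsMatch (elRel d γ i j) ∧ rsupp (elRel d γ i j) ⊆ Z ∧ R.π h = swapR (elRel d γ i j)}

theorem exists_lift (hh : Half Sg e) {P : Finset Pos} (hP : 5 ≤ P.card) {d : Set Y}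
    {γ : FreeGroup Sg} {i j : Pos} (hi : i ∈ P) (hj : j ∈ P) (hd : Defn (FreeGroup Sg) e d)
    (hm : IsMatch (elRel d γ i j)) :
    ∃ T ⊆ P, T.card = 5 ∧ ∃ h ∈ R.S.L T, R.π h = swapR (elRel d γ i j) := by
  obtain ⟨T, h1, h2, h3⟩ := exists_five (Q := {i, j}) (P := P)
    (by simp [Finset.insert_subset_iff, hi, hj]) (Finset.card_le_two.trans (by norm_num)) hP
  simp only [Finset.insert_subset_iff, Finset.singleton_subset_iff] at h1
  exact ⟨T, h2, h3, AP_le_map R T (EP_le_AP hh h3.ge (swapR_mem_EP hd h1.1 h1.2 hm))⟩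

theorem lift_mem (hh : Half Sg e) {P Q : Finset Pos} (hP : 5 ≤ P.card) (hQ : Q.card ≤ 5)
    {d : Set Y} {γ : FreeGroup Sg} {i j : Pos} (hi : i ∈ P) (hj : j ∈ P)
    (hd : Defn (FreeGroup Sg) e d) (hm : IsMatch (elRel d γ i j)) {h : H} (h1 : h ∈ R.S.L Q)
    (h2 : R.π h = swapR (elRel d γ i j)) : h ∈ R.S.L P := by
  obtain ⟨T, h3, h4, h', h5, h6⟩ := exists_lift R hh hP hi hj hd hm
  rw [eq_of_small R ((Finset.card_union_le _ _).trans (by omega)) h1 h5 (h2.trans h6.symm)]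
  exact R.S.L_mono h3 h5

theorem lift_EPZ (hh : Half Sg e) {P : Finset Pos} (hP : 5 ≤ P.card) {Z : Set (Y × Pos)}
    {u : Perm (Y × Pos)} (hu : u ∈ EPZ Sg e P Z) :
    ∃ h ∈ Lam R Z ⊓ R.S.L P, R.π h = u := by
  refine (Subgroup.closure_le ((Lam R Z ⊓ R.S.L P).map R.π)).2 ?_ hu
  rintro _ ⟨d, γ, i, hi, j, hj, hd, hm, hZ, rfl⟩
  obtain ⟨T, h3, h4, h, h5, h6⟩ := exists_lift R hh hP hi hj hd hm
  exact ⟨h, ⟨Subgroup.subset_closure ⟨⟨T, h4.le, h5⟩, d, γ, i, j, hd, hm, hZ, h6⟩,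
    R.S.L_mono h3 h5⟩, h6⟩

theorem conj_Lam_small (hh : Half Sg e) {Q : Finset Pos} (hQ : Q.card ≤ 5) {x : H}
    (hx : x ∈ R.S.L Q) {Z : Set (Y × Pos)} {h : H} (hZ : h ∈ Lam R Z) :
    x * h * x⁻¹ ∈ Lam R (R.π x '' Z) := by
  refine (Subgroup.closure_le ((Lam R (R.π x '' Z)).comap (MulAut.conj x).toMonoidHom)).2 ?_ hZ
  rintro h ⟨⟨Q', hQ', h1⟩, d, γ, i, j, hd, hm, hs, h2⟩
  show x * h * x⁻¹ ∈ Lam R (R.π x '' Z)
  obtain ⟨T, t1, -, t3⟩ := exists_five (Q := {i, j}) (P := Finset.univ) (Finset.subset_univ _)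
    (Finset.card_le_two.trans (by norm_num)) (by simp)
  simp only [Finset.insert_subset_iff, Finset.singleton_subset_iff] at t1
  have h3 := lift_mem R hh t3.ge hQ' t1.1 t1.2 hd hm h1 h2
  have c1 : (T ∪ Q).card ≤ 10 := (Finset.card_union_le _ _).trans (by omega)
  have c2 : 5 ≤ (T ∪ Q).card := t3 ▸ Finset.card_le_card Finset.subset_union_left
  have hx' : x ∈ R.S.L (T ∪ Q) := R.S.L_mono Finset.subset_union_right hx
  have h4 : x * h * x⁻¹ ∈ R.S.L (T ∪ Q) :=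
    mul_mem (mul_mem hx' (R.S.L_mono Finset.subset_union_left h3)) (inv_mem hx')
  obtain ⟨a, -, b, -, ha, hb, ab⟩ := exists_two (P := Finset.univ) (Q := T ∪ Q) (by
    rw [Finset.card_univ, Fintype.card_fin]; omega)
  have h5 := conj_mem_EPZ (e := e) (P := T ∪ Q) (u := R.π x) (fun p hp d hd =>
    Cov.bind (fun d _ ⟨g, i, hi, h, _⟩ => Cov.base _ ⟨g, i, hi, h⟩) hd
      (cov_good R ab ha hb hx' hp hd)) (Finset.mem_union_left _ t1.1)
    (Finset.mem_union_left _ t1.2) hd hm (Set.image_mono hs)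
  obtain ⟨h', ⟨h6, h7⟩, h8⟩ := lift_EPZ R hh c2 h5
  rw [eq_of_small R (by rwa [Finset.union_self]) h4 h7 (by simp [h8, h2])]
  exact h6

theorem conj_Lam (hh : Half Sg e) (x : H) :
    ∀ (Z : Set (Y × Pos)), ∀ h ∈ Lam R Z, x * h * x⁻¹ ∈ Lam R (R.π x '' Z) := by
  have hx : x ∈ Subgroup.closure {x | ∃ P : Finset Pos, P.card ≤ 5 ∧ x ∈ R.S.L P} := by
    rw [R.S.gen]; trivial
  induction hx using Subgroup.closure_induction'' with
  | mem x hx =>
    obtain ⟨Q, hQ, hx⟩ := hx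
    exact fun Z h hZ => conj_Lam_small R hh hQ hx hZ
  | inv_mem x hx =>
    obtain ⟨Q, hQ, hx⟩ := hx
    exact fun Z h hZ => conj_Lam_small R hh hQ (inv_mem hx) hZ
  | one => intro Z h hZ; simpa using hZ
  | mul x y _ _ ihx ihy =>
    intro Z h hZ
    have := ihx _ _ (ihy Z h hZ)
    rw [map_mul, Perm.coe_mul, Set.image_comp]
    simpa only [mul_assoc, mul_inv_rev] using this

theorem Lam_univ (hi : InvH Sg e) (hh : Half Sg e) : Lam R Set.univ = ⊤ := by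
  rw [eq_top_iff, ← R.S.gen, Subgroup.closure_le]
  rintro h ⟨Q, hQ, h1⟩
  obtain ⟨T, t1, -, t3⟩ := exists_five (P := Finset.univ) (Finset.subset_univ _) hQ (by simp)
  have h2 := R.S.L_mono t1 h1
  obtain ⟨h', ⟨h3, h4⟩, h5⟩ := lift_EPZ R hh t3.ge (EP_le_EPZ T (map_mem_EP R hi h2))
  rw [eq_of_small R (by rw [Finset.union_self]; omega) h2 h4 h5.symm]
  exact h3

theorem Lam_le (hh : Half Sg e) {T : Finset Pos} (hT : T.card = 5) {Z : Set (Y × Pos)}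
    (hZ : ∀ x ∈ Z, x.2 ∈ T) : Lam R Z ≤ R.S.L T := by
  rw [Lam, Subgroup.closure_le]
  rintro h ⟨⟨Q, hQ, h1⟩, d, γ, i, j, hd, hm, hs, h2⟩
  rcases d.eq_empty_or_nonempty with rfl | ⟨y, hy⟩
  · have : elRel (∅ : Set Y) γ i j = ∅ := by simp [elRel]
    rw [this, swapR_empty] at h2
    rw [eq_one_of_small R (by omega) h1 h2]
    exact one_mem _
  · exact lift_mem R hh hT.ge hQ (hZ (y, i) (hs (mem_rsupp_elRel.2 (Or.inl ⟨hy, rfl⟩))))
      (hZ (γ • y, j) (hs (mem_rsupp_elRel.2 (Or.inr ⟨⟨y, hy, rfl⟩, rfl⟩)))) hd hm h1 h2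

end PA

open PA

variable {Sg J Y : Type} [MulAction (FreeGroup Sg) Y] {e : J → Set Y}

theorem Real.injective {H : Type} [Group H] (R : Real Sg e H) (hi : InvH Sg e) (hh : Half Sg e) :
    Function.Injective R.π := by
  rw [injective_iff_map_eq_one]
  intro k hk
  rw [← Subgroup.mem_bot, ← R.S.center, Subgroup.mem_center_iff]
  intro h
  have h0 : h ∈ Lam R Set.univ := by rw [Lam_univ R hi hh]; trivial
  have h1 : h ∈ Subgroup.centralizer {k} := by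
    refine (Subgroup.closure_le _).2 ?_ h0
    rintro h ⟨⟨Q, hQ, h1⟩, d, γ, i, j, hd, hm, -, h2⟩
    rw [SetLike.mem_coe, Subgroup.mem_centralizer_singleton_iff]
    obtain ⟨T, t1, -, t3⟩ := exists_five (Q := {i, j}) (P := Finset.univ) (Finset.subset_univ _)
      (Finset.card_le_two.trans (by norm_num)) (by simp)
    simp only [Finset.insert_subset_iff, Finset.singleton_subset_iff] at t1
    have h3 : h ∈ Lam R (rsupp (elRel d γ i j)) :=
      Subgroup.subset_closure ⟨⟨Q, hQ, h1⟩, d, γ, i, j, hd, hm, subset_rfl, h2⟩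
    have h4 := conj_Lam R hh k _ h h3
    rw [hk, Perm.coe_one, Set.image_id] at h4
    have h5 : Lam R (rsupp (elRel d γ i j)) ≤ R.S.L T := Lam_le R hh t3 fun x hx => by
      rcases mem_rsupp_elRel.1 hx with h | h
      · exact h.2 ▸ t1.1
      · exact h.2 ▸ t1.2
    have h6 := eq_of_small R (by rw [Finset.union_self]; omega) (h5 h4) (h5 h3) (by simp [hk])
    rw [mul_inv_eq_iff_eq_mul] at h6
    exact h6.symm
  exact Subgroup.mem_centralizer_singleton_iff.1 h1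

end Vale.Agent.P193
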