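import Vale.Agent.P193.PermL

/-! Injectivity of a realization on small support subgroups. -/

namespace Vale.Agent.P193

open Equiv
open scoped Pointwise

namespace PA

section Sys

variable {F H : Type} [Group F] [Group H] {S : Sys F H}

/-- inverse of a three-cycle -/
def inv3 (τ : T3) : T3 := ⟨τ.1⁻¹, τ.2.inv⟩

theorem sq3 (τ : T3) : τ.1 * τ.1 = τ.1⁻¹ := by
  have h := pow_orderOf_eq_one τ.1
  rw [τ.2.orderOf] at h
  rw [eq_inv_iff_mul_eq_one, ← h, pow_three, mul_assoc]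

theorem inv_of_mul3 {f : T3 → H} (hf : ∀ τ1 τ2 τ3 : T3, τ1.1 * τ2.1 = τ3.1 → f τ1 * f τ2 = f τ3)
    (τ : T3) : (f τ)⁻¹ = f (inv3 τ) := by
  have h1 := hf τ τ (inv3 τ) (sq3 τ)
  have h2 := hf (inv3 τ) (inv3 τ) τ ((sq3 (inv3 τ)).trans (inv_inv _))
  rw [← h1] at h2 ⊢
  rw [inv_eq_iff_mul_eq_one]
  apply mul_left_cancel (a := f τ)
  rw [mul_one]
  conv_rhs => rw [← h2]
  simp only [mul_assoc]

theorem cut_inv (c : S.Cut) (τ : T3) : (c.f τ)⁻¹ = c.f (inv3 τ) := inv_of_mul3 c.mul τ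

theorem lab_mem_L {P : Finset Pos} (v : Pos → F) (hv : ∀ i, i ∉ P → v i = 1) :
    S.lab v ∈ S.L P :=
  Submonoid.pi_mem_of_mulSingle_mem_aux P (H := (S.L P).comap S.lab) v hv
    fun _ hi => S.lab_mem hi _

theorem single_comm_cut (c : S.Cut) (τ : T3) {k : Pos} (hk : k ∉ τ.1.support) (γ : F) :
    Commute (S.lab (Pi.mulSingle k γ)) (c.f τ) := by
  refine S.L_comm (P := {k}) (Q := {k}ᶜ) disjoint_compl_right _
    (S.lab_mem (Finset.mem_singleton_self k) γ) _ (c.mem τ _ ?_ ?_)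
  · intro x hx
    rw [Finset.mem_compl, Finset.mem_singleton]
    rintro rfl
    exact hk hx
  · rw [Finset.card_compl]; simp

theorem lab_comm_cut (c : S.Cut) (τ : T3) (v : Pos → F) (hv : ∀ i ∈ τ.1.support, v i = 1) :
    Commute (S.lab v) (c.f τ) := by
  have := Submonoid.pi_mem_of_mulSingle_mem_aux τ.1.supportᶜ
    (H := (Subgroup.centralizer {c.f τ}).comap S.lab) v (fun i hi => hv i (by simpa using hi))
    fun i hi => by
      rw [Subgroup.mem_comap, Subgroup.mem_centralizer_singleton_iff]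
      exact single_comm_cut c τ (Finset.mem_compl.1 hi) _
  rw [Subgroup.mem_comap, Subgroup.mem_centralizer_singleton_iff] at this
  exact this

/-- the three-cycle `i → a → b → i` -/
def tt (a b i : Pos) : T3 :=
  if h : i ≠ a ∧ i ≠ b ∧ a ≠ b then cyc h.1 h.2.1 h.2.2
  else cyc (a := 0) (b := 1) (c := 2) (by decide) (by decide) (by decide)

theorem tt_val {a b i : Pos} (ia : i ≠ a) (ib : i ≠ b) (ab : a ≠ b) :
    (tt a b i).1 = swap i a * swap a b := by
  rw [tt, dif_pos ⟨ia, ib, ab⟩, cyc_val]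

theorem tt_support {a b i : Pos} (ia : i ≠ a) (ib : i ≠ b) (ab : a ≠ b) :
    (tt a b i).1.support ⊆ {i, a, b} := by
  rw [tt_val ia ib ab]; exact support_swap_swap ia ab

theorem tt_conj {a b i : Pos} (ia : i ≠ a) (ib : i ≠ b) (ab : a ≠ b) {ρ : Perm Pos}
    (ha : ρ a = a) (hb : ρ b = b) : (tt a b i).conj ρ = tt a b (ρ i) := by
  apply Subtype.ext
  have h1 : ρ i ≠ a := fun h => ia (ρ.injective (h.trans ha.symm))
  have h2 : ρ i ≠ b := fun h => ib (ρ.injective (h.trans hb.symm))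
  show ρ * (tt a b i).1 * ρ⁻¹ = _
  rw [tt_val ia ib ab, tt_val h1 h2 ab, conj_swap_swap, ha, hb]

/-- the label `g` at the two positions `a`, `b` -/
def GG (S : Sys F H) (a b : Pos) (g : F) : H := S.lab fun k => if k = a ∨ k = b then g else 1

theorem GG_mul (a b : Pos) (g g' : F) : GG S a b (g * g') = GG S a b g * GG S a b g' := by
  rw [GG, GG, GG, ← map_mul]
  congr 1
  ext k
  by_cases h : k = a ∨ k = b <;> simp [h]

theorem GG_one (a b : Pos) : GG S a b 1 = 1 := by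
  rw [GG, ← map_one S.lab]
  congr 1
  ext k
  simp

theorem GG_mem (a b : Pos) (g : F) : GG S a b g ∈ S.L {a, b} :=
  lab_mem_L _ fun i hi => if_neg (by simpa using hi)

theorem GG_eq {a b : Pos} (ab : a ≠ b) (g : F) :
    GG S a b g = S.lab (Pi.mulSingle a g) * S.lab (Pi.mulSingle b g) := by
  rw [GG, ← map_mul]
  congr 1
  ext k
  by_cases h : k = a
  · subst h; simp [Pi.mulSingle_eq_of_ne ab]
  · by_cases h' : k = b
    · subst h'; simp [Pi.mulSingle_eq_of_ne h]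
    · simp [h, h']

theorem conj_single {a b i : Pos} (ia : i ≠ a) (ib : i ≠ b) (ab : a ≠ b) (c : S.Cut) (s : F) :
    S.lab (Pi.mulSingle i s) * c.f (tt a b i) * (S.lab (Pi.mulSingle i s))⁻¹ =
      (GG S a b s)⁻¹ * (s • c).f (tt a b i) * GG S a b s := by
  obtain ⟨w, hw⟩ : ∃ w : Pos → F, w = fun k => if k ∈ ({i, a, b} : Finset Pos) then 1 else s :=
    ⟨_, rfl⟩
  have h1 : Commute (S.lab w) (c.f (tt a b i)) := lab_comm_cut _ _ _ fun k hk => by
    rw [hw]; exact if_pos (tt_support ia ib ab hk)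
  have h2 : S.lab (fun _ => s) = GG S a b s * S.lab (Pi.mulSingle i s) * S.lab w := by
    rw [GG, ← map_mul, ← map_mul, hw]
    congr 1
    ext k
    by_cases h : k = i
    · subst h; simp [ia, ib]
    · by_cases h' : k = a ∨ k = b
      · simp [h', Pi.mulSingle_eq_of_ne h]
      · simp [h', h]
  rw [Sys.Cut.smul_f, h2]
  conv_lhs => rw [← h1.mul_inv_cancel]
  group

end Sys

variable {Sg J Y : Type} [MulAction (FreeGroup Sg) Y] {e : J → Set Y}

/-- sets obtained by finitely many definable splittings from sets with property `Q` -/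
inductive Cov (Sg : Type) [MulAction (FreeGroup Sg) Y] (e : J → Set Y) (Q : Set Y → Prop) :
    Set Y → Prop
  | base (d : Set Y) : Q d → Cov Sg e Q d
  | split (d d' : Set Y) : Defn (FreeGroup Sg) e d' → Cov Sg e Q (d ∩ d') → Cov Sg e Q (d \ d') →
      Cov Sg e Q d

theorem Cov.ind {Q Q' : Set Y → Prop} (h1 : ∀ d, Defn (FreeGroup Sg) e d → Q d → Q' d)
    (h2 : ∀ d d', Defn (FreeGroup Sg) e d → Defn (FreeGroup Sg) e d' → Q' (d ∩ d') →
      Q' (d \ d') → Q' d) {d : Set Y} (hd : Defn (FreeGroup Sg) e d) (h : Cov Sg e Q d) :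
    Q' d := by
  induction h with
  | base d h => exact h1 d hd h
  | split d d' hd' _ _ ih ih' => exact h2 d d' hd hd' (ih (hd.inter hd')) (ih' (hd.diff hd'))

theorem Cov.bind {Q Q' : Set Y → Prop} (h1 : ∀ d, Defn (FreeGroup Sg) e d → Q d → Cov Sg e Q' d)
    {d : Set Y} (hd : Defn (FreeGroup Sg) e d) (h : Cov Sg e Q d) : Cov Sg e Q' d :=
  Cov.ind h1 (fun d d' _ hd' a b => Cov.split d d' hd' a b) hd h

theorem Cov.smul {Q : Set Y → Prop} (γ : FreeGroup Sg) {d : Set Y} (h : Cov Sg e Q (γ • d)) :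
    Cov Sg e (fun d => Q (γ • d)) d := by
  obtain ⟨D, hD⟩ : ∃ D, D = γ • d := ⟨_, rfl⟩
  rw [← hD] at h
  induction h generalizing d with
  | base D h => exact Cov.base _ (hD ▸ h)
  | split D d' hd' _ _ ih ih' =>
    refine Cov.split d (γ⁻¹ • d') (hd'.smul _) (ih ?_) (ih' ?_)
    · rw [Set.smul_set_inter, smul_inv_smul, hD]
    · rw [Set.smul_set_sdiff, smul_inv_smul, hD]

variable {H : Type} [Group H] (R : Real Sg e H)

/-- a symmetric generating family of the support subgroups -/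
def Gn (P : Finset Pos) : Set H :=
  {x | (∃ i ∈ P, ∃ γ, x = R.S.lab (Pi.mulSingle i γ)) ∨
    (∃ ρ : Perm Pos, ρ.support ⊆ P ∧ x = R.S.io ρ) ∨
    ∃ d ∈ R.D, ∃ τ : T3, τ.1.support ⊆ P ∧ x = (R.c d).f τ}

theorem Gn_mem_L {P : Finset Pos} {x : H} (hx : x ∈ Gn R P) : x ∈ R.S.L P := by
  rcases hx with ⟨i, hi, γ, rfl⟩ | ⟨ρ, hρ, rfl⟩ | h
  · exact R.S.lab_mem hi γ
  · exact R.S.io_mem hρ
  · rw [R.hL]; exact Subgroup.subset_closure (Or.inr h)

theorem L_induction {P : Finset Pos} {p : H → Prop} (one : p 1)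
    (mul : ∀ x ∈ Gn R P, ∀ h, p h → p (x * h)) {h : H} (hh : h ∈ R.S.L P) : p h := by
  rw [R.hL] at hh
  induction hh using Subgroup.closure_induction_left with
  | one => exact one
  | mul_left x hx y _ ih =>
    refine mul x ?_ y ih
    rcases hx with (⟨i, hi, s, rfl⟩ | h) | h
    · exact Or.inl ⟨i, hi, _, rfl⟩
    · exact Or.inr (Or.inl h)
    · exact Or.inr (Or.inr h)
  | inv_mul_cancel x hx y _ ih =>
    refine mul _ ?_ y ih
    rcases hx with (⟨i, hi, s, rfl⟩ | ⟨ρ, hρ, rfl⟩) | ⟨d, hd, τ, hτ, rfl⟩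
    · exact Or.inl ⟨i, hi, _, by rw [← map_inv, ← Pi.mulSingle_inv]⟩
    · exact Or.inr (Or.inl ⟨ρ⁻¹, by rwa [Perm.support_inv], by rw [map_inv]⟩)
    · exact Or.inr (Or.inr ⟨d, hd, inv3 τ, by rwa [inv3, Perm.support_inv], cut_inv _ _⟩)

/-- over `d` the element `h` moves the position `p` uniformly -/
def Good (a b : Pos) (P : Finset Pos) (h : H) (p : Pos) (d : Set Y) : Prop :=
  ∃ g : FreeGroup Sg, ∃ i ∈ P, (∀ y ∈ d, R.π h (y, p) = (g • y, i)) ∧
    ∀ d', Defn (FreeGroup Sg) e d' → d' ⊆ d → h * (R.c d').f (tt a b p) * h⁻¹ =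
      (GG R.S a b g)⁻¹ * (R.c (g • d')).f (tt a b i) * GG R.S a b g

theorem conj_aux {x h A B G : H} (h1 : h * A * h⁻¹ = G⁻¹ * B * G) (h2 : Commute x G) :
    x * h * A * (x * h)⁻¹ = G⁻¹ * (x * B * x⁻¹) * G := by
  have h3 : x * h * A * (x * h)⁻¹ = x * (h * A * h⁻¹) * x⁻¹ := by group
  rw [h3, h1]
  have h4 : x * G⁻¹ = G⁻¹ * x := h2.inv_right.eq
  have h5 : G * x⁻¹ = x⁻¹ * G := h2.inv_left.eq.symm
  calc x * (G⁻¹ * B * G) * x⁻¹ = x * G⁻¹ * B * (G * x⁻¹) := by group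
    _ = _ := by rw [h4, h5]; group

theorem good_step {a b : Pos} (ab : a ≠ b) {P : Finset Pos} (ha : a ∉ P) (hb : b ∉ P) {x h : H}
    (hx : x ∈ Gn R P) {p : Pos} {d : Set Y} (hg : Good R a b P h p d) :
    Cov Sg e (Good R a b P (x * h) p) d := by
  obtain ⟨g, i, hi, h1, h2⟩ := hg
  have ia : i ≠ a := fun e => ha (e ▸ hi)
  have ib : i ≠ b := fun e => hb (e ▸ hi)
  have hG : ∀ g, Commute x (GG R.S a b g) := fun g =>
    R.S.L_comm (by simp [ha, hb]) _ (Gn_mem_L R hx) _ (GG_mem a b g)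
  rcases hx with ⟨j, hj, γ, rfl⟩ | ⟨ρ, hρ, rfl⟩ | ⟨d0, hd0, ρ, hρ, rfl⟩
  · by_cases hij : j = i
    · subst hij
      refine Cov.base _ ⟨γ * g, j, hj, fun y hy => ?_, fun d' hd' hs => ?_⟩
      · rw [map_mul, Perm.mul_apply, h1 y hy, R.π_lab]
        simp [mul_smul]
      · rw [conj_aux (h2 d' hd' hs) (hG g), conj_single ia ib ab, GG_mul, mul_smul,
          R.c_smul _ γ (hd'.smul g)]
        group
    · refine Cov.base _ ⟨g, i, hi, fun y hy => ?_, fun d' hd' hs => ?_⟩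
      · rw [map_mul, Perm.mul_apply, h1 y hy, R.π_lab]
        simp [Pi.mulSingle_eq_of_ne (Ne.symm hij)]
      · rw [conj_aux (h2 d' hd' hs) (hG g), (single_comm_cut _ _ _ _).mul_inv_cancel]
        intro hj'
        have := tt_support ia ib ab hj'
        simp only [Finset.mem_insert, Finset.mem_singleton] at this
        rcases this with rfl | rfl | rfl
        · exact hij rfl
        · exact ha hj
        · exact hb hj
  · have ea : ρ a = a := Perm.notMem_support.1 fun h => ha (hρ h)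
    have eb : ρ b = b := Perm.notMem_support.1 fun h => hb (hρ h)
    have hi' : ρ i ∈ P := by
      by_cases h : i ∈ ρ.support
      · exact hρ (Perm.apply_mem_support.2 h)
      · rw [Perm.notMem_support.1 h]; exact hi
    refine Cov.base _ ⟨g, ρ i, hi', fun y hy => ?_, fun d' hd' hs => ?_⟩
    · rw [map_mul, Perm.mul_apply, h1 y hy, R.π_io, cnd_apply_mem _ (Set.mem_univ _)]
    · rw [conj_aux (h2 d' hd' hs) (hG g), Sys.Cut.eqv, tt_conj ia ib ab ea eb]
  · have ea : ρ.1 a = a := Perm.notMem_support.1 fun h => ha (hρ h)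
    have eb : ρ.1 b = b := Perm.notMem_support.1 fun h => hb (hρ h)
    have hi' : ρ.1 i ∈ P := by
      by_cases h : i ∈ ρ.1.support
      · exact hρ (Perm.apply_mem_support.2 h)
      · rw [Perm.notMem_support.1 h]; exact hi
    have hd := R.D_defn d0 hd0
    refine Cov.split d (g⁻¹ • d0) (hd.smul _) (Cov.base _ ⟨g, ρ.1 i, hi', fun y hy => ?_,
      fun d' hd' hs => ?_⟩) (Cov.base _ ⟨g, i, hi, fun y hy => ?_, fun d' hd' hs => ?_⟩)
    · rw [map_mul, Perm.mul_apply, h1 y hy.1, R.π_c d0 hd0, cnd_apply_mem]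
      exact Set.mem_inv_smul_set_iff.1 hy.2
    · rw [conj_aux (h2 d' hd' fun y hy => (hs hy).1) (hG g), Sys.Cut.conj_of_le,
        tt_conj ia ib ab ea eb]
      refine R.c_le _ _ (hd'.smul g) hd ?_
      rintro _ ⟨y, hy, rfl⟩
      exact Set.mem_inv_smul_set_iff.1 (hs hy).2
    · rw [map_mul, Perm.mul_apply, h1 y hy.1, R.π_c d0 hd0, cnd_apply_not_mem]
      exact fun h => hy.2 (Set.mem_inv_smul_set_iff.2 h)
    · have : R.c (g • d') ≤ (R.c d0)ᶜ := by
        rw [← R.c_compl _ hd]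
        refine R.c_le _ _ (hd'.smul g) hd.compl ?_
        rintro _ ⟨y, hy, rfl⟩ h
        exact (hs hy).2 (Set.mem_inv_smul_set_iff.2 h)
      rw [conj_aux (h2 d' hd' fun y hy => (hs hy).1) (hG g),
        (Sys.Cut.le_compl_iff.1 this _ _).symm.mul_inv_cancel]

theorem cov_good {a b : Pos} (ab : a ≠ b) {P : Finset Pos} (ha : a ∉ P) (hb : b ∉ P) {h : H}
    (hh : h ∈ R.S.L P) {p : Pos} (hp : p ∈ P) {d : Set Y} (hd : Defn (FreeGroup Sg) e d) :
    Cov Sg e (Good R a b P h p) d := by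
  refine L_induction R (p := fun h => Cov Sg e (Good R a b P h p) d) ?_ ?_ hh
  · refine Cov.base _ ⟨1, p, hp, fun y _ => by simp, fun d' _ _ => ?_⟩
    simp [GG_one]
  · intro x hx h ih
    exact Cov.bind (fun d _ hg => good_step R ab ha hb hx hg) hd ih

theorem comm_tt {a b : Pos} (ab : a ≠ b) {P : Finset Pos} (ha : a ∉ P) (hb : b ∉ P) {h : H}
    (hh : h ∈ R.S.L P) (h1 : R.π h = 1) {p : Pos} (hp : p ∈ P) :
    Commute h (R.S.io (tt a b p).1) := by
  rw [← R.c_univ]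
  refine Cov.ind (Q' := fun d => Commute h ((R.c d).f (tt a b p))) ?_ ?_ Defn.univ
    (cov_good R ab ha hb hh hp Defn.univ)
  · rintro d hd ⟨g, i, -, h2, h3⟩
    rcases d.eq_empty_or_nonempty with rfl | ⟨y, hy⟩
    · rw [R.c_empty, Sys.Cut.bot_f]; exact Commute.one_right _
    have h4 : ∀ y ∈ d, g • y = y ∧ i = p := fun y hy => by
      have := h2 y hy
      rw [h1, Perm.one_apply, Prod.mk.injEq] at this
      exact ⟨this.1.symm, this.2.symm⟩
    obtain rfl := (h4 y hy).2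
    have h5 := Sys.Cut.tv_iff.1 (R.c_tv d g hd fun y hy => (h4 y hy).1)
    have h6 : g • d = d := QM.tv_smul (set_tv.2 fun y hy => (h4 y hy).1)
    have h7 : Commute (GG R.S a b g) ((R.c d).f (tt a b i)) := by
      rw [GG_eq ab]; exact (h5 _ _).mul_left (h5 _ _)
    have h8 := h3 d hd subset_rfl
    rw [h6, h7.inv_mul_cancel, mul_inv_eq_iff_eq_mul] at h8
    exact h8
  · intro d d' hd hd' h2 h3
    rw [R.c_split d d' hd hd']
    exact h2.mul_right h3

theorem eq_one_of_small {P : Finset Pos} (hP : P.card ≤ 10) {h : H} (hh : h ∈ R.S.L P)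
    (h1 : R.π h = 1) : h = 1 := by
  obtain ⟨a, -, b, -, ha, hb, ab⟩ := exists_two (P := Finset.univ) (Q := P) (by
    rw [Finset.card_univ, Fintype.card_fin]; omega)
  obtain ⟨K, hK⟩ : ∃ K : Subgroup (Perm Pos), ∀ ρ, ρ ∈ K ↔ Commute h (R.S.io ρ) :=
    ⟨(Subgroup.centralizer {h}).comap R.S.io, fun ρ => by
      rw [Subgroup.mem_comap, Subgroup.mem_centralizer_singleton_iff]
      exact ⟨fun h => h.symm, fun h => h.symm⟩⟩
  have k1 : ∀ x, x ∉ P → x ≠ a → swap x a ∈ K := fun x hx xa => by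
    rw [hK]
    refine R.S.L_comm (Q := {x, a}) (by simp [ha, hx]) _ hh _ (R.S.io_mem ?_)
    rw [Perm.support_swap xa]
  have k2 : ∀ x, x ≠ a → swap x a ∈ K := fun x xa => by
    by_cases hx : x ∈ P
    · have h2 := (hK _).2 (comm_tt R ab ha hb hh h1 hx)
      have xb : x ≠ b := fun e => hb (e ▸ hx)
      rw [tt_val xa xb ab] at h2
      have h3 := K.mul_mem h2 (k1 b hb ab.symm)
      rwa [swap_comm b a, mul_assoc, swap_mul_self, mul_one] at h3
    · exact k1 x hx xa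
  refine R.S.eq_one_of_comm hP hh fun ρ _ => (hK ρ).1 ?_
  refine mem_of_swap K Finset.univ (fun i _ j _ hij => ?_) ρ (Finset.subset_univ _)
  by_cases ia : i = a
  · subst ia; rw [swap_comm]; exact k2 j hij.symm
  by_cases ja : j = a
  · subst ja; exact k2 i hij
  have h2 := K.mul_mem (K.mul_mem (k2 i ia) (k2 j ja)) (K.inv_mem (k2 i ia))
  rwa [conj_swap, swap_apply_right, swap_apply_of_ne_of_ne hij.symm ja, swap_comm] at h2

theorem eq_of_small {P Q : Finset Pos} (hP : (P ∪ Q).card ≤ 10) {h h' : H} (hh : h ∈ R.S.L P)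
    (hh' : h' ∈ R.S.L Q) (h1 : R.π h = R.π h') : h = h' := by
  rw [← mul_inv_eq_one]
  refine eq_one_of_small R hP (mul_mem (R.S.L_mono Finset.subset_union_left hh)
    (inv_mem (R.S.L_mono Finset.subset_union_right hh'))) ?_
  rw [map_mul, map_inv, h1, mul_inv_cancel]

end PA

end Vale.Agent.P193
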