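import Vale.Agent.P193.PresA

/-! A group with finitely many generators in which the short true relations hold carries a
support structure with cuts. -/

namespace Vale.Agent.P193

open Equiv
open scoped Pointwise

namespace PA

section perm

variable {F Y : Type} [Group F] [MulAction F Y]

/-- permutations fixing everything at positions outside `P` -/
def SuppOn (u : Perm (Y × Pos)) (P : Finset Pos) : Prop := ∀ x : Y × Pos, x.2 ∉ P → u x = x

theorem SuppOn.comm {u v : Perm (Y × Pos)} {P Q : Finset Pos} (hu : SuppOn u P) (hv : SuppOn v Q)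
    (h : Disjoint P Q) : u * v = v * u := by
  refine Perm.Disjoint.commute fun x => ?_
  by_cases hx : x.2 ∈ P
  · exact Or.inr (hv x (Finset.disjoint_left.1 h hx))
  · exact Or.inl (hu x hx)

theorem suppOn_Lab {i : Pos} {P : Finset Pos} (hi : i ∈ P) (γ : F) :
    SuppOn (Lab F Y (Pi.mulSingle i γ)) P := by
  rintro ⟨y, k⟩ hk
  have : k ≠ i := fun e => hk (e ▸ hi)
  simp [Pi.mulSingle_eq_of_ne this]

theorem suppOn_cnd (d : Set Y) {ρ : Perm Pos} {P : Finset Pos} (h : ρ.support ⊆ P) :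
    SuppOn (cnd d ρ) P := by
  rintro ⟨y, k⟩ hk
  by_cases hy : y ∈ d
  · rw [cnd_apply_mem _ hy, Perm.notMem_support.1 fun h' => hk (h h')]
  · exact cnd_apply_not_mem _ hy _

theorem cnd_mul_Lab (ρ : Perm Pos) (i : Pos) (γ : F) :
    cnd (Set.univ : Set Y) ρ * Lab F Y (Pi.mulSingle i γ) =
      Lab F Y (Pi.mulSingle (ρ i) γ) * cnd Set.univ ρ := by
  refine Equiv.ext fun ⟨y, k⟩ => ?_
  simp only [Perm.mul_apply, Lab_apply, cnd_apply_mem _ (Set.mem_univ _)]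
  by_cases hk : k = i
  · subst hk; simp
  · rw [Pi.mulSingle_eq_of_ne hk, Pi.mulSingle_eq_of_ne (ρ.injective.ne hk)]

theorem cnd_mul_cnd {d d' : Set Y} (h : d ⊆ d') (ρ τ : Perm Pos) :
    cnd d' ρ * cnd d τ = cnd d (ρ * τ * ρ⁻¹) * cnd d' ρ := by
  refine Equiv.ext fun ⟨y, k⟩ => ?_
  by_cases hy : y ∈ d
  · simp [cnd, hy, h hy]
  · by_cases hy' : y ∈ d' <;> simp [cnd, hy, hy']

theorem cnd_comm {d d' : Set Y} (h : Disjoint d d') (ρ τ : Perm Pos) :
    cnd d ρ * cnd d' τ = cnd d' τ * cnd d ρ := by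
  refine Equiv.ext fun ⟨y, k⟩ => ?_
  by_cases hy : y ∈ d
  · simp [cnd, hy, Set.disjoint_left.1 h hy]
  · by_cases hy' : y ∈ d' <;> simp [cnd, hy, hy']

theorem Lab_comm_cnd {d : Set Y} {γ : F} (h : ∀ y ∈ d, γ • y = y) (i : Pos) (τ : Perm Pos) :
    Lab F Y (Pi.mulSingle i γ) * cnd d τ = cnd d τ * Lab F Y (Pi.mulSingle i γ) := by
  refine Equiv.ext fun ⟨y, k⟩ => ?_
  simp only [Perm.mul_apply, Lab_apply]
  by_cases hy : y ∈ d
  · have h1 : ∀ j : Pos, (Pi.mulSingle i γ : Pos → F) j • y = y := fun j => by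
      by_cases hj : j = i
      · subst hj; simp [h y hy]
      · simp [Pi.mulSingle_eq_of_ne hj]
    rw [cnd_apply_mem _ hy, h1, h1, cnd_apply_mem _ hy]
  · rw [cnd_apply_not_mem _ hy, cnd_apply_not_mem]
    by_cases hj : k = i
    · subst hj
      intro h1
      rw [Pi.mulSingle_eq_same] at h1
      have h2 := smul_left_cancel γ (h _ h1)
      exact hy (h2 ▸ h1)
    · simpa [Pi.mulSingle_eq_of_ne hj] using hy

end perm

theorem list_prod_single {F : Type} [Group F] (v : Pos → F) (l : List Pos) (hl : l.Nodup) :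
    (l.map fun i => (Pi.mulSingle i (v i) : Pos → F)).prod =
      fun k => if k ∈ l then v k else 1 := by
  induction l with
  | nil => ext k; simp
  | cons a l ih =>
    rw [List.nodup_cons] at hl
    rw [List.map_cons, List.prod_cons, ih hl.2]
    ext k
    by_cases hk : k = a
    · subst hk; simp [hl.1]
    · simp [hk]

theorem hom_eq_prod {F H : Type} [Group F] [Group H] (φ : (Pos → F) →* H) (v : Pos → F) :
    φ v = ((List.finRange 30).map fun i => φ (Pi.mulSingle i (v i))).prod := by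
  have h := list_prod_single v (List.finRange 30) (List.nodup_finRange 30)
  simp only [List.mem_finRange, if_true] at h
  conv_lhs => rw [show v = fun k => v k from rfl, ← h, map_list_prod, List.map_map]
  rfl

theorem comm_free {Sg H : Type} [Group H] (φ : FreeGroup Sg →* H) {x : H}
    (h : ∀ s, Commute (φ (FreeGroup.of s)) x) (γ : FreeGroup Sg) : Commute (φ γ) x := by
  induction γ using FreeGroup.induction_on with
  | C1 => rw [map_one]; exact Commute.one_left _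
  | of s => exact h s
  | inv_of s h => rw [map_inv]; exact h.inv_left
  | mul x y hx hy => rw [map_mul]; exact hx.mul_left hy

/-- a group with generators over the permutation group in which the relations of length four
between atoms hold -/
structure Pre (Sg : Type) {Y : Type} [MulAction (FreeGroup Sg) Y] (D : Set (Set Y))
    (W : Set (FreeGroup Sg)) (H : Type) [Group H] where
  π : H →* Perm (Y × Pos)
  l : Pos → FreeGroup Sg →* H
  o : Perm Pos → H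
  k : D → T3 → H
  A : Set H
  loc : ∀ a ∈ A, ∀ b ∈ A, ∀ c ∈ A, ∀ d ∈ A, π a * π b = π c * π d → a * b = c * d
  one_mem : 1 ∈ A
  l_mem : ∀ i s, l i (FreeGroup.of s) ∈ A
  lW_mem : ∀ i, ∀ γ ∈ W, l i γ ∈ A
  o_mem : ∀ ρ, o ρ ∈ A
  k_mem : ∀ d τ, k d τ ∈ A
  cW_mem : ∀ γ ∈ W, ((List.finRange 30).map fun i => l i γ).prod ∈ A
  π_l : ∀ i γ, π (l i γ) = Lab (FreeGroup Sg) Y (Pi.mulSingle i γ)
  π_o : ∀ ρ, π (o ρ) = cnd Set.univ ρ
  π_k : ∀ d τ, π (k d τ) = cnd d.1 τ.1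
  gen : ∀ K : Subgroup H, (∀ i s, l i (FreeGroup.of s) ∈ K) → (∀ ρ, o ρ ∈ K) →
    (∀ d τ, k d τ ∈ K) → K = ⊤
  center : Subgroup.center H = ⊥

namespace Pre

variable {Sg Y : Type} [MulAction (FreeGroup Sg) Y] {D : Set (Set Y)} {W : Set (FreeGroup Sg)}
  {H : Type} [Group H] (p : Pre Sg D W H)

theorem loc3 {a b c : H} (ha : a ∈ p.A) (hb : b ∈ p.A) (hc : c ∈ p.A)
    (h : p.π a * p.π b = p.π c) : a * b = c := by
  have := p.loc a ha b hb c hc 1 p.one_mem (by rw [h, map_one, mul_one])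
  rwa [mul_one] at this

theorem l_comm : Pairwise fun i j => ∀ x y, Commute (p.l i x) (p.l j y) := by
  intro i j hij x y
  refine comm_free _ (fun s => (comm_free _ (fun t => ?_) y).symm) x
  refine p.loc _ (p.l_mem _ _) _ (p.l_mem _ _) _ (p.l_mem _ _) _ (p.l_mem _ _) ?_
  rw [p.π_l, p.π_l]
  exact (suppOn_Lab (Finset.mem_singleton_self j) _).comm
    (suppOn_Lab (Finset.mem_singleton_self i) _) (by simpa using hij.symm)

/-- labels -/
noncomputable def lab : (Pos → FreeGroup Sg) →* H := MonoidHom.noncommPiCoprod p.l p.l_comm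

theorem lab_single (i : Pos) (γ : FreeGroup Sg) : p.lab (Pi.mulSingle i γ) = p.l i γ :=
  MonoidHom.noncommPiCoprod_mulSingle _ _ _

theorem π_lab (v : Pos → FreeGroup Sg) : p.π (p.lab v) = Lab (FreeGroup Sg) Y v :=
  Submonoid.pi_mem_of_mulSingle_mem (H := (p.π.comp p.lab).eqLocus (Lab (FreeGroup Sg) Y)) v
    fun i => by
      show p.π (p.lab _) = _
      rw [lab_single, p.π_l]

theorem const_mem {γ : FreeGroup Sg} (h : γ ∈ W) : p.lab (fun _ => γ) ∈ p.A := by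
  rw [hom_eq_prod]
  simpa only [lab_single] using p.cW_mem γ h

/-- permutations of positions -/
def io : Perm Pos →* H :=
  MonoidHom.mk' p.o fun a b => (p.loc3 (p.o_mem _) (p.o_mem _) (p.o_mem _)
    (by rw [p.π_o, p.π_o, p.π_o, map_mul])).symm

theorem io_apply (ρ : Perm Pos) : p.io ρ = p.o ρ := rfl

/-- generators with positions in `P` -/
def gens (P : Finset Pos) : Set H :=
  {x | ∃ i ∈ P, ∃ s : Sg, x = p.l i (FreeGroup.of s)} ∪
    {x | ∃ ρ : Perm Pos, ρ.support ⊆ P ∧ x = p.o ρ} ∪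
    {x | ∃ d : D, ∃ τ : T3, τ.1.support ⊆ P ∧ x = p.k d τ}

theorem gens_spec {P : Finset Pos} {x : H} (h : x ∈ p.gens P) : x ∈ p.A ∧ SuppOn (p.π x) P := by
  rcases h with (⟨i, hi, s, rfl⟩ | ⟨ρ, hρ, rfl⟩) | ⟨d, τ, hτ, rfl⟩
  · exact ⟨p.l_mem _ _, p.π_l _ _ ▸ suppOn_Lab hi _⟩
  · exact ⟨p.o_mem _, p.π_o _ ▸ suppOn_cnd _ hρ⟩
  · exact ⟨p.k_mem _ _, p.π_k _ _ ▸ suppOn_cnd _ hτ⟩

theorem io_l (ρ : Perm Pos) (i : Pos) (γ : FreeGroup Sg) :
    p.io ρ * p.l i γ * (p.io ρ)⁻¹ = p.l (ρ i) γ := by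
  have : (MulAut.conj (p.io ρ)).toMonoidHom.comp (p.l i) = p.l (ρ i) := by
    ext s
    show p.o ρ * p.l i _ * (p.o ρ)⁻¹ = _
    rw [mul_inv_eq_iff_eq_mul]
    refine p.loc _ (p.o_mem _) _ (p.l_mem _ _) _ (p.l_mem _ _) _ (p.o_mem _) ?_
    rw [p.π_o, p.π_l, p.π_l, cnd_mul_Lab]
  exact DFunLike.congr_fun this γ

theorem io_k (ρ : Perm Pos) (d : D) (τ : T3) :
    p.io ρ * p.k d τ * (p.io ρ)⁻¹ = p.k d (τ.conj ρ) := by
  rw [mul_inv_eq_iff_eq_mul, io_apply]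
  refine p.loc _ (p.o_mem _) _ (p.k_mem _ _) _ (p.k_mem _ _) _ (p.o_mem _) ?_
  rw [p.π_o, p.π_k, p.π_k, cnd_mul_cnd (Set.subset_univ _), T3.conj_val]

theorem k_k {d d' : D} (h : d.1 ⊆ d'.1) (ρ τ : T3) :
    p.k d' ρ * p.k d τ * (p.k d' ρ)⁻¹ = p.k d (τ.conj ρ.1) := by
  rw [mul_inv_eq_iff_eq_mul]
  refine p.loc _ (p.k_mem _ _) _ (p.k_mem _ _) _ (p.k_mem _ _) _ (p.k_mem _ _) ?_
  rw [p.π_k, p.π_k, p.π_k, cnd_mul_cnd h, T3.conj_val]

theorem support_conj_subset {ρ σ : Perm Pos} {P : Finset Pos} (h : σ.support ⊆ P) :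
    (ρ * σ * ρ⁻¹).support ⊆ P.image ρ := by
  rw [Perm.support_conj]
  intro x hx
  obtain ⟨y, hy, rfl⟩ := Finset.mem_map.1 hx
  exact Finset.mem_image_of_mem _ (h hy)

theorem l_mem_closure {i : Pos} {P : Finset Pos} (hi : i ∈ P) (γ : FreeGroup Sg) :
    p.l i γ ∈ Subgroup.closure (p.gens P) := by
  induction γ using FreeGroup.induction_on with
  | C1 => rw [map_one]; exact Subgroup.one_mem _
  | of s => exact Subgroup.subset_closure (Or.inl (Or.inl ⟨i, hi, s, rfl⟩))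
  | inv_of s h => rw [map_inv]; exact inv_mem h
  | mul x y hx hy => rw [map_mul]; exact mul_mem hx hy

/-- the support structure -/
noncomputable def sys : Sys (FreeGroup Sg) H where
  lab := p.lab
  io := p.io
  L P := Subgroup.closure (p.gens P)
  L_mono := fun {P Q} h => Subgroup.closure_mono (by
    rintro x ((⟨i, hi, s, rfl⟩ | ⟨ρ, hρ, rfl⟩) | ⟨d, τ, hτ, rfl⟩)
    · exact Or.inl (Or.inl ⟨i, h hi, s, rfl⟩)
    · exact Or.inl (Or.inr ⟨ρ, hρ.trans h, rfl⟩)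
    · exact Or.inr ⟨d, τ, hτ.trans h, rfl⟩)
  L_comm := fun {P Q} h x hx y hy => by
    refine commute_of_mem_closure (fun a ha => (commute_of_mem_closure (fun b hb => ?_) hy).symm) hx
    have h1 := p.gens_spec ha
    have h2 := p.gens_spec hb
    exact p.loc _ h2.1 _ h1.1 _ h1.1 _ h2.1 (h2.2.comm h1.2 h.symm)
  L_conj := fun ρ P x hx => by
    refine (Subgroup.closure_le ((Subgroup.closure (p.gens (P.image ρ))).comap
      (MulAut.conj (p.io ρ)).toMonoidHom)).2 ?_ hx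
    intro x hx
    show p.io ρ * x * (p.io ρ)⁻¹ ∈ Subgroup.closure (p.gens (P.image ρ))
    refine Subgroup.subset_closure ?_
    rcases hx with (⟨i, hi, s, rfl⟩ | ⟨σ, hσ, rfl⟩) | ⟨d, τ, hτ, rfl⟩
    · exact Or.inl (Or.inl ⟨ρ i, Finset.mem_image_of_mem _ hi, s, p.io_l _ _ _⟩)
    · refine Or.inl (Or.inr ⟨ρ * σ * ρ⁻¹, support_conj_subset hσ, ?_⟩)
      rw [← io_apply, ← io_apply, map_mul, map_mul, map_inv]
    · exact Or.inr ⟨d, τ.conj ρ, support_conj_subset hτ, p.io_k _ _ _⟩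
  lab_mem := fun {i P} hi γ => by rw [lab_single]; exact p.l_mem_closure hi γ
  io_mem := fun {ρ P} h => Subgroup.subset_closure (Or.inl (Or.inr ⟨ρ, h, rfl⟩))
  io_lab := fun ρ v => by
    obtain ⟨ψ, hψ⟩ : ∃ ψ : (Pos → FreeGroup Sg) →* (Pos → FreeGroup Sg),
        ∀ v, ψ v = fun i => v (ρ⁻¹ i) :=
      ⟨MonoidHom.mk' (fun v i => v (ρ⁻¹ i)) fun _ _ => rfl, fun _ => rfl⟩
    rw [← hψ]
    refine Submonoid.pi_mem_of_mulSingle_mem
      (H := ((MulAut.conj (p.io ρ)).toMonoidHom.comp p.lab).eqLocus (p.lab.comp ψ)) v fun i => ?_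
    show p.io ρ * p.lab (Pi.mulSingle i (v i)) * (p.io ρ)⁻¹ = p.lab (ψ (Pi.mulSingle i (v i)))
    rw [lab_single, io_l, ← lab_single, hψ]
    congr 1
    ext k
    by_cases hk : k = ρ i
    · subst hk; simp
    · have : ρ⁻¹ k ≠ i := fun e => hk (by rw [← e]; simp)
      rw [Pi.mulSingle_eq_of_ne hk, Pi.mulSingle_eq_of_ne this]
  gen := by
    refine p.gen _ (fun i s => Subgroup.subset_closure ⟨{i}, by simp,
      p.l_mem_closure (Finset.mem_singleton_self i) _⟩) (fun ρ => ?_)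
      fun d τ => Subgroup.subset_closure ⟨τ.1.support, by rw [τ.2.card_support]; norm_num,
        Subgroup.subset_closure (Or.inr ⟨d, τ, subset_rfl, rfl⟩)⟩
    rw [← io_apply, ← Subgroup.mem_comap]
    refine mem_of_swap _ Finset.univ (fun i _ j _ hij => ?_) ρ (Finset.subset_univ _)
    exact Subgroup.subset_closure ⟨{i, j}, Finset.card_le_two.trans (by norm_num),
      Subgroup.subset_closure (Or.inl (Or.inr ⟨swap i j, (Perm.support_swap hij).le, rfl⟩))⟩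
  center := p.center

/-- the cuts given by generators -/
noncomputable def cut (d : D) : p.sys.Cut where
  f := p.k d
  mem τ _ h _ := Subgroup.subset_closure (Or.inr ⟨d, τ, h, rfl⟩)
  mul τ1 τ2 τ3 h := p.loc3 (p.k_mem _ _) (p.k_mem _ _) (p.k_mem _ _) (by
    rw [p.π_k, p.π_k, p.π_k, ← map_mul, h])
  eqv ρ τ := p.io_k ρ d τ
  self ρ τ := p.k_k subset_rfl ρ τ

theorem cut_le {d d' : D} (h : d.1 ⊆ d'.1) : p.cut d ≤ p.cut d' :=
  Sys.Cut.le_of_conj' (p.k_k h)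

theorem cut_disj {d d' : D} (h : Disjoint d.1 d'.1) : p.cut d ≤ (p.cut d')ᶜ := by
  refine Sys.Cut.le_compl_iff.2 fun τ ρ => ?_
  show p.k d τ * p.k d' ρ = p.k d' ρ * p.k d τ
  refine p.loc _ (p.k_mem _ _) _ (p.k_mem _ _) _ (p.k_mem _ _) _ (p.k_mem _ _) ?_
  rw [p.π_k, p.π_k, cnd_comm h]

theorem cut_split {d d1 d2 : D} {t : Set Y} (h1 : d1.1 = d.1 ∩ t) (h2 : d2.1 = d.1 \ t) (τ : T3) :
    (p.cut d).f τ = (p.cut d1).f τ * (p.cut d2).f τ := by
  refine (p.loc3 (p.k_mem _ _) (p.k_mem _ _) (p.k_mem _ _) ?_).symm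
  rw [p.π_k, p.π_k, p.π_k, h1, h2, ← cnd_union, Set.inter_union_sdiff]
  exact Set.disjoint_sdiff_inter.symm

theorem cut_compl {d d' : D} (h : d'.1 = d.1ᶜ) : p.cut d' = (p.cut d)ᶜ := by
  ext τ
  rw [Sys.Cut.compl_f, eq_inv_mul_iff_mul_eq]
  show p.k d τ * p.k d' τ = p.o τ.1
  refine p.loc3 (p.k_mem _ _) (p.k_mem _ _) (p.o_mem _) ?_
  rw [p.π_k, p.π_k, p.π_o, h, cnd_compl, mul_inv_cancel_left]

theorem cut_univ {d : D} (h : d.1 = Set.univ) : p.cut d = ⊥ᶜ := by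
  ext τ
  rw [Sys.Cut.compl_f, Sys.Cut.bot_f, inv_one, one_mul, ← mul_one ((p.cut d).f τ)]
  show p.k d τ * 1 = p.o τ.1
  refine p.loc3 (p.k_mem _ _) p.one_mem (p.o_mem _) ?_
  rw [p.π_k, p.π_o, h, map_one, mul_one]

theorem cut_smul {d d' : D} {γ : FreeGroup Sg} (hγ : γ ∈ W) (h : d'.1 = γ • d.1) :
    p.cut d' = γ • p.cut d := by
  ext τ
  rw [Sys.Cut.smul_f, eq_mul_inv_iff_mul_eq]
  show p.k d' τ * p.lab (fun _ => γ) = p.lab (fun _ => γ) * p.k d τ
  refine p.loc _ (p.k_mem _ _) _ (p.const_mem hγ) _ (p.const_mem hγ) _ (p.k_mem _ _) ?_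
  rw [p.π_k, p.π_k, p.π_lab, h, ← Lab_conj_cnd d.1 γ (fun _ => γ) τ.1 fun _ _ => rfl,
    inv_mul_cancel_right]

theorem cut_tv {d : D} {γ : FreeGroup Sg} (hγ : γ ∈ W) (h : ∀ y ∈ d.1, γ • y = y) :
    PM.Tv γ (p.cut d) := by
  refine Sys.Cut.tv_iff.2 fun i τ => ?_
  show Commute (p.lab _) (p.k d τ)
  rw [lab_single]
  refine p.loc _ (p.lW_mem _ _ hγ) _ (p.k_mem _ _) _ (p.k_mem _ _) _ (p.lW_mem _ _ hγ) ?_
  rw [p.π_k, p.π_l, Lab_comm_cnd h]

end Pre

end PA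

end Vale.Agent.P193
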