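import Vale.Agent.P193.QM

/-! The completion of an orthoposet model, and transfer of density and effectiveness from set
models to lattice models. -/

namespace Vale.Agent.P193

open scoped Pointwise

/-- completion by cuts -/
def Cpl (C : Type) [PartialOrder C] : Type := {X : Set C // lowerBounds (upperBounds X) ⊆ X}

namespace Cpl

variable {C : Type} [PartialOrder C] [OrderBot C] [Compl C] [PL C]

instance : SemilatticeInf (Cpl C) :=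
  Subtype.semilatticeInf (P := fun X : Set C => lowerBounds (upperBounds X) ⊆ X)
    fun _ _ hX hY _ hz =>
      ⟨hX fun _ hu => hz fun _ ha => hu ha.1, hY fun _ hu => hz fun _ ha => hu ha.2⟩

instance : BoundedOrder (Cpl C) where
  top := ⟨Set.univ, Set.subset_univ _⟩
  le_top _ := Set.subset_univ _
  bot := ⟨Set.Iic ⊥, by rw [upperBounds_Iic, lowerBounds_Ici]⟩
  bot_le X _ hz := X.2 fun _ _ => le_trans hz bot_le

instance : Compl (Cpl C) where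
  compl X := ⟨{z | ∀ x ∈ X.1, z ≤ xᶜ}, fun _ hz x hx => hz fun _ ha => ha x hx⟩

/-- the embedding -/
def emb (e : C) : Cpl C := ⟨Set.Iic e, by
  rw [upperBounds_Iic, lowerBounds_Ici]⟩

omit [OrderBot C] [Compl C] [PL C] in
theorem stone_ext {X Y : Cpl C} (h : ∀ z, z ∈ X.1 ↔ z ∈ Y.1) : X = Y := Subtype.ext (Set.ext h)

theorem stone_swap {x y : C} (h : x ≤ yᶜ) : y ≤ xᶜ := by simpa only [PL.cc] using PL.anti h

theorem emb_le {e f : C} : emb e ≤ emb f ↔ e ≤ f := Set.Iic_subset_Iic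

theorem emb_inj {e f : C} (h : emb e = emb f) : e = f :=
  le_antisymm (emb_le.1 h.le) (emb_le.1 h.ge)

theorem emb_compl (e : C) : emb eᶜ = (emb e)ᶜ :=
  stone_ext fun _ => ⟨fun h _ hx => le_trans h (PL.anti hx), fun h => h e le_rfl⟩

theorem emb_bot : emb (⊥ : C) = ⊥ := rfl

theorem emb_top : emb (⊥ : C)ᶜ = ⊤ :=
  stone_ext fun _ => ⟨fun _ => trivial, fun _ => stone_swap bot_le⟩

theorem emb_inf_iff {e f g : C} : emb g = emb e ⊓ emb f ↔ ∀ a, a ≤ g ↔ a ≤ e ∧ a ≤ f :=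
  ⟨fun h a => Set.ext_iff.1 (congrArg Subtype.val h) a, fun h => stone_ext h⟩

instance : QL (Cpl C) where
  Cm X Y := ∃ x y, X = emb x ∧ Y = emb y ∧ PL.Cm x y
  cc X := stone_ext fun w => ⟨fun h => X.2 fun u hu => by
    simpa only [PL.cc] using h uᶜ fun x hx => PL.anti (hu hx), fun h z hz => stone_swap (hz w h)⟩
  anti h _ hz x hx := hz x (h hx)
  inf_c X := le_bot_iff.1 fun z hz => (PL.eq_bot le_rfl (hz.2 z hz.1)).le
  cm_symm := fun ⟨x, y, h1, h2, h⟩ => ⟨y, x, h2, h1, PL.cm_symm h⟩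
  cm_compl := fun ⟨x, y, h1, h2, h⟩ => ⟨x, yᶜ, h1, h2 ▸ (emb_compl y).symm, PL.cm_compl h⟩
  cm_refl := fun ⟨x, _, h1, _, _⟩ => ⟨x, x, h1, h1, PL.cm_of_le le_rfl⟩
  cm_top := ⟨⊥ᶜ, ⊥ᶜ, emb_top.symm, emb_top.symm, PL.cm_of_le le_rfl⟩
  cm_of_le := by
    rintro _ _ ⟨x, -, rfl, -, -⟩ ⟨y, -, rfl, -, -⟩ h
    exact ⟨x, y, rfl, rfl, PL.cm_of_le (emb_le.1 h)⟩
  dec := by
    rintro _ _ Z ⟨x, y, rfl, rfl, h⟩ h1 h2 a ha
    rw [← emb_compl] at h2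
    exact Z.2 fun w hw => le_trans ha
      (PL.dec h (fun b hb hb' => hw (h1 ⟨hb, hb'⟩)) fun b hb hb' => hw (h2 ⟨hb, hb'⟩))
  cm_inf := by
    rintro _ _ _ ⟨x, e, rfl, rfl, h1⟩ ⟨x', f, hx, rfl, h2⟩ ⟨e', f', he, hf, h3⟩
    obtain rfl := emb_inj hx
    obtain rfl := emb_inj he
    obtain rfl := emb_inj hf
    obtain ⟨g, hg⟩ := PL.cm_glb h3
    exact ⟨x, g, rfl, (emb_inf_iff.2 hg).symm, PL.cm_inf h1 h2 h3 hg⟩

theorem cm_iff {X Y : Cpl C} : Cm X Y ↔ ∃ x y, X = emb x ∧ Y = emb y ∧ PL.Cm x y := Iff.rfl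

variable {F : Type} [Group F] [MulAction F C] [PM F C]

theorem stone_inv_le {γ : F} {x y : C} : γ⁻¹ • x ≤ y ↔ x ≤ γ • y :=
  ⟨fun h => by simpa using PM.smul_le γ h, fun h => by simpa using PM.smul_le γ⁻¹ h⟩

instance : MulAction F (Cpl C) where
  smul γ X := ⟨{x | γ⁻¹ • x ∈ X.1}, fun _ hz => X.2 fun _ hu =>
    stone_inv_le.2 (hz fun _ hx => stone_inv_le.1 (hu hx))⟩
  one_smul X := stone_ext fun z => by
    show (1 : F)⁻¹ • z ∈ X.1 ↔ _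
    simp
  mul_smul γ δ X := stone_ext fun z => by
    show (γ * δ)⁻¹ • z ∈ X.1 ↔ δ⁻¹ • γ⁻¹ • z ∈ X.1
    rw [mul_inv_rev, mul_smul]

theorem stone_mem_smul {γ : F} {X : Cpl C} {z : C} : z ∈ (γ • X).1 ↔ γ⁻¹ • z ∈ X.1 := Iff.rfl

theorem emb_smul (γ : F) (e : C) : emb (γ • e) = γ • emb e :=
  stone_ext fun _ => stone_inv_le.symm

instance : QM F (Cpl C) where
  Tv γ X := ∀ x ∈ X.1, PM.Tv γ x
  smul_le _ _ _ h _ hz := h hz
  smul_compl γ X := stone_ext fun z => ⟨fun h y hy => by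
    simpa [PM.smul_compl] using stone_inv_le.1 (h _ hy), fun h x hx => by
    rw [stone_inv_le, PM.smul_compl]
    exact h _ (stone_mem_smul.2 (by simpa using hx))⟩
  smul_cm := by
    rintro γ _ _ ⟨x, y, rfl, rfl, h⟩
    exact ⟨γ • x, γ • y, (emb_smul γ x).symm, (emb_smul γ y).symm, PM.smul_cm γ h⟩
  tv_one _ x _ := PM.tv_one x
  tv_mul h1 h2 x hx := PM.tv_mul (h1 x hx) (h2 x hx)
  tv_inv h x hx := PM.tv_inv (h x hx)
  tv_conj δ _ _ h x hx := by simpa using PM.tv_conj δ (h _ hx)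
  tv_mono h1 h2 x hx := h2 x (h1 hx)
  tv_smul := fun {γ X} h => stone_ext fun z => ⟨fun hz => by
    have := PM.tv_smul (h _ hz)
    rw [smul_inv_smul] at this
    exact this ▸ hz, fun hz => stone_mem_smul.2 ((PM.tv_smul (PM.tv_inv (h z hz))).symm ▸ hz)⟩
  tv_bot γ _ hx := PM.tv_mono hx (PM.tv_bot γ)
  tv_dec := by
    rintro γ _ _ ⟨x, y, rfl, rfl, h⟩ h1 h2 a ha
    rw [← emb_compl] at h2
    exact PM.tv_mono ha (PM.tv_dec h (fun b hb hb' => h1 b ⟨hb, hb'⟩) fun b hb hb' => h2 b ⟨hb, hb'⟩)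

theorem tv_emb {γ : F} {e : C} : Tv γ (emb e) ↔ PM.Tv γ e :=
  ⟨fun h => h e le_rfl, fun h _ hx => PM.tv_mono hx h⟩

end Cpl

theorem stone_ultra {L : Type} [SemilatticeInf L] [BoundedOrder L] [Compl L] [QL L] {B : Set L}
    (cm : ∀ x ∈ B, ∀ y ∈ B, Cm x y) (hi : ∀ x ∈ B, ∀ y ∈ B, x ⊓ y ∈ B) (hc : ∀ x ∈ B, xᶜ ∈ B)
    {I : L → Prop} (I0 : I ⊥) (I1 : ∀ {x y}, x ≤ y → I y → I x)
    (I2 : ∀ {x y}, Cm x y → I (x ⊓ y) → I (x ⊓ yᶜ) → I x) {t : L} (ht : t ∈ B) (hI : ¬I t) :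
    ∃ ξ : Set L, t ∈ ξ ∧ ξ ⊆ B ∧ (∀ x ∈ ξ, ¬I x) ∧ (∀ x ∈ ξ, ∀ y ∈ ξ, x ⊓ y ∈ ξ) ∧
      (∀ x ∈ ξ, ∀ y ∈ B, x ≤ y → y ∈ ξ) ∧ ∀ x ∈ B, xᶜ ∈ ξ ↔ x ∉ ξ := by
  obtain ⟨ξ, h0, ⟨h1, h2, h3⟩, hm⟩ := zorn_subset_nonempty
    {ξ : Set L | ξ ⊆ B ∧ (∀ x ∈ ξ, ¬I x) ∧ ∀ x ∈ ξ, ∀ y ∈ ξ, x ⊓ y ∈ ξ}
    (fun c hc ch _ => ⟨⋃₀ c, ⟨Set.sUnion_subset fun s hs => (hc hs).1,
      fun x ⟨s, hs, hx⟩ => (hc hs).2.1 x hx, fun x ⟨s, hs, hx⟩ y ⟨s', hs', hy⟩ =>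
        (ch.total hs hs').elim (fun h => ⟨s', hs', (hc hs').2.2 x (h hx) y hy⟩)
          fun h => ⟨s, hs, (hc hs).2.2 x hx y (h hy)⟩⟩, fun s hs => Set.subset_sUnion_of_mem hs⟩)
    {t} ⟨by simpa, by simpa, by simp⟩
  have ht' : t ∈ ξ := h0 rfl
  have key : ∀ x ∈ B, (∀ y ∈ ξ, ¬I (x ⊓ y)) → x ∈ ξ := fun x hx h =>
    hm (y := {z ∈ B | ∃ y ∈ ξ, x ⊓ y ≤ z}) ⟨fun _ hz => hz.1,
      fun z ⟨_, y, hy, hz⟩ hI => h y hy (I1 hz hI),
      fun z ⟨hz, y, hy, hyz⟩ w ⟨hw, y', hy', hyw⟩ => ⟨hi z hz w hw, y ⊓ y', h3 y hy y' hy',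
        le_inf ((inf_le_inf_left x inf_le_left).trans hyz)
          ((inf_le_inf_left x inf_le_right).trans hyw)⟩⟩
      (fun y hy => ⟨h1 hy, y, hy, inf_le_right⟩) ⟨hx, t, ht', inf_le_left⟩
  refine ⟨ξ, ht', h1, h2, h3, fun x hx y hy h => key y hy fun z hz hI =>
    h2 _ (h3 x hx z hz) (I1 (inf_le_inf_right z h) hI), fun x hx => ⟨fun h h' =>
      h2 _ (h3 x h' _ h) ((QL.inf_c x).symm ▸ I0), fun h => key _ (hc x hx) fun y hy hI => h <|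
        key x hx fun y' hy' hI' => h2 _ (h3 y hy y' hy') (I2 (cm _ (h1 (h3 y hy y' hy')) x hx)
          (I1 (le_inf inf_le_right (inf_le_left.trans inf_le_right)) hI')
          (I1 (le_inf inf_le_right (inf_le_left.trans inf_le_left)) hI))⟩⟩

variable {F J : Type} [Group F] {P : Mdl F J → Prop} {Y : Type} [MulAction F Y] {e : J → Set Y}

theorem stone_model (hc : Complete P e) (hP : FinAx P) (m : Mdl F J) (hm : P m)
    (hb : ∀ i j, Cm (m.b i) (m.b j)) {I : m.L → Prop} (I0 : I ⊥) (I1 : ∀ {x y}, x ≤ y → I y → I x)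
    (I2 : ∀ {x y}, Cm x y → I (x ⊓ y) → I (x ⊓ yᶜ) → I x) (t : Tm F J) (hI : ¬I (t.eval m.b)) :
    ∃ (H : Subgroup F) (b : J → Set (F ⧸ H)), P (Mdl.set b) ∧ ((1 : F) : F ⧸ H) ∈ t.eval b ∧
      ∀ γ ∈ H, ∃ x, ¬I x ∧ Tv γ x := by
  obtain ⟨ξ, h0, h1, h2, h3, h4, h5⟩ := stone_ultra (B := Set.range (Tm.eval m.b))
    (by rintro _ ⟨s, rfl⟩ _ ⟨t, rfl⟩; exact hc.comm m hm hb s t)
    (by rintro _ ⟨s, rfl⟩ _ ⟨t, rfl⟩; exact ⟨.inf s t, rfl⟩)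
    (by rintro _ ⟨s, rfl⟩; exact ⟨.compl s, rfl⟩) I0 I1 I2 ⟨t, rfl⟩ hI
  let H : Subgroup F :=
    { carrier := {γ | ∃ x ∈ ξ, Tv γ x}
      one_mem' := ⟨_, h0, QM.tv_one _⟩
      mul_mem' := fun ⟨x, hx, h⟩ ⟨y, hy, h'⟩ => ⟨x ⊓ y, h3 x hx y hy,
        QM.tv_mul (QM.tv_mono inf_le_left h) (QM.tv_mono inf_le_right h')⟩
      inv_mem' := fun ⟨x, hx, h⟩ => ⟨x, hx, QM.tv_inv h⟩ }
  have hB : ∀ (γ : F) (s : Tm F J), γ • s.eval m.b ∈ Set.range (Tm.eval m.b) :=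
    fun γ s => ⟨.act γ s, rfl⟩
  have hH : ∀ γ ∈ H, ∀ z ∈ ξ, γ • z ∈ ξ := fun γ ⟨w, hw, h⟩ z hz => by
    obtain ⟨s, rfl⟩ := h1 hz
    refine h4 _ (h3 _ hz w hw) _ (hB γ s) ?_
    rw [← QM.tv_smul (QM.tv_mono inf_le_right h)]
    exact QM.smul_le γ inf_le_left
  let σ : m.L → Set (F ⧸ H) := fun x => {q | ∃ d : F, ↑d = q ∧ d⁻¹ • x ∈ ξ}
  have hσ : ∀ x (d : F), (d : F ⧸ H) ∈ σ x ↔ d⁻¹ • x ∈ ξ := fun x d =>
    ⟨fun ⟨d', h, hx⟩ => by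
      simpa [mul_smul] using hH _ (QuotientGroup.eq.1 h.symm) _ hx, fun h => ⟨d, rfl, h⟩⟩
  have sle : ∀ {γ : F} {x y : m.L}, γ⁻¹ • x ≤ y ↔ x ≤ γ • y := fun {γ _ _} =>
    ⟨fun h => by simpa using QM.smul_le γ h, fun h => by simpa using QM.smul_le γ⁻¹ h⟩
  have ev : ∀ s : Tm F J, s.eval (fun j => σ (m.b j)) = σ (s.eval m.b) := fun s => by
    induction s with
    | top =>
      refine (Set.eq_univ_of_forall fun q => ?_).symm
      induction q using QuotientGroup.induction_on with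
      | H d =>
        refine (hσ _ d).2 (h4 _ h0 _ (hB _ .top) ?_)
        exact sle.1 le_top
    | basic j => rfl
    | act γ s ih =>
      ext q
      induction q using QuotientGroup.induction_on with
      | H d =>
        simp only [Tm.eval, ih, Set.mem_smul_set_iff_inv_smul_mem]
        rw [MulAction.Quotient.smul_coe, hσ, hσ]
        simp [mul_smul]
    | inf s t ihs iht =>
      ext q
      induction q using QuotientGroup.induction_on with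
      | H d =>
        simp only [Tm.eval, ihs, iht, Set.inf_eq_inter, Set.mem_inter_iff, hσ]
        exact ⟨fun h => h4 _ (h3 _ h.1 _ h.2) _ (hB _ (.inf s t)) (sle.1 (le_inf
          (sle.2 inf_le_left) (sle.2 inf_le_right))), fun h =>
          ⟨h4 _ h _ (hB _ s) (QM.smul_le _ inf_le_left),
            h4 _ h _ (hB _ t) (QM.smul_le _ inf_le_right)⟩⟩
    | compl s ih =>
      ext q
      induction q using QuotientGroup.induction_on with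
      | H d =>
        simp only [Tm.eval, ih, Set.mem_compl_iff, hσ, QM.smul_compl]
        exact (h5 _ (hB _ s)).symm
  refine ⟨H, fun j => σ (m.b j), ?_, by rw [ev, hσ]; simpa using h0,
    fun γ ⟨x, hx, h⟩ => ⟨x, h2 x hx, h⟩⟩
  obtain ⟨Φ, -, hΦ⟩ := hP
  rw [hΦ] at hm ⊢
  intro φ hφ
  have := hm φ hφ
  cases φ with
  | le s t =>
    show s.eval (fun j => σ (m.b j)) ⊆ t.eval fun j => σ (m.b j)
    rw [ev, ev]
    rintro _ ⟨d, rfl, hd⟩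
    exact ⟨d, rfl, h4 _ hd _ (hB _ t) (QM.smul_le _ this)⟩
  | tv γ t =>
    show ∀ y ∈ t.eval fun j => σ (m.b j), γ • y = y
    rw [ev]
    rintro _ ⟨d, rfl, hd⟩
    rw [MulAction.Quotient.smul_coe, eq_comm, QuotientGroup.eq]
    exact ⟨_, hd, by simpa [mul_assoc] using QM.tv_conj d⁻¹ this⟩

theorem Complete.eq_bot (hc : Complete P e) (hP : FinAx P) (m : Mdl F J) (hm : P m)
    (hb : ∀ i j, Cm (m.b i) (m.b j)) (t : Tm F J) (ht : t.eval e = ∅) : t.eval m.b = ⊥ := by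
  by_contra h
  obtain ⟨H, b, h1, h2, -⟩ := stone_model hc hP m hm hb (I := fun x => x ≤ ⊥) le_rfl le_trans
    QL.dec t (by simpa using h)
  rw [hc.dense _ b h1 t ht] at h2
  exact h2

theorem Complete.le (hc : Complete P e) (hP : FinAx P) (m : Mdl F J) (hm : P m)
    (hb : ∀ i j, Cm (m.b i) (m.b j)) (s t : Tm F J) (h : s.eval e ⊆ t.eval e) :
    s.eval m.b ≤ t.eval m.b :=
  QL.dec (hc.comm m hm hb s t) inf_le_right
    ((hc.eq_bot hP m hm hb (.inf s (.compl t)) (Set.diff_eq_empty.2 h)).le.trans bot_le)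

theorem Complete.tv (hc : Complete P e) (hP : FinAx P) (m : Mdl F J) (hm : P m)
    (hb : ∀ i j, Cm (m.b i) (m.b j)) (γ : F) (t : Tm F J) (h : ∀ y ∈ t.eval e, γ • y = y) :
    Tv γ (t.eval m.b) := by
  by_contra h'
  obtain ⟨H, b, h1, h2, h3⟩ := stone_model hc hP m hm hb (I := Tv γ) (QM.tv_bot γ) QM.tv_mono
    QM.tv_dec t h'
  have := hc.eff _ b h1 γ t h _ h2
  rw [MulAction.Quotient.smul_coe, eq_comm, QuotientGroup.eq] at this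
  obtain ⟨x, hx, hx'⟩ := h3 γ (by simpa using this)
  exact hx hx'

end Vale.Agent.P193
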