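import Vale.Agent.P193.PresB1
import Vale.Agent.P193.Stone

/-! From short relations to a realization. -/

namespace Vale.Agent.P193

open Equiv
open scoped Pointwise

namespace PA

section terms

variable {F J : Type}

/-- subterms -/
def subs : Tm F J → List (Tm F J)
  | .top => [.top]
  | .basic j => [.basic j]
  | .act γ t => .act γ t :: subs t
  | .inf s t => .inf s t :: (subs s ++ subs t)
  | .compl t => .compl t :: subs t

theorem self_mem_subs (t : Tm F J) : t ∈ subs t := by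
  cases t <;> simp [subs]

theorem subs_trans {s t : Tm F J} (h : s ∈ subs t) : ∀ u ∈ subs s, u ∈ subs t := by
  induction t with
  | top => simp only [subs, List.mem_singleton] at h; subst h; exact fun _ h => h
  | basic j => simp only [subs, List.mem_singleton] at h; subst h; exact fun _ h => h
  | act γ t ih =>
    rcases List.mem_cons.1 h with rfl | h
    · exact fun _ h => h
    · exact fun u hu => List.mem_cons_of_mem _ (ih h u hu)
  | inf t t' ih ih' =>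
    rcases List.mem_cons.1 h with rfl | h
    · exact fun _ h => h
    · intro u hu
      refine List.mem_cons_of_mem _ (List.mem_append.2 ?_)
      exact (List.mem_append.1 h).imp (fun h => ih h u hu) fun h => ih' h u hu
  | compl t ih =>
    rcases List.mem_cons.1 h with rfl | h
    · exact fun _ h => h
    · exact fun u hu => List.mem_cons_of_mem _ (ih h u hu)

/-- finite data closed under subterms, adapted to a set of formulas -/
structure Closed (Φ : Set (Fm F J)) (TT : Set (Tm F J)) (W : Set F) : Prop where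
  basic : ∀ j, Tm.basic j ∈ TT
  act : ∀ γ t, Tm.act γ t ∈ TT → γ ∈ W ∧ t ∈ TT
  inf : ∀ s t, Tm.inf s t ∈ TT → s ∈ TT ∧ t ∈ TT
  compl : ∀ t, Tm.compl t ∈ TT → t ∈ TT
  le : ∀ s t, Fm.le s t ∈ Φ → s ∈ TT ∧ t ∈ TT
  tv : ∀ γ t, Fm.tv γ t ∈ Φ → γ ∈ W ∧ t ∈ TT

/-- a term containing the data of a formula -/
def fmTm : Fm F J → Tm F J
  | .le s t => .inf s t
  | .tv γ t => .act γ t

/-- the group element of a term -/
def tmEl [One F] : Tm F J → F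
  | .act γ _ => γ
  | _ => 1

theorem exists_closed [One F] [Finite J] {Φ : Set (Fm F J)} (hΦ : Φ.Finite) :
    ∃ TT W, TT.Finite ∧ W.Finite ∧ Closed Φ TT W := by
  obtain ⟨T0, hT0⟩ : ∃ T0 : Set (Tm F J), T0 = Set.range Tm.basic ∪ fmTm '' Φ := ⟨_, rfl⟩
  have h0 : T0.Finite := hT0 ▸ (Set.finite_range _).union (hΦ.image _)
  obtain ⟨TT, hTT⟩ : ∃ TT : Set (Tm F J), TT = ⋃ t ∈ T0, {s | s ∈ subs t} := ⟨_, rfl⟩
  have h1 : TT.Finite := hTT ▸ h0.biUnion fun t _ => List.finite_toSet _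
  have h2 : ∀ s ∈ TT, ∀ u ∈ subs s, u ∈ TT := by
    intro s hs u hu
    rw [hTT, Set.mem_iUnion₂] at hs ⊢
    obtain ⟨t, ht, hs⟩ := hs
    exact ⟨t, ht, subs_trans hs u hu⟩
  have h3 : ∀ s ∈ T0, s ∈ TT := fun s hs => by
    rw [hTT, Set.mem_iUnion₂]
    exact ⟨s, hs, self_mem_subs s⟩
  have a1 : ∀ γ t, Tm.act γ t ∈ TT → γ ∈ tmEl '' TT ∧ t ∈ TT := fun γ t h =>
    ⟨⟨_, h, rfl⟩, h2 _ h _ (List.mem_cons_of_mem _ (self_mem_subs t))⟩
  have a2 : ∀ s t, Tm.inf s t ∈ TT → s ∈ TT ∧ t ∈ TT := fun s t h =>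
    ⟨h2 _ h _ (List.mem_cons_of_mem _ (List.mem_append_left _ (self_mem_subs s))),
      h2 _ h _ (List.mem_cons_of_mem _ (List.mem_append_right _ (self_mem_subs t)))⟩
  refine ⟨TT, tmEl '' TT, h1, h1.image _, fun j => h3 _ (hT0 ▸ Or.inl ⟨j, rfl⟩), a1, a2,
    fun t h => h2 _ h _ (List.mem_cons_of_mem _ (self_mem_subs t)), fun s t h => a2 s t ?_,
    fun γ t h => a1 γ t ?_⟩
  · exact h3 _ (hT0 ▸ Or.inr ⟨_, h, rfl⟩)
  · exact h3 _ (hT0 ▸ Or.inr ⟨_, h, rfl⟩)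

end terms

variable {Sg J Y : Type} [MulAction (FreeGroup Sg) Y] (e : J → Set Y)
  (TT : Set (Tm (FreeGroup Sg) J))

/-- the finite family of sets used for the generators -/
def DD : Set (Set Y) :=
  {d | ∃ s ∈ TT, d = s.eval e} ∪ {d | ∃ s ∈ TT, ∃ t ∈ TT, d = s.eval e ∩ t.eval e} ∪
    {d | ∃ s ∈ TT, ∃ t ∈ TT, d = s.eval e \ t.eval e}

variable {TT}

theorem DD_finite (h : TT.Finite) : (DD e TT).Finite := by
  refine ((h.image fun s => s.eval e).union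
    ((h.image2 (fun s t => s.eval e ∩ t.eval e) h).union
      (h.image2 (fun s t => s.eval e \ t.eval e) h))).subset ?_
  rintro d ((⟨s, hs, rfl⟩ | ⟨s, hs, t, ht, rfl⟩) | ⟨s, hs, t, ht, rfl⟩)
  · exact Or.inl ⟨s, hs, rfl⟩
  · exact Or.inr (Or.inl ⟨s, hs, t, ht, rfl⟩)
  · exact Or.inr (Or.inr ⟨s, hs, t, ht, rfl⟩)

theorem DD_defn {d : Set Y} (h : d ∈ DD e TT) : Defn (FreeGroup Sg) e d := by
  rcases h with (⟨s, hs, rfl⟩ | ⟨s, hs, t, ht, rfl⟩) | ⟨s, hs, t, ht, rfl⟩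
  · exact ⟨s, rfl⟩
  · exact Defn.inter ⟨s, rfl⟩ ⟨t, rfl⟩
  · exact Defn.diff ⟨s, rfl⟩ ⟨t, rfl⟩

/-- value of a term as an element of the family -/
def d0 {s : Tm (FreeGroup Sg) J} (hs : s ∈ TT) : DD e TT := ⟨_, Or.inl (Or.inl ⟨s, hs, rfl⟩)⟩

/-- intersection of two values -/
def d1 {s t : Tm (FreeGroup Sg) J} (hs : s ∈ TT) (ht : t ∈ TT) : DD e TT :=
  ⟨_, Or.inl (Or.inr ⟨s, hs, t, ht, rfl⟩)⟩

/-- difference of two values -/
def d2 {s t : Tm (FreeGroup Sg) J} (hs : s ∈ TT) (ht : t ∈ TT) : DD e TT :=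
  ⟨_, Or.inr ⟨s, hs, t, ht, rfl⟩⟩

variable {e} {W : Set (FreeGroup Sg)} {H : Type} [Group H] (p : Pre Sg (DD e TT) W H)
  {Φ : Set (Fm (FreeGroup Sg) J)}

theorem dec_facts {s t : Tm (FreeGroup Sg) J} (hs : s ∈ TT) (ht : t ∈ TT) :
    p.cut (d1 e hs ht) ≤ p.cut (d0 e ht) ∧ p.cut (d2 e hs ht) ≤ (p.cut (d0 e ht))ᶜ ∧
      ∀ τ, (p.cut (d0 e hs)).f τ = (p.cut (d1 e hs ht)).f τ * (p.cut (d2 e hs ht)).f τ :=
  ⟨p.cut_le Set.inter_subset_right, p.cut_disj Set.disjoint_sdiff_left,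
    p.cut_split (t := t.eval e) rfl rfl⟩

theorem emb_d1 {s t : Tm (FreeGroup Sg) J} (hs : s ∈ TT) (ht : t ∈ TT) :
    Cpl.emb (p.cut (d1 e hs ht)) = Cpl.emb (p.cut (d0 e hs)) ⊓ Cpl.emb (p.cut (d0 e ht)) := by
  obtain ⟨h1, h2, h3⟩ := dec_facts p hs ht
  exact Cpl.emb_inf_iff.2 (Sys.Cut.glb_of_dec h1 h2 h3)

theorem emb_d2 {s t : Tm (FreeGroup Sg) J} (hs : s ∈ TT) (ht : t ∈ TT) :
    Cpl.emb (p.cut (d2 e hs ht)) = Cpl.emb (p.cut (d0 e hs)) ⊓ (Cpl.emb (p.cut (d0 e ht)))ᶜ := by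
  obtain ⟨h1, h2, h3⟩ := dec_facts p hs ht
  rw [← Cpl.emb_compl]
  exact Cpl.emb_inf_iff.2 (Sys.Cut.glb_of_dec' h1 h2 h3)

/-- the model formed by the cuts -/
noncomputable abbrev mdl (hT : Closed Φ TT W) : Mdl (FreeGroup Sg) J :=
  { L := Cpl p.sys.Cut, b := fun j => Cpl.emb (p.cut (d0 e (hT.basic j))) }

theorem eval_mdl (hT : Closed Φ TT W) {s : Tm (FreeGroup Sg) J} (hs : s ∈ TT) :
    s.eval (mdl p hT).b = Cpl.emb (p.cut (d0 e hs)) := by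
  induction s with
  | top => rw [p.cut_univ rfl, Cpl.emb_top]; rfl
  | basic j => rfl
  | act γ t ih =>
    obtain ⟨h1, h2⟩ := hT.act γ t hs
    rw [p.cut_smul (d := d0 e h2) h1 rfl, Cpl.emb_smul, ← ih h2]; rfl
  | inf s t ihs iht =>
    obtain ⟨h1, h2⟩ := hT.inf s t hs
    rw [show d0 e hs = d1 e h1 h2 from rfl, emb_d1, ← ihs h1, ← iht h2]; rfl
  | compl t ih =>
    have h1 := hT.compl t hs
    rw [p.cut_compl (d := d0 e h1) rfl, Cpl.emb_compl, ← ih h1]; rfl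

theorem mdl_holds (hT : Closed Φ TT W) (h : ∀ φ ∈ Φ, φ.Holds (Mdl.set e)) :
    ∀ φ ∈ Φ, φ.Holds (mdl p hT) := by
  intro φ hφ
  have h1 := h φ hφ
  cases φ with
  | le s t =>
    obtain ⟨hs, ht⟩ := hT.le s t hφ
    show s.eval (mdl p hT).b ≤ t.eval (mdl p hT).b
    rw [eval_mdl p hT hs, eval_mdl p hT ht]
    exact Cpl.emb_le.2 (p.cut_le h1)
  | tv γ t =>
    obtain ⟨hγ, ht⟩ := hT.tv γ t hφ
    show Tv γ (t.eval (mdl p hT).b)
    rw [eval_mdl p hT ht]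
    exact Cpl.tv_emb.2 (p.cut_tv hγ h1)

theorem mdl_cm (hT : Closed Φ TT W) (i j : J) : Cm ((mdl p hT).b i) ((mdl p hT).b j) :=
  Cpl.cm_iff.2 ⟨_, _, rfl, rfl, Sys.Cut.cm_iff.2 ⟨_, _, dec_facts p (hT.basic i) (hT.basic j)⟩⟩

theorem exists_term (hT : Closed Φ TT W) (d : DD e TT) :
    ∃ t : Tm (FreeGroup Sg) J, t.eval e = d.1 ∧ t.eval (mdl p hT).b = Cpl.emb (p.cut d) := by
  obtain ⟨d, (⟨s, hs, rfl⟩ | ⟨s, hs, t, ht, rfl⟩) | ⟨s, hs, t, ht, rfl⟩⟩ := d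
  · exact ⟨s, rfl, eval_mdl p hT hs⟩
  · refine ⟨.inf s t, rfl, Eq.trans ?_ (emb_d1 p hs ht).symm⟩
    rw [← eval_mdl p hT hs, ← eval_mdl p hT ht]; rfl
  · refine ⟨.inf s (.compl t), rfl, Eq.trans ?_ (emb_d2 p hs ht).symm⟩
    rw [← eval_mdl p hT hs, ← eval_mdl p hT ht]; rfl

theorem pre_injective {P : Mdl (FreeGroup Sg) J → Prop} (hΦ : Φ.Finite)
    (hP : ∀ m, P m ↔ ∀ φ ∈ Φ, φ.Holds m) (hT : Closed Φ TT W) (hc : Complete P e)
    (hi : InvH Sg e) (hh : Half Sg e) : Function.Injective p.π := by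
  classical
  have hF : FinAx P := ⟨Φ, hΦ, hP⟩
  have hm : P (mdl p hT) := (hP _).2 (mdl_holds p hT ((hP _).1 hc.holds))
  have hb := mdl_cm p hT
  have hle := hc.le hF _ hm hb
  have h1 : ∀ d : Set Y, ∃ x : p.sys.Cut, ∀ t : Tm (FreeGroup Sg) J, t.eval e = d →
      Cpl.emb x = t.eval (mdl p hT).b := by
    intro d
    by_cases hd : Defn (FreeGroup Sg) e d
    · obtain ⟨s, rfl⟩ := hd
      obtain ⟨x, -, hx, -⟩ := Cpl.cm_iff.1 (hc.comm _ hm hb s s)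
      exact ⟨x, fun t ht => hx ▸ le_antisymm (hle s t ht.ge) (hle t s ht.le)⟩
    · exact ⟨⊥, fun t ht => (hd ⟨t, ht⟩).elim⟩
  choose c hcc using h1
  have h2 : ∀ t : Tm (FreeGroup Sg) J, Cpl.emb (c (t.eval e)) = t.eval (mdl p hT).b :=
    fun t => hcc _ t rfl
  have h3 : ∀ d : DD e TT, c d.1 = p.cut d := fun d => by
    obtain ⟨t, h1, h2⟩ := exists_term p hT d
    exact Cpl.emb_inj ((hcc _ t h1).trans h2)
  have h4 : ∀ t : Tm (FreeGroup Sg) J, c (t.eval e)ᶜ = (c (t.eval e))ᶜ := fun t => by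
    apply Cpl.emb_inj
    rw [Cpl.emb_compl, h2]
    exact h2 (.compl t)
  refine Real.injective
    { S := p.sys, π := p.π, D := DD e TT, c := c, D_defn := fun d hd => DD_defn e hd
      D_basic := fun j => (d0 e (hT.basic j)).2
      hL := fun Q => ?_
      π_lab := p.π_lab
      π_io := p.π_o
      π_c := fun d hd τ => by rw [h3 ⟨d, hd⟩]; exact p.π_k _ _
      c_empty := ?_
      c_univ := fun τ => ?_
      c_le := ?_
      c_compl := ?_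
      c_split := ?_
      c_smul := ?_
      c_tv := ?_ } hi hh
  · show Subgroup.closure (p.gens Q) = _
    rw [Pre.gens]
    congr 2
    · congr 1
      ext x
      exact exists_congr fun i => and_congr_right fun _ => exists_congr fun s => by
        rw [← p.lab_single]; rfl
    · ext x
      constructor
      · rintro ⟨d, τ, h, rfl⟩
        exact ⟨d.1, d.2, τ, h, by rw [h3]; rfl⟩
      · rintro ⟨d, hd, τ, h, rfl⟩
        exact ⟨⟨d, hd⟩, τ, h, by rw [h3 ⟨d, hd⟩]; rfl⟩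
  · apply Cpl.emb_inj
    have h5 : (Tm.compl (.top : Tm (FreeGroup Sg) J)).eval e = ∅ := Set.compl_univ
    rw [hcc _ _ h5, hc.eq_bot hF _ hm hb _ h5, Cpl.emb_bot]
  · have h5 : c Set.univ = ⊥ᶜ := by
      apply Cpl.emb_inj
      rw [Cpl.emb_top]
      exact h2 .top
    rw [h5, Sys.Cut.compl_f, Sys.Cut.bot_f, inv_one, one_mul]
  · rintro _ _ ⟨s, rfl⟩ ⟨t, rfl⟩ h
    rw [← Cpl.emb_le, h2, h2]
    exact hle s t h
  · rintro _ ⟨t, rfl⟩
    exact h4 t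
  · rintro _ _ ⟨s, rfl⟩ ⟨t, rfl⟩ τ
    refine Sys.Cut.f_eq_of_glb (f := c (t.eval e)) ?_ (Cpl.emb_inf_iff.1 ?_)
      (Cpl.emb_inf_iff.1 ?_) τ
    · obtain ⟨x, y, hx, hy, h⟩ := Cpl.cm_iff.1 (hc.comm _ hm hb s t)
      rwa [Cpl.emb_inj ((h2 s).trans hx), Cpl.emb_inj ((h2 t).trans hy)]
    · rw [h2, h2]
      exact h2 (.inf s t)
    · rw [Cpl.emb_compl, h2, h2]
      exact h2 (.inf s (.compl t))
  · rintro _ γ ⟨t, rfl⟩
    apply Cpl.emb_inj
    rw [Cpl.emb_smul, h2]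
    exact h2 (.act γ t)
  · rintro _ γ ⟨t, rfl⟩ h
    rw [← Cpl.tv_emb, h2]
    exact hc.tv hF _ hm hb γ t h

end PA

end Vale.Agent.P193
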