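import Vale.Agent.P193.QMB

/-! Push systems generate commutative algebras; induction principles. -/

namespace Vale.Agent.P193

open scoped Pointwise

set_option linter.unusedSectionVars false

section QM

variable {F L : Type} [Group F] [SemilatticeInf L] [BoundedOrder L] [Compl L] [QL L]
  [MulAction F L] [QM F L]

/-- a family of arrows that are pairwise orthogonal, equal or commuting -/
structure PushSys (F L : Type) [Group F] [SemilatticeInf L] [BoundedOrder L] [Compl L] [QL L]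
    [MulAction F L] [QM F L] where
  I : Type
  p : I → Arr F L
  G0 : Set L
  ok : ∀ i, (p i).Ok
  cm0 : ∀ x ∈ G0, ∀ y ∈ G0, Cm x y
  d_mem : ∀ i, Gen G0 (p i).d
  r_mem : ∀ i, Gen G0 (p i).r
  pb_mem : ∀ i, ∀ g ∈ G0, Gen G0 ((p i).pb g)
  tri : ∀ i j, (p i).r ≤ (p j).rᶜ ∨ i = j ∨ Arr.HSq (p i) (p j)

namespace PushSys

variable (S : PushSys F L)

/-- generators of the next level, using arrows from `A` only -/
def Nxt (X : Set L) (A : Set S.I) : Set L := X ∪ {y | ∃ i ∈ A, ∃ x ∈ X, y = (S.p i).pf x}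

/-- levels -/
def Lvl : ℕ → Set L
  | 0 => {x | Gen S.G0 x}
  | n + 1 => {x | Gen (S.Nxt (Lvl n) Set.univ) x}

theorem lvl_succ {n : ℕ} {x : L} (h : x ∈ S.Lvl n) : x ∈ S.Lvl (n + 1) := Gen.base (Or.inl h)

theorem lvl_mono {m n : ℕ} (h : m ≤ n) {x : L} (hx : x ∈ S.Lvl m) : x ∈ S.Lvl n := by
  induction h with
  | refl => exact hx
  | step _ ih => exact S.lvl_succ ih

theorem lvl_top (n : ℕ) : ⊤ ∈ S.Lvl n := by cases n <;> exact Gen.top

theorem lvl_inf {n : ℕ} {x y : L} (hx : x ∈ S.Lvl n) (hy : y ∈ S.Lvl n) : x ⊓ y ∈ S.Lvl n := by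
  cases n <;> exact Gen.inf hx hy

theorem lvl_compl {n : ℕ} {x : L} (hx : x ∈ S.Lvl n) : xᶜ ∈ S.Lvl n := by
  cases n <;> exact Gen.compl hx

theorem lvl_zero {n : ℕ} {x : L} (hx : Gen S.G0 x) : x ∈ S.Lvl n := S.lvl_mono (Nat.zero_le n) hx

theorem pb_gen {X Y : Set L} (i : S.I) (hX : ∀ x ∈ X, ∀ y ∈ X, Cm x y) (hr : Gen X (S.p i).r)
    (hd : Gen Y (S.p i).d) (h : ∀ x ∈ X, Gen Y ((S.p i).pb x)) {x : L} (hx : Gen X x) :
    Gen Y ((S.p i).pb x) := by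
  induction hx with
  | base hx => exact h _ hx
  | top => rw [Arr.pb_top (S.ok i)]; exact hd
  | inf _ _ h1 h2 => rw [Arr.pb_inf]; exact h1.inf h2
  | compl hx h1 => rw [Arr.pb_compl (S.ok i) (hx.cm hX hr)]; exact hd.inf h1.compl

theorem nxt_cm {n : ℕ} (h1 : ∀ x ∈ S.Lvl n, ∀ y ∈ S.Lvl n, Cm x y)
    (h2 : ∀ i, ∀ x ∈ S.Lvl n, (S.p i).pb x ∈ S.Lvl n) :
    ∀ x ∈ S.Nxt (S.Lvl n) Set.univ, ∀ y ∈ S.Nxt (S.Lvl n) Set.univ, Cm x y := by
  have k : ∀ i, ∀ x ∈ S.Lvl n, ∀ y ∈ S.Lvl n, Cm ((S.p i).pf x) y := fun i x hx y hy =>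
    Arr.cm_pf (S.ok i) (h1 _ hy _ (S.lvl_zero (S.r_mem i)))
      (h1 _ (S.lvl_inf hx (S.lvl_zero (S.d_mem i))) _ (h2 i y hy))
  rintro x (hx | ⟨i, -, x, hx, rfl⟩) y (hy | ⟨j, -, y, hy, rfl⟩)
  · exact h1 x hx y hy
  · exact (k j y hy x hx).symm
  · exact k i x hx y hy
  · have hxd := S.lvl_inf hx (S.lvl_zero (S.d_mem i))
    refine Arr.cm_pf (S.ok i) (k j y hy _ (S.lvl_zero (S.r_mem i))) ?_
    rcases S.tri j i with h | rfl | h
    · rw [Arr.pb_of_orth ((Arr.pf_le (S.ok j) y).trans h)]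
      exact (h1 _ hxd _ hxd).bot
    · rw [Arr.pb_pf (S.ok j)]
      exact h1 _ hxd _ (S.lvl_inf hy (S.lvl_zero (S.d_mem j)))
    · rcases S.tri i j with h' | rfl | h'
      · rw [Arr.pb_of_orth ((Arr.pf_le (S.ok j) y).trans (q_le_compl_comm.1 h'))]
        exact (h1 _ hxd _ hxd).bot
      · rw [Arr.pb_pf (S.ok i)]
        exact h1 _ hxd _ (S.lvl_inf hy (S.lvl_zero (S.d_mem i)))
      · rw [h'.pb_pf (S.ok i) (S.ok j)]
        exact (k j _ (h2 i y hy) _ hxd).symm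

theorem pb_nxt {n : ℕ} (h1 : ∀ x ∈ S.Lvl n, ∀ y ∈ S.Lvl n, Cm x y)
    (h2 : ∀ i, ∀ x ∈ S.Lvl n, (S.p i).pb x ∈ S.Lvl n) (i : S.I) (A : Set S.I) {x : L}
    (hx : Gen (S.Nxt (S.Lvl n) A) x) : Gen (S.Nxt (S.Lvl n) (A \ {i})) ((S.p i).pb x) := by
  have hsub : S.Nxt (S.Lvl n) A ⊆ S.Nxt (S.Lvl n) Set.univ := by
    rintro x (hx | ⟨j, -, hx⟩)
    · exact Or.inl hx
    · exact Or.inr ⟨j, trivial, hx⟩
  refine S.pb_gen i (fun x hx y hy => S.nxt_cm h1 h2 x (hsub hx) y (hsub hy))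
    (.base (Or.inl (S.lvl_zero (S.r_mem i)))) (.base (Or.inl (S.lvl_zero (S.d_mem i)))) ?_ hx
  rintro x (hx | ⟨j, hj, y, hy, rfl⟩)
  · exact .base (Or.inl (h2 i x hx))
  · by_cases hij : i = j
    · subst hij
      rw [Arr.pb_pf (S.ok i)]
      exact .base (Or.inl (S.lvl_inf hy (S.lvl_zero (S.d_mem i))))
    · rcases S.tri i j with h' | h' | h'
      · rw [Arr.pb_of_orth ((Arr.pf_le (S.ok j) y).trans (q_le_compl_comm.1 h'))]
        exact Gen.bot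
      · exact (hij h').elim
      · rw [h'.pb_pf (S.ok i) (S.ok j)]
        exact .base (Or.inr ⟨j, ⟨hj, fun e => hij e.symm⟩, _, h2 i y hy, rfl⟩)

theorem nxt_mono {X : Set L} {A B : Set S.I} (h : A ⊆ B) : S.Nxt X A ⊆ S.Nxt X B := by
  rintro x (hx | ⟨j, hj, hx⟩)
  · exact Or.inl hx
  · exact Or.inr ⟨j, h hj, hx⟩

theorem lvl_main (n : ℕ) : (∀ x ∈ S.Lvl n, ∀ y ∈ S.Lvl n, Cm x y) ∧
    ∀ i, ∀ x ∈ S.Lvl n, (S.p i).pb x ∈ S.Lvl n := by
  induction n with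
  | zero =>
    exact ⟨fun x hx y hy => Gen.cm S.cm0 hx hy,
      fun i x hx => S.pb_gen i S.cm0 (S.r_mem i) (S.d_mem i) (S.pb_mem i) hx⟩
  | succ n ih =>
    exact ⟨fun x hx y hy => Gen.cm (S.nxt_cm ih.1 ih.2) hx hy,
      fun i x hx => (S.pb_nxt ih.1 ih.2 i _ hx).mono (S.nxt_mono (Set.subset_univ _))⟩

/-- the generated algebra -/
def Alg : BSub L where
  car := {x | ∃ n, x ∈ S.Lvl n}
  top_mem := ⟨0, S.lvl_top 0⟩
  inf_mem := fun ⟨m, hx⟩ ⟨n, hy⟩ => ⟨max m n,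
    S.lvl_inf (S.lvl_mono (le_max_left _ _) hx) (S.lvl_mono (le_max_right _ _) hy)⟩
  compl_mem := fun ⟨n, hx⟩ => ⟨n, S.lvl_compl hx⟩
  cm := fun ⟨m, hx⟩ ⟨n, hy⟩ => (S.lvl_main (max m n)).1 _ (S.lvl_mono (le_max_left _ _) hx) _
    (S.lvl_mono (le_max_right _ _) hy)

theorem gen_mem {x : L} (h : Gen S.G0 x) : x ∈ S.Alg.car := ⟨0, h⟩

theorem base_mem {x : L} (h : x ∈ S.G0) : x ∈ S.Alg.car := ⟨0, .base h⟩

theorem pf_mem (i : S.I) {x : L} (h : x ∈ S.Alg.car) : (S.p i).pf x ∈ S.Alg.car :=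
  let ⟨n, hx⟩ := h; ⟨n + 1, .base (Or.inr ⟨i, trivial, x, hx, rfl⟩)⟩

theorem pb_mem' (i : S.I) {x : L} (h : x ∈ S.Alg.car) : (S.p i).pb x ∈ S.Alg.car :=
  let ⟨n, hx⟩ := h; ⟨n, (S.lvl_main n).2 i x hx⟩

theorem good (i : S.I) : Good S.Alg (S.p i).w (S.p i).d :=
  Arr.good (S.ok i) (S.gen_mem (S.d_mem i)) (fun _ => S.pf_mem i) fun _ => S.pb_mem' i

/-- structural induction -/
theorem ind {Q : L → Prop} (base : ∀ x ∈ S.G0, Q x) (top : Q ⊤)
    (inf : ∀ x ∈ S.Alg.car, ∀ y ∈ S.Alg.car, Q x → Q y → Q (x ⊓ y))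
    (compl : ∀ x ∈ S.Alg.car, Q x → Q xᶜ)
    (pf : ∀ i, ∀ x ∈ S.Alg.car, Q x → Q ((S.p i).pf x)) : ∀ x ∈ S.Alg.car, Q x := by
  have k : ∀ X : Set L, X ⊆ S.Alg.car → (∀ x ∈ X, Q x) → ∀ x, Gen X x → Q x := by
    intro X hX h x hx
    induction hx with
    | base hx => exact h _ hx
    | top => exact top
    | inf hx hy h1 h2 => exact inf _ (hx.mem_of_subset hX) _ (hy.mem_of_subset hX) h1 h2
    | compl hx h1 => exact compl _ (hx.mem_of_subset hX) h1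
  rintro x ⟨n, hx⟩
  induction n generalizing x with
  | zero => exact k _ (fun _ => S.base_mem) base x hx
  | succ n ih =>
    refine k _ ?_ ?_ x hx
    · rintro x (hx | ⟨i, -, y, hy, rfl⟩)
      · exact ⟨n, hx⟩
      · exact S.pf_mem i ⟨n, hy⟩
    · rintro x (hx | ⟨i, -, y, hy, rfl⟩)
      · exact ih x hx
      · exact pf i y ⟨n, hy⟩ (ih y hy)

/-- an element commuting with the generators, compatibly with the arrows -/
theorem cm_alg {z : L} (hz : Cm z z) (base : ∀ x ∈ S.G0, Cm z x)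
    (pf : ∀ i, ∀ x ∈ S.Alg.car, Cm z x → Cm z ((S.p i).pf x)) : ∀ x ∈ S.Alg.car, Cm z x :=
  S.ind base hz.top (fun _ hx _ hy h1 h2 => h1.inf h2 (S.Alg.cm hx hy)) (fun _ _ h => h.compl) pf

/-- pulling back along an arbitrary arrow -/
theorem pb_alg {q : Arr F L} (hq : q.Ok) (hr : ∀ x ∈ S.Alg.car, Cm x q.r) {B : BSub L}
    (hd : q.d ∈ B.car) (base : ∀ x ∈ S.G0, q.pb x ∈ B.car)
    (pf : ∀ i, ∀ x ∈ S.Alg.car, q.pb x ∈ B.car → q.pb ((S.p i).pf x) ∈ B.car) :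
    ∀ x ∈ S.Alg.car, q.pb x ∈ B.car :=
  S.ind base (by rwa [Arr.pb_top hq])
    (fun _ _ _ _ h1 h2 => by rw [Arr.pb_inf]; exact B.inf_mem h1 h2)
    (fun x hx h => by rw [Arr.pb_compl hq (hr x hx)]; exact B.inf_mem hd (B.compl_mem h)) pf

theorem fin_supp {X : Set L} {x : L} (hx : Gen (S.Nxt X Set.univ) x) :
    ∃ A : Set S.I, A.Finite ∧ Gen (S.Nxt X A) x := by
  induction hx with
  | base hx =>
    rcases hx with hx | ⟨i, -, hx⟩
    · exact ⟨∅, Set.finite_empty, .base (Or.inl hx)⟩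
    · exact ⟨{i}, Set.finite_singleton i, .base (Or.inr ⟨i, rfl, hx⟩)⟩
  | top => exact ⟨∅, Set.finite_empty, .top⟩
  | inf _ _ h1 h2 =>
    obtain ⟨A, hA, h1⟩ := h1
    obtain ⟨B, hB, h2⟩ := h2
    exact ⟨A ∪ B, hA.union hB, (h1.mono (S.nxt_mono Set.subset_union_left)).inf
      (h2.mono (S.nxt_mono Set.subset_union_right))⟩
  | compl _ h1 =>
    obtain ⟨A, hA, h1⟩ := h1
    exact ⟨A, hA, h1.compl⟩

end PushSys

end QM

section SetModel

variable {F N : Type} [Group F] [MulAction F N]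

theorem Arr.mem_pf {p : Arr F (Set N)} {x : Set N} {y : N} :
    y ∈ p.pf x ↔ p.w⁻¹ • y ∈ x ∧ p.w⁻¹ • y ∈ p.d :=
  Set.mem_smul_set_iff_inv_smul_mem

theorem Arr.mem_pb {p : Arr F (Set N)} (h : p.Ok) {x : Set N} {y : N} :
    y ∈ p.pb x ↔ p.w • y ∈ x ∧ y ∈ p.d := by
  rw [Arr.pb_eq h]
  exact and_congr_left' Set.mem_inv_smul_set_iff

theorem Arr.mem_r {p : Arr F (Set N)} (h : p.Ok) {y : N} : p.w • y ∈ p.r ↔ y ∈ p.d := by
  rw [← h]; exact Set.smul_mem_smul_set_iff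

/-- agreement along a filter passes to the generated algebra -/
theorem Gen.eventually {S : Set (Set N)} {A : Type} {l : Filter A} {z : A → N} {y : N}
    (h : ∀ g ∈ S, ∀ᶠ a in l, (z a ∈ g ↔ y ∈ g)) {x : Set N} (hx : Gen S x) :
    ∀ᶠ a in l, (z a ∈ x ↔ y ∈ x) := by
  induction hx with
  | base hx => exact h _ hx
  | top => simp
  | inf _ _ h1 h2 => filter_upwards [h1, h2] with a h1 h2 using and_congr h1 h2
  | compl _ h1 => filter_upwards [h1] with a h1 using not_congr h1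

/-- pointwise induction in set models -/
theorem PushSys.pind (S : PushSys F (Set N)) {R : N → Set N → Prop}
    (mono : ∀ y, ∀ x ∈ S.Alg.car, ∀ x' ∈ S.Alg.car, y ∈ x → x ⊆ x' → R y x → R y x')
    (base : ∀ x, Gen S.G0 x → ∀ y ∈ x, R y x)
    (step : ∀ i y, ∀ x ∈ S.Alg.car, y ∈ (S.p i).pb x → R y ((S.p i).pb x) → R ((S.p i).w • y) x) :
    ∀ x ∈ S.Alg.car, ∀ y ∈ x, R y x := by
  rintro x ⟨n, hx⟩
  induction n generalizing x with
  | zero => exact base x hx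
  | succ n ih =>
    obtain ⟨A, hA, hx⟩ := S.fin_supp hx
    have hm : ∀ (A : Set S.I) x, Gen (S.Nxt (S.Lvl n) A) x → x ∈ S.Alg.car := fun A x hx =>
      ⟨n + 1, hx.mono (S.nxt_mono (Set.subset_univ _))⟩
    induction h : A.ncard using Nat.strong_induction_on generalizing A x with
    | _ k ihk =>
    intro y hy
    by_cases hex : ∃ i ∈ A, y ∈ (S.p i).r
    · obtain ⟨i, hi, hyi⟩ := hex
      have h1 := S.pb_nxt (S.lvl_main n).1 (S.lvl_main n).2 i A hx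
      have h2 : (S.p i).w⁻¹ • y ∈ (S.p i).pb x := Set.smul_mem_smul_set ⟨hy, hyi⟩
      have h3 := ihk _ (h ▸ Set.ncard_sdiff_singleton_lt_of_mem hi hA) _
        (h1.mono (S.nxt_mono (Set.subset_univ _))) _ hA.sdiff h1 rfl _ h2
      simpa using step i _ x (hm A x hx) h2 h3
    · push Not at hex
      let c : Set N := hA.toFinset.inf fun i => (S.p i).rᶜ
      have hc : c ∈ S.Lvl n := Finset.inf_induction (p := fun x => x ∈ S.Lvl n) (S.lvl_top n)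
        (fun _ h1 _ h2 => S.lvl_inf h1 h2) fun i _ => S.lvl_compl (S.lvl_zero (S.r_mem i))
      have hcm : ∀ z, z ∈ c ↔ ∀ i ∈ A, z ∉ (S.p i).r := fun z => by
        simp [c, Finset.inf_set_eq_iInter]
      have k : ∀ x, Gen (S.Nxt (S.Lvl n) A) x → ∃ x' ∈ S.Lvl n, ∀ z ∈ c, (z ∈ x' ↔ z ∈ x) := by
        intro x hx
        induction hx with
        | base hx =>
          rcases hx with hx | ⟨i, hi, x, -, rfl⟩
          · exact ⟨_, hx, fun _ _ => Iff.rfl⟩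
          · refine ⟨⊤ᶜ, S.lvl_compl (S.lvl_top n), fun z hz => ?_⟩
            simpa using fun h => (hcm z).1 hz i hi (Arr.pf_le (S.ok i) x h)
        | top => exact ⟨⊤, S.lvl_top n, fun _ _ => Iff.rfl⟩
        | inf _ _ h1 h2 =>
          obtain ⟨a, ha, h1⟩ := h1
          obtain ⟨b, hb, h2⟩ := h2
          exact ⟨a ⊓ b, S.lvl_inf ha hb, fun z hz => and_congr (h1 z hz) (h2 z hz)⟩
        | compl _ h1 =>
          obtain ⟨a, ha, h1⟩ := h1
          exact ⟨aᶜ, S.lvl_compl ha, fun z hz => not_congr (h1 z hz)⟩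
      obtain ⟨x', hx', hk⟩ := k x hx
      have hyc : y ∈ c := (hcm y).2 hex
      have hy' : y ∈ x' ⊓ c := ⟨(hk y hyc).2 hy, hyc⟩
      exact mono y _ ⟨n, S.lvl_inf hx' hc⟩ x (hm A x hx) hy' (fun z hz => (hk z hz.2).1 hz.1)
        (ih _ (S.lvl_inf hx' hc) y hy')

end SetModel

end Vale.Agent.P193
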