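import Mathlib

/-! Ortholattices with a commutation relation and a group acting on them with a local triviality
relation; terms, formulas and finitely axiomatized classes of such models. -/

namespace Vale.Agent.P193

open scoped Pointwise

/-- ortholattice with a commutation relation -/
class QL (L : Type) [SemilatticeInf L] [BoundedOrder L] [Compl L] where
  Cm : L → L → Prop
  cc : ∀ x : L, xᶜᶜ = x
  anti : ∀ {x y : L}, x ≤ y → yᶜ ≤ xᶜ
  inf_c : ∀ x : L, x ⊓ xᶜ = ⊥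
  cm_symm : ∀ {e f : L}, Cm e f → Cm f e
  cm_compl : ∀ {e f : L}, Cm e f → Cm e fᶜ
  cm_refl : ∀ {e f : L}, Cm e f → Cm e e
  cm_top : Cm ⊤ ⊤
  cm_of_le : ∀ {e f : L}, Cm e e → Cm f f → e ≤ f → Cm e f
  dec : ∀ {e f z : L}, Cm e f → e ⊓ f ≤ z → e ⊓ fᶜ ≤ z → e ≤ z
  cm_inf : ∀ {x e f : L}, Cm x e → Cm x f → Cm e f → Cm x (e ⊓ f)

export QL (Cm)

/-- a group action on such a lattice with a local triviality relation -/
class QM (F L : Type) [Group F] [SemilatticeInf L] [BoundedOrder L] [Compl L] [QL L]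
    [MulAction F L] where
  Tv : F → L → Prop
  smul_le : ∀ (γ : F) {x y : L}, x ≤ y → γ • x ≤ γ • y
  smul_compl : ∀ (γ : F) (x : L), γ • xᶜ = (γ • x)ᶜ
  smul_cm : ∀ (γ : F) {x y : L}, Cm x y → Cm (γ • x) (γ • y)
  tv_one : ∀ e : L, Tv 1 e
  tv_mul : ∀ {γ δ : F} {e : L}, Tv γ e → Tv δ e → Tv (γ * δ) e
  tv_inv : ∀ {γ : F} {e : L}, Tv γ e → Tv γ⁻¹ e
  tv_conj : ∀ (δ : F) {γ : F} {e : L}, Tv γ e → Tv (δ * γ * δ⁻¹) (δ • e)
  tv_mono : ∀ {γ : F} {e z : L}, z ≤ e → Tv γ e → Tv γ z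
  tv_smul : ∀ {γ : F} {e : L}, Tv γ e → γ • e = e
  tv_bot : ∀ γ : F, Tv γ ⊥
  tv_dec : ∀ {γ : F} {e f : L}, Cm e f → Tv γ (e ⊓ f) → Tv γ (e ⊓ fᶜ) → Tv γ e

export QM (Tv)

/-- orthoposet version (meets need not exist) -/
class PL (C : Type) [PartialOrder C] [OrderBot C] [Compl C] where
  Cm : C → C → Prop
  cc : ∀ x : C, xᶜᶜ = x
  anti : ∀ {x y : C}, x ≤ y → yᶜ ≤ xᶜ
  eq_bot : ∀ {z e : C}, z ≤ e → z ≤ eᶜ → z = ⊥
  cm_symm : ∀ {e f : C}, Cm e f → Cm f e
  cm_compl : ∀ {e f : C}, Cm e f → Cm e fᶜ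
  cm_of_le : ∀ {e f : C}, e ≤ f → Cm e f
  cm_glb : ∀ {e f : C}, Cm e f → ∃ g : C, ∀ a, a ≤ g ↔ a ≤ e ∧ a ≤ f
  dec : ∀ {e f z : C}, Cm e f → (∀ a, a ≤ e → a ≤ f → a ≤ z) → (∀ a, a ≤ e → a ≤ fᶜ → a ≤ z) →
    e ≤ z
  cm_inf : ∀ {x e f g : C}, Cm x e → Cm x f → Cm e f → (∀ a, a ≤ g ↔ a ≤ e ∧ a ≤ f) → Cm x g

/-- orthoposet version of `QM` -/
class PM (F C : Type) [Group F] [PartialOrder C] [OrderBot C] [Compl C] [PL C]
    [MulAction F C] where
  Tv : F → C → Prop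
  smul_le : ∀ (γ : F) {x y : C}, x ≤ y → γ • x ≤ γ • y
  smul_compl : ∀ (γ : F) (x : C), γ • xᶜ = (γ • x)ᶜ
  smul_cm : ∀ (γ : F) {x y : C}, PL.Cm x y → PL.Cm (γ • x) (γ • y)
  tv_one : ∀ e : C, Tv 1 e
  tv_mul : ∀ {γ δ : F} {e : C}, Tv γ e → Tv δ e → Tv (γ * δ) e
  tv_inv : ∀ {γ : F} {e : C}, Tv γ e → Tv γ⁻¹ e
  tv_conj : ∀ (δ : F) {γ : F} {e : C}, Tv γ e → Tv (δ * γ * δ⁻¹) (δ • e)
  tv_mono : ∀ {γ : F} {e z : C}, z ≤ e → Tv γ e → Tv γ z
  tv_smul : ∀ {γ : F} {e : C}, Tv γ e → γ • e = e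
  tv_bot : ∀ γ : F, Tv γ ⊥
  tv_dec : ∀ {γ : F} {e f : C}, PL.Cm e f → (∀ a, a ≤ e → a ≤ f → Tv γ a) →
    (∀ a, a ≤ e → a ≤ fᶜ → Tv γ a) → Tv γ e

instance setQL (Y : Type) : QL (Set Y) where
  Cm _ _ := True
  cc := compl_compl
  anti := compl_le_compl
  inf_c _ := inf_compl_eq_bot
  cm_symm _ := trivial
  cm_compl _ := trivial
  cm_refl _ := trivial
  cm_top := trivial
  cm_of_le _ _ _ := trivial
  dec := fun {e f z} _ h1 h2 x hx => by
    by_cases h : x ∈ f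
    · exact h1 ⟨hx, h⟩
    · exact h2 ⟨hx, h⟩
  cm_inf _ _ _ := trivial

instance setQM (F Y : Type) [Group F] [MulAction F Y] : QM F (Set Y) where
  Tv γ e := ∀ y ∈ e, γ • y = y
  smul_le _ _ _ h := Set.smul_set_mono h
  smul_compl _ _ := Set.smul_set_compl
  smul_cm _ _ _ _ := trivial
  tv_one _ y _ := one_smul _ y
  tv_mul h1 h2 y hy := by rw [mul_smul, h2 y hy, h1 y hy]
  tv_inv h y hy := by rw [inv_smul_eq_iff, h y hy]
  tv_conj δ γ e h := by
    rintro _ ⟨y, hy, rfl⟩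
    simp [mul_smul, h y hy]
  tv_mono h1 h2 y hy := h2 y (h1 hy)
  tv_smul := fun {γ e} h => by
    ext y
    constructor
    · rintro ⟨x, hx, rfl⟩
      simpa [h x hx] using hx
    · exact fun hy => ⟨y, hy, h y hy⟩
  tv_bot _ _ h := h.elim
  tv_dec := fun {γ e f} _ h1 h2 y hy => by
    by_cases h : y ∈ f
    · exact h1 y ⟨hy, h⟩
    · exact h2 y ⟨hy, h⟩

theorem set_cm {Y : Type} (a b : Set Y) : Cm a b := trivial

theorem set_tv {F Y : Type} [Group F] [MulAction F Y] {γ : F} {e : Set Y} :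
    Tv γ e ↔ ∀ y ∈ e, γ • y = y := Iff.rfl

/-- terms -/
inductive Tm (F J : Type) : Type
  | top : Tm F J
  | basic (j : J) : Tm F J
  | act (γ : F) (t : Tm F J) : Tm F J
  | inf (s t : Tm F J) : Tm F J
  | compl (t : Tm F J) : Tm F J

/-- value of a term -/
def Tm.eval {F J L : Type} [Top L] [Min L] [Compl L] [SMul F L] (b : J → L) : Tm F J → L
  | .top => ⊤
  | .basic j => b j
  | .act γ t => γ • t.eval b
  | .inf s t => s.eval b ⊓ t.eval b
  | .compl t => (t.eval b)ᶜ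

/-- formulas -/
inductive Fm (F J : Type) : Type
  | le (s t : Tm F J) : Fm F J
  | tv (γ : F) (t : Tm F J) : Fm F J

/-- a model: lattice, action and values of the basic predicates -/
structure Mdl (F J : Type) [Group F] where
  L : Type
  [i1 : SemilatticeInf L]
  [i2 : BoundedOrder L]
  [i3 : Compl L]
  [i4 : QL L]
  [i5 : MulAction F L]
  [i6 : QM F L]
  b : J → L

attribute [instance] Mdl.i1 Mdl.i2 Mdl.i3 Mdl.i4 Mdl.i5 Mdl.i6

variable {F J : Type} [Group F]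

/-- truth of a formula in a model -/
def Fm.Holds (m : Mdl F J) : Fm F J → Prop
  | .le s t => s.eval m.b ≤ t.eval m.b
  | .tv γ t => Tv γ (t.eval m.b)

/-- the model given by a set with an action -/
abbrev Mdl.set {Y : Type} [MulAction F Y] (e : J → Set Y) : Mdl F J := { L := Set Y, b := e }

/-- classes of models defined by finitely many formulas -/
def FinAx (P : Mdl F J → Prop) : Prop :=
  ∃ Φ : Set (Fm F J), Φ.Finite ∧ ∀ m, P m ↔ ∀ φ ∈ Φ, φ.Holds m

/-- definable subsets -/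
def Defn (F : Type) {J Y : Type} [Group F] [MulAction F Y] (e : J → Set Y) (d : Set Y) : Prop :=
  ∃ t : Tm F J, t.eval e = d

/-- `P` is a complete description of the set model `e` -/
structure Complete (P : Mdl F J → Prop) {Y : Type} [MulAction F Y] (e : J → Set Y) : Prop where
  holds : P (Mdl.set e)
  comm : ∀ m : Mdl F J, P m → (∀ i j, Cm (m.b i) (m.b j)) →
    ∀ s t : Tm F J, Cm (s.eval m.b) (t.eval m.b)
  dense : ∀ (M : Type) [MulAction F M] (b : J → Set M), P (Mdl.set b) →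
    ∀ t : Tm F J, t.eval e = ∅ → t.eval b = ∅
  eff : ∀ (M : Type) [MulAction F M] (b : J → Set M), P (Mdl.set b) →
    ∀ (γ : F) (t : Tm F J), (∀ y ∈ t.eval e, γ • y = y) → ∀ y ∈ t.eval b, γ • y = y

/-! ### definable sets -/

section Defn

variable {Y : Type} [MulAction F Y] {e : J → Set Y}

theorem Defn.univ : Defn F e Set.univ := ⟨.top, rfl⟩

theorem Defn.basic (j : J) : Defn F e (e j) := ⟨.basic j, rfl⟩

theorem Defn.smul {d : Set Y} (h : Defn F e d) (γ : F) : Defn F e (γ • d) := by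
  obtain ⟨t, rfl⟩ := h; exact ⟨.act γ t, rfl⟩

theorem Defn.inter {d d' : Set Y} (h : Defn F e d) (h' : Defn F e d') : Defn F e (d ∩ d') := by
  obtain ⟨t, rfl⟩ := h; obtain ⟨t', rfl⟩ := h'; exact ⟨.inf t t', rfl⟩

theorem Defn.compl {d : Set Y} (h : Defn F e d) : Defn F e dᶜ := by
  obtain ⟨t, rfl⟩ := h; exact ⟨.compl t, rfl⟩

theorem Defn.empty : Defn F e ∅ := by simpa using (Defn.univ (F := F) (e := e)).compl

theorem Defn.diff {d d' : Set Y} (h : Defn F e d) (h' : Defn F e d') : Defn F e (d \ d') :=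
  h.inter h'.compl

theorem Defn.union {d d' : Set Y} (h : Defn F e d) (h' : Defn F e d') : Defn F e (d ∪ d') := by
  simpa [Set.compl_inter] using (h.compl.inter h'.compl).compl

end Defn

/-! ### combinators for finite axiomatizability -/

/-- a function on models given by a term -/
def IsTm (f : (m : Mdl F J) → m.L) : Prop := ∃ t : Tm F J, ∀ m, f m = t.eval m.b

theorem IsTm.top : IsTm (F := F) (J := J) fun _ => ⊤ := ⟨.top, fun _ => rfl⟩

theorem IsTm.basic (j : J) : IsTm (F := F) fun m => m.b j := ⟨.basic j, fun _ => rfl⟩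

theorem IsTm.act (γ : F) {f : (m : Mdl F J) → m.L} (h : IsTm f) : IsTm fun m => γ • f m := by
  obtain ⟨t, h⟩ := h; exact ⟨.act γ t, fun m => by simp only [h m]; rfl⟩

theorem IsTm.inf {f g : (m : Mdl F J) → m.L} (h : IsTm f) (h' : IsTm g) :
    IsTm fun m => f m ⊓ g m := by
  obtain ⟨t, h⟩ := h; obtain ⟨t', h'⟩ := h'
  exact ⟨.inf t t', fun m => by simp only [h m, h' m]; rfl⟩

theorem IsTm.compl {f : (m : Mdl F J) → m.L} (h : IsTm f) : IsTm fun m => (f m)ᶜ := by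
  obtain ⟨t, h⟩ := h; exact ⟨.compl t, fun m => by simp only [h m]; rfl⟩

theorem IsTm.bot : IsTm (F := F) (J := J) fun _ => ⊥ :=
  ⟨.inf .top (.compl .top), fun m => (QL.inf_c (⊤ : m.L)).symm⟩

theorem IsTm.finf {I : Type} (s : Finset I) {f : I → (m : Mdl F J) → m.L}
    (h : ∀ i, IsTm (f i)) : IsTm fun m => s.inf fun i => f i m := by
  classical
  induction s using Finset.induction_on with
  | empty => simpa using IsTm.top
  | insert a s _ ih => simpa [Finset.inf_insert] using (h a).inf ih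

theorem FinAx.le {f g : (m : Mdl F J) → m.L} (h : IsTm f) (h' : IsTm g) :
    FinAx fun m => f m ≤ g m := by
  obtain ⟨t, h⟩ := h; obtain ⟨t', h'⟩ := h'
  exact ⟨{.le t t'}, Set.finite_singleton _, fun m => by simp [Fm.Holds, h m, h' m]⟩

theorem FinAx.tv (γ : F) {f : (m : Mdl F J) → m.L} (h : IsTm f) :
    FinAx fun m => Tv γ (f m) := by
  obtain ⟨t, h⟩ := h
  exact ⟨{.tv γ t}, Set.finite_singleton _, fun m => by simp [Fm.Holds, h m]⟩

theorem FinAx.congr {P Q : Mdl F J → Prop} (h : FinAx P) (hPQ : ∀ m, Q m ↔ P m) : FinAx Q := by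
  obtain ⟨Φ, h1, h2⟩ := h
  exact ⟨Φ, h1, fun m => (hPQ m).trans (h2 m)⟩

theorem FinAx.and {P Q : Mdl F J → Prop} (h : FinAx P) (h' : FinAx Q) :
    FinAx fun m => P m ∧ Q m := by
  obtain ⟨Φ, h1, h2⟩ := h
  obtain ⟨Ψ, h3, h4⟩ := h'
  refine ⟨Φ ∪ Ψ, h1.union h3, fun m => ?_⟩
  simp only [h2 m, h4 m, Set.mem_union]
  exact ⟨fun h φ hφ => hφ.elim (h.1 φ) (h.2 φ),
    fun h => ⟨fun φ hφ => h φ (Or.inl hφ), fun φ hφ => h φ (Or.inr hφ)⟩⟩

theorem FinAx.eq {f g : (m : Mdl F J) → m.L} (h : IsTm f) (h' : IsTm g) :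
    FinAx fun m => f m = g m :=
  ((FinAx.le h h').and (FinAx.le h' h)).congr fun _ => le_antisymm_iff

theorem FinAx.all {I : Sort _} [Finite I] {P : I → Mdl F J → Prop} (h : ∀ i, FinAx (P i)) :
    FinAx fun m => ∀ i, P i m := by
  choose Φ h1 h2 using h
  refine ⟨⋃ i, Φ i, Set.finite_iUnion h1, fun m => ?_⟩
  simp only [h2, Set.mem_iUnion]
  exact ⟨fun h φ ⟨i, hi⟩ => h i φ hi, fun h i φ hi => h φ ⟨i, hi⟩⟩

/-- a class defined by formulas is closed under disjoint unions of set models -/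
theorem eval_sum {M N : Type} [MulAction F M] [MulAction F N] (b : J → Set M) (c : J → Set N)
    (t : Tm F J) :
    t.eval (fun j => Sum.inl '' b j ∪ Sum.inr '' c j) =
      Sum.inl '' t.eval b ∪ Sum.inr '' t.eval c := by
  induction t with
  | top => ext x; cases x <;> simp [Tm.eval]
  | basic j => rfl
  | act γ t ih =>
    simp only [Tm.eval, ih]
    ext x; cases x <;> simp [Set.mem_smul_set_iff_inv_smul_mem]
  | inf s t ihs iht =>
    simp only [Tm.eval, ihs, iht]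
    ext x; cases x <;> simp
  | compl t ih =>
    simp only [Tm.eval, ih]
    ext x; cases x <;> simp

theorem FinAx.sum {P : Mdl F J → Prop} (h : FinAx P) {M N : Type} [MulAction F M] [MulAction F N]
    {b : J → Set M} {c : J → Set N} (hb : P (Mdl.set b)) (hc : P (Mdl.set c)) :
    P (Mdl.set fun j => Sum.inl '' b j ∪ Sum.inr '' c j) := by
  obtain ⟨Φ, -, h⟩ := h
  rw [h] at hb hc ⊢
  intro φ hφ
  have h1 := hb φ hφ
  have h2 := hc φ hφ
  cases φ with
  | le s t =>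
    show s.eval (fun j => Sum.inl '' b j ∪ Sum.inr '' c j) ⊆
      t.eval (fun j => Sum.inl '' b j ∪ Sum.inr '' c j)
    rw [eval_sum, eval_sum]
    exact Set.union_subset_union (Set.image_mono h1) (Set.image_mono h2)
  | tv γ t =>
    show ∀ y ∈ t.eval (fun j => Sum.inl '' b j ∪ Sum.inr '' c j), γ • y = y
    rw [eval_sum]
    rintro _ (⟨y, hy, rfl⟩ | ⟨y, hy, rfl⟩)
    · rw [Sum.smul_inl, h1 y hy]
    · rw [Sum.smul_inr, h2 y hy]

end Vale.Agent.P193
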