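import Vale.Agent.P193.Sig

/-! Calculus in lattice models: commuting subalgebras, arrows, push systems. -/

namespace Vale.Agent.P193

open scoped Pointwise

set_option linter.unusedSectionVars false

section QL

variable {L : Type} [SemilatticeInf L] [BoundedOrder L] [Compl L] [QL L]

theorem q_le_compl_comm {x y : L} : x ≤ yᶜ ↔ y ≤ xᶜ :=
  ⟨fun h => by simpa [QL.cc] using QL.anti h, fun h => by simpa [QL.cc] using QL.anti h⟩

theorem q_compl_le_compl {x y : L} : xᶜ ≤ yᶜ ↔ y ≤ x :=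
  ⟨fun h => by simpa [QL.cc] using QL.anti h, QL.anti⟩

theorem q_compl_top : (⊤ : L)ᶜ = ⊥ := by simpa using QL.inf_c (⊤ : L)

theorem q_compl_bot : (⊥ : L)ᶜ = ⊤ := by rw [← q_compl_top, QL.cc]

theorem q_eq_bot {z e : L} (h : z ≤ e) (h' : z ≤ eᶜ) : z = ⊥ :=
  le_bot_iff.1 (QL.inf_c e ▸ le_inf h h')

theorem q_inf_eq_bot {x y : L} (h : x ≤ yᶜ) : x ⊓ y = ⊥ :=
  q_eq_bot inf_le_right (inf_le_left.trans h)

theorem QL.Cm.symm {x y : L} (h : Cm x y) : Cm y x := QL.cm_symm h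
theorem QL.Cm.compl {x y : L} (h : Cm x y) : Cm x yᶜ := QL.cm_compl h
theorem QL.Cm.compl_left {x y : L} (h : Cm x y) : Cm xᶜ y := h.symm.compl.symm
theorem QL.Cm.of_compl {x y : L} (h : Cm x yᶜ) : Cm x y := by simpa [QL.cc] using h.compl
theorem QL.Cm.left {x y : L} (h : Cm x y) : Cm x x := QL.cm_refl h
theorem QL.Cm.right {x y : L} (h : Cm x y) : Cm y y := QL.cm_refl h.symm
theorem QL.Cm.inf {x e f : L} (h1 : Cm x e) (h2 : Cm x f) (h3 : Cm e f) : Cm x (e ⊓ f) :=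
  QL.cm_inf h1 h2 h3
theorem QL.Cm.of_le {x y : L} (hx : Cm x x) (hy : Cm y y) (h : x ≤ y) : Cm x y :=
  QL.cm_of_le hx hy h
theorem QL.Cm.compl_self {x : L} (h : Cm x x) : Cm xᶜ xᶜ := h.compl.compl_left
theorem QL.Cm.of_orth {x y : L} (hx : Cm x x) (hy : Cm y y) (h : x ≤ yᶜ) : Cm x y :=
  (hx.of_le hy.compl_self h).of_compl
theorem QL.Cm.inf_self {x y : L} (h : Cm x y) : Cm (x ⊓ y) (x ⊓ y) := (h.left.inf h h).right
theorem QL.Cm.top {x : L} (h : Cm x x) : Cm x ⊤ := h.of_le QL.cm_top le_top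
theorem cm_bot_bot : Cm (⊥ : L) ⊥ := by simpa [q_compl_top] using (QL.cm_top (L := L)).compl_self
theorem QL.Cm.bot {x : L} (h : Cm x x) : Cm x ⊥ := (cm_bot_bot.of_le h bot_le).symm

theorem QL.Cm.dec {e f z : L} (h : Cm e f) (h1 : e ⊓ f ≤ z) (h2 : e ⊓ fᶜ ≤ z) : e ≤ z :=
  QL.dec h h1 h2

theorem QL.Cm.le_compl {x y : L} (h : Cm x y) (h0 : x ⊓ y ≤ ⊥) : x ≤ yᶜ :=
  h.dec (h0.trans bot_le) inf_le_right

theorem QL.Cm.le_of_inf_compl {x y : L} (h : Cm x y) (h0 : x ⊓ yᶜ ≤ ⊥) : x ≤ y :=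
  h.dec inf_le_right (h0.trans bot_le)

/-- an element is the join of its two parts -/
theorem QL.Cm.eq_join {x f : L} (h : Cm x f) : x = ((x ⊓ f)ᶜ ⊓ (x ⊓ fᶜ)ᶜ)ᶜ := by
  apply le_antisymm
  · exact h.dec (q_le_compl_comm.1 inf_le_left) (q_le_compl_comm.1 inf_le_right)
  · rw [← q_compl_le_compl, QL.cc]
    exact le_inf (QL.anti inf_le_left) (QL.anti inf_le_left)

theorem QL.Cm.inf_compl_inf {x f : L} (h : Cm x f) : x ⊓ (x ⊓ f)ᶜ = x ⊓ fᶜ := by
  apply le_antisymm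
  · refine le_inf inf_le_left ?_
    have h1 : Cm (x ⊓ (x ⊓ f)ᶜ) f := by
      have a : Cm f (x ⊓ f) := h.symm.inf h.right h
      have c : Cm x (x ⊓ f) := h.left.inf h h
      exact (h.symm.inf a.compl c.compl).symm
    refine h1.le_compl (q_eq_bot (e := x ⊓ f) ?_ ?_).le
    · exact inf_le_inf_right _ inf_le_left
    · exact inf_le_left.trans inf_le_right
  · exact inf_le_inf_left _ (QL.anti inf_le_right)

/-- localization -/
theorem QL.Cm.loc {x y r : L} (hx : x ≤ r) (hy : Cm y r) (h : Cm x (y ⊓ r)) : Cm x y := by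
  have h1 : Cm (y ⊓ rᶜ) (y ⊓ rᶜ) := hy.compl.inf_self
  have h2 : Cm x (y ⊓ rᶜ) :=
    h.left.of_orth h1 (q_le_compl_comm.1 (inf_le_right.trans (QL.anti hx)))
  have h3 : Cm (y ⊓ r) (y ⊓ rᶜ) :=
    h.right.of_orth h1 (q_le_compl_comm.1 (inf_le_right.trans (QL.anti inf_le_right)))
  have h4 := (h.compl.inf h2.compl h3.compl.compl_left).compl
  rwa [← hy.eq_join] at h4

/-- a set of pairwise commuting elements closed under the operations -/
structure BSub (L : Type) [SemilatticeInf L] [BoundedOrder L] [Compl L] [QL L] where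
  car : Set L
  top_mem : ⊤ ∈ car
  inf_mem : ∀ {x y}, x ∈ car → y ∈ car → x ⊓ y ∈ car
  compl_mem : ∀ {x}, x ∈ car → xᶜ ∈ car
  cm : ∀ {x y}, x ∈ car → y ∈ car → Cm x y

theorem BSub.bot_mem (B : BSub L) : ⊥ ∈ B.car := q_compl_top (L := L) ▸ B.compl_mem B.top_mem

theorem BSub.finf_mem (B : BSub L) {I : Type} (s : Finset I) {f : I → L}
    (h : ∀ i ∈ s, f i ∈ B.car) : s.inf f ∈ B.car :=
  Finset.inf_induction (p := fun x => x ∈ B.car) B.top_mem (fun _ h1 _ h2 => B.inf_mem h1 h2) h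

theorem BSub.sg_mem (B : BSub L) (c : Bool) {x : L} (h : x ∈ B.car) : sg c x ∈ B.car := by
  cases c
  · exact B.compl_mem h
  · exact h

theorem BSub.join_mem (B : BSub L) {x f : L} (h : Cm x f) (h1 : x ⊓ f ∈ B.car)
    (h2 : x ⊓ fᶜ ∈ B.car) : x ∈ B.car := by
  rw [h.eq_join]
  exact B.compl_mem (B.inf_mem (B.compl_mem h1) (B.compl_mem h2))

/-- proof by finitely many cases, for any property that is inherited from two parts -/
theorem BSub.cases_fin (B : BSub L) {Q : L → Prop}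
    (hQ : ∀ x ∈ B.car, ∀ f ∈ B.car, Q (x ⊓ f) → Q (x ⊓ fᶜ) → Q x)
    (hmono : ∀ x ∈ B.car, ∀ y ∈ B.car, x ≤ y → Q y → Q x)
    {I : Type} (s : Finset I) {f : I → L} (hf : ∀ i ∈ s, f i ∈ B.car) {x : L} (hx : x ∈ B.car)
    (h1 : ∀ i ∈ s, Q (x ⊓ f i)) (h2 : Q (x ⊓ s.inf fun i => (f i)ᶜ)) : Q x := by
  classical
  induction s using Finset.induction_on generalizing x with
  | empty => simpa using h2
  | insert a s ha ih =>
    have hfa := hf a (Finset.mem_insert_self _ _)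
    refine hQ x hx (f a) hfa (h1 a (Finset.mem_insert_self _ _)) ?_
    have hx' := B.inf_mem hx (B.compl_mem hfa)
    refine ih (fun i hi => hf i (Finset.mem_insert_of_mem hi)) hx' (fun i hi => ?_) ?_
    · have hi' := hf i (Finset.mem_insert_of_mem hi)
      exact hmono _ (B.inf_mem hx' hi') _ (B.inf_mem hx hi') (inf_le_inf_right _ inf_le_left)
        (h1 i (Finset.mem_insert_of_mem hi))
    · rwa [Finset.inf_insert, ← inf_assoc] at h2

theorem BSub.dec_fin (B : BSub L) {I : Type} (s : Finset I) {f : I → L}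
    (hf : ∀ i ∈ s, f i ∈ B.car) {x z : L} (hx : x ∈ B.car)
    (h1 : ∀ i ∈ s, x ⊓ f i ≤ z) (h2 : x ⊓ (s.inf fun i => (f i)ᶜ) ≤ z) : x ≤ z :=
  B.cases_fin (Q := fun x => x ≤ z) (fun _ hx _ hf h1 h2 => (B.cm hx hf).dec h1 h2)
    (fun _ _ _ _ h1 h2 => h1.trans h2) s hf hx h1 h2

/-- closure under the Boolean operations -/
inductive Gen (S : Set L) : L → Prop
  | base {x} : x ∈ S → Gen S x
  | top : Gen S ⊤
  | inf {x y} : Gen S x → Gen S y → Gen S (x ⊓ y)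
  | compl {x} : Gen S x → Gen S xᶜ

theorem Gen.bot {S : Set L} : Gen S ⊥ := q_compl_top (L := L) ▸ Gen.top.compl

theorem Gen.mem_of_subset {S : Set L} {B : BSub L} (h : S ⊆ B.car) {x : L} (hx : Gen S x) :
    x ∈ B.car := by
  induction hx with
  | base hx => exact h hx
  | top => exact B.top_mem
  | inf _ _ h1 h2 => exact B.inf_mem h1 h2
  | compl _ h1 => exact B.compl_mem h1

theorem Gen.trans {S S' : Set L} (h : ∀ x ∈ S, Gen S' x) {x : L} (hx : Gen S x) : Gen S' x := by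
  induction hx with
  | base hx => exact h _ hx
  | top => exact .top
  | inf _ _ h1 h2 => exact h1.inf h2
  | compl _ h1 => exact h1.compl

theorem Gen.mono {S S' : Set L} (h : S ⊆ S') {x : L} (hx : Gen S x) : Gen S' x :=
  hx.trans fun _ hx => .base (h hx)

theorem Gen.cm_aux {S : Set L} (hS : ∀ x ∈ S, ∀ y ∈ S, Cm x y) {y : L} (hy : Gen S y) :
    (∀ z, Cm z z → (∀ s ∈ S, Cm z s) → Cm z y) ∧ Cm y y ∧ ∀ s ∈ S, Cm y s := by
  induction hy with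
  | base hx => exact ⟨fun z _ h => h _ hx, hS _ hx _ hx, hS _ hx⟩
  | top => exact ⟨fun z h _ => h.top, QL.cm_top, fun s hs => (hS s hs s hs).top.symm⟩
  | inf _ _ h1 h2 =>
    have h := h2.1 _ h1.2.1 h1.2.2
    have k : ∀ z, Cm z z → (∀ s ∈ S, Cm z s) → Cm z _ :=
      fun z hz hs => (h1.1 z hz hs).inf (h2.1 z hz hs) h
    exact ⟨k, h.inf_self, fun s hs => (k s (hS s hs s hs) (hS s hs)).symm⟩
  | compl _ h1 =>
    exact ⟨fun z hz hs => (h1.1 z hz hs).compl, h1.2.1.compl_self,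
      fun s hs => (h1.2.2 s hs).compl_left⟩

/-- an element commuting with the generators commutes with everything generated -/
theorem Gen.cm_of {S : Set L} (hS : ∀ x ∈ S, ∀ y ∈ S, Cm x y) {y z : L} (hy : Gen S y)
    (hz : Cm z z) (h : ∀ s ∈ S, Cm z s) : Cm z y := (hy.cm_aux hS).1 z hz h

theorem Gen.cm {S : Set L} (hS : ∀ x ∈ S, ∀ y ∈ S, Cm x y) {x y : L} (hx : Gen S x)
    (hy : Gen S y) : Cm x y := hy.cm_of hS (hx.cm_aux hS).2.1 (hx.cm_aux hS).2.2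

/-- the algebra generated by a commuting set -/
def genSub (S : Set L) (hS : ∀ x ∈ S, ∀ y ∈ S, Cm x y) : BSub L where
  car := {x | Gen S x}
  top_mem := Gen.top
  inf_mem := Gen.inf
  compl_mem := Gen.compl
  cm := Gen.cm hS

end QL

section QM

variable {F L : Type} [Group F] [SemilatticeInf L] [BoundedOrder L] [Compl L] [QL L]
  [MulAction F L] [QM F L]

theorem q_smul_le {γ : F} {x y : L} : γ • x ≤ γ • y ↔ x ≤ y :=
  ⟨fun h => by simpa using QM.smul_le γ⁻¹ h, QM.smul_le γ⟩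

theorem q_smul_le_iff {γ : F} {x y : L} : γ • x ≤ y ↔ x ≤ γ⁻¹ • y := by
  rw [← q_smul_le (γ := γ⁻¹), inv_smul_smul]

theorem q_le_smul_iff {γ : F} {x y : L} : x ≤ γ • y ↔ γ⁻¹ • x ≤ y := by
  rw [q_smul_le_iff, inv_inv]

theorem q_smul_inf (γ : F) (x y : L) : γ • (x ⊓ y) = γ • x ⊓ γ • y :=
  eq_of_forall_le_iff fun z => by simp only [q_le_smul_iff, le_inf_iff]

theorem q_smul_top (γ : F) : γ • (⊤ : L) = ⊤ := top_le_iff.1 (q_le_smul_iff.2 le_top)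

theorem q_smul_bot (γ : F) : γ • (⊥ : L) = ⊥ := le_bot_iff.1 (q_smul_le_iff.2 bot_le)

theorem q_smul_compl (γ : F) (x : L) : γ • xᶜ = (γ • x)ᶜ := QM.smul_compl γ x

theorem q_smul_eq_bot {γ : F} {x : L} : γ • x = ⊥ ↔ x = ⊥ := by
  rw [smul_eq_iff_eq_inv_smul, q_smul_bot]

theorem q_smul_finf (γ : F) {I : Type} (s : Finset I) (f : I → L) :
    γ • s.inf f = s.inf fun i => γ • f i :=
  eq_of_forall_le_iff fun z => by simp only [q_le_smul_iff, Finset.le_inf_iff]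

theorem QL.Cm.smul (γ : F) {x y : L} (h : Cm x y) : Cm (γ • x) (γ • y) := QM.smul_cm γ h

theorem cm_smul_iff (γ : F) {x y : L} : Cm (γ • x) (γ • y) ↔ Cm x y :=
  ⟨fun h => by simpa using h.smul γ⁻¹, QL.Cm.smul γ⟩

theorem QM.Tv.mono {γ : F} {e z : L} (h : Tv γ e) (hz : z ≤ e) : Tv γ z := QM.tv_mono hz h

theorem QM.Tv.smul_eq {γ : F} {e z : L} (h : Tv γ e) (hz : z ≤ e) : γ • z = z :=
  QM.tv_smul (h.mono hz)

theorem QM.Tv.eqv {γ : F} {e : L} (h : Tv γ e) : Eqv 1 γ e := by simpa [Eqv] using h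

theorem Eqv.tv {γ : F} {e : L} (h : Eqv 1 γ e) : Tv γ e := by simpa [Eqv] using h

theorem Eqv.refl (γ : F) (e : L) : Eqv γ γ e := by simpa [Eqv] using QM.tv_one e

theorem Eqv.of_eq {γ γ' : F} (h : γ = γ') (e : L) : Eqv γ γ' e := h ▸ Eqv.refl γ e

theorem Eqv.symm {γ γ' : F} {e : L} (h : Eqv γ γ' e) : Eqv γ' γ e := by
  simpa [Eqv] using QM.tv_inv h

theorem Eqv.trans {γ γ' γ'' : F} {e : L} (h : Eqv γ γ' e) (h' : Eqv γ' γ'' e) :
    Eqv γ γ'' e := by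
  simpa [Eqv, mul_assoc] using QM.tv_mul h h'

theorem Eqv.mono {γ γ' : F} {e z : L} (h : Eqv γ γ' e) (hz : z ≤ e) : Eqv γ γ' z :=
  QM.tv_mono hz h

theorem Eqv.mul_left (δ : F) {γ γ' : F} {e : L} (h : Eqv γ γ' e) : Eqv (δ * γ) (δ * γ') e := by
  simpa [Eqv, mul_assoc] using h

theorem Eqv.cancel_left (δ : F) {γ γ' : F} {e : L} (h : Eqv (δ * γ) (δ * γ') e) :
    Eqv γ γ' e := by
  simpa [Eqv, mul_assoc] using h

theorem Eqv.mul_right (δ : F) {γ γ' : F} {e e' : L} (h : Eqv γ γ' e') (he : δ • e ≤ e') :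
    Eqv (γ * δ) (γ' * δ) e := by
  simpa [Eqv, mul_assoc] using QM.tv_conj δ⁻¹ (QM.tv_mono he h)

theorem Eqv.cancel_right (δ : F) {γ γ' : F} {e : L} (h : Eqv (γ * δ) (γ' * δ) e) :
    Eqv γ γ' (δ • e) := by
  simpa using h.mul_right δ⁻¹ (e := δ • e) (by simp)

theorem Eqv.mul {γ γ' δ δ' : F} {e e' : L} (h : Eqv γ γ' e') (h' : Eqv δ δ' e)
    (he : δ • e ≤ e') : Eqv (γ * δ) (γ' * δ') e :=
  (h.mul_right δ he).trans (h'.mul_left γ')

theorem Eqv.smul_eq {γ γ' : F} {e x : L} (h : Eqv γ γ' e) (hx : x ≤ e) : γ • x = γ' • x := by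
  have := QM.Tv.smul_eq h hx
  rw [mul_smul, inv_smul_eq_iff] at this
  exact this.symm

theorem Eqv.inv {γ γ' : F} {e : L} (h : Eqv γ γ' e) : Eqv γ⁻¹ γ'⁻¹ (γ • e) := by
  have := (h.symm.mul_left γ'⁻¹).mul_right γ⁻¹ (e := γ • e) (by simp)
  simpa using this

theorem Eqv.dec {γ γ' : F} {e f : L} (h : Cm e f) (h1 : Eqv γ γ' (e ⊓ f))
    (h2 : Eqv γ γ' (e ⊓ fᶜ)) : Eqv γ γ' e := QM.tv_dec h h1 h2

theorem Eqv.bot (γ γ' : F) : Eqv γ γ' (⊥ : L) := QM.tv_bot _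

theorem BSub.eqv_fin (B : BSub L) {I : Type} (s : Finset I) {f : I → L}
    (hf : ∀ i ∈ s, f i ∈ B.car) {x : L} (hx : x ∈ B.car) {γ γ' : F}
    (h1 : ∀ i ∈ s, Eqv γ γ' (x ⊓ f i)) (h2 : Eqv γ γ' (x ⊓ s.inf fun i => (f i)ᶜ)) :
    Eqv γ γ' x :=
  B.cases_fin (Q := Eqv γ γ') (fun _ hx _ hf h1 h2 => Eqv.dec (B.cm hx hf) h1 h2)
    (fun _ _ _ _ h1 h2 => h2.mono h1) s hf hx h1 h2

theorem set_eqv {Y : Type} [MulAction F Y] {γ γ' : F} {e : Set Y} :
    Eqv γ γ' e ↔ ∀ y ∈ e, γ • y = γ' • y := by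
  simp only [Eqv, set_tv, mul_smul, inv_smul_eq_iff]
  exact forall₂_congr fun _ _ => eq_comm

/-- `γ` and its inverse preserve the algebra `B` locally on `e` -/
structure Good (B : BSub L) (γ : F) (e : L) : Prop where
  mem : e ∈ B.car
  fwd : ∀ x ∈ B.car, x ≤ e → γ • x ∈ B.car
  bwd : ∀ x ∈ B.car, x ≤ γ • e → γ⁻¹ • x ∈ B.car

namespace Good

variable {B : BSub L} {γ δ : F} {e f : L}

theorem img (h : Good B γ e) : γ • e ∈ B.car := h.fwd e h.mem le_rfl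

theorem one (he : e ∈ B.car) : Good B (1 : F) e :=
  ⟨he, fun x hx _ => by simpa using hx, fun x hx _ => by simpa using hx⟩

theorem mono (h : Good B γ e) (hf : f ∈ B.car) (hfe : f ≤ e) : Good B γ f :=
  ⟨hf, fun x hx hl => h.fwd x hx (hl.trans hfe),
    fun x hx hl => h.bwd x hx (hl.trans (q_smul_le.2 hfe))⟩

theorem inv (h : Good B γ e) : Good B γ⁻¹ (γ • e) :=
  ⟨h.img, h.bwd, fun x hx hl => by simpa using h.fwd x hx (by simpa using hl)⟩

theorem mul (h : Good B γ f) (h' : Good B δ e) (he : δ • e ≤ f) : Good B (γ * δ) e := by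
  refine ⟨h'.mem, fun x hx hl => ?_, fun x hx hl => ?_⟩
  · rw [mul_smul]
    exact h.fwd _ (h'.fwd x hx hl) ((q_smul_le.2 hl).trans he)
  · rw [mul_inv_rev, mul_smul]
    rw [mul_smul] at hl
    exact h'.bwd _ (h.bwd x hx (hl.trans (q_smul_le.2 he))) (q_le_smul_iff.1 hl)

theorem eqv (h : Good B γ e) (he : Eqv γ δ e) : Good B δ e := by
  refine ⟨h.mem, fun x hx hl => ?_, fun x hx hl => ?_⟩
  · rw [← he.smul_eq hl]; exact h.fwd x hx hl
  · rw [← he.smul_eq le_rfl] at hl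
    rw [← he.inv.smul_eq hl]; exact h.bwd x hx hl

theorem bot : Good B γ (⊥ : L) :=
  ⟨B.bot_mem, fun x _ hl => by rw [le_bot_iff.1 hl, q_smul_bot]; exact B.bot_mem,
    fun x _ hl => by
      rw [q_smul_bot] at hl; rw [le_bot_iff.1 hl, q_smul_bot]; exact B.bot_mem⟩

theorem dec (he : e ∈ B.car) (hf : f ∈ B.car) (h1 : Good B γ (e ⊓ f)) (h2 : Good B γ (e ⊓ fᶜ)) :
    Good B γ e := by
  refine ⟨he, fun x hx hl => ?_, fun x hx hl => ?_⟩
  · refine B.join_mem (f := γ • f) ((B.cm hx hf).smul γ) ?_ ?_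
    · rw [← q_smul_inf]
      exact h1.fwd _ (B.inf_mem hx hf) (inf_le_inf_right _ hl)
    · rw [← q_smul_compl, ← q_smul_inf]
      exact h2.fwd _ (B.inf_mem hx (B.compl_mem hf)) (inf_le_inf_right _ hl)
  · have hg := h1.img
    refine B.join_mem (f := e ⊓ f) ?_ ?_ ?_
    · simpa using (B.cm hx hg).smul γ⁻¹
    · have := h1.bwd _ (B.inf_mem hx hg) inf_le_right
      rwa [q_smul_inf, inv_smul_smul] at this
    · have := h2.bwd _ (B.inf_mem hx (B.compl_mem hg)) (by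
        rw [← (B.cm he hf).inf_compl_inf, q_smul_inf γ e (e ⊓ f)ᶜ, q_smul_compl]
        exact inf_le_inf_right _ hl)
      rwa [q_smul_inf, q_smul_compl, inv_smul_smul] at this

theorem fin {I : Type} (s : Finset I) {g : I → L} (hg : ∀ i ∈ s, g i ∈ B.car) (he : e ∈ B.car)
    (h1 : ∀ i ∈ s, Good B γ (e ⊓ g i)) (h2 : Good B γ (e ⊓ s.inf fun i => (g i)ᶜ)) :
    Good B γ e :=
  B.cases_fin (Q := Good B γ) (fun _ hx _ hf h1 h2 => Good.dec hx hf h1 h2)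
    (fun _ hx _ _ h1 h2 => h2.mono hx h1) s hg he h1 h2

end Good

/-- arrows: a group element with a domain and a range -/
structure Arr (F L : Type) where
  w : F
  d : L
  r : L

namespace Arr

/-- push forward -/
def pf (p : Arr F L) (x : L) : L := p.w • (x ⊓ p.d)

/-- pull back -/
def pb (p : Arr F L) (y : L) : L := p.w⁻¹ • (y ⊓ p.r)

/-- the arrow maps its domain onto its range -/
def Ok (p : Arr F L) : Prop := p.w • p.d = p.r

/-- commuting squares -/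
structure HSq (p q : Arr F L) : Prop where
  eqv : Eqv (p.w * q.w) (q.w * p.w) (p.d ⊓ q.d)
  h1 : p.w • (p.d ⊓ q.d) = p.r ⊓ q.d
  h2 : q.w • (q.d ⊓ p.r) = q.r ⊓ p.r

variable {p q : Arr F L}

theorem pf_le (h : p.Ok) (x : L) : p.pf x ≤ p.r := h ▸ q_smul_le.2 inf_le_right

theorem inv_r (h : p.Ok) : p.w⁻¹ • p.r = p.d := by rw [← h, inv_smul_smul]

theorem pb_le (h : p.Ok) (x : L) : p.pb x ≤ p.d := inv_r h ▸ q_smul_le.2 inf_le_right

theorem pb_eq (h : p.Ok) (x : L) : p.pb x = p.w⁻¹ • x ⊓ p.d := by rw [pb, q_smul_inf, inv_r h]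

theorem pf_eq (h : p.Ok) (x : L) : p.pf x = p.w • x ⊓ p.r := by rw [pf, q_smul_inf, h]

theorem pb_pf (h : p.Ok) (x : L) : p.pb (p.pf x) = x ⊓ p.d := by
  rw [pb, inf_eq_left.2 (pf_le h x), pf, inv_smul_smul]

theorem pf_pb (h : p.Ok) (x : L) : p.pf (p.pb x) = x ⊓ p.r := by
  rw [pf, inf_eq_left.2 (pb_le h x), pb, smul_inv_smul]

theorem pb_inf (x y : L) : p.pb (x ⊓ y) = p.pb x ⊓ p.pb y := by
  rw [pb, pb, pb, ← q_smul_inf, inf_inf_distrib_right]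

theorem pf_inf (x y : L) : p.pf (x ⊓ y) = p.pf x ⊓ p.pf y := by
  rw [pf, pf, pf, ← q_smul_inf, inf_inf_distrib_right]

theorem pb_top (h : p.Ok) : p.pb ⊤ = p.d := by rw [pb, top_inf_eq, inv_r h]

theorem pf_top (h : p.Ok) : p.pf ⊤ = p.r := by rw [pf, top_inf_eq, h]

theorem pb_mono {x y : L} (h : x ≤ y) : p.pb x ≤ p.pb y := q_smul_le.2 (inf_le_inf_right _ h)

theorem pf_mono {x y : L} (h : x ≤ y) : p.pf x ≤ p.pf y := q_smul_le.2 (inf_le_inf_right _ h)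

theorem pb_compl (h : p.Ok) {x : L} (hx : Cm x p.r) : p.pb xᶜ = p.d ⊓ (p.pb x)ᶜ := by
  rw [pb, pb, ← inv_r h, ← q_smul_compl, ← q_smul_inf, inf_comm x, hx.symm.inf_compl_inf,
    inf_comm]

theorem pf_compl (h : p.Ok) {x : L} (hx : Cm x p.d) : p.pf xᶜ = p.r ⊓ (p.pf x)ᶜ := by
  rw [pf, pf, ← h, ← q_smul_compl, ← q_smul_inf, inf_comm x, hx.symm.inf_compl_inf, inf_comm]

theorem pb_of_orth {x : L} (h : x ≤ p.rᶜ) : p.pb x = ⊥ := by
  rw [pb, q_inf_eq_bot h, q_smul_bot]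

theorem pf_of_orth {x : L} (h : x ≤ p.dᶜ) : p.pf x = ⊥ := by
  rw [pf, q_inf_eq_bot h, q_smul_bot]

theorem pb_of_ge (h : p.Ok) {x : L} (hx : p.r ≤ x) : p.pb x = p.d := by
  rw [pb, inf_eq_right.2 hx, inv_r h]

theorem pf_of_ge (h : p.Ok) {x : L} (hx : p.d ≤ x) : p.pf x = p.r := by
  rw [pf, inf_eq_right.2 hx, h]

theorem pb_inf_of_ge {x e : L} (he : p.r ≤ e) : p.pb (x ⊓ e) = p.pb x := by
  rw [pb, pb, inf_assoc, inf_eq_right.2 he]

theorem pf_inf_of_ge {x e : L} (he : p.d ≤ e) : p.pf (x ⊓ e) = p.pf x := by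
  rw [pf, pf, inf_assoc, inf_eq_right.2 he]

/-- from the forward to the backward form of invariance -/
theorem pb_of_pf {x y : L} (hxy : p.pf x = y ⊓ p.r) : p.pb y = x ⊓ p.d := by
  rw [pb, ← hxy, pf, inv_smul_smul]

theorem HSq.pb_pf (hp : p.Ok) (hq : q.Ok) (h : HSq p q) (x : L) :
    p.pb (q.pf x) = q.pf (p.pb x) := by
  have e1 : q.pf x ⊓ p.r = q.w • (x ⊓ (p.r ⊓ q.d)) := by
    rw [pf_eq hq, inf_assoc, ← h.h2, ← q_smul_inf, inf_comm q.d]
  have e2 : x ⊓ (p.r ⊓ q.d) = p.w • (p.w⁻¹ • x ⊓ (p.d ⊓ q.d)) := by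
    rw [q_smul_inf, smul_inv_smul, h.h1]
  rw [pb, e1, e2, ← mul_smul q.w, ← h.eqv.smul_eq inf_le_right, mul_smul, inv_smul_smul, pf,
    pb_eq hp, inf_assoc]

theorem cm_pf (h : p.Ok) {x y : L} (hy : Cm y p.r) (hx : Cm (x ⊓ p.d) (p.pb y)) :
    Cm (p.pf x) y := by
  refine QL.Cm.loc (pf_le h x) hy ?_
  have := hx.smul p.w
  rwa [pb, smul_inv_smul] at this

theorem cm_pb (h : p.Ok) {x y : L} (hy : Cm y p.d) (hx : Cm (x ⊓ p.r) (p.pf y)) :
    Cm (p.pb x) y := by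
  refine QL.Cm.loc (pb_le h x) hy ?_
  have := hx.smul p.w⁻¹
  rwa [pf, inv_smul_smul] at this

theorem good {B : BSub L} (h : p.Ok) (hd : p.d ∈ B.car) (hf : ∀ x ∈ B.car, p.pf x ∈ B.car)
    (hb : ∀ x ∈ B.car, p.pb x ∈ B.car) : Good B p.w p.d := by
  refine ⟨hd, fun x hx hl => ?_, fun x hx hl => ?_⟩
  · have := hf x hx
    rwa [pf, inf_eq_left.2 hl] at this
  · have := hb x hx
    rwa [pb, inf_eq_left.2 (h ▸ hl)] at this

theorem pf_mem {B : BSub L} (h : Good B p.w p.d) {x : L} (hx : x ∈ B.car) : p.pf x ∈ B.car :=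
  h.fwd _ (B.inf_mem hx h.mem) inf_le_right

theorem pb_mem {B : BSub L} (hp : p.Ok) (h : Good B p.w p.d) {x : L} (hx : x ∈ B.car) :
    p.pb x ∈ B.car :=
  h.bwd _ (B.inf_mem hx (hp ▸ h.img)) (hp ▸ inf_le_right)

end Arr

end QM

end Vale.Agent.P193
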