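import Vale.Agent.P193.QM
import Vale.Agent.P193.Mach

/-! The signature and the finite list of defining formulas. -/

namespace Vale.Agent.P193

/-- local equality of two group elements -/
def Eqv {F L : Type} [Group F] [SemilatticeInf L] [BoundedOrder L] [Compl L] [QL L]
    [MulAction F L] [QM F L] (γ γ' : F) (e : L) : Prop := Tv (γ⁻¹ * γ') e

/-- a literal -/
def sg {L : Type} [Compl L] : Bool → L → L
  | true, x => x
  | false, x => xᶜ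

/-- kinds of frames -/
inductive Fr4 : Type
  | A | B | C | D
  deriving DecidableEq

instance : Fintype Fr4 := ⟨{.A, .B, .C, .D}, fun x => by cases x <;> simp⟩

variable {G : Type} [Group G]

/-- moves -/
inductive Mv (M : Mach G) : Type
  | push (k : M.Λ) (a : M.Γ)
  | pm (a : M.Γ)
  | qm (a : M.Γ)
  | jj
  | fr (x : Fr4)
  | io
  | mm
  | dig (d : Bool)

/-- basic predicates -/
inductive Pr (M : Mach G) : Type
  | T | E | Sh
  | tp (k : M.Λ) (o : Option M.Γ)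
  | dl | dl'
  | R (x : Fr4)
  | A | B | K
  | Dg (d : Bool)

instance (M : Mach G) : Finite (Mv M) := Finite.of_equiv _ (proxy_equiv% (Mv M))

instance (M : Mach G) : Finite (Pr M) := Finite.of_equiv _ (proxy_equiv% (Pr M))

/-- the acting free group -/
abbrev FF (M : Mach G) : Type := FreeGroup (Option (Mv M))

variable {M : Mach G}

/-- the flip -/
def fl (M : Mach G) : FF M := FreeGroup.of none

/-- the involution attached to a move -/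
def Mv.ta (σ : Mv M) : FF M := FreeGroup.of (some σ)

/-- the word realizing a move on its domain -/
def Mv.w (σ : Mv M) : FF M := fl M * σ.ta

/-- domain of a move -/
def Mv.dom : Mv M → Pr M
  | .push _ _ => .E
  | .pm _ => .E
  | .qm _ => .T
  | .jj => .E
  | .fr .A => .E
  | .fr .B => .E
  | .fr .C => .T
  | .fr .D => .E
  | .io => .A
  | .mm => .A
  | .dig _ => .T

/-- range of a move -/
def Mv.ran : Mv M → Pr M
  | .push k a => .tp k (some a)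
  | .pm _ => .E
  | .qm _ => .T
  | .jj => .E
  | .fr x => .R x
  | .io => .Sh
  | .mm => .B
  | .dig d => .Dg d

/-- word pushing a list of (stack, symbol) pairs; the head is pushed last -/
def pwL (l : List (M.Λ × M.Γ)) : FF M := (l.map fun p => (Mv.push p.1 p.2).w).prod

/-- a configuration as a list of (stack, symbol) pairs -/
noncomputable def flat (σ : M.Λ → List M.Γ) : List (M.Λ × M.Γ) :=
  (Finset.univ : Finset M.Λ).toList.flatMap fun k => (σ k).map fun a => (k, a)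

/-- word pushing a whole configuration -/
noncomputable def rw (σ : M.Λ → List M.Γ) : FF M := pwL (flat σ)

section Ax

variable {L : Type} [SemilatticeInf L] [BoundedOrder L] [Compl L] [QL L] [MulAction (FF M) L]
  [QM (FF M) L] (b : Pr M → L)

/-- prescribed top symbols -/
def atT (τ : M.Λ → Option M.Γ) : L := Finset.univ.inf fun k => b (.tp k (τ k))

/-- prescribed top symbols and bits -/
def piece (τ : M.Λ → Option M.Γ) (b1 b2 : Bool) : L := atT b τ ⊓ sg b1 (b .dl) ⊓ sg b2 (b .dl')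

/-- the move `σ` carries `g` to `g'` -/
def Pres (σ : Mv M) (g g' : Pr M) : Prop := σ.w • (b g ⊓ b σ.dom) = b g' ⊓ b σ.ran

/-- two moves commute -/
def Cmt (σ σ' : Mv M) : Prop := Eqv (σ.w * σ'.w) (σ'.w * σ.w) (b σ.dom ⊓ b σ'.dom)

/-- structural and order formulas -/
structure Ax1 : Prop where
  fl2 : Tv (fl M * fl M) (⊤ : L)
  ta2 : ∀ σ : Mv M, Tv (σ.ta * σ.ta) (⊤ : L)
  flT : fl M • b .T = (b .T)ᶜ
  wdom : ∀ σ : Mv M, σ.w • b σ.dom = b σ.ran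
  taOff : ∀ σ : Mv M, Tv σ.ta ((b σ.dom)ᶜ ⊓ (fl M • b σ.ran)ᶜ)
  leT : ∀ j, b j ≤ b .T
  shE : b .Sh ≤ (b .E)ᶜ
  shT : b .T ⊓ (b .E)ᶜ ≤ b .Sh
  tpE : ∀ k o, b (.tp k o) ≤ b .E
  dlE : b .dl ≤ b .E
  dlE' : b .dl' ≤ b .E
  tpO : ∀ k o o', o ≠ o' → b (.tp k o) ≤ (b (.tp k o'))ᶜ
  tpC : ∀ k, b .E ⊓ (Finset.univ.inf fun o => (b (.tp k o))ᶜ) ≤ ⊥
  dgO : b (.Dg false) ≤ (b (.Dg true))ᶜ
  dgC : b .T ⊓ (b (.Dg false))ᶜ ≤ b (.Dg true)
  rTp : ∀ x k, b (.R x) ≤ b (.tp k none)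
  rO : ∀ x y, x ≠ y → b (.R x) ≤ (b (.R y))ᶜ
  rC : b (.R .C) ≤ b .dl
  rD : b (.R .D) ≤ b .dl
  rCov : atT b (fun _ => none) ⊓ b .dl ⊓ (Finset.univ.inf fun x => (b (.R x))ᶜ) ≤ ⊥
  kTp : ∀ k, k ≠ M.t → b .K ⊓ b .E ≤ b (.tp k none)
  kCl : b .E ⊓ ((Finset.univ.erase M.t).inf fun k => b (.tp k none)) ≤ b .K
  dlEq : b (.tp M.t none) ⊓ b .dl = b (.tp M.t none) ⊓ b .dl'
  kA : b .K ≤ b .A
  kB : b .K ≤ (b .B)ᶜ

/-- invariance formulas -/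
structure Ax2 : Prop where
  pushTp : ∀ k a k' o, k' ≠ k → Pres b (.push k a) (.tp k' o) (.tp k' o)
  pushDl : ∀ k a, Pres b (.push k a) .dl .dl
  pushDl' : ∀ k a, k ≠ M.t → Pres b (.push k a) .dl' .dl'
  pushPm : ∀ a, ((Mv.push M.t a).w * (Mv.pm a).w) • b .dl' = b .dl' ⊓ b (.tp M.t (some a))
  pmTp : ∀ a k o, Pres b (.pm a) (.tp k o) (.tp k o)
  pmA : ∀ a, Pres b (.pm a) (.R .A) (.R .A)
  pmB : ∀ a, Pres b (.pm a) (.R .B) (.R .B)
  qmAll : ∀ a j, Pres b (.qm a) j j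
  jTp : ∀ k o, Pres b .jj (.tp k o) (.tp k o)
  jDl : Pres b .jj .dl .dl
  jDl' : Pres b .jj .dl' .dl'
  frA : Pres b (.fr .A) .dl .dl
  frB : Pres b (.fr .B) .dl' .dl
  ioB : Pres b .io .B .B
  ioK : Pres b .io .K .K
  ioA : (Mv.io (M := M)).w⁻¹ • (b .A ⊓ b .Sh) = (Mv.mm (M := M)).w⁻¹ • (b .A ⊓ b .B)
  mmE : Pres b .mm .E .E
  digAll : ∀ d j, (∀ d', j ≠ .Dg d') → Pres b (.dig d) j j
  allDg : ∀ σ d, (∀ d', σ ≠ .dig d') → Pres b σ (.Dg d) (.Dg d)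

/-- local relations -/
structure Ax3 : Prop where
  jT : Tv (Mv.jj (M := M)).w (b (.tp M.t none))
  jD : Tv (Mv.jj (M := M)).w (b .dl ⊓ b .dl')
  cPush : ∀ k a k' a', k ≠ k' → Cmt b (.push k a) (.push k' a')
  cPmPush : ∀ a k a', Cmt b (.pm a) (.push k a')
  cQmPush : ∀ a k a', Cmt b (.qm a) (.push k a')
  cQmPm : ∀ a a', Cmt b (.qm a) (.pm a')
  cJPm : ∀ a, Cmt b .jj (.pm a)
  cJPush : ∀ k a, k ≠ M.t → Cmt b .jj (.push k a)
  jPush : ∀ a, Eqv ((Mv.jj (M := M)).w * (Mv.push M.t a).w)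
    ((Mv.push M.t a).w * (Mv.qm a).w * (Mv.jj (M := M)).w) (b .E)
  cPmA : ∀ a, Cmt b (.pm a) (.fr .A)
  cPmB : ∀ a, Cmt b (.pm a) (.fr .B)
  cQmFr : ∀ a x, x ≠ .D → Cmt b (.qm a) (.fr x)
  cQmIo : ∀ a, Cmt b (.qm a) .io
  cQmMm : ∀ a, Cmt b (.qm a) .mm
  qmD : ∀ a, Eqv ((Mv.qm a).w * (Mv.fr (M := M) .D).w) ((Mv.fr (M := M) .D).w * (Mv.pm a).w)
    (b .E)
  ioMm : Eqv ((Mv.io (M := M)).w * (Mv.mm (M := M)).w) ((Mv.mm (M := M)).w * (Mv.io (M := M)).w)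
    ((Mv.io (M := M)).w⁻¹ • (b .A ⊓ b .Sh))
  cDig : ∀ d σ, (∀ d', σ ≠ .dig d') → Cmt b (.dig d) σ
  dead : ∀ τ b1 b2, M.step τ b1 b2 = none → piece b τ b1 b2 ≤ (b .A)ᶜ
  live : ∀ τ b1 b2, M.step τ b1 b2 ≠ none → piece b τ b1 b2 ≤ b .A
  run : ∀ τ b1 b2, M.step τ b1 b2 ≠ none → Eqv (Mv.mm (M := M)).w
    (rw ((M.step τ b1 b2).getD fun _ => []) * (rw fun k => (τ k).toList)⁻¹) (piece b τ b1 b2)

/-- all defining formulas -/
structure Ax : Prop extends Ax1 b, Ax2 b, Ax3 b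

end Ax

theorem isTm_sg (c : Bool) {f : (m : Mdl (FF M) (Pr M)) → m.L} (h : IsTm f) :
    IsTm fun m => sg c (f m) := by
  cases c
  · exact h.compl
  · exact h

theorem isTm_piece (τ : M.Λ → Option M.Γ) (b1 b2 : Bool) :
    IsTm fun m : Mdl (FF M) (Pr M) => piece m.b τ b1 b2 :=
  ((IsTm.finf _ fun _ => IsTm.basic _).inf (isTm_sg _ (IsTm.basic _))).inf
    (isTm_sg _ (IsTm.basic _))

theorem finAx_pres (σ : Mv M) (g g' : Pr M) :
    FinAx fun m : Mdl (FF M) (Pr M) => Pres m.b σ g g' :=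
  FinAx.eq (((IsTm.basic _).inf (IsTm.basic _)).act _) ((IsTm.basic _).inf (IsTm.basic _))

theorem finAx_cmt (σ σ' : Mv M) : FinAx fun m : Mdl (FF M) (Pr M) => Cmt m.b σ σ' :=
  FinAx.tv _ ((IsTm.basic _).inf (IsTm.basic _))

theorem finAx_ax1 : FinAx fun m : Mdl (FF M) (Pr M) => Ax1 m.b := by
  refine FinAx.congr ?_ fun m => ⟨fun h => (⟨h.1, h.2, h.3, h.4, h.5, h.6, h.7, h.8, h.9, h.10,
    h.11, h.12, h.13, h.14, h.15, h.16, h.17, h.18, h.19, h.20, h.21, h.22, h.23, h.24, h.25⟩ :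
    _ ∧ _ ∧ _ ∧ _ ∧ _ ∧ _ ∧ _ ∧ _ ∧ _ ∧ _ ∧ _ ∧ _ ∧ _ ∧ _ ∧ _ ∧ _ ∧ _ ∧ _ ∧ _ ∧ _ ∧ _ ∧ _ ∧ _ ∧
      _ ∧ _),
    fun ⟨h1, h2, h3, h4, h5, h6, h7, h8, h9, h10, h11, h12, h13, h14, h15, h16, h17, h18, h19,
      h20, h21, h22, h23, h24, h25⟩ => ⟨h1, h2, h3, h4, h5, h6, h7, h8, h9, h10, h11, h12, h13,
      h14, h15, h16, h17, h18, h19, h20, h21, h22, h23, h24, h25⟩⟩
  unfold atT
  repeat' first
    | apply FinAx.and
    | (apply FinAx.all; intro _)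
    | apply FinAx.eq
    | apply FinAx.le
    | apply FinAx.tv
    | apply IsTm.inf
    | apply IsTm.compl
    | apply IsTm.act
    | exact IsTm.top
    | exact IsTm.bot
    | exact IsTm.basic _
    | (apply IsTm.finf; intro _)

theorem finAx_ax2 : FinAx fun m : Mdl (FF M) (Pr M) => Ax2 m.b := by
  refine FinAx.congr ?_ fun m => ⟨fun h => (⟨h.1, h.2, h.3, h.4, h.5, h.6, h.7, h.8, h.9, h.10,
    h.11, h.12, h.13, h.14, h.15, h.16, h.17, h.18, h.19⟩ :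
    _ ∧ _ ∧ _ ∧ _ ∧ _ ∧ _ ∧ _ ∧ _ ∧ _ ∧ _ ∧ _ ∧ _ ∧ _ ∧ _ ∧ _ ∧ _ ∧ _ ∧ _ ∧ _),
    fun ⟨h1, h2, h3, h4, h5, h6, h7, h8, h9, h10, h11, h12, h13, h14, h15, h16, h17, h18,
      h19⟩ => ⟨h1, h2, h3, h4, h5, h6, h7, h8, h9, h10, h11, h12, h13,
      h14, h15, h16, h17, h18, h19⟩⟩
  repeat' first
    | apply FinAx.and
    | (apply FinAx.all; intro _)
    | apply finAx_pres
    | apply FinAx.eq
    | apply IsTm.inf
    | apply IsTm.act
    | exact IsTm.basic _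

theorem finAx_ax3 : FinAx fun m : Mdl (FF M) (Pr M) => Ax3 m.b := by
  refine FinAx.congr ?_ fun m => ⟨fun h => (⟨h.1, h.2, h.3, h.4, h.5, h.6, h.7, h.8, h.9, h.10,
    h.11, h.12, h.13, h.14, h.15, h.16, h.17, h.18, h.19, h.20⟩ :
    _ ∧ _ ∧ _ ∧ _ ∧ _ ∧ _ ∧ _ ∧ _ ∧ _ ∧ _ ∧ _ ∧ _ ∧ _ ∧ _ ∧ _ ∧ _ ∧ _ ∧ _ ∧ _ ∧ _),
    fun ⟨h1, h2, h3, h4, h5, h6, h7, h8, h9, h10, h11, h12, h13, h14, h15, h16, h17, h18,
      h19, h20⟩ => ⟨h1, h2, h3, h4, h5, h6, h7, h8, h9, h10, h11, h12, h13,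
      h14, h15, h16, h17, h18, h19, h20⟩⟩
  repeat' first
    | apply FinAx.and
    | (apply FinAx.all; intro _)
    | apply finAx_cmt
    | apply FinAx.le
    | apply FinAx.tv
    | apply isTm_piece
    | apply IsTm.inf
    | apply IsTm.compl
    | apply IsTm.act
    | exact IsTm.basic _

theorem finAx_ax : FinAx fun m : Mdl (FF M) (Pr M) => Ax m.b :=
  (finAx_ax1.and (finAx_ax2.and finAx_ax3)).congr fun _ =>
    ⟨fun h => ⟨h.1, h.2, h.3⟩, fun h => ⟨h.1, h.2.1, h.2.2⟩⟩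

end Vale.Agent.P193
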