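import Vale.Agent.P193.Swap

/-! A set with a binary digit coordinate and the group generated by rectangular swaps. -/

namespace Vale.Agent.P193

open Equiv

/-- push the digits `α` (head of the list = least significant digit) in front of `n` -/
def pw (α : List Bool) (n : ℕ) : ℕ := α.foldr Nat.bit n

/-- tensor setting: `X = X0 × ℕ`, a Boolean algebra of subsets of `X0` and a group preserving
it -/
structure TS (X0 X : Type) where
  co : X0 × ℕ ≃ X
  B : BooleanSubalgebra (Set X0)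
  Γ : Subgroup (Perm X0)
  inv : ∀ γ ∈ Γ, ∀ e ∈ B, γ '' e ∈ B

namespace TS

variable {X0 X : Type} (T : TS X0 X)

/-- the matching of the rectangle `e × α` with `γ e × β` -/
def rel (e : Set X0) (γ : Perm X0) (α β : List Bool) : Set (X × X) :=
  {p | ∃ x ∈ e, ∃ n, p = (T.co (x, pw α n), T.co (γ x, pw β n))}

/-- the group generated by all rectangular swaps -/
def RA : Subgroup (Perm X) :=
  Subgroup.closure {u | ∃ e ∈ T.B, ∃ γ ∈ T.Γ, ∃ α β, IsMatch (T.rel e γ α β) ∧
    u = swapR (T.rel e γ α β)}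

/-- the group generated by the rectangular swaps of the two simplest kinds -/
def RA0 : Subgroup (Perm X) :=
  Subgroup.closure {u | ∃ e ∈ T.B, ∃ γ ∈ T.Γ, ∃ β, (β = [] ∨ ∃ d, β = [d]) ∧
    IsMatch (T.rel e γ [] β) ∧ u = swapR (T.rel e γ [] β)}

/-- minimality -/
def Min : Prop := ∀ e ∈ T.B, e.Nonempty → ∃ l : List (Set X0 × Perm X0),
  (∀ p ∈ l, p.1 ∈ T.B ∧ p.2 ∈ T.Γ ∧ p.2 '' p.1 ⊆ e) ∧ ∀ x, ∃ p ∈ l, x ∈ p.1

/-- separation of points -/
def Sep : Prop := ∀ x y : X0, x ≠ y → ∃ e ∈ T.B, x ∈ e ∧ y ∉ e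

end TS

end Vale.Agent.P193
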