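import Vale.Agent.P193.TensorB

/-! Canonical lifts of rectangular swaps to a central extension. -/

namespace Vale.Agent.P193

open Equiv Set
open scoped commutatorElement

theorem comm_mul_mul {G : Type} [Group G] {a b c d : G} (h1 : Commute a b) (h2 : Commute a d)
    (h3 : Commute c b) (h4 : Commute c d) : ⁅a * b, c * d⁆ = ⁅a, c⁆ * ⁅b, d⁆ := by
  simp only [commutatorElement_def, mul_inv_rev, mul_assoc]
  rw [h3.symm.left_comm, h1.inv_inv.symm.left_comm, h2.inv_left.symm.left_comm,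
    h1.inv_left.symm.left_comm, h4.inv_inv.symm.eq, h3.inv_inv.symm.left_comm,
    h4.inv_left.symm.left_comm, h3.inv_left.symm.left_comm]

namespace TS

variable {X0 X : Type}

/-- a central extension of the group of rectangular swaps -/
structure CE (T : TS X0 X) (H : Type) [Group H] where
  π : H →* Perm X
  hr : π.range = T.RA
  hc : π.ker ≤ Subgroup.center H

namespace CE

variable {T : TS X0 X} {H : Type} [Group H] (C : CE T H)
  {e e' f : Set X0} {g g' : Perm X0} {a b a' b' : List Bool}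

/-- some preimage -/
noncomputable def lift (u : Perm X) : H := Function.invFun C.π u

theorem lift_spec {u : Perm X} (hu : u ∈ T.RA) : C.π (C.lift u) = u :=
  Function.invFun_eq (C.hr ▸ hu : u ∈ C.π.range)

theorem mem (h : H) : C.π h ∈ T.RA := C.hr ▸ ⟨h, rfl⟩

theorem central {z : H} (hz : C.π z = 1) (h : H) : Commute h z :=
  Subgroup.mem_center_iff.1 (C.hc hz) h

theorem comm_congr {h h' k k' : H} (e1 : C.π h = C.π h') (e2 : C.π k = C.π k') :
    ⁅h, k⁆ = ⁅h', k'⁆ := by
  obtain ⟨z, rfl⟩ : ∃ z, h' = h * z := ⟨h⁻¹ * h', by simp⟩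
  obtain ⟨w, rfl⟩ : ∃ w, k' = k * w := ⟨k⁻¹ * k', by simp⟩
  have hz : C.π z = 1 := by simpa using e1
  have hw : C.π w = 1 := by simpa using e2
  rw [comm_mul_mul (C.central hz h) (C.central hw h) (C.central hz k) (C.central hw k),
    (C.central hw z).commutator_eq, mul_one]

/-- the canonical lift of a swap -/
noncomputable def tt (e : Set X0) (g : Perm X0) (a b : List Bool) : H :=
  ⁅C.lift (T.sw e g (a ++ [false]) (b ++ [false])), C.lift (T.kap e g a b)⁆

theorem tt_eq {h k : H} (e1 : C.π h = T.sw e g (a ++ [false]) (b ++ [false]))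
    (e2 : C.π k = T.kap e g a b) : C.tt e g a b = ⁅h, k⁆ :=
  C.comm_congr (by rw [C.lift_spec (e1 ▸ C.mem h), e1]) (by rw [C.lift_spec (e2 ▸ C.mem k), e2])

theorem pi_tt (h : T.Ok e g a b) : C.π (C.tt e g a b) = T.sw e g a b := by
  rw [tt, map_commutatorElement, C.lift_spec (h.app _ _).mem, C.lift_spec h.kap_mem, ← h.sw_comm]

theorem tt_conj (h : T.Ok e g a b) {k : H} {s : X0 → X0}
    (h1 : ∀ x ∈ e, ∀ n, C.π k (T.co (x, pw a n)) = T.co (s x, pw a' n))
    (h2 : ∀ x ∈ e, ∀ n, C.π k (T.co (g x, pw b n)) = T.co (g' (s x), pw b' n)) :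
    k * C.tt e g a b * k⁻¹ = C.tt (s '' e) g' a' b' := by
  rw [tt, conjugate_commutatorElement]
  refine (C.tt_eq ?_ ?_).symm
  · rw [map_mul, map_mul, map_inv, C.lift_spec (h.app _ _).mem]
    exact (h.app _ _).conj (fun x hx n => by rw [pw_append, pw_append, h1 x hx])
      fun x hx n => by rw [pw_append, pw_append, h2 x hx]
  · have e1 := (ok_kap h.he a).conj (u := C.π k) (s := s) (g' := 1) (a' := a' ++ [false])
      (b' := a' ++ [true]) (fun x hx n => by rw [pw_append, pw_append, h1 x hx])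
      fun x hx n => by rw [pw_append, pw_append, Perm.one_apply, Perm.one_apply, h1 x hx]
    have e2 := (ok_kap h.img b).conj (u := C.π k) (s := fun y => g' (s (g⁻¹ y))) (g' := 1)
      (a' := b' ++ [false]) (b' := b' ++ [true])
      (by rintro _ ⟨x, hx, rfl⟩ n; rw [pw_append, pw_append, h2 x hx]; simp)
      (by rintro _ ⟨x, hx, rfl⟩ n; rw [pw_append, pw_append, Perm.one_apply, h2 x hx]; simp)
    have e3 : (fun y => g' (s (g⁻¹ y))) '' (g '' e) = g' '' (s '' e) := by simp [image_image]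
    rw [map_mul, map_mul, map_inv, C.lift_spec h.kap_mem, kap, kap, ← e1, ← e3, ← e2]
    group

theorem tt_commute (h : T.Ok e g a b) {k : H} (h1 : ∀ p ∈ T.rect e a, C.π k p = p)
    (h2 : ∀ p ∈ T.rect (g '' e) b, C.π k p = p) : Commute k (C.tt e g a b) := by
  have := C.tt_conj h (k := k) (s := id) (g' := g) (a' := a) (b' := b)
    (fun x hx n => h1 _ (mem_rect_self hx n)) fun x hx n => h2 _ (mem_rect_self (mem_image_of_mem g hx) n)
  rw [image_id] at this
  exact mul_inv_eq_iff_eq_mul.1 this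

/-- the subgroup generated by the lifts of the swaps supported in `S` -/
def Loc (S : Set X) : Subgroup H :=
  Subgroup.closure {t | ∃ e g a b, T.Ok e g a b ∧ T.rect e a ⊆ S ∧ T.rect (g '' e) b ⊆ S ∧
    t = C.tt e g a b}

theorem tt_mem (h : T.Ok e g a b) {S : Set X} (h1 : T.rect e a ⊆ S)
    (h2 : T.rect (g '' e) b ⊆ S) : C.tt e g a b ∈ C.Loc S :=
  Subgroup.subset_closure ⟨e, g, a, b, h, h1, h2, rfl⟩

variable {C}

theorem loc_mono {S S' : Set X} {t : H} (ht : t ∈ C.Loc S) (h : S ⊆ S') : t ∈ C.Loc S' :=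
  Subgroup.closure_mono (by
    rintro _ ⟨e, g, a, b, h0, h1, h2, h3⟩
    exact ⟨e, g, a, b, h0, h1.trans h, h2.trans h, h3⟩) ht

theorem loc_fix {S : Set X} {t : H} (ht : t ∈ C.Loc S) {p : X} (hp : p ∉ S) : C.π t p = p := by
  induction ht using Subgroup.closure_induction with
  | mem t ht =>
    obtain ⟨e, g, a, b, h0, h1, h2, rfl⟩ := ht
    rw [C.pi_tt h0, sw_other (fun h => hp (h1 h)) fun h => hp (h2 h)]
  | one => simp
  | mul x y _ _ h1 h2 => rw [map_mul, Perm.mul_apply, h2, h1]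
  | inv x _ h => rw [map_inv, Perm.inv_eq_iff_eq, h]

theorem loc_commute' {S : Set X} {t k : H} (ht : t ∈ C.Loc S) (hk : ∀ p ∈ S, C.π k p = p) :
    Commute k t := by
  induction ht using Subgroup.closure_induction with
  | mem t ht =>
    obtain ⟨e, g, a, b, h0, h1, h2, rfl⟩ := ht
    exact C.tt_commute h0 (fun p hp => hk p (h1 hp)) fun p hp => hk p (h2 hp)
  | one => exact Commute.one_right _
  | mul x y _ _ h1 h2 => exact h1.mul_right h2
  | inv x _ h => exact h.inv_right

theorem loc_commute {S S' : Set X} {t t' : H} (ht : t ∈ C.Loc S) (ht' : t' ∈ C.Loc S')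
    (h : Disjoint S S') : Commute t t' :=
  loc_commute' ht' fun _ hp => loc_fix ht (Set.disjoint_right.1 h hp)

variable (C)

theorem tt_kap_mem (he : e ∈ T.B) (a : List Bool) :
    C.tt e 1 (a ++ [false]) (a ++ [true]) ∈ C.Loc (T.rect e a) :=
  C.tt_mem (ok_kap he a) (rect_app _ _ _) (by rw [img_one]; exact rect_app _ _ _)

/-- the lift of `kap` -/
noncomputable def kk (e : Set X0) (g : Perm X0) (a b : List Bool) : H :=
  C.tt e 1 (a ++ [false]) (a ++ [true]) * C.tt (g '' e) 1 (b ++ [false]) (b ++ [true])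

theorem pi_kk (h : T.Ok e g a b) : C.π (C.kk e g a b) = T.kap e g a b := by
  rw [kk, map_mul, C.pi_tt (ok_kap h.he a), C.pi_tt (ok_kap h.img b), kap]

theorem kk_mem (h : T.Ok e g a b) : C.kk e g a b ∈ C.Loc (T.rect e a ∪ T.rect (g '' e) b) :=
  Subgroup.mul_mem _ (loc_mono (C.tt_kap_mem h.he a) subset_union_left)
    (loc_mono (C.tt_kap_mem h.img b) subset_union_right)

theorem tt_app_mem (h : T.Ok e g a b) (c c' : List Bool) :
    C.tt e g (a ++ c) (b ++ c') ∈ C.Loc (T.rect e a ∪ T.rect (g '' e) b) :=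
  C.tt_mem (h.app c c') ((rect_app _ _ _).trans subset_union_left)
    ((rect_app _ _ _).trans subset_union_right)

theorem tt_eq' (h : T.Ok e g a b) :
    C.tt e g a b = ⁅C.tt e g (a ++ [false]) (b ++ [false]), C.kk e g a b⁆ :=
  C.tt_eq (C.pi_tt (h.app _ _)) (C.pi_kk h)

theorem kk_conj (h : T.Ok e g a b) :
    C.kk e g a b * C.tt e g (a ++ [false]) (b ++ [false]) * (C.kk e g a b)⁻¹ =
      C.tt e g (a ++ [true]) (b ++ [true]) := by
  have := C.tt_conj (h.app [false] [false]) (k := C.kk e g a b) (s := id) (g' := g)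
    (fun _ hx n => by rw [C.pi_kk h]; exact h.kap_left hx n)
    (fun _ hx n => by rw [C.pi_kk h]; exact h.kap_right hx n)
  rwa [image_id] at this

theorem tt_digit_commute (h : T.Ok e g a b) :
    Commute (C.tt e g (a ++ [false]) (b ++ [false])) (C.tt e g (a ++ [true]) (b ++ [true])) := by
  refine loc_commute (C.tt_mem (h.app _ _) subset_union_left subset_union_right)
    (C.tt_mem (h.app _ _) subset_union_left subset_union_right) ?_
  simp only [disjoint_union_left, disjoint_union_right]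
  exact ⟨⟨disj_of_dis (dis_digit a) _ _, (h.app _ _).dj.symm⟩, (h.app _ _).dj,
    disj_of_dis (dis_digit b) _ _⟩

theorem tt_digit' (h : T.Ok e g a b) : C.tt e g a b =
    C.tt e g (a ++ [false]) (b ++ [false]) * (C.tt e g (a ++ [true]) (b ++ [true]))⁻¹ := by
  rw [C.tt_eq' h, ← C.kk_conj h, commutatorElement_def]
  group

theorem tt_sq (h : T.Ok e g a b) : C.tt e g a b * C.tt e g a b = 1 := by
  have h1 := C.tt_digit_commute h
  have h2 := C.kk_conj h
  have h3 := C.central (z := C.tt e g (a ++ [false]) (b ++ [false]) *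
    C.tt e g (a ++ [false]) (b ++ [false])) (by
      rw [map_mul, C.pi_tt (h.app _ _), sw_mul_self]) (C.kk e g a b)
  rw [C.tt_digit' h]
  generalize C.tt e g (a ++ [false]) (b ++ [false]) = x at h1 h2 h3
  generalize C.tt e g (a ++ [true]) (b ++ [true]) = y at h1 h2
  generalize C.kk e g a b = k at h2 h3
  have h4 : y * y = x * x := by
    rw [← h2, ← mul_inv_eq_iff_eq_mul.2 h3.eq]
    group
  calc x * y⁻¹ * (x * y⁻¹) = x * (y⁻¹ * x) * y⁻¹ := by group
    _ = x * x * (y * y)⁻¹ := by rw [← h1.inv_right.eq]; group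
    _ = 1 := by rw [h4, mul_inv_cancel]

theorem tt_inv (h : T.Ok e g a b) : (C.tt e g a b)⁻¹ = C.tt e g a b :=
  inv_eq_of_mul_eq_one_right (C.tt_sq h)

theorem tt_digit (h : T.Ok e g a b) : C.tt e g a b =
    C.tt e g (a ++ [false]) (b ++ [false]) * C.tt e g (a ++ [true]) (b ++ [true]) := by
  rw [C.tt_digit' h, C.tt_inv (h.app _ _)]

theorem tt_empty : C.tt ∅ g a b = 1 := by
  rw [C.tt_eq (h := 1) (k := 1) (by rw [sw_empty, map_one])
    (by rw [kap, image_empty, sw_empty, sw_empty, map_one, mul_one]), commutatorElement_one_left]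

theorem tt_split (h : T.Ok e g a b) (hf : f ∈ T.B) :
    C.tt e g a b = C.tt (e ∩ f) g a b * C.tt (e \ f) g a b := by
  have h1 := h.inter hf
  have h2 := h.diff hf
  have d0 : Disjoint (e ∩ f) (e \ f) := disjoint_sdiff_inter.symm
  have dj : Disjoint (T.rect (e ∩ f) a ∪ T.rect (g '' (e ∩ f)) b)
      (T.rect (e \ f) a ∪ T.rect (g '' (e \ f)) b) := by
    simp only [disjoint_union_left, disjoint_union_right]
    exact ⟨⟨disj_of_set d0 _ _, h.dj.symm.mono (rect_mono_left (image_mono inter_subset_left) _)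
      (rect_mono_left sdiff_subset _)⟩, h.dj.mono (rect_mono_left inter_subset_left _)
      (rect_mono_left (image_mono sdiff_subset) _),
      disj_of_set ((disjoint_image_iff g.injective).2 d0) _ _⟩
  have c1 : Commute (C.tt (g '' (e ∩ f)) 1 (b ++ [false]) (b ++ [true]))
      (C.tt (e \ f) 1 (a ++ [false]) (a ++ [true])) :=
    loc_commute (C.tt_kap_mem h1.img b) (C.tt_kap_mem h2.he a)
      (dj.mono subset_union_right subset_union_left)
  rw [C.tt_eq' h1, C.tt_eq' h2, ← comm_mul_mul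
    (loc_commute (C.tt_app_mem h1 _ _) (C.tt_app_mem h2 _ _) dj)
    (loc_commute (C.tt_app_mem h1 _ _) (C.kk_mem h2) dj)
    (loc_commute (C.kk_mem h1) (C.tt_app_mem h2 _ _) dj)
    (loc_commute (C.kk_mem h1) (C.kk_mem h2) dj)]
  refine C.tt_eq ?_ ?_
  · rw [map_mul, C.pi_tt (h1.app _ _), C.pi_tt (h2.app _ _), ← (h.app _ _).sw_split]
  · rw [kk, kk, mul_assoc, c1.left_comm, map_mul, map_mul, map_mul, C.pi_tt (ok_kap h1.he a),
      C.pi_tt (ok_kap h2.he a), C.pi_tt (ok_kap h1.img b), C.pi_tt (ok_kap h2.img b), kap,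
      (ok_kap h.he a).sw_split f, (ok_kap h.img b).sw_split (g '' f), image_inter g.injective,
      image_sdiff g.injective, mul_assoc]

end CE

end TS

end Vale.Agent.P193
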