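import Vale.Agent.P193.TensorC1

/-! Conditional trees and the elements moving a digit to the front. -/

namespace Vale.Agent.P193

open Equiv Set

namespace TS

variable {X0 X : Type} {T : TS X0 X}

theorem dis_zeta (p : List Bool) : Dis (p ++ [false] ++ [true]) (p ++ [true] ++ [false]) :=
  (dis_digit p).append _ _

theorem ok_zeta {e : Set X0} (he : e ∈ T.B) (p : List Bool) :
    T.Ok e 1 (p ++ [false] ++ [true]) (p ++ [true] ++ [false]) :=
  ok_of_dis he T.Γ.one_mem (dis_zeta p)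

theorem dis_not (p : List Bool) (d : Bool) : Dis (p ++ [d]) (p ++ [!d]) := by
  cases d
  · exact dis_digit p
  · exact (dis_digit p).symm

/-- all nodes of depth at least `K` are external -/
def Dp (E : List Bool → Set X0) (K : ℕ) : Prop := ∀ r, K ≤ r.length → ∀ x, x ∉ E r

/-- all nodes of depth less than `j` are internal -/
def Full (E : List Bool → Set X0) (j : ℕ) : Prop := ∀ r, r.length < j → ∀ x, x ∈ E r

theorem Dp.mono {E : List Bool → Set X0} {K K' : ℕ} (h : Dp E K) (hK : K ≤ K') : Dp E K' :=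
  fun r hr => h r (hK.trans hr)

namespace CE

variable {H : Type} [Group H] (C : CE T H) {e f : Set X0} {E : List Bool → Set X0}
  {p p' : List Bool}

/-- exchange of the two digits after `p` over `e` -/
noncomputable def zeta (p : List Bool) (e : Set X0) : H :=
  C.tt e 1 (p ++ [false] ++ [true]) (p ++ [true] ++ [false])

theorem zeta_mem (he : e ∈ T.B) (p : List Bool) : C.zeta p e ∈ C.Loc (T.rect e p) :=
  C.tt_mem (ok_zeta he p) ((rect_app _ _ _).trans (rect_app _ _ _))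
    (by rw [img_one]; exact (rect_app _ _ _).trans (rect_app _ _ _))

theorem zeta_apply (he : e ∈ T.B) {x : X0} (hx : x ∈ e) (d d' : Bool) (n : ℕ) :
    C.π (C.zeta p e) (T.co (x, pw (p ++ [d] ++ [d']) n)) = T.co (x, pw (p ++ [d'] ++ [d]) n) := by
  have h := ok_zeta he p
  have key : ∀ d : Bool, T.sw e 1 (p ++ [false] ++ [true]) (p ++ [true] ++ [false])
      (T.co (x, pw (p ++ [d] ++ [d]) n)) = T.co (x, pw (p ++ [d] ++ [d]) n) := fun d =>
    sw_other (Set.disjoint_left.1 (disj_of_dis (dis_of_ne (by simp) (by cases d <;> simp)) _ _)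
      (mem_rect_self hx n))
      (Set.disjoint_left.1 (disj_of_dis (dis_of_ne (by simp) (by cases d <;> simp)) _ _)
        (mem_rect_self hx n))
  rw [zeta, C.pi_tt h]
  cases d <;> cases d'
  · exact key false
  · exact h.left hx n
  · exact h.right hx n
  · exact key true

/-- the element attached to a conditional tree -/
noncomputable def MM : ℕ → List Bool → (List Bool → Set X0) → H
  | 0, _, _ => 1
  | K + 1, p, E => C.zeta p (E []) * (MM K (p ++ [false]) (fun r => E (false :: r)) *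
      MM K (p ++ [true]) fun r => E (true :: r))

theorem MM_mem (K : ℕ) (p : List Bool) (hB : ∀ r, E r ∈ T.B) (he : ∀ r, E r ⊆ e) :
    C.MM K p E ∈ C.Loc (T.rect e p) := by
  induction K generalizing p E with
  | zero => exact Subgroup.one_mem _
  | succ K ih =>
    exact Subgroup.mul_mem _ (loc_mono (C.zeta_mem (hB _) p) (rect_mono_left (he _) _))
      (Subgroup.mul_mem _ (loc_mono (ih _ (fun _ => hB _) fun _ => he _) (rect_app _ _ _))
        (loc_mono (ih _ (fun _ => hB _) fun _ => he _) (rect_app _ _ _)))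

theorem MM_succ (K : ℕ) (p : List Bool) (hB : ∀ r, E r ∈ T.B) (d : Bool) :
    C.MM (K + 1) p E = C.zeta p (E []) * (C.MM K (p ++ [d]) (fun r => E (d :: r)) *
      C.MM K (p ++ [!d]) fun r => E ((!d) :: r)) := by
  cases d
  · rfl
  · rw [MM, (loc_commute (C.MM_mem K _ (fun _ => hB _) fun _ => subset_univ _)
      (C.MM_mem K _ (fun _ => hB _) fun _ => subset_univ _) (disj_of_dis (dis_digit p) _ _)).eq]
    rfl

theorem MM_split (K : ℕ) (p : List Bool) (hB : ∀ r, E r ∈ T.B) (hf : f ∈ T.B) :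
    C.MM K p E = C.MM K p (fun r => E r ∩ f) * C.MM K p fun r => E r \ f := by
  induction K generalizing p E with
  | zero => exact (mul_one _).symm
  | succ K ih =>
    have m1 : ∀ d, C.MM K (p ++ [d]) (fun r => E (d :: r) ∩ f) ∈ C.Loc (T.rect f p) := fun d =>
      loc_mono (C.MM_mem K _ (fun _ => T.B.inf_mem (hB _) hf) fun _ => inter_subset_right)
        (rect_app _ _ _)
    have m2 : C.MM K (p ++ [false]) (fun r => E (false :: r) \ f) ∈ C.Loc (T.rect fᶜ p) :=
      loc_mono (C.MM_mem K _ (fun _ => T.B.sdiff_mem (hB _) hf) fun _ _ h => h.2)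
        (rect_app _ _ _)
    have m3 : C.zeta p (E [] \ f) ∈ C.Loc (T.rect fᶜ p) :=
      loc_mono (C.zeta_mem (T.B.sdiff_mem (hB _) hf) p) (rect_mono_left (fun _ h => h.2) _)
    have dj : Disjoint (T.rect fᶜ p) (T.rect f p) := disj_of_set disjoint_compl_left _ _
    have hz : C.zeta p (E []) = C.zeta p (E [] ∩ f) * C.zeta p (E [] \ f) :=
      C.tt_split (ok_zeta (hB _) p) hf
    simp only [MM]
    rw [hz, ih (p ++ [false]) (fun _ => hB _), ih (p ++ [true]) (fun _ => hB _)]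
    simp only [mul_assoc]
    rw [(loc_commute m3 (m1 false) dj).left_comm, (loc_commute m2 (m1 true) dj).left_comm,
      (loc_commute m3 (m1 true) dj).left_comm]

theorem MM_conj (K : ℕ) {k : H} {τ : X0 → X0} (hB : ∀ r, E r ∈ T.B) (he : ∀ r, E r ⊆ e)
    (h : ∀ x ∈ e, ∀ n, C.π k (T.co (x, pw p n)) = T.co (τ x, pw p' n)) :
    k * C.MM K p E * k⁻¹ = C.MM K p' fun r => τ '' E r := by
  induction K generalizing p p' E with
  | zero => simp [MM]
  | succ K ih =>
    have hz : k * C.zeta p (E []) * k⁻¹ = C.zeta p' (τ '' E []) :=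
      C.tt_conj (ok_zeta (hB _) p) (fun x hx n => by simp only [pw_append, h x (he _ hx)])
        fun x hx n => by simp only [pw_append, Perm.one_apply, h x (he _ hx)]
    have hd : ∀ d, k * C.MM K (p ++ [d]) (fun r => E (d :: r)) * k⁻¹ =
        C.MM K (p' ++ [d]) fun r => τ '' E (d :: r) := fun d =>
      ih (fun _ => hB _) (fun _ => he _) fun x hx n => by simp only [pw_append, h x hx]
    simp only [MM]
    rw [← hz, ← hd, ← hd]
    group

theorem MM_pad (K : ℕ) (p : List Bool) (h : Dp E K) : C.MM (K + 1) p E = C.MM K p E := by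
  induction K generalizing p E with
  | zero =>
    have : E [] = ∅ := eq_empty_of_forall_notMem (h [] le_rfl)
    simp [MM, this, zeta, C.tt_empty]
  | succ K ih =>
    rw [MM, ih _ fun r hr => h _ (by simpa using hr), ih _ fun r hr => h _ (by simpa using hr)]
    rfl

theorem MM_dec (K : ℕ) (p : List Bool) (d : Bool) (hB : ∀ r, E r ∈ T.B) (he : e ∈ T.B)
    (hf : f ∈ T.B) (dj : Disjoint e f) (h0 : f ⊆ E []) (hK : Dp E K) :
    C.MM (K + 1) p E = C.zeta p f * (C.MM K (p ++ [d]) (fun r => E (d :: r) ∩ f) *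
      (C.MM K (p ++ [!d]) (fun r => E ((!d) :: r) ∩ f) * (C.MM K p (fun r => E r ∩ e) *
        C.MM (K + 1) p fun r => (E r \ f) \ e))) := by
  have e1 : (fun r => (E r \ f) ∩ e) = fun r => E r ∩ e := funext fun r => by
    ext x
    exact ⟨fun h => ⟨h.1.1, h.2⟩, fun h => ⟨⟨h.1, Set.disjoint_left.1 dj h.2⟩, h.2⟩⟩
  rw [C.MM_split _ p hB hf,
    C.MM_succ K p (E := fun r => E r ∩ f) (fun _ => T.B.inf_mem (hB _) hf) d,
    C.MM_split (K + 1) p (E := fun r => E r \ f) (fun _ => T.B.sdiff_mem (hB _) hf) he, e1,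
    C.MM_pad K p (E := fun r => E r ∩ e) (fun r hr x hx => hK r hr x hx.1),
    inter_eq_right.2 h0]
  simp only [mul_assoc]

end CE

/-- external nodes are mapped to external nodes -/
def Corr (T : TS X0 X) (u : Perm X) (E E' : List Bool → Set X0) : Prop :=
  ∀ x r, x ∉ E r → ∃ y r', y ∉ E' r' ∧ ∀ n, u (T.co (x, pw r n)) = T.co (y, pw r' n)

theorem Corr.mul {u v : Perm X} {E E1 E2 : List Bool → Set X0} (h : T.Corr u E E1)
    (h' : T.Corr v E1 E2) : T.Corr (v * u) E E2 := by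
  intro x r hx
  obtain ⟨y, r', hy, h1⟩ := h x r hx
  obtain ⟨z, r'', hz, h2⟩ := h' y r' hy
  exact ⟨z, r'', hz, fun n => by rw [Perm.mul_apply, h1, h2]⟩

theorem Corr.sub {E E' : List Bool → Set X0} (h : T.Corr 1 E E') (r : List Bool) : E' r ⊆ E r := by
  intro x hx
  by_contra hx'
  obtain ⟨y, r', hy, h1⟩ := h x r hx'
  have h2 := fun n => Prod.mk.inj (T.co.injective (h1 n))
  obtain rfl := (h2 0).1
  obtain rfl := eq_of_pw_eq fun n => (h2 n).2
  exact hy hx

theorem corr_one (E : List Bool → Set X0) : T.Corr 1 E E := fun x r hx => ⟨x, r, hx, fun _ => rfl⟩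

/-- transport of a tree by a swap of the second kind -/
structure St (e : Set X0) (g : Perm X0) (d : Bool) (E E' : List Bool → Set X0) : Prop where
  ha : ∀ r, ∀ x ∈ e, x ∈ E' r ↔ g x ∈ E (d :: r)
  hb : ∀ r, ∀ x ∈ e, g x ∈ E' (d :: r) ↔ x ∈ E r
  hc : ∀ r, ∀ x ∈ e, g x ∈ E' ((!d) :: r) ↔ g x ∈ E ((!d) :: r)
  hd : ∀ r x, x ∉ e → x ∉ g '' e → (x ∈ E' r ↔ x ∈ E r)
  h0 : g '' e ⊆ E []
  h0' : g '' e ⊆ E' []

variable {e : Set X0} {g : Perm X0} {d : Bool} {E E' : List Bool → Set X0}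

theorem St.symm (h : St e g d E E') : St e g d E' E :=
  ⟨fun r x hx => (h.hb r x hx).symm, fun r x hx => (h.ha r x hx).symm,
    fun r x hx => (h.hc r x hx).symm, fun r x hx hx' => (h.hd r x hx hx').symm, h.h0', h.h0⟩

theorem cases_node (e : Set X0) (g : Perm X0) (d : Bool) (x : X0) (r : List Bool) :
    x ∈ e ∨ (∃ y ∈ e, x = g y ∧ (r = [] ∨ (∃ r1, r = d :: r1) ∨ ∃ r1, r = (!d) :: r1)) ∨
      (x ∉ e ∧ x ∉ g '' e) := by
  by_cases h1 : x ∈ e
  · exact Or.inl h1
  by_cases h2 : x ∈ g '' e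
  · obtain ⟨y, hy, rfl⟩ := h2
    refine Or.inr (Or.inl ⟨y, hy, rfl, ?_⟩)
    cases r with
    | nil => exact Or.inl rfl
    | cons c r => cases c <;> cases d <;> simp
  · exact Or.inr (Or.inr ⟨h1, h2⟩)

theorem St.dp (h : St e g d E E') {K : ℕ} (hK : Dp E K) : Dp E' (K + 1) := by
  intro r hr x hx
  rcases cases_node e g d x r with h1 | ⟨y, hy, rfl, rfl | ⟨r, rfl⟩ | ⟨r, rfl⟩⟩ | h1
  · exact hK _ (by simp; omega) _ ((h.ha r x h1).1 hx)
  · simp at hr
  · exact hK _ (by simpa using hr) _ ((h.hb r y hy).1 hx)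
  · exact hK _ (by omega) _ ((h.hc r y hy).1 hx)
  · exact hK _ (by omega) _ ((h.hd r x h1.1 h1.2).1 hx)

theorem St.full (h : St e g d E E') {j : ℕ} (hj : Full E (j + 1)) : Full E' j := by
  intro r hr x
  rcases cases_node e g d x r with h1 | ⟨y, hy, rfl, rfl | ⟨r, rfl⟩ | ⟨r, rfl⟩⟩ | h1
  · exact (h.ha r x h1).2 (hj _ (by simpa using hr) _)
  · exact h.h0' ⟨y, hy, rfl⟩
  · exact (h.hb r y hy).2 (hj _ (by simp at hr; omega) _)
  · exact (h.hc r y hy).2 (hj _ (by omega) _)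
  · exact (h.hd r x h1.1 h1.2).2 (hj _ (by omega) _)

theorem St.corr (h : St e g d E E') (hD : T.Ok e g [] [d]) (dj : Disjoint e (g '' e)) :
    T.Corr (T.sw e g [] [d]) E E' := by
  intro x r hx
  rcases cases_node e g d x r with h1 | ⟨y, hy, rfl, rfl | ⟨r, rfl⟩ | ⟨r, rfl⟩⟩ | h1
  · exact ⟨g x, d :: r, fun h2 => hx ((h.hb r x h1).1 h2), fun n => hD.left h1 (pw r n)⟩
  · exact (hx (h.h0 ⟨y, hy, rfl⟩)).elim
  · exact ⟨y, r, fun h2 => hx ((h.ha r y hy).1 h2), fun n => hD.right hy (pw r n)⟩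
  · refine ⟨g y, (!d) :: r, fun h2 => hx ((h.hc r y hy).1 h2), fun n => sw_other
      (fun h2 => Set.disjoint_left.1 dj (mem_rect.1 h2).1 ⟨y, hy, rfl⟩) fun h2 => ?_⟩
    obtain ⟨m, hm⟩ := (mem_rect.1 h2).2
    exact dis_not [] d m (pw r n) hm.symm
  · exact ⟨x, r, fun h2 => hx ((h.hd r x h1.1 h1.2).1 h2), fun n => sw_other
      (fun h2 => h1.1 (mem_rect.1 h2).1) fun h2 => h1.2 (mem_rect.1 h2).1⟩

/-- the part of the transported tree over `g e` -/
def stF (e : Set X0) (g : Perm X0) (d : Bool) (E : List Bool → Set X0) : List Bool → Set X0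
  | [] => g '' e
  | c :: r => if c = d then g '' (E r ∩ e) else E (c :: r) ∩ g '' e

theorem stF_sub (r : List Bool) : stF e g d E r ⊆ g '' e := by
  cases r with
  | nil => exact subset_rfl
  | cons c r =>
    rw [stF]
    split_ifs
    · exact image_mono inter_subset_right
    · exact inter_subset_right

theorem exists_st (he : e ∈ T.B) (hg : g ∈ T.Γ) (dj : Disjoint e (g '' e)) (d : Bool)
    (hB : ∀ r, E r ∈ T.B) (h0 : g '' e ⊆ E []) :
    ∃ E' : List Bool → Set X0, (∀ r, E' r ∈ T.B) ∧ St e g d E E' := by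
  have hf := T.inv g hg e he
  have d1 : ∀ x ∈ e, x ∉ g '' e := fun x hx => Set.disjoint_left.1 dj hx
  have d2 : ∀ x ∈ e, g x ∉ e := fun x hx h => d1 _ h ⟨x, hx, rfl⟩
  have k1 : ∀ r x, x ∈ (g⁻¹ : Perm X0) '' (E (d :: r) ∩ g '' e) ↔ g x ∈ E (d :: r) ∧ x ∈ e := by
    intro r x
    constructor
    · rintro ⟨_, ⟨h1, y, hy, rfl⟩, rfl⟩
      simpa using ⟨h1, hy⟩
    · exact fun h => ⟨g x, ⟨h.1, x, h.2, rfl⟩, by simp⟩
  have k2 : ∀ r, ∀ x ∈ e, g x ∈ (g⁻¹ : Perm X0) '' (E (d :: r) ∩ g '' e) ∪ stF e g d E r ∪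
      (E r \ g '' e) \ e ↔ g x ∈ stF e g d E r := fun r x hx =>
    ⟨fun h => h.elim (fun h => h.elim (fun h => (d2 x hx ((k1 _ _).1 h).2).elim) id)
      fun h => (h.1.2 ⟨x, hx, rfl⟩).elim, fun h => Or.inl (Or.inr h)⟩
  refine ⟨fun r => (g⁻¹ : Perm X0) '' (E (d :: r) ∩ g '' e) ∪ stF e g d E r ∪ (E r \ g '' e) \ e,
    fun r => T.B.sup_mem (T.B.sup_mem (T.inv _ (T.Γ.inv_mem hg) _ (T.B.inf_mem (hB _) hf)) ?_)
      (T.B.sdiff_mem (T.B.sdiff_mem (hB _) hf) he), fun r x hx => ?_, fun r x hx => ?_,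
    fun r x hx => ?_, fun r x hx hx' => ?_, h0, fun x hx => Or.inl (Or.inr hx)⟩
  · cases r with
    | nil => exact hf
    | cons c r =>
      rw [stF]
      split_ifs
      · exact T.inv g hg _ (T.B.inf_mem (hB _) he)
      · exact T.B.inf_mem (hB _) hf
  · exact ⟨fun h => h.elim (fun h => h.elim (fun h => ((k1 _ _).1 h).1)
      fun h => (d1 x hx (stF_sub r h)).elim) fun h => (h.2 hx).elim,
      fun h => Or.inl (Or.inl ((k1 _ _).2 ⟨h, hx⟩))⟩
  · rw [k2 _ x hx, stF, if_pos rfl, g.injective.mem_set_image]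
    exact and_iff_left hx
  · rw [k2 _ x hx, stF, if_neg (by simp)]
    exact and_iff_left ⟨x, hx, rfl⟩
  · exact ⟨fun h => h.elim (fun h => h.elim (fun h => (hx ((k1 _ _).1 h).2).elim)
      fun h => (hx' (stF_sub r h)).elim) fun h => h.1.1, fun h => Or.inr ⟨⟨h, hx'⟩, hx⟩⟩

namespace CE

variable {H : Type} [Group H] (C : CE T H)

theorem step_two (he : e ∈ T.B) (hg : g ∈ T.Γ) (dj : Disjoint e (g '' e)) (h : St e g d E E')
    (hB : ∀ r, E r ∈ T.B) (hB' : ∀ r, E' r ∈ T.B) {K : ℕ} (hK : Dp E K) (hK' : Dp E' K)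
    (s : List Bool) :
    C.tt e g (s ++ [false]) (s ++ [false] ++ [d]) * C.tt e g (s ++ [true]) (s ++ [true] ++ [d]) *
      C.MM (K + 1) s E = C.MM (K + 1) s E' * C.tt e g s (s ++ [d]) := by
  have ok : ∀ a b, T.Ok e g a b := fun a b => ⟨he, hg, disj_of_set dj _ _⟩
  have hf := T.inv g hg e he
  have e1 : (fun r => E' (d :: r) ∩ g '' e) = fun r => g '' (E r ∩ e) := funext fun r => by
    ext x
    constructor
    · rintro ⟨h1, y, hy, rfl⟩
      exact ⟨y, ⟨(h.hb r y hy).1 h1, hy⟩, rfl⟩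
    · rintro ⟨y, ⟨h1, hy⟩, rfl⟩
      exact ⟨(h.hb r y hy).2 h1, y, hy, rfl⟩
  have e2 : (fun r => E' r ∩ e) = fun r => (g⁻¹ : Perm X0) '' (E (d :: r) ∩ g '' e) :=
    funext fun r => by
      ext x
      constructor
      · exact fun h1 => ⟨g x, ⟨(h.ha r x h1.2).1 h1.1, x, h1.2, rfl⟩, by simp⟩
      · rintro ⟨_, ⟨h1, y, hy, rfl⟩, rfl⟩
        simpa using ⟨(h.ha r y hy).2 h1, hy⟩
  have e3 : (fun r => E' ((!d) :: r) ∩ g '' e) = fun r => E ((!d) :: r) ∩ g '' e :=
    funext fun r => by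
      ext x
      constructor
      · rintro ⟨h1, y, hy, rfl⟩
        exact ⟨(h.hc r y hy).1 h1, y, hy, rfl⟩
      · rintro ⟨h1, y, hy, rfl⟩
        exact ⟨(h.hc r y hy).2 h1, y, hy, rfl⟩
  have e4 : (fun r => (E' r \ g '' e) \ e) = fun r => (E r \ g '' e) \ e := funext fun r => by
    ext x
    exact ⟨fun h1 => ⟨⟨(h.hd r x h1.2 h1.1.2).1 h1.1.1, h1.1.2⟩, h1.2⟩,
      fun h1 => ⟨⟨(h.hd r x h1.2 h1.1.2).2 h1.1.1, h1.1.2⟩, h1.2⟩⟩
  have bA : ∀ r, E r ∩ e ∈ T.B := fun r => T.B.inf_mem (hB r) he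
  have bB : ∀ c r, E (c :: r) ∩ g '' e ∈ T.B := fun c r => T.B.inf_mem (hB _) hf
  have cA := C.MM_conj K (k := C.tt e g s (s ++ [d])) (τ := g) (p := s) (p' := s ++ [d]) bA
    (fun _ => inter_subset_right) fun x hx n => by rw [C.pi_tt (ok _ _), (ok _ _).left hx]
  have cB := C.MM_conj K (k := C.tt e g s (s ++ [d])) (τ := (g⁻¹ : Perm X0)) (p := s ++ [d])
    (p' := s) (bB d) (fun _ => inter_subset_right) (by
      rintro _ ⟨x, hx, rfl⟩ n
      rw [C.pi_tt (ok _ _), (ok _ _).right hx]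
      simp)
  have cZ : ∀ c, C.zeta s (g '' e) * C.tt e g (s ++ [c]) (s ++ [d] ++ [c]) * (C.zeta s (g '' e))⁻¹ =
      C.tt e g (s ++ [c]) (s ++ [c] ++ [d]) := fun c => by
    have := C.tt_conj (ok (s ++ [c]) (s ++ [d] ++ [c])) (k := C.zeta s (g '' e)) (s := id)
      (g' := g) (a' := s ++ [c]) (b' := s ++ [c] ++ [d])
      (fun x hx n => loc_fix (C.zeta_mem hf s) fun h1 =>
        Set.disjoint_left.1 dj hx (mem_rect.1 h1).1)
      fun x hx n => C.zeta_apply hf ⟨x, hx, rfl⟩ d c n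
    rwa [image_id] at this
  have mt := C.tt_mem (ok s (s ++ [d])) subset_union_left subset_union_right
  have mC := C.MM_mem K (s ++ [!d]) (bB (!d)) fun _ => inter_subset_right
  have mR := C.MM_mem (K + 1) s (E := fun r => (E r \ g '' e) \ e) (e := (g '' e)ᶜ ∩ eᶜ)
    (fun r => T.B.sdiff_mem (T.B.sdiff_mem (hB _) hf) he) fun _ _ h => ⟨h.1.2, h.2⟩
  have mA := C.MM_mem K s (E := fun r => E' r ∩ e) (fun r => T.B.inf_mem (hB' r) he)
    fun _ => inter_subset_right
  have mB := C.MM_mem K (s ++ [d]) (E := fun r => E' (d :: r) ∩ g '' e)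
    (fun r => T.B.inf_mem (hB' _) hf) fun _ => inter_subset_right
  have c1 := loc_commute mt mC (disjoint_union_left.2
    ⟨disj_of_set dj _ _, disj_of_dis (dis_not s d) _ _⟩)
  have c2 := loc_commute mt mR (disjoint_union_left.2
    ⟨disj_of_set (disjoint_compl_right.mono_right inter_subset_right) _ _,
      disj_of_set (disjoint_compl_right.mono_right inter_subset_left) _ _⟩)
  have c3 := loc_commute mA mC (disj_of_set dj _ _)
  have c4 := loc_commute mA mB (disj_of_set dj _ _)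
  have c5 := loc_commute mB mC (disj_of_dis (dis_not s d) _ _)
  rw [C.MM_dec K s d hB he hf dj h.h0 hK, C.MM_dec K s d hB' he hf dj h.h0' hK', e3, e4,
    ← cZ, ← cZ]
  rw [← e1] at cA
  rw [← e2] at cB
  have hd := C.tt_digit (ok s (s ++ [d]))
  replace cA := mul_inv_eq_iff_eq_mul.1 cA
  replace cB := mul_inv_eq_iff_eq_mul.1 cB
  generalize C.tt e g (s ++ [false]) (s ++ [d] ++ [false]) = t0 at hd
  generalize C.tt e g (s ++ [true]) (s ++ [d] ++ [true]) = t1 at hd
  generalize C.tt e g s (s ++ [d]) = t at *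
  generalize C.zeta s (g '' e) = Z
  generalize C.MM K (s ++ [d]) (fun r => E (d :: r) ∩ g '' e) = B at *
  generalize C.MM K (s ++ [d]) (fun r => E' (d :: r) ∩ g '' e) = B' at *
  generalize C.MM K (s ++ [!d]) (fun r => E ((!d) :: r) ∩ g '' e) = D at *
  generalize C.MM K s (fun r => E r ∩ e) = A at *
  generalize C.MM K s (fun r => E' r ∩ e) = A' at *
  generalize C.MM (K + 1) s (fun r => (E r \ g '' e) \ e) = R at *
  calc Z * t0 * Z⁻¹ * (Z * t1 * Z⁻¹) * (Z * (B * (D * (A * R))))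
      = Z * (t0 * t1 * B * (D * (A * R))) := by group
    _ = Z * (A' * (D * (t * A * R))) := by
        rw [← hd, cB, mul_assoc A', c1.left_comm, mul_assoc t]
    _ = Z * (B' * (D * (A' * R))) * t := by
        rw [cA, mul_assoc B', c2.eq, ← c5.left_comm, c4.left_comm, c3.left_comm]
        simp only [mul_assoc]

end CE

end TS

end Vale.Agent.P193
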